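import Vale.Agent.P161.Defs

/-!
Uniform averages over sign changes on a finite set of coordinates.
-/

open Finset
open scoped BigOperators Classical

namespace Vale.Agent.P161

variable {α β : Type*}

noncomputable def cfg (D : Finset α) (b : α → ℝ) (ζ : D → Bool) : α → ℝ :=
  fun v => if h : v ∈ D then b v * spin (ζ ⟨v, h⟩) else b v

noncomputable def E (D : Finset α) (b : α → ℝ) (f : (α → ℝ) → ℝ) : ℝ :=
  𝔼 ζ : D → Bool, f (cfg D b ζ)

def Sg (b s : α → ℝ) : Prop := ∀ v, s v = b v ∨ s v = -b v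

lemma sg_cfg (D : Finset α) (b : α → ℝ) (ζ : D → Bool) : Sg b (cfg D b ζ) := by
  intro v
  unfold cfg
  split_ifs with h
  · cases ζ ⟨v, h⟩ <;> simp [spin]
  · simp

lemma Sg.sq {b s : α → ℝ} (h : Sg b s) (v : α) : s v ^ 2 = b v ^ 2 := by
  rcases h v with h | h <;> simp [h]

lemma Sg.abs {b s : α → ℝ} (h : Sg b s) (v : α) : |s v| = |b v| := by
  rcases h v with h | h <;> simp [h]

variable {D : Finset α} {b : α → ℝ} {f g : (α → ℝ) → ℝ}

lemma E_add : E D b (fun s => f s + g s) = E D b f + E D b g := expect_add_distrib _ _ _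

lemma E_sub : E D b (fun s => f s - g s) = E D b f - E D b g := expect_sub_distrib _ _ _

lemma E_neg : E D b (fun s => -f s) = -E D b f := expect_neg_distrib _ _

lemma E_mul (c : ℝ) : E D b (fun s => c * f s) = c * E D b f := (mul_expect _ _ _).symm

lemma E_mul' (c : ℝ) : E D b (fun s => f s * c) = E D b f * c := (expect_mul _ _ _).symm

lemma E_const (c : ℝ) : E D b (fun _ => c) = c := Fintype.expect_const _

lemma E_sum {γ : Type*} (S : Finset γ) (h : γ → (α → ℝ) → ℝ) :
    E D b (fun s => ∑ i ∈ S, h i s) = ∑ i ∈ S, E D b (h i) := expect_sum_comm _ _ _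

lemma E_mono (h : ∀ s, Sg b s → f s ≤ g s) : E D b f ≤ E D b g :=
  expect_le_expect fun ζ _ => h _ (sg_cfg D b ζ)

lemma E_congr (h : ∀ s, Sg b s → f s = g s) : E D b f = E D b g :=
  le_antisymm (E_mono fun s hs => (h s hs).le) (E_mono fun s hs => (h s hs).ge)

lemma E_nonneg (h : ∀ s, Sg b s → 0 ≤ f s) : 0 ≤ E D b f :=
  (E_const (D := D) (b := b) 0).symm.le.trans (E_mono h)

lemma E_abs_le (h : ∀ s, Sg b s → |f s| ≤ g s) : |E D b f| ≤ E D b g :=
  (abs_expect_le _ _).trans (E_mono (f := fun s => |f s|) h)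

lemma E_sq_le : E D b f ^ 2 ≤ E D b fun s => f s ^ 2 := by
  have := expect_mul_sq_le_sq_mul_sq univ (fun ζ : D → Bool => f (cfg D b ζ)) (fun _ => 1)
  simpa [E] using this

lemma E_comm {D' : Finset β} {b' : β → ℝ} (h : (α → ℝ) → (β → ℝ) → ℝ) :
    E D b (fun s => E D' b' (h s)) = E D' b' fun s' => E D b fun s => h s s' :=
  expect_comm _ _ _

noncomputable def flip (B : Set α) (s : α → ℝ) : α → ℝ := fun v => if v ∈ B then -s v else s v

lemma E_flip {B : Set α} (hB : B ⊆ D) : E D b f = E D b fun s => f (flip B s) := by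
  let φ : (D → Bool) → (D → Bool) := fun ζ v => if v.1 ∈ B then !ζ v else ζ v
  have hφ : Function.Involutive φ := fun ζ => by
    funext v
    by_cases h : v.1 ∈ B <;> simp [φ, h]
  refine Fintype.expect_bijective φ hφ.bijective _ _ fun ζ => ?_
  congr 1
  funext v
  by_cases h : v ∈ B
  · have h' : v ∈ D := hB h
    simp only [cfg, flip, φ, h, h', dif_pos, if_true]
    cases ζ ⟨v, h'⟩ <;> simp [spin]
  · simp [cfg, flip, φ, h]

lemma E_odd {B : Set α} (hB : B ⊆ D) (h : ∀ s, f (flip B s) = -f s) : E D b f = 0 := by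
  have h1 := E_flip (b := b) (f := f) hB
  simp only [h, E_neg] at h1
  linarith

lemma E_indep (B : Set α) (hf : ∀ s s', (∀ v, v ∉ B → s v = s' v) → f s = f s')
    (hg : ∀ s s', (∀ v, v ∈ B → s v = s' v) → g s = g s') :
    E D b (fun s => f s * g s) = E D b f * E D b g := by
  let φ : (D → Bool) × (D → Bool) → (D → Bool) × (D → Bool) := fun p =>
    (fun v => if v.1 ∈ B then p.2 v else p.1 v, fun v => if v.1 ∈ B then p.1 v else p.2 v)
  have hφ : Function.Involutive φ := fun p => by
    ext v <;> by_cases h : v.1 ∈ B <;> simp [φ, h]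
  have h1 : E D b (fun s => f s * g s) =
      𝔼 p : (D → Bool) × (D → Bool), f (cfg D b p.1) * g (cfg D b p.1) := by
    rw [← univ_product_univ, expect_product]
    simp [E]
  rw [h1, E, E, Fintype.expect_mul_expect, ← expect_product', univ_product_univ]
  refine Fintype.expect_bijective φ hφ.bijective _ _ fun p => ?_
  congr 1
  · refine hf _ _ fun v hv => ?_
    simp [cfg, φ, hv]
  · refine hg _ _ fun v hv => ?_
    simp [cfg, φ, hv]

lemma E_map (e : α ≃ β) (b' : β → ℝ) (h : (β → ℝ) → ℝ) :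
    E (D.map e.toEmbedding) b' h = E D (fun v => b' (e v)) fun s => h fun w => s (e.symm w) := by
  let φ : D ≃ D.map e.toEmbedding := e.subtypeEquiv fun a => by simp
  symm
  refine Fintype.expect_equiv (φ.arrowCongr (Equiv.refl Bool)) _ _ fun ζ => ?_
  refine congrArg h ?_
  funext w
  obtain ⟨v, rfl⟩ := e.surjective w
  by_cases hv : v ∈ D
  · simp [cfg, hv, φ]
  · simp [cfg, hv]

end Vale.Agent.P161
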