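import Vale.Agent.P161.Gibbs

/-!
Belief propagation on a tree.
-/

open Finset Filter Topology Real
open scoped BigOperators Classical

namespace Vale.Agent.P161

lemma continuous_tanh' : Continuous tanh := by
  have : tanh = fun x => sinh x / cosh x := funext tanh_eq_sinh_div_cosh
  rw [this]
  exact continuous_sinh.div continuous_cosh fun x => (cosh_pos x).ne'

lemma tanh_abs_lt (x : ℝ) : |tanh x| < 1 := abs_lt.2 ⟨neg_one_lt_tanh x, tanh_lt_one x⟩

lemma tanh_sq_lt (x : ℝ) : tanh x ^ 2 < 1 := (sq_lt_one_iff_abs_lt_one _).2 (tanh_abs_lt x)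

lemma one_add_tanh_mul_pos (a b : ℝ) : 0 < 1 + tanh a * tanh b := by
  nlinarith [neg_one_lt_tanh a, tanh_lt_one a, neg_one_lt_tanh b, tanh_lt_one b]

lemma tanh_add' (a b : ℝ) : tanh (a + b) = (tanh a + tanh b) / (1 + tanh a * tanh b) := by
  have h := one_add_tanh_mul_pos a b
  rw [eq_div_iff h.ne']
  simp only [tanh_eq_sinh_div_cosh, sinh_add, cosh_add]
  have h1 := (cosh_pos a).ne'
  have h2 := (cosh_pos b).ne'
  have h3 : cosh a * cosh b + sinh a * sinh b ≠ 0 := by rw [← cosh_add]; exact (cosh_pos _).ne'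
  have h4 : cosh b * cosh a + sinh a * sinh b ≠ 0 := by rwa [mul_comm]
  field_simp

lemma tanh_mono : Monotone tanh := fun a b h => by
  by_contra hc
  have := artanh_lt_artanh (neg_one_lt_tanh b) (tanh_lt_one a) (not_le.1 hc)
  rw [artanh_tanh, artanh_tanh] at this
  linarith

lemma abs_tanh (a : ℝ) : |tanh a| = tanh |a| := by
  rcases le_total 0 a with h | h
  · rw [abs_of_nonneg h, abs_of_nonneg (by simpa using tanh_mono h)]
  · rw [abs_of_nonpos h, abs_of_nonpos (by simpa using tanh_mono h), tanh_neg]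

lemma tanh_sq_le {a b : ℝ} (h : |a| ≤ |b|) : tanh a ^ 2 ≤ tanh b ^ 2 := by
  rw [sq_le_sq, abs_tanh, abs_tanh]
  exact tanh_mono h

lemma abs_tanh_add_le (a b : ℝ) : |tanh (a + b)| ≤ |tanh a| + |tanh b| := by
  rw [abs_tanh, abs_tanh, abs_tanh]
  refine (tanh_mono (abs_add_le a b)).trans ?_
  rw [tanh_add']
  have h1 : 0 ≤ tanh |a| := by simpa using tanh_mono (abs_nonneg a)
  have h2 : 0 ≤ tanh |b| := by simpa using tanh_mono (abs_nonneg b)
  exact div_le_self (by positivity) (by nlinarith)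

lemma artanh_neg' {x : ℝ} (hx : |x| < 1) : artanh (-x) = -artanh x := by
  apply tanh_injective
  obtain ⟨h1, h2⟩ := abs_lt.1 hx
  rw [tanh_neg, tanh_artanh ⟨by linarith, by linarith⟩, tanh_artanh ⟨h1, h2⟩]

lemma abs_artanh_le {x r : ℝ} (hx : |x| ≤ r) (hr : r < 1) : |artanh x| ≤ artanh r := by
  obtain ⟨h1, h2⟩ := abs_le.1 hx
  refine abs_le.2 ⟨?_, artanh_le_artanh (by linarith) hr h2⟩
  rw [← artanh_neg' (by rwa [abs_of_nonneg ((abs_nonneg x).trans hx)])]
  exact artanh_le_artanh (by linarith) (by linarith) h1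

lemma measurable_artanh : Measurable artanh := by
  unfold artanh
  fun_prop

noncomputable def Ps (θ h : ℝ) : ℝ := artanh (θ * tanh h)

variable {θ : ℝ}

lemma abs_mul_tanh_le (h0 : 0 ≤ θ) (h : ℝ) : |θ * tanh h| ≤ θ := by
  rw [abs_mul, abs_of_nonneg h0]
  exact mul_le_of_le_one_right h0 (tanh_abs_lt h).le

lemma tanh_Ps (h0 : 0 ≤ θ) (h1 : θ < 1) (h : ℝ) : tanh (Ps θ h) = θ * tanh h :=
  tanh_artanh (abs_lt.1 ((abs_mul_tanh_le h0 h).trans_lt h1))

lemma Ps_neg (h0 : 0 ≤ θ) (h1 : θ < 1) (h : ℝ) : Ps θ (-h) = -Ps θ h := by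
  rw [Ps, tanh_neg, mul_neg, artanh_neg' ((abs_mul_tanh_le h0 h).trans_lt h1), Ps]

lemma abs_Ps_le (h0 : 0 ≤ θ) (h1 : θ < 1) (h : ℝ) : |Ps θ h| ≤ artanh θ :=
  abs_artanh_le (abs_mul_tanh_le h0 h) h1

lemma continuousAt_artanh {x : ℝ} (hx : |x| < 1) : ContinuousAt artanh x := by
  obtain ⟨h1, h2⟩ := abs_lt.1 hx
  have h3 : 1 - x ≠ 0 := by linarith
  have h4 : √((1 + x) / (1 - x)) ≠ 0 :=
    (sqrt_pos.2 (div_pos (by linarith) (by linarith))).ne'
  unfold artanh
  fun_prop (disch := assumption)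

lemma continuous_Ps (h0 : 0 ≤ θ) (h1 : θ < 1) : Continuous (Ps θ) :=
  continuous_iff_continuousAt.2 fun h => ContinuousAt.comp (f := fun h => θ * tanh h)
    (continuousAt_artanh ((abs_mul_tanh_le h0 h).trans_lt h1))
    (continuous_tanh'.const_mul θ).continuousAt

noncomputable def lim0 (u : ℕ → ℝ) : ℝ :=
  if ∃ l, Tendsto u atTop (𝓝 l) then limUnder atTop u else 0

lemma lim0_eq {u : ℕ → ℝ} {l : ℝ} (h : Tendsto u atTop (𝓝 l)) : lim0 u = l := by
  rw [lim0, if_pos ⟨l, h⟩, h.limUnder_eq]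

lemma lim0_neg (u : ℕ → ℝ) : lim0 (fun k => -u k) = -lim0 u := by
  by_cases h : ∃ l, Tendsto u atTop (𝓝 l)
  · obtain ⟨l, h⟩ := h
    rw [lim0_eq h, lim0_eq h.neg]
  · rw [lim0, lim0, if_neg h, if_neg fun ⟨l, h'⟩ => h ⟨-l, by simpa using h'.neg⟩, neg_zero]

lemma abs_lim0_le {u : ℕ → ℝ} {B : ℝ} (h : ∀ k, |u k| ≤ B) : |lim0 u| ≤ B := by
  by_cases h1 : ∃ l, Tendsto u atTop (𝓝 l)
  · obtain ⟨l, h1⟩ := h1
    rw [lim0_eq h1]
    exact le_of_tendsto' h1.abs h
  · rw [lim0, if_neg h1, abs_zero]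
    exact (abs_nonneg _).trans (h 0)

lemma measurable_lim0 {X : Type*} [MeasurableSpace X] {u : ℕ → X → ℝ}
    (h : ∀ k, Measurable (u k)) : Measurable fun x => lim0 fun k => u k x :=
  Measurable.ite (MeasureTheory.measurableSet_exists_tendsto h)
    (MeasureTheory.StronglyMeasurable.limUnder fun k => (h k).stronglyMeasurable).measurable
    measurable_const

variable {V : Type*} {G : SimpleGraph V} [G.LocallyFinite]

noncomputable def hb (G : SimpleGraph V) [G.LocallyFinite] (θ : ℝ) (g : V → ℝ) :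
    ℕ → V → V → ℝ
  | 0, _, _ => 0
  | k + 1, z, y => g z + ∑ c ∈ (G.neighborFinset z).erase y, Ps θ (hb G θ g k c z)

noncomputable def X (G : SimpleGraph V) [G.LocallyFinite] (θ : ℝ) (g : V → ℝ) (z y : V) : ℝ :=
  lim0 fun k => hb G θ g k z y

def Good (G : SimpleGraph V) [G.LocallyFinite] (θ : ℝ) (g : V → ℝ) : Prop :=
  ∀ z y, ∃ l, Tendsto (fun k => hb G θ g k z y) atTop (𝓝 l)

lemma Good.tendsto {g : V → ℝ} (h : Good G θ g) (z y : V) :
    Tendsto (fun k => hb G θ g k z y) atTop (𝓝 (X G θ g z y)) := by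
  obtain ⟨l, hl⟩ := h z y
  rwa [X, lim0_eq hl]

lemma Good.eq (h0 : 0 ≤ θ) (h1 : θ < 1) {g : V → ℝ} (h : Good G θ g) (z y : V) :
    X G θ g z y = g z + ∑ c ∈ (G.neighborFinset z).erase y, Ps θ (X G θ g c z) :=
  tendsto_nhds_unique ((tendsto_add_atTop_iff_nat 1).2 (h.tendsto z y))
    (tendsto_const_nhds.add (tendsto_finset_sum _ fun c _ =>
      ((continuous_Ps h0 h1).tendsto _).comp (h.tendsto c z)))

lemma hb_neg (h0 : 0 ≤ θ) (h1 : θ < 1) (g : V → ℝ) (k : ℕ) :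
    ∀ z y, hb G θ (fun v => -g v) k z y = -hb G θ g k z y := by
  induction k with
  | zero => simp [hb]
  | succ k ih => intro z y; simp [hb, ih, Ps_neg h0 h1, add_comm]

lemma X_neg (h0 : 0 ≤ θ) (h1 : θ < 1) (g : V → ℝ) (z y : V) :
    X G θ (fun v => -g v) z y = -X G θ g z y := by
  simp only [X, hb_neg h0 h1, lim0_neg]

lemma abs_hb_le (h0 : 0 ≤ θ) (h1 : θ < 1) {d : ℕ} (hd : ∀ v, G.degree v ≤ d) {g : V → ℝ} {B : ℝ}
    (hg : ∀ v, |g v| ≤ B) (k : ℕ) (z y : V) : |hb G θ g k z y| ≤ B + d * artanh θ := by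
  have h2 := artanh_nonneg h0
  cases k with
  | zero => simpa [hb] using add_nonneg ((abs_nonneg _).trans (hg z)) (by positivity)
  | succ k =>
    refine (abs_add_le _ _).trans (add_le_add (hg z) ((abs_sum_le_sum_abs _ _).trans
      ((sum_le_card_nsmul _ _ _ fun c _ => abs_Ps_le h0 h1 _).trans ?_)))
    rw [nsmul_eq_mul]
    gcongr
    exact card_erase_le.trans (hd z)

lemma abs_X_le (h0 : 0 ≤ θ) (h1 : θ < 1) {d : ℕ} (hd : ∀ v, G.degree v ≤ d) {g : V → ℝ} {B : ℝ}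
    (hg : ∀ v, |g v| ≤ B) (z y : V) : |X G θ g z y| ≤ B + d * artanh θ :=
  abs_lim0_le fun k => abs_hb_le h0 h1 hd hg k z y

lemma measurable_hb {Y : Type*} [MeasurableSpace Y] {g : Y → V → ℝ}
    (hg : ∀ v, Measurable fun x => g x v) (k : ℕ) :
    ∀ z y, Measurable fun x => hb G θ (g x) k z y := by
  induction k with
  | zero => exact fun _ _ => measurable_const
  | succ k ih =>
    exact fun z y => (hg z).add (Finset.measurable_sum _ fun c _ => measurable_artanh.comp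
      ((continuous_tanh'.measurable.comp (ih c z)).const_mul θ))

lemma measurable_X {Y : Type*} [MeasurableSpace Y] {g : Y → V → ℝ}
    (hg : ∀ v, Measurable fun x => g x v) (z y : V) : Measurable fun x => X G θ (g x) z y :=
  measurable_lim0 fun k => measurable_hb hg k z y

lemma hb_iso (φ : G ≃g G) (g : V → ℝ) (k : ℕ) :
    ∀ z y, hb G θ g k (φ z) (φ y) = hb G θ (fun v => g (φ v)) k z y := by
  induction k with
  | zero => simp [hb]
  | succ k ih =>
    intro z y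
    simp only [hb]
    congr 1
    symm
    refine sum_nbij' φ φ.symm (fun c hc => ?_) (fun c hc => ?_) (by simp) (by simp)
      fun c _ => by rw [ih]
    · simpa [φ.map_adj_iff] using hc
    · simp only [mem_erase, SimpleGraph.mem_neighborFinset] at hc ⊢
      refine ⟨fun h => hc.1 ?_, by simpa using φ.symm.map_adj_iff.2 hc.2⟩
      rw [← h]; simp

lemma X_iso (φ : G ≃g G) (g : V → ℝ) (z y : V) :
    X G θ g (φ z) (φ y) = X G θ (fun v => g (φ v)) z y := by
  simp only [X, hb_iso]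

def reg (G : SimpleGraph V) : ℕ → V → V → Set V
  | 0, _, _ => ∅
  | k + 1, z, y => {u | u = z ∨ ∃ c, G.Adj z c ∧ c ≠ y ∧ u ∈ reg G k c z}

lemma hb_congr {g g' : V → ℝ} (k : ℕ) : ∀ z y, (∀ u ∈ reg G k z y, g u = g' u) →
    hb G θ g k z y = hb G θ g' k z y := by
  induction k with
  | zero => simp [hb]
  | succ k ih =>
    intro z y h
    simp only [hb]
    rw [h z (Or.inl rfl)]
    congr 1
    refine sum_congr rfl fun c hc => ?_
    simp only [mem_erase, SimpleGraph.mem_neighborFinset] at hc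
    rw [ih c z fun u hu => h u (Or.inr ⟨c, hc.2, hc.1, hu⟩)]

omit [G.LocallyFinite] in
lemma reg_mono (k : ℕ) : ∀ z y, reg G k z y ⊆ reg G (k + 1) z y := by
  induction k with
  | zero => simp [reg]
  | succ k ih =>
    rintro z y u (h | ⟨c, h1, h2, h3⟩)
    · exact Or.inl h
    · exact Or.inr ⟨c, h1, h2, ih c z h3⟩

omit [G.LocallyFinite] in
lemma side_subset (hG : G.IsAcyclic) {y z c : V} (h2 : G.Adj z c) (h3 : c ≠ y) :
    side G z c ⊆ side G y z := by
  intro u hu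
  by_contra h4
  have h5 : c ∈ side G y z := (side_iff h2 (by simp [h3, h2.ne'])).1 (mem_side_self y z)
  obtain ⟨w⟩ := hu
  have h6 := (mem_support_of_cross (w.mapLe (G.deleteEdges_le _)).reverse h4 h5).2
  simp only [SimpleGraph.Walk.support_reverse, List.mem_reverse,
    SimpleGraph.Walk.support_mapLe_eq_support] at h6
  exact not_mem_side hG h2 ⟨w.takeUntil z h6⟩

omit [G.LocallyFinite] in
lemma reg_subset_side (hG : G.IsAcyclic) (k : ℕ) : ∀ z y, reg G k z y ⊆ side G y z := by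
  induction k with
  | zero => simp [reg]
  | succ k ih =>
    rintro z y u (rfl | ⟨c, h1, h2, h3⟩)
    · exact mem_side_self _ _
    · exact side_subset hG h1 h2 (ih c z h3)

omit [G.LocallyFinite] in
lemma dist_of_mem_side (hG : G.IsTree) {u z c : V} (h : G.Adj z c) (hu : u ∈ side G z c) :
    G.dist u c + 1 = G.dist u z := by
  rcases hG.dist_eq_dist_add_one_of_adj u h with h1 | h1
  · exact h1.symm
  · exact absurd hu (not_mem_side_of_dist hG h h1.symm)

omit [G.LocallyFinite] in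
lemma mem_side_or (hG : G.IsTree) {z c : V} (h : G.Adj z c) (u : V) :
    u ∈ side G z c ∨ u ∈ side G c z := by
  obtain ⟨w⟩ := hG.connected.preconnected u z
  induction w with
  | nil => exact Or.inr (mem_side_self _ _)
  | @cons p q r h1 w ih =>
    by_cases h2 : s(p, q) = s(r, c)
    · rcases Sym2.eq_iff.1 h2 with ⟨rfl, rfl⟩ | ⟨rfl, rfl⟩
      · exact Or.inr (mem_side_self _ _)
      · exact Or.inl (mem_side_self _ _)
    · rcases ih h with h3 | h3
      · exact Or.inl ((side_iff h1 h2).2 h3)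
      · exact Or.inr ((side_iff h1 (by rwa [Sym2.eq_swap (a := c)])).2 h3)

omit [G.LocallyFinite] in
lemma mem_side_of_dist (hG : G.IsTree) {u z c : V} (h : G.Adj z c)
    (hd : G.dist u c + 1 = G.dist u z) : u ∈ side G z c :=
  (mem_side_or hG h u).resolve_right (not_mem_side_of_dist hG h.symm hd)

omit [G.LocallyFinite] in
lemma mem_reg (hG : G.IsTree) (u : V) (k : ℕ) : ∀ z y, G.dist u z < k →
    (G.Adj y z → u ∈ side G y z) → u ∈ reg G k z y := by
  induction k with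
  | zero => simp
  | succ k ih =>
    intro z y h1 h2
    by_cases h : z = u
    · exact Or.inl h.symm
    · obtain ⟨c, c1, c2⟩ := exists_par hG.connected h
      refine Or.inr ⟨c, c1.symm, ?_, ih c z (by omega) fun _ => mem_side_of_dist hG c1.symm c2⟩
      rintro rfl
      exact not_mem_side_of_dist hG c1 c2 (h2 c1)

lemma X_congr (hG : G.IsAcyclic) {g g' : V → ℝ} {z y : V} (h : ∀ u ∈ side G y z, g u = g' u) :
    X G θ g z y = X G θ g' z y := by
  simp only [X, fun k => hb_congr (θ := θ) k z y fun u hu => h u (reg_subset_side hG k z y hu)]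

lemma Good.update (hG : G.IsTree) (h0 : 0 ≤ θ) (h1 : θ < 1) {g g' : V → ℝ} (h : Good G θ g)
    {u : V} (hu : ∀ v, v ≠ u → g' v = g v) : Good G θ g' := by
  intro z
  induction hn : G.dist u z using Nat.strong_induction_on generalizing z with
  | _ n ih =>
    intro y
    have h2 : ∀ c, G.Adj z c → ∃ l, Tendsto (fun k => hb G θ g' k c z) atTop (𝓝 l) := by
      intro c hc
      by_cases h3 : u ∈ side G z c
      · exact ih _ (by have := dist_of_mem_side hG hc h3; omega) c rfl z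
      · have : ∀ k, hb G θ g' k c z = hb G θ g k c z := fun k => hb_congr k c z fun v hv =>
          hu v fun h4 => h3 (h4 ▸ reg_subset_side hG.isAcyclic k c z hv)
        simpa only [this] using h c z
    choose! l hl using h2
    exact ⟨_, (tendsto_add_atTop_iff_nat 1).1 (tendsto_const_nhds.add
      (tendsto_finset_sum _ fun c hc => ((continuous_Ps h0 h1).tendsto _).comp
        (hl c (by simpa using (mem_erase.1 hc).2))))⟩

lemma Good.finite (hG : G.IsTree) (h0 : 0 ≤ θ) (h1 : θ < 1) {g : V → ℝ} (h : Good G θ g)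
    (D : Finset V) : ∀ g' : V → ℝ, (∀ v, v ∉ D → g' v = g v) → Good G θ g' := by
  induction D using Finset.induction_on with
  | empty => intro g' h'; rwa [show g' = g from funext fun v => h' v (by simp)]
  | insert u D _ ih =>
    intro g' h'
    refine (ih (Function.update g' u (g u)) fun v hv => ?_).update hG h0 h1 (u := u)
      fun v hv => by simp [hv]
    by_cases h2 : v = u
    · simp [h2]
    · simp [h2, h' v (by simp [h2, hv])]

lemma Good.split (h0 : 0 ≤ θ) (h1 : θ < 1) {g : V → ℝ} (h : Good G θ g) {y z : V}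
    (hyz : G.Adj y z) : X G θ g z z = X G θ g z y + Ps θ (X G θ g y z) := by
  rw [h.eq h0 h1 z z, h.eq h0 h1 z y, erase_eq_of_notMem (by simp), add_assoc,
    sum_erase_add _ _ (by simpa using hyz.symm)]

lemma Good.edge (h0 : 0 ≤ θ) (h1 : θ < 1) {g : V → ℝ} (h : Good G θ g) {y z : V}
    (hyz : G.Adj y z) : tanh (X G θ g z z) = Pf θ (tanh (X G θ g z y)) +
      Rf θ (tanh (X G θ g z y)) * tanh (X G θ g y y) ∧
    Rf θ (tanh (X G θ g z y)) * (1 - tanh (X G θ g y y) ^ 2) =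
      Rf θ (tanh (X G θ g y z)) * (1 - tanh (X G θ g z z) ^ 2) := by
  have e1 := one_add_tanh_mul_pos (X G θ g z y) (Ps θ (X G θ g y z))
  rw [h.split h0 h1 hyz, h.split h0 h1 hyz.symm, tanh_add', tanh_add']
  rw [tanh_Ps h0 h1] at e1 ⊢
  rw [tanh_Ps h0 h1, Pf, Rf, Rf]
  have e2 := (den_pos h0 h1 (tanh_abs_lt (X G θ g z y)).le).ne'
  have e3 := (den_pos h0 h1 (tanh_abs_lt (X G θ g y z)).le).ne'
  generalize tanh (X G θ g z y) = x at *
  generalize tanh (X G θ g y z) = x' at *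
  have e4 : 1 + x * (θ * x') ≠ 0 := e1.ne'
  have e5 : 1 + x' * (θ * x) ≠ 0 := by rwa [show x' * (θ * x) = x * (θ * x') by ring]
  have e6 : 1 + x * θ * x' ≠ 0 := by rwa [mul_assoc]
  have e7 : 1 - x ^ 2 * θ ^ 2 ≠ 0 := by rwa [mul_comm]
  have e8 : 1 - x' ^ 2 * θ ^ 2 ≠ 0 := by rwa [mul_comm]
  constructor
  · rw [show 1 + x' * (θ * x) = 1 + x * (θ * x') by ring]
    field_simp
    ring
  · rw [show 1 + x' * (θ * x) = 1 + x * (θ * x') by ring]
    have f1 : 1 - ((x' + θ * x) / (1 + x * (θ * x'))) ^ 2 =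
        (1 - x' ^ 2) * (1 - θ ^ 2 * x ^ 2) / (1 + x * (θ * x')) ^ 2 := by
      rw [div_pow, one_sub_div (pow_ne_zero _ e4)]
      congr 1
      ring
    have f2 : 1 - ((x + θ * x') / (1 + x * (θ * x'))) ^ 2 =
        (1 - x ^ 2) * (1 - θ ^ 2 * x' ^ 2) / (1 + x * (θ * x')) ^ 2 := by
      rw [div_pow, one_sub_div (pow_ne_zero _ e4)]
      congr 1
      ring
    rw [f1, f2]
    field_simp

noncomputable def yv (θ x : ℝ) : ℝ := log (1 - θ ^ 2 * x ^ 2) - log (1 - x ^ 2)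

lemma Rf_eq (h0 : 0 ≤ θ) (h1 : θ < 1) {x : ℝ} (hx : |x| < 1) : Rf θ x = θ * exp (-yv θ x) := by
  have h2 : 0 < 1 - x ^ 2 := by linarith [(sq_lt_one_iff_abs_lt_one x).2 hx]
  rw [yv, neg_sub, exp_sub, exp_log h2, exp_log (den_pos h0 h1 hx.le), Rf, mul_div_assoc]

lemma le_yv (h0 : 0 ≤ θ) (h1 : θ < 1) {x : ℝ} (hx : |x| < 1) : (1 - θ ^ 2) * x ^ 2 ≤ yv θ x := by
  have h2 : 0 < 1 - x ^ 2 := by linarith [(sq_lt_one_iff_abs_lt_one x).2 hx]
  have h3 := den_pos h0 h1 hx.le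
  have h4 := log_le_sub_one_of_pos (div_pos h2 h3)
  rw [log_div h2.ne' h3.ne'] at h4
  have h5 : (1 - x ^ 2) / (1 - θ ^ 2 * x ^ 2) ≤ 1 - (1 - θ ^ 2) * x ^ 2 := by
    rw [div_le_iff₀ h3]
    have : 0 ≤ 1 - θ ^ 2 := by nlinarith
    have : 0 ≤ (1 - θ ^ 2) * x ^ 2 * (θ ^ 2 * x ^ 2) := by positivity
    nlinarith
  rw [yv]
  linarith

lemma yv_nonneg (h0 : 0 ≤ θ) (h1 : θ < 1) {x : ℝ} (hx : |x| < 1) : 0 ≤ yv θ x :=
  le_trans (mul_nonneg (by nlinarith) (sq_nonneg _)) (le_yv h0 h1 hx)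

lemma abs_log_sub_le {a b v : ℝ} (hv : 0 < v) (ha : v ≤ a) (hb : v ≤ b) :
    |log a - log b| ≤ |a - b| / v := by
  have key : ∀ a b : ℝ, v ≤ a → v ≤ b → log a - log b ≤ |a - b| / v := fun a b ha hb => by
    have h1 := log_le_sub_one_of_pos (div_pos (hv.trans_le ha) (hv.trans_le hb))
    rw [log_div (hv.trans_le ha).ne' (hv.trans_le hb).ne', div_sub_one (hv.trans_le hb).ne'] at h1
    exact h1.trans ((div_le_div_of_nonneg_right (le_abs_self _) (hv.trans_le hb).le).trans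
      (div_le_div_of_nonneg_left (abs_nonneg _) hv hb))
  refine abs_le.2 ⟨?_, key a b ha hb⟩
  have := key b a hb ha
  rw [abs_sub_comm] at this
  linarith

lemma yv_lip (h0 : 0 ≤ θ) (h1 : θ < 1) {x x' v η : ℝ} (hv : 0 < v) (hx : v ≤ 1 - x ^ 2)
    (hx' : v ≤ 1 - x' ^ 2) (h2 : |x| ≤ η) (h3 : |x'| ≤ η) :
    |yv θ x - yv θ x'| ≤ 4 * η / v * |x - x'| := by
  have t : θ ^ 2 ≤ 1 := by nlinarith
  have a1 := abs_log_sub_le hv hx hx'
  have a2 := abs_log_sub_le (a := 1 - θ ^ 2 * x ^ 2) (b := 1 - θ ^ 2 * x' ^ 2) hv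
    (by nlinarith [sq_nonneg x]) (by nlinarith [sq_nonneg x'])
  have a3 : |x' ^ 2 - x ^ 2| ≤ 2 * η * |x - x'| := by
    rw [sq_sub_sq, abs_mul, abs_sub_comm x']
    exact mul_le_mul_of_nonneg_right ((abs_add_le _ _).trans (by linarith)) (abs_nonneg _)
  rw [show 1 - x ^ 2 - (1 - x' ^ 2) = x' ^ 2 - x ^ 2 by ring] at a1
  rw [show 1 - θ ^ 2 * x ^ 2 - (1 - θ ^ 2 * x' ^ 2) = θ ^ 2 * (x' ^ 2 - x ^ 2) by ring, abs_mul,
    abs_of_nonneg (sq_nonneg θ)] at a2
  have a4 : θ ^ 2 * |x' ^ 2 - x ^ 2| / v ≤ 2 * η * |x - x'| / v :=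
    div_le_div_of_nonneg_right ((mul_le_of_le_one_left (abs_nonneg _) t).trans a3) hv.le
  have a5 := div_le_div_of_nonneg_right a3 hv.le
  have a6 := abs_sub (log (1 - θ ^ 2 * x ^ 2) - log (1 - θ ^ 2 * x' ^ 2))
    (log (1 - x ^ 2) - log (1 - x' ^ 2))
  rw [yv, yv]
  calc _ = |log (1 - θ ^ 2 * x ^ 2) - log (1 - θ ^ 2 * x' ^ 2) -
        (log (1 - x ^ 2) - log (1 - x' ^ 2))| := by congr 1; ring
    _ ≤ 2 * η * |x - x'| / v + 2 * η * |x - x'| / v := by linarith
    _ = _ := by ring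

lemma yv_le (h0 : 0 ≤ θ) (h1 : θ < 1) {x v : ℝ} (hv : 0 < v) (hx : v ≤ 1 - x ^ 2) :
    yv θ x ≤ 4 / v := by
  have h2 : |x| ≤ 1 := (sq_le_one_iff_abs_le_one x).1 (by linarith)
  have := yv_lip (x' := 0) h0 h1 hv hx (by nlinarith [sq_nonneg x]) h2 (by simp)
  simp only [yv, ne_eq, OfNat.ofNat_ne_zero, not_false_eq_true, zero_pow, mul_zero, sub_zero,
    log_one, mul_one] at this
  exact (le_abs_self _).trans (this.trans (mul_le_of_le_one_right (by positivity) h2))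

lemma measurable_yv : Measurable (yv θ) := by
  unfold yv
  fun_prop

end Vale.Agent.P161
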