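import Vale.Agent.P161.Decay

/-!
Spectral gap for even functions and the second moment of additive cocycles along reduced words.
-/

open Finset MeasureTheory Filter Topology Real
open scoped BigOperators Classical ENNReal unitInterval InnerProductSpace

namespace Vale.Agent.P161

section abstr
variable {E : Type*} [SeminormedAddCommGroup E] [InnerProductSpace ℝ E]

lemma moment (A : Module.End ℝ E) (hA : ∀ x y, ⟪A x, y⟫_ℝ = ⟪x, A y⟫_ℝ) (f : E) {C ρ : ℝ}
    (hρ : 0 < ρ) (h : ∀ n, ⟪(A ^ n) f, f⟫_ℝ ≤ C * ρ ^ n) : ‖A f‖ ≤ ρ * ‖f‖ := by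
  have h1 : ∀ n x y, ⟪(A ^ n) x, y⟫_ℝ = ⟪x, (A ^ n) y⟫_ℝ := fun n => by
    induction n with
    | zero => simp
    | succ n ih => intro x y; rw [pow_succ', Module.End.mul_apply, hA, ih, ← pow_succ', pow_succ]; rfl
  have h2 : ∀ n, ‖(A ^ n) f‖ ≤ √C * ρ ^ n := fun n => by
    refine abs_le_of_sq_le_sq' ?_ (by positivity) |>.2
    rw [← real_inner_self_eq_norm_sq, ← h1, ← Module.End.mul_apply, ← pow_add, mul_pow]
    refine (h _).trans ?_
    rw [← pow_mul, mul_two]
    gcongr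
    rw [sq_sqrt']
    exact le_max_left _ _
  have h3 : ∀ n, ‖(A ^ (n + 1)) f‖ ^ 2 ≤ ‖(A ^ (n + 2)) f‖ * ‖(A ^ n) f‖ := fun n => by
    rw [← real_inner_self_eq_norm_sq]
    nth_rewrite 2 [pow_succ']
    rw [Module.End.mul_apply, ← hA, ← Module.End.mul_apply, ← pow_succ']
    exact real_inner_le_norm _ _
  by_contra hc
  rw [not_le] at hc
  have f0 : 0 < ‖f‖ := by
    refine (norm_nonneg _).lt_of_ne fun h0 => ?_
    have := h3 0
    simp only [zero_add, pow_one, pow_zero, Module.End.one_apply, ← h0] at this hc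
    nlinarith
  obtain ⟨l, hl, e⟩ : ∃ l, ρ < l ∧ ‖A f‖ = l * ‖f‖ :=
    ⟨‖A f‖ / ‖f‖, (lt_div_iff₀ f0).2 hc, by field_simp⟩
  have l0 := hρ.trans hl
  have h4 : ∀ n, l ^ n * ‖f‖ ≤ ‖(A ^ n) f‖ ∧ l * ‖(A ^ n) f‖ ≤ ‖(A ^ (n + 1)) f‖ := fun n => by
    induction n with
    | zero => simp [e]
    | succ n ih =>
      have a1 : l ^ (n + 1) * ‖f‖ ≤ ‖(A ^ (n + 1)) f‖ := by
        rw [pow_succ', mul_assoc]
        exact (mul_le_mul_of_nonneg_left ih.1 l0.le).trans ih.2
      have a2 : 0 < ‖(A ^ n) f‖ := lt_of_lt_of_le (by positivity) ih.1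
      refine ⟨a1, le_of_mul_le_mul_right (le_trans ?_ (h3 n)) a2⟩
      nlinarith [ih.2, norm_nonneg ((A ^ (n + 1)) f)]
  obtain ⟨n, hn⟩ := pow_unbounded_of_one_lt (√C / ‖f‖) ((one_lt_div hρ).2 hl)
  rw [div_pow, div_lt_div_iff₀ f0 (by positivity)] at hn
  linarith [(h4 n).1, h2 n]

variable {b : ℕ} (u : Fin (b + 1) → Module.End ℝ E) (Z : Fin (b + 1) → E)

noncomputable def co : List (Fin (b + 1)) → E
  | [] => 0
  | i :: w => Z i + u i (co w)

lemma bsv (hb : 2 ≤ b) (hu : ∀ i x, u i (u i x) = x)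
    (hs : ∀ i x y, ⟪u i x, y⟫_ℝ = ⟪x, u i y⟫_ℝ) {ρ : ℝ} (hρ : ρ < b + 1)
    (gap : ∀ x, ‖∑ i, u i x‖ ≤ ρ * ‖x‖) (hZ : ∀ i, u i (Z i) = Z i) {z : ℝ}
    (hz : ∀ i, ‖Z i‖ ≤ z) (n : ℕ) : ∑ w ∈ RW (b + 1) n none, ‖co u Z w‖ ^ 2 ≤
      (b + 1) * (9 + 12 * (b + 1) / (b + 1 - ρ)) * (n * b ^ n * z ^ 2) := by
  have b2 : (2 : ℝ) ≤ b := by exact_mod_cast hb
  have z0 : 0 ≤ z := (norm_nonneg _).trans (hz 0)
  have hn : ∀ i x, ‖u i x‖ = ‖x‖ := fun i x => by
    rw [← sq_eq_sq₀ (norm_nonneg _) (norm_nonneg _), ← real_inner_self_eq_norm_sq, hs, hu,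
      real_inner_self_eq_norm_sq]
  let x : ℕ → Fin (b + 1) → E := fun n i => ((b : ℝ) ^ n)⁻¹ • ∑ w ∈ RW (b + 1) n (some i), co u Z w
  have x0 : ∀ i, x 0 i = 0 := fun i => by simp [x, RW, co]
  have sE : ∀ (n : ℕ) (a : Option (Fin (b + 1))) (φ : List (Fin (b + 1)) → E),
      ∑ w ∈ RW (b + 1) (n + 1) a, φ w =
      ∑ i with some i ≠ a, ∑ w ∈ RW (b + 1) n (some i), φ (i :: w) := fun n a φ => by
    rw [RW, sum_biUnion]
    · exact sum_congr rfl fun i _ => sum_image fun _ _ _ _ h => List.cons_injective h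
    · intro i _ j _ hij
      simp only [Function.onFun, disjoint_left, mem_image]
      rintro _ ⟨w, -, rfl⟩ ⟨w', -, h⟩
      exact hij (List.cons.inj h).1.symm
  have xs : ∀ n i, (b : ℝ) • x (n + 1) i = ∑ j with some j ≠ some i, (Z j + u j (x n j)) := by
    intro n i
    simp only [x, sE, co, smul_sum, map_sum, map_smul, smul_add, sum_add_distrib, smul_smul,
      sum_const, ← Nat.cast_smul_eq_nsmul ℝ, card_RW_some]
    congr 1 <;> refine sum_congr rfl fun j _ => ?_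
    · rw [show (b : ℝ) * (b ^ n * ((b : ℝ) ^ (n + 1))⁻¹) = 1 by field_simp; ring, one_smul]
    · rw [show (b : ℝ) * ((b : ℝ) ^ (n + 1))⁻¹ = ((b : ℝ) ^ n)⁻¹ by field_simp; ring]
  have nb : ∀ y : E, ‖(b : ℝ) • y‖ = b * ‖y‖ := fun y => by
    rw [norm_smul, Real.norm_of_nonneg (by linarith)]
  have sb : ∀ (i : Fin (b + 1)) (y : Fin (b + 1) → E) (c : ℝ), (∀ j, ‖y j‖ ≤ c) →
      ‖∑ j with some j ≠ some i, y j‖ ≤ b * c := fun i y c h =>
    (norm_sum_le _ _).trans ((sum_le_card_nsmul _ _ _ fun j _ => h j).trans_eq (by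
      rw [nsmul_eq_mul, card_ne]))
  have xn : ∀ n i, ‖x n i‖ ≤ n * z := fun n => by
    induction n with
    | zero => simp [x0]
    | succ n ih =>
      intro i
      have := sb i (fun j => Z j + u j (x n j)) (z + n * z) fun j =>
        (norm_add_le _ _).trans (add_le_add (hz j) ((hn _ _).trans_le (ih j)))
      rw [← xs, nb] at this
      push_cast
      linarith [le_of_mul_le_mul_left this (by linarith)]
  let Y : Fin (b + 1) → E := fun i => ∑ k ∈ range n, x k i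
  let r : Fin (b + 1) → E := fun i => (n : ℝ) • (∑ j with some j ≠ some i, Z j) - (b : ℝ) • x n i
  have hr : ∀ i, ‖r i‖ ≤ b * (2 * (n * z)) := fun i => by
    refine (norm_sub_le _ _).trans ?_
    rw [nb, norm_smul, Real.norm_of_nonneg n.cast_nonneg]
    nlinarith [mul_le_mul_of_nonneg_left (sb i Z z hz) n.cast_nonneg, xn n i]
  have e1 : ∀ i, (b : ℝ) • Y i + u i (Y i) = r i + ∑ j, u j (Y j) := fun i => by
    have a1 : Y i + x n i = ∑ k ∈ range n, x (k + 1) i := by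
      rw [← add_zero (∑ k ∈ range n, x (k + 1) i), ← x0 i, ← sum_range_succ' (x · i),
        sum_range_succ]
    have a2 : (b : ℝ) • (Y i + x n i) = (n : ℝ) • (∑ j with some j ≠ some i, Z j) +
        ∑ j with some j ≠ some i, u j (Y j) := by
      rw [a1, smul_sum]
      simp only [xs, sum_add_distrib, sum_const, card_range, Nat.cast_smul_eq_nsmul, Y, map_sum]
      rw [sum_comm]
    rw [← add_sum_erase _ _ (mem_univ i), show univ.erase i =
      ({j | some j ≠ some i} : Finset (Fin (b + 1))) by ext j; simp]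
    simp only [r]
    rw [smul_add] at a2
    linear_combination (norm := module) a2
  set T := ∑ j, u j (Y j) with hT
  have e2 : ((b : ℝ) * (b + 1)) • T = (b : ℝ) • ∑ i, u i T + ∑ i, ((b : ℝ) • u i (r i) - r i) := by
    have a1 : ∀ i, ((b : ℝ) ^ 2 - 1) • u i (Y i) =
        (b : ℝ) • u i T + ((b : ℝ) • u i (r i) - r i) - T := fun i => by
      have a2 := congrArg (u i) (e1 i)
      simp only [map_add, map_smul, hu] at a2
      linear_combination (norm := module) (b : ℝ) • a2 - e1 i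
    have a3 := sum_congr rfl fun i (_ : i ∈ univ) => a1 i
    rw [← smul_sum, ← hT, sum_sub_distrib, sum_add_distrib, ← smul_sum, sum_const, card_univ,
      Fintype.card_fin, ← Nat.cast_smul_eq_nsmul ℝ] at a3
    push_cast at a3
    linear_combination (norm := module) a3
  have e3 : ‖T‖ ≤ b * (3 * (b + 1) / (b + 1 - ρ) * (n * z)) := by
    have a1 := (congrArg norm e2).trans_le (norm_add_le _ _)
    have a2 := (norm_sum_le univ fun i => (b : ℝ) • u i (r i) - r i).trans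
      (sum_le_card_nsmul _ _ ((b + 1) * (b * (2 * (n * z)))) fun i _ => (norm_sub_le _ _).trans (by
        rw [nb, hn]; nlinarith [hr i]))
    rw [norm_smul, Real.norm_of_nonneg (by positivity), nb] at a1
    rw [card_univ, Fintype.card_fin, nsmul_eq_mul] at a2
    push_cast at a2
    have a3 := mul_le_mul_of_nonneg_left (gap T) (show (0 : ℝ) ≤ b by linarith)
    have a4 : (b + 1 - ρ) * ‖T‖ ≤ (b + 1) * ((b + 1) * (2 * (n * z))) :=
      le_of_mul_le_mul_left (a := (b : ℝ)) (by linarith) (by linarith)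
    rw [div_mul_eq_mul_div, ← mul_div_assoc, le_div_iff₀ (by linarith)]
    have : 0 ≤ (b + 1) * (n * z) := by positivity
    nlinarith
  have e4 : ∀ i, ‖Y i‖ ≤ (4 + 6 * (b + 1) / (b + 1 - ρ)) * (n * z) := fun i => by
    have a1 := norm_sub_le (r i + T) (u i (Y i))
    rw [← e1, add_sub_cancel_right, nb, e1, hn] at a1
    have a2 := norm_add_le (r i) T
    have a3 : b * ‖Y i‖ ≤ b * ((4 + 6 * (b + 1) / (b + 1 - ρ)) * (n * z)) := by
      have : (4 + 6 * (b + 1) / (b + 1 - ρ)) * (n * z) =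
        2 * (2 * (n * z) + 3 * (b + 1) / (b + 1 - ρ) * (n * z)) := by ring
      rw [this]
      nlinarith [hr i, norm_nonneg (Y i)]
    exact le_of_mul_le_mul_left a3 (by linarith)
  have e5 : ∀ m, ∑ w ∈ RW (b + 1) (m + 1) none, ‖co u Z w‖ ^ 2 =
      b ^ m * ∑ j, (‖Z j‖ ^ 2 + 2 * ⟪Z j, x m j⟫_ℝ) +
        ∑ j, ∑ w ∈ RW (b + 1) m (some j), ‖co u Z w‖ ^ 2 := fun m => by
    rw [sum_RW, mul_sum, ← sum_add_distrib, filter_true_of_mem fun _ _ => by simp]
    refine sum_congr rfl fun j _ => ?_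
    simp only [co, norm_add_sq_real, hn, ← hs, hZ, sum_add_distrib, sum_const, nsmul_eq_mul,
      card_RW_some, x, inner_smul_right, inner_sum, ← mul_sum]
    field_simp
  have e6 : ∀ m, ∑ j, ∑ w ∈ RW (b + 1) (m + 1) (some j), ‖co u Z w‖ ^ 2 =
      b * ∑ w ∈ RW (b + 1) (m + 1) none, ‖co u Z w‖ ^ 2 := fun m => by
    simp only [sum_RW, filter_true_of_mem fun (i : Fin (b + 1)) (_ : i ∈ univ) =>
      (Option.some_ne_none i)]
    rw [sum_comm' (t' := univ) (s' := fun i => {j | some j ≠ some i}) (by simp [ne_comm]), mul_sum]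
    simp only [sum_const, nsmul_eq_mul, card_ne]
  have e7 : ∀ m, ∑ j, ∑ w ∈ RW (b + 1) m (some j), ‖co u Z w‖ ^ 2 =
      b ^ m * ∑ j, (m * ‖Z j‖ ^ 2 + 2 * ⟪Z j, ∑ k ∈ range m, x k j⟫_ℝ) := fun m => by
    induction m with
    | zero => simp [RW, co]
    | succ m ih =>
      rw [e6, e5, ih, ← mul_add, ← sum_add_distrib, pow_succ', mul_assoc]
      congr 2
      refine sum_congr rfl fun j _ => ?_
      rw [sum_range_succ, inner_add_right]
      push_cast
      ring
  have p : 0 ≤ (b + 1) / (b + 1 - ρ) := div_nonneg (by linarith) (by linarith)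
  cases n with
  | zero => simp [RW, co]
  | succ m =>
    have a1 : ∑ j, ((m + 1 : ℕ) * ‖Z j‖ ^ 2 + 2 * ⟪Z j, Y j⟫_ℝ) ≤
        (b + 1) * (9 + 12 * (b + 1) / (b + 1 - ρ)) * ((m + 1 : ℕ) * z ^ 2) := by
      refine (sum_le_card_nsmul _ _ ((9 + 12 * (b + 1) / (b + 1 - ρ)) * ((m + 1 : ℕ) * z ^ 2))
        fun j _ => ?_).trans_eq (by simp [mul_assoc])
      have c1 := (real_inner_le_norm (Z j) (Y j)).trans (mul_le_mul (hz j) (e4 j) (norm_nonneg _) z0)
      have c2 := mul_le_mul_of_nonneg_left (pow_le_pow_left₀ (norm_nonneg _) (hz j) 2)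
        (m + 1).cast_nonneg
      rw [mul_div_assoc] at c1 ⊢
      linarith
    have a2 := e7 (m + 1)
    rw [e6] at a2
    have a3 : 0 ≤ ∑ w ∈ RW (b + 1) (m + 1) none, ‖co u Z w‖ ^ 2 := by positivity
    have a4 := mul_le_mul_of_nonneg_left a1 (show (0 : ℝ) ≤ b ^ (m + 1) by positivity)
    nlinarith

end abstr

variable {V : Type*} {G : SimpleGraph V} {X : Type*} [MeasurableSpace X]
  (μ : Measure (V × ℕ → X)) [IsProbabilityMeasure μ] (ν : X → X)

def ES : Submodule ℝ ((V × ℕ → X) → ℝ) where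
  carrier := {f | BM f ∧ (∀ ω, f (fun i => ν (ω i)) = f ω) ∧ ∫ ω, f ω ∂μ = 0}
  add_mem' := fun ⟨a1, a2, a3⟩ ⟨b1, b2, b3⟩ => ⟨a1.add b1, fun ω => by simp [a2, b2],
    (integral_add' a1 b1).trans (by rw [a3, b3, add_zero])⟩
  zero_mem' := ⟨BM.const 0, fun _ => rfl, by simp⟩
  smul_mem' := fun c _ ⟨a1, a2, a3⟩ => ⟨a1.cmul c, fun ω => by simp [a2],
    (integral_const_mul c _).trans (by rw [a3, mul_zero])⟩

def EE : Type _ := ES μ ν

instance : AddCommGroup (EE μ ν) := inferInstanceAs (AddCommGroup (ES μ ν))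

instance : Module ℝ (EE μ ν) := inferInstanceAs (Module ℝ (ES μ ν))

@[reducible] noncomputable def coreE : PreInnerProductSpace.Core ℝ (EE μ ν) where
  inner f g := ∫ ω, f.1 ω * g.1 ω ∂μ
  conj_inner_symm f g := by simp [mul_comm]
  re_inner_nonneg f := integral_nonneg fun _ => mul_self_nonneg _
  add_left f g k := (integral_congr_ae (ae_of_all _ fun ω => add_mul (f.1 ω) (g.1 ω) _)).trans
    (integral_add' (f.2.1.mul k.2.1) (g.2.1.mul k.2.1))
  smul_left f g r := (integral_congr_ae (ae_of_all _ fun ω => mul_assoc r (f.1 ω) _)).trans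
    (integral_const_mul _ _)

noncomputable instance : SeminormedAddCommGroup (EE μ ν) :=
  @InnerProductSpace.Core.toSeminormedAddCommGroup ℝ _ _ _ _ (coreE μ ν)

noncomputable instance : InnerProductSpace ℝ (EE μ ν) := InnerProductSpace.ofCore (coreE μ ν)

variable {μ ν}

lemma inner_EE (f g : EE μ ν) : ⟪f, g⟫_ℝ = ∫ ω, f.1 ω * g.1 ω ∂μ := rfl

lemma norm_EE (f : EE μ ν) : ‖f‖ ^ 2 = ∫ ω, f.1 ω ^ 2 ∂μ := by
  rw [← real_inner_self_eq_norm_sq, inner_EE]
  simp only [sq]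

variable (hp : ∀ g : G ≃g G, MeasurePreserving (pull g) μ μ)

def UE (g : G ≃g G) : Module.End ℝ (EE μ ν) where
  toFun f := ⟨fun ω => f.1 (pull g ω), f.2.1.comp (measurable_pull g), fun ω => f.2.2.1 _,
    (integral_comp_mp (hp g) f.2.1.meas).trans f.2.2.2⟩
  map_add' _ _ := rfl
  map_smul' _ _ := rfl

lemma inner_UE (g : G ≃g G) (f k : EE μ ν) : ⟪UE hp g f, UE hp g k⟫_ℝ = ⟪f, k⟫_ℝ :=
  integral_comp_mp (hp g) (f.2.1.mul k.2.1).meas

lemma approx (hν : MeasurePreserving (fun (ω : V × ℕ → X) i => ν (ω i)) μ μ)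
    (hν' : ∀ x, ν (ν x) = x) (x0 : X) (o : V) (f : EE μ ν) {ε : ℝ} (hε : 0 < ε) :
    ∃ k, ∃ g : EE μ ν, DependsOn g.1 {i | G.dist o i.1 < k} ∧ ‖f - g‖ ≤ ε := by
  let ϖ : ℕ → (V × ℕ → X) → V × ℕ → X := fun k ω =>
    Set.piecewise {i | G.dist o i.1 < k} ω fun _ => x0
  have hϖ : ∀ k, Measurable (ϖ k) := fun k => measurable_pi_lambda _ fun i => by
    by_cases h : G.dist o i.1 < k <;> simp [ϖ, h, measurable_pi_apply]
  let ℱ : Filtration ℕ (inferInstance : MeasurableSpace (V × ℕ → X)) :=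
    ⟨fun k => MeasurableSpace.comap (ϖ k) inferInstance, monotone_nat_of_le_succ fun k => by
        have : ϖ k = ϖ k ∘ ϖ (k + 1) := by
          funext p i
          by_cases hi : G.dist o i.1 < k
          · simp [ϖ, hi, hi.le]
          · simp [ϖ, hi]
        rw [this, ← MeasurableSpace.comap_comp]
        exact MeasurableSpace.comap_mono (hϖ _).comap_le, fun k => (hϖ _).comap_le⟩
  obtain ⟨f, bf, ef, zf⟩ := f
  obtain ⟨B, hB⟩ := bf.bdd
  choose g hg hg' using fun k => exists_isCE (μ := μ) (ℱ.le k) bf.meas fun ω => abs_le.1 (hB ω)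
  have bg := fun k => (hg k).bm.mono (ℱ.le k)
  have m : @Measurable _ _ (⨆ k, ℱ k) _ fun ω : V × ℕ → X => ω := by
    refine @measurable_pi_lambda _ _ _ (⨆ k, ℱ k) _ _ fun i => ?_
    convert ((measurable_pi_apply i).comp (comap_measurable (ϖ (G.dist o i.1 + 1)))).mono
      (le_iSup (fun k => ℱ k) _) le_rfl using 2
    simp [ϖ]
  have t : Tendsto (fun k => ∫ ω, (f ω - g k ω) ^ 2 ∂μ) atTop (𝓝 (∫ _, 0 ∂μ)) := by
    refine tendsto_integral_of_dominated_convergence (fun _ => (B + B) ^ 2)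
      (fun k => ((bf.sub (bg k)).pow 2).meas.aestronglyMeasurable) (integrable_const _)
      (fun k => ae_of_all _ fun ω => ?_) ?_
    · rw [Real.norm_of_nonneg (sq_nonneg _), ← sq_abs]
      exact pow_le_pow_left₀ (abs_nonneg _)
        ((abs_sub _ _).trans (add_le_add (hB ω) (abs_le.2 (hg' k ω)))) 2
    · filter_upwards [(bf.integrable μ).tendsto_ae_condExp (ℱ := ℱ)
        (bf.meas.comp m).stronglyMeasurable, ae_all_iff.2 fun k => (hg k).ae_eq (ℱ.le k) bf]
        with ω h1 h2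
      simp only [← h2] at h1
      simpa using ((tendsto_const_nhds (x := f ω)).sub h1).pow 2
  rw [integral_zero] at t
  obtain ⟨k, hk⟩ := (t.eventually_lt_const (sq_pos_of_pos hε)).exists
  obtain ⟨g', -, e⟩ := BM.factor (hg k).bm
  have bn := (bg k).comp hν.measurable
  refine ⟨k, ⟨fun ω => (g k ω + g k fun i => ν (ω i)) / 2, ((bg k).add bn).div_const 2,
    fun ω => by simp only [hν', add_comm], ?_⟩, fun ω ω' h => ?_, ?_⟩
  · rw [integral_div, integral_add' (bg k) bn, integral_comp_mp hν (bg k).meas, ← (hg k).integral,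
      zf, add_zero, zero_div]
  · have : ∀ φ : X → X, ϖ k (fun i => φ (ω i)) = ϖ k fun i => φ (ω' i) := fun φ =>
      funext fun i => if_ctx_congr Iff.rfl (fun hi => congrArg φ (h i hi)) fun _ => rfl
    simp only [e, this ν, show ϖ k ω = ϖ k ω' from this id]
  · refine (abs_le_of_sq_le_sq' ?_ hε.le).2
    have b1 := (bf.sub (bg k)).pow 2
    rw [norm_EE]
    refine (integral_le_of_ae ((bf.sub (((bg k).add bn).div_const 2)).pow 2)
      ((b1.add (b1.comp hν.measurable)).div_const 2) (ae_of_all _ fun ω => ?_)).trans ?_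
    · rw [ef]
      nlinarith [sq_nonneg (g k ω - g k fun i => ν (ω i))]
    · rw [integral_div, integral_add' b1 (b1.comp hν.measurable), integral_comp_mp hν b1.meas]
      linarith

variable [G.LocallyFinite] {b : ℕ} (S : Cay G (b + 1)) (hG : G.IsTree)
include hG

omit [G.LocallyFinite] in
lemma exists_sep (o v : V) (k : ℕ) (h : 2 * k < G.dist o v) : ∃ z c, G.Adj z c ∧
    (∀ u, G.dist o u < k → u ∉ side G z c) ∧ ∀ u, G.dist v u < k → u ∈ side G z c := by
  have h1 : ∀ j ≤ G.dist o v, ∃ z, G.dist o z = j ∧ G.dist v z + j = G.dist o v ∧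
      (j < G.dist o v → G.Adj (par G v z) z ∧ G.dist o (par G v z) = j + 1 ∧
        G.dist v (par G v z) + (j + 1) = G.dist o v) := by
    have h2 : ∀ j z, G.dist o z = j → G.dist v z + j = G.dist o v → j < G.dist o v →
        G.Adj (par G v z) z ∧ G.dist o (par G v z) = j + 1 ∧
          G.dist v (par G v z) + (j + 1) = G.dist o v := fun j z a1 a2 a3 => by
      obtain ⟨c1, c2⟩ := par_spec hG.connected (z := v) (u := z) (by rintro rfl; simp at a2; omega)
      have c3 := hG.connected.dist_triangle (u := o) (v := par G v z) (w := v)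
      have c4 := hG.dist_eq_dist_add_one_of_adj o c1
      rw [G.dist_comm (v := v)] at c3 a2 a3 ⊢
      rw [G.dist_comm (v := v)] at c3
      exact ⟨c1, by omega, by omega⟩
    intro j
    induction j with
    | zero => exact fun _ => ⟨o, by simp, G.dist_comm, h2 0 o (by simp) G.dist_comm⟩
    | succ j ih =>
      intro hj
      obtain ⟨z, -, -, a⟩ := ih (by omega)
      obtain ⟨-, a1, a2⟩ := a hj
      exact ⟨_, a1, a2, h2 _ _ a1 a2⟩
  obtain ⟨z, a1, a2, a3⟩ := h1 k (by omega)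
  obtain ⟨a3, a4, a5⟩ := a3 (by omega)
  refine ⟨z, _, a3.symm, fun u hu hu' => ?_, fun u hu => by_contra fun hu' => ?_⟩
  · obtain ⟨w, hw⟩ := hG.connected.exists_walk_length_eq_dist o u
    have := dist_le_of_mem_support w (mem_support_of_cross w
      (not_mem_side_of_dist hG a3.symm (by omega)) hu').2
    omega
  · obtain ⟨w, hw⟩ := hG.connected.exists_walk_length_eq_dist v u
    have := dist_le_of_mem_support w (x := z) (by simpa using (mem_support_of_cross w.reverse hu'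
      (mem_side_of_dist hG a3.symm (by omega))).1)
    omega

omit [G.LocallyFinite] in
lemma Cay.sum_pow_dist {γ : ℝ} (h0 : 0 < γ) (h1 : γ ≤ 1) (o v : V) :
    ∑ i, γ ^ G.dist o (S.st i v) ≤ (b * γ + γ⁻¹) * γ ^ G.dist o v := by
  have h2 : γ ≤ γ⁻¹ := h1.trans (one_le_inv_iff₀.2 ⟨h0, h1⟩)
  calc _ ≤ ∑ i, (γ + if S.st i v = par G o v then γ⁻¹ - γ else 0) * γ ^ G.dist o v := by
        refine sum_le_sum fun i _ => ?_
        rcases hG.dist_eq_dist_add_one_of_adj o (S.adj_st i v) with h | h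
        · rw [if_pos (par_eq hG (S.adj_st i v).symm h.symm).symm, h, pow_succ]
          refine le_of_eq ?_
          field_simp
          ring
        · rw [h, pow_succ']
          gcongr
          split_ifs <;> linarith
    _ ≤ _ := by
        rw [← sum_mul, sum_add_distrib, ← sum_filter, sum_const, sum_const, card_univ,
          Fintype.card_fin, nsmul_eq_mul, nsmul_eq_mul]
        have : (({i | S.st i v = par G o v} : Finset _).card : ℝ) ≤ 1 := by
          exact_mod_cast card_le_one.2 fun i hi j hj =>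
            S.inj v (Eq.trans (mem_filter.1 hi).2 (Eq.symm (mem_filter.1 hj).2))
        push_cast
        refine mul_le_mul_of_nonneg_right ?_ (by positivity)
        nlinarith

omit [G.LocallyFinite] in
lemma UE_gen (i : Fin (b + 1)) (f : EE μ ν) : UE hp (S.gen i) (UE hp (S.gen i) f) = f :=
  Subtype.ext (funext fun ω => congrArg f.1 (funext fun j => by simp [pull, S.gen_gen hG]))

omit [G.LocallyFinite] in
lemma UE_symm (i : Fin (b + 1)) (f k : EE μ ν) :
    ⟪UE hp (S.gen i) f, k⟫_ℝ = ⟪f, UE hp (S.gen i) k⟫_ℝ := by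
  rw [← inner_UE hp (S.gen i), UE_gen hp S hG]

omit [G.LocallyFinite] in
lemma gap (hν : MeasurePreserving (fun (ω : V × ℕ → X) i => ν (ω i)) μ μ)
    (hν' : ∀ x, ν (ν x) = x) (x0 : X)
    (hi : ∀ z c, G.Adj z c → ∀ f g : EE μ ν, DependsOn f.1 {i | i.1 ∈ side G z c} →
      DependsOn g.1 {i | i.1 ∈ side G z c}ᶜ → ⟪f, g⟫_ℝ = 0)
    {γ : ℝ} (h0 : 0 < γ) (h1 : γ ≤ 1) (f : EE μ ν) :
    ‖∑ i, UE hp (S.gen i) f‖ ≤ (b * γ + γ⁻¹) * ‖f‖ := by
  have hn : ∀ g (x : EE μ ν), ‖UE hp g x‖ = ‖x‖ := fun g x => by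
    rw [← sq_eq_sq₀ (norm_nonneg _) (norm_nonneg _), ← real_inner_self_eq_norm_sq, inner_UE,
      real_inner_self_eq_norm_sq]
  have key : ∀ k (f : EE μ ν), DependsOn f.1 {i | G.dist S.o i.1 < k} →
      ‖∑ i, UE hp (S.gen i) f‖ ≤ (b * γ + γ⁻¹) * ‖f‖ := fun k f hf => by
    have a1 : ∀ n (g : G ≃g G), (∀ j v, g (S.st j v) = S.st j (g v)) →
        ⟪UE hp g (((∑ i, UE hp (S.gen i)) ^ n) f), f⟫_ℝ ≤
          ‖f‖ ^ 2 / γ ^ (2 * k) * (b * γ + γ⁻¹) ^ n * γ ^ G.dist S.o (g S.o) := fun n => by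
      induction n with
      | zero =>
        intro g _
        rw [pow_zero, pow_zero, mul_one, Module.End.one_apply]
        by_cases h : 2 * k < G.dist S.o (g S.o)
        · obtain ⟨z, c, c1, c2, c3⟩ := exists_sep hG _ _ k h
          rw [hi z c c1 (UE hp g f) f (fun ω ω' e => hf fun i hi => e (g i.1, i.2) (c3 _ (by
            rwa [dist_iso]))) fun ω ω' e => hf fun i hi => e i (c2 _ hi)]
          positivity
        · refine (real_inner_le_norm _ _).trans ?_
          rw [hn, ← sq, div_mul_eq_mul_div, le_div_iff₀ (by positivity)]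
          exact mul_le_mul_of_nonneg_left (pow_le_pow_of_le_one h0.le h1 (not_lt.1 h)) (sq_nonneg _)
      | succ n ih =>
        intro g hg
        rw [pow_succ', Module.End.mul_apply, LinearMap.sum_apply, map_sum, sum_inner]
        refine (sum_le_sum fun i _ => ih ((S.gen i).trans g) fun j v => by
          simp [S.gen_st, hg]).trans ?_
        simp only [RelIso.trans_apply, S.gen_o, hg, ← mul_sum]
        exact (mul_le_mul_of_nonneg_left (S.sum_pow_dist hG h0 h1 _ _) (by positivity)).trans_eq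
          (by ring)
    simpa [LinearMap.sum_apply] using moment (∑ i, UE hp (S.gen i)) (fun x y => by
      simp only [LinearMap.sum_apply, sum_inner, inner_sum, UE_symm hp S hG]) f
      (by positivity : 0 < b * γ + γ⁻¹) (C := ‖f‖ ^ 2 / γ ^ (2 * k)) fun n => (a1 n (RelIso.refl _) fun _ _ => rfl).trans_eq
        (by simp)
  refine le_of_forall_pos_le_add fun ε hε => ?_
  have p : 0 < (b + 1 : ℝ) + (b * γ + γ⁻¹) := by positivity
  obtain ⟨k, g, g1, g2⟩ := approx (G := G) hν hν' x0 S.o f (div_pos hε p)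
  have a1 := norm_add_le (∑ i, UE hp (S.gen i) g) (∑ i, UE hp (S.gen i) (f - g))
  have a2 := (norm_sum_le univ fun i => UE hp (S.gen i) (f - g)).trans_eq (by
    simp only [hn, sum_const, card_univ, Fintype.card_fin, nsmul_eq_mul]; rfl)
  have a3 := norm_sub_le f (f - g)
  simp only [← sum_add_distrib, ← map_add, add_sub_cancel] at a1
  rw [sub_sub_cancel] at a3
  rw [le_div_iff₀ p] at g2
  push_cast at a2
  nlinarith [key k g g1, mul_le_mul_of_nonneg_left a3 (by positivity : 0 ≤ b * γ + γ⁻¹)]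

noncomputable def Cay.cof {d : ℕ} (S : Cay G d) {Y : Type*} (Z : Fin d → (V × ℕ → Y) → ℝ) :
    List (Fin d) → (V × ℕ → Y) → ℝ
  | [] => fun _ => 0
  | i :: w => fun ω => Z i ω + S.cof Z w (pull (S.gen i) ω)

lemma Cay.bsv_Q {θ : ℝ} (h0 : 0 ≤ θ) (h1 : θ < 1) (hb : 2 ≤ b) {A : Sel V}
    (hinv : ∀ (g : G ≃g G) (i : V × ℕ), A.s (g i.1, i.2) = A.s i) {Z : Fin (b + 1) → Ob V → ℝ}
    (hZ : ∀ i, BM (Z i)) (he : ∀ i ω, Z i (neg ω) = Z i ω) (hm : ∀ i, ∫ ω, Z i ω ∂Q G θ A = 0)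
    (hg : ∀ i ω, Z i (pull (S.gen i) ω) = Z i ω) {ζ : ℝ} (hζ : ∀ i, ∫ ω, Z i ω ^ 2 ∂Q G θ A ≤ ζ)
    (n : ℕ) : ∑ w ∈ RW (b + 1) n none, ∫ ω, S.cof Z w ω ^ 2 ∂Q G θ A ≤
      81 * (b + 1) ^ 2 * (n * b ^ n * ζ) := by
  have b2 : (2 : ℝ) ≤ b := by exact_mod_cast hb
  have hp := fun g => mp_pull hG h0 h1 g (hinv g)
  let Z' : Fin (b + 1) → EE (Q G θ A) fun x => (x.1, -x.2) := fun i => ⟨Z i, hZ i, he i, hm i⟩
  have ζ0 : 0 ≤ ζ := (integral_nonneg fun _ => sq_nonneg _).trans (hζ 0)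
  have h := bsv (fun i => UE hp (S.gen i)) Z' hb (UE_gen hp S hG) (UE_symm hp S hG)
    (ρ := b * (2 / 3) + (2 / 3)⁻¹) (by linarith) (gap hp S hG (mp_neg hG h0 h1 A) (by simp) (1, 0)
      (fun z c h f g df dg => by
        rw [inner_EE, integral_even hG h0 h1 A z (f.2.1.mul g.2.1) fun ω =>
          congrArg₂ _ (f.2.2.1 ω) (g.2.2.1 ω), (split_side hG A h).mul f.2.1 g.2.1 df dg,
          ← integral_even hG h0 h1 A z f.2.1 f.2.2.1, f.2.2.2, zero_mul])
      (by norm_num) (by norm_num)) (fun i => Subtype.ext (funext (hg i))) (z := √ζ)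
      (fun i => le_sqrt_of_sq_le ((norm_EE _).trans_le (hζ i))) n
  have e : ∀ w, (co (fun i => UE hp (S.gen i)) Z' w).1 = S.cof Z w := fun w => by
    induction w with
    | nil => rfl
    | cons i w ih => rw [cof, ← ih]; rfl
  simp only [norm_EE, e, sq_sqrt ζ0] at h
  refine h.trans (mul_le_mul_of_nonneg_right ?_ (by positivity))
  have : 12 * (b + 1 : ℝ) / (b + 1 - (b * (2 / 3) + (2 / 3)⁻¹)) ≤ 72 * (b + 1) := by
    rw [div_le_iff₀ (by linarith)]
    nlinarith
  nlinarith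

end Vale.Agent.P161
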