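import Vale.Agent.P161.Obs

/-!
Log-likelihood ratios: sums, edges, limits. Belief propagation computes posterior means.
-/

open Finset MeasureTheory Filter Topology Real
open scoped BigOperators Classical ENNReal unitInterval

namespace Vale.Agent.P161

lemma BM.cont₂ {X : Type*} [MeasurableSpace X] {f g : X → ℝ} (hf : BM f) (hg : BM g)
    {φ : ℝ × ℝ → ℝ} (hφ : Continuous φ) : BM fun x => φ (f x, g x) := by
  obtain ⟨A, hA⟩ := hf.bdd
  obtain ⟨B, hB⟩ := hg.bdd
  obtain ⟨C, hC⟩ := ((isCompact_Icc (a := -A) (b := A)).prod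
    (isCompact_Icc (a := -B) (b := B))).exists_bound_of_continuousOn hφ.continuousOn
  exact ⟨hφ.measurable.comp (hf.meas.prodMk hg.meas), C,
    fun x => hC _ ⟨abs_le.1 (hA x), abs_le.1 (hB x)⟩⟩

lemma BM.tanh {X : Type*} [MeasurableSpace X] {f : X → ℝ} (hf : Measurable f) :
    BM fun x => tanh (f x) :=
  ⟨continuous_tanh'.measurable.comp hf, 1, fun _ => (tanh_abs_lt _).le⟩

lemma BM.factor {X Y : Type*} [mY : MeasurableSpace Y] {φ : X → Y} {k : X → ℝ}
    (h : @BM X (mY.comap φ) k) : ∃ k', BM k' ∧ ∀ x, k x = k' (φ x) := by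
  obtain ⟨B, hB⟩ := @BM.bdd X (mY.comap φ) k h
  obtain ⟨k', h1, h2⟩ := (@BM.meas X (mY.comap φ) k h).exists_eq_measurable_comp
  refine ⟨fun y => max (-B) (min B (k' y)), ⟨by fun_prop, |B|, fun y => abs_le.2
    ⟨(neg_le_neg (le_abs_self B)).trans (le_max_left _ _),
      max_le (neg_le_abs B) ((min_le_left _ _).trans (le_abs_self B))⟩⟩, fun x => ?_⟩
  have h3 : k' (φ x) = k x := (congrFun h2 x).symm
  simp only [h3, min_eq_right (abs_le.1 (hB x)).2, max_eq_right (abs_le.1 (hB x)).1]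

lemma BM.comap {X Y : Type*} [mY : MeasurableSpace Y] (φ : X → Y) {k : Y → ℝ} (h : BM k) :
    @BM X (mY.comap φ) fun x => k (φ x) :=
  @BM.comp Y X _ (mY.comap φ) k h φ (comap_measurable φ)

lemma IsCE.ae_eq {X : Type*} {H : MeasurableSpace X} [mX : MeasurableSpace X] {μ : Measure X}
    [IsProbabilityMeasure μ] {f g : X → ℝ} (hH : H ≤ mX) (hf : BM f) (h : IsCE H μ f g) :
    g =ᵐ[μ] μ[f|H] := by
  refine ae_eq_condExp_of_forall_setIntegral_eq hH (hf.integrable μ)
    (fun s _ _ => ((h.bm.mono hH).integrable μ).integrableOn) (fun s hs _ => ?_)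
    (@BM.meas X H g h.bm).stronglyMeasurable.aestronglyMeasurable
  have := h.eq _ (@BM.ite X H _ _ (· ∈ s) _ hs (@BM.const X H 1) (@BM.const X H 0))
  simp only [mul_ite, mul_one, mul_zero] at this
  rw [← integral_indicator (hH s hs), ← integral_indicator (hH s hs)]
  exact this.symm

lemma integral_condExp_mul {X : Type*} {H : MeasurableSpace X} [mX : MeasurableSpace X]
    {μ : Measure X} [IsProbabilityMeasure μ] {f k : X → ℝ} (hH : H ≤ mX) (hf : BM f)
    (hk : @BM X H k) : ∫ x, (μ[f|H]) x * k x ∂μ = ∫ x, f x * k x ∂μ := by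
  obtain ⟨B, hB⟩ := hf.bdd
  obtain ⟨g, hg, -⟩ := exists_isCE (μ := μ) hH hf.meas fun x => abs_le.1 (hB x)
  rw [hg.eq k hk]
  exact integral_congr_ae ((hg.ae_eq hH hf).mono fun x hx => by simp only [hx])

variable {V : Type*} {G : SimpleGraph V} {θ : ℝ}

structure SV (R : Measure (Ob V)) (B : Set (V × ℕ)) (h : Ob V → ℝ) : Prop where
  bm : BM h
  odd : ∀ ω, h (neg ω) = -h ω
  dep : DependsOn h B
  sym : ∀ D, BM D → (∀ ω, D (neg ω) = -D ω) → DependsOn D B →
    ∫ ω, (1 - tanh (h ω)) * D ω ∂(R) = 0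

noncomputable def qv (R : Measure (Ob V)) (h : Ob V → ℝ) : ℝ := ∫ ω, tanh (h ω) ^ 2 ∂(R)

section
variable {R : Measure (Ob V)} [IsProbabilityMeasure R] {B B' C : Set (V × ℕ)} {h h' : Ob V → ℝ}

omit [IsProbabilityMeasure R] in
lemma qv_nonneg : 0 ≤ qv R h := integral_nonneg fun _ => sq_nonneg _

lemma qv_le (hm : Measurable h) : qv R h ≤ 1 :=
  integral_le_const ((BM.tanh hm).pow 2) fun _ => (tanh_sq_lt _).le

omit [IsProbabilityMeasure R] in
lemma Split.integral (hS : Split R C) {F : Ob V → ℝ} (hF : BM F) :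
    ∫ ω, F ω ∂(R) = ∫ p, F (C.piecewise p.1 p.2) ∂(R.prod R) :=
  (integral_comp_mp hS hF.meas).symm

lemma pw_left {f : Ob V → ℝ} (hf : DependsOn f B) (hB : B ⊆ C) (ω ω' : Ob V) :
    f (C.piecewise ω ω') = f ω := hf fun _ hi => Set.piecewise_eq_of_mem _ _ _ (hB hi)

lemma pw_right {f : Ob V → ℝ} (hf : DependsOn f B) (hB : B ⊆ Cᶜ) (ω ω' : Ob V) :
    f (C.piecewise ω ω') = f ω' := hf fun _ hi => Set.piecewise_eq_of_notMem _ _ _ (hB hi)

lemma Split.mul (hS : Split R C) {f g : Ob V → ℝ} (hf : BM f) (hg : BM g) (df : DependsOn f C)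
    (dg : DependsOn g Cᶜ) : ∫ ω, f ω * g ω ∂(R) = (∫ ω, f ω ∂(R)) * ∫ ω, g ω ∂(R) := by
  rw [hS.integral (hf.mul hg), ← integral_prod_mul]
  simp only [pw_left df subset_rfl, pw_right dg subset_rfl]

lemma dep_neg {f : Ob V → ℝ} (hf : DependsOn f B) : DependsOn (fun ω => f (neg ω)) B :=
  fun _ _ h => hf fun i hi => by simp [neg, h i hi]

lemma SV.fst (hv : SV R B h) {K : Ob V × Ob V → ℝ} (hK : BM K)
    (ho : ∀ ω ω', K (neg ω, ω') = -K (ω, ω')) (hd : ∀ ω', DependsOn (fun ω => K (ω, ω')) B) :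
    ∫ p, (1 - tanh (h p.1)) * K p ∂(R.prod R) = 0 := by
  rw [integral_prod'' (((BM.const 1).sub (BM.tanh (hv.bm.comp measurable_fst).meas)).mul hK)]
  simp only [fun ω' => hv.sym _ (hK.comp measurable_prodMk_right) (fun ω => ho ω ω') (hd ω'),
    Function.comp, integral_zero]

lemma SV.snd (hv : SV R B h) {K : Ob V × Ob V → ℝ} (hK : BM K)
    (ho : ∀ ω ω', K (ω, neg ω') = -K (ω, ω')) (hd : ∀ ω, DependsOn (fun ω' => K (ω, ω')) B) :
    ∫ p, (1 - tanh (h p.2)) * K p ∂(R.prod R) = 0 := by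
  rw [← hv.fst (hK.comp measurable_swap) (fun ω ω' => ho ω' ω) hd, ← integral_prod_swap]
  rfl

lemma SV.add (hS : Split R C) (hv : SV R B h) (hv' : SV R B' h') (hB : B ⊆ C) (hB' : B' ⊆ Cᶜ) :
    SV R (B ∪ B') fun ω => h ω + h' ω where
  bm := hv.bm.add hv'.bm
  odd ω := by rw [hv.odd, hv'.odd, neg_add]
  dep _ _ e := by
    simp only [hv.dep fun i hi => e i (Or.inl hi), hv'.dep fun i hi => e i (Or.inr hi)]
  sym D hD ho hd := by
    let k : Ob V × Ob V → ℝ := fun p =>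
      D (C.piecewise p.1 p.2) * (1 + tanh (h p.1) * tanh (h' p.2))⁻¹
    have kb : BM k := (hD.comp (measurable_pw C)).mul ((hv.bm.comp measurable_fst).cont₂
      (hv'.bm.comp measurable_snd) (φ := fun q => (1 + tanh q.1 * tanh q.2)⁻¹) (Continuous.inv₀
        (continuous_const.add ((continuous_tanh'.comp continuous_fst).mul
          (continuous_tanh'.comp continuous_snd))) fun q => (one_add_tanh_mul_pos _ _).ne'))
    have kb' : BM fun p : Ob V × Ob V => k (neg p.1, p.2) :=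
      kb.comp ((measurable_neg'.comp measurable_fst).prodMk measurable_snd)
    have k1 : ∀ ω', DependsOn (fun ω => k (ω, ω')) B := fun ω' _ _ e => by
      simp only [k, hv.dep e]
      congr 1
      refine hd fun i hi => ?_
      rcases hi with hi | hi
      · simp [hB hi, e i hi]
      · simp [show i ∉ C from hB' hi]
    have k2 : ∀ ω, DependsOn (fun ω' => k (ω, ω')) B' := fun ω _ _ e => by
      simp only [k, hv'.dep e]
      congr 1
      refine hd fun i hi => ?_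
      rcases hi with hi | hi
      · simp [hB hi]
      · simp [show i ∉ C from hB' hi, e i hi]
    have kn : ∀ ω ω', k (ω, neg ω') = -k (neg ω, ω') := fun ω ω' => by
      have : C.piecewise ω (neg ω') = neg (C.piecewise (neg ω) ω') := by
        funext i; by_cases hi : i ∈ C <;> simp [hi, neg]
      simp only [k, this, ho, hv.odd, hv'.odd, tanh_neg, mul_neg, neg_mul]
    have b1 : BM fun p : Ob V × Ob V => 1 - tanh (h p.1) :=
      (BM.const 1).sub (BM.tanh (hv.bm.meas.comp measurable_fst))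
    have b2 : BM fun p : Ob V × Ob V => 1 - tanh (h' p.2) :=
      (BM.const 1).sub (BM.tanh (hv'.bm.meas.comp measurable_snd))
    have a1 := hv.fst (b2.mul (kb.sub kb')) (fun ω ω' => by simp only [neg_neg']; ring)
      fun ω' _ _ e => by simp only [k1 ω' e, dep_neg (k1 ω') e]
    have a2 := hv'.snd (b1.mul (kb.add kb')) (fun ω ω' => by simp only [kn, neg_neg']; ring)
      fun ω _ _ e => by simp only [k2 _ e]
    rw [hS.integral (((BM.const 1).sub (BM.tanh (hv.bm.add hv'.bm).meas)).mul hD), ← add_zero 0,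
      ← mul_right_inj' two_ne_zero, ← integral_const_mul, mul_add, mul_zero]
    nth_rewrite 1 [← a1]
    rw [← a2, ← integral_add' (b1.mul (b2.mul (kb.sub kb'))) (b2.mul (b1.mul (kb.add kb')))]
    congr 1
    funext p
    have := (one_add_tanh_mul_pos (h p.1) (h' p.2)).ne'
    simp only [pw_left hv.dep hB, pw_right hv'.dep hB', tanh_add', k]
    field_simp
    ring

lemma SV.qv_eq (hv : SV R B h) : qv R h = ∫ ω, tanh (h ω) ∂(R) := by
  have b := BM.tanh hv.bm.meas
  have := hv.sym _ b (fun ω => by rw [hv.odd, tanh_neg]) fun _ _ e => by simp only [hv.dep e]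
  rw [qv, eq_comm, ← sub_eq_zero, ← integral_sub' b (b.pow 2), ← this]
  congr 1
  funext ω
  ring

lemma SV.qv_add (hS : Split R C) (hv : SV R B h) (hv' : SV R B' h') (hB : B ⊆ C)
    (hB' : B' ⊆ Cᶜ) : (1 - qv R h) * (1 - qv R h') ≤ 1 - qv R (fun ω => h ω + h' ω) ∧
    qv R h + qv R h' - 2 * (qv R h * qv R h') ≤ qv R (fun ω => h ω + h' ω) ∧
    qv R h + (1 - qv R h) ^ 2 * qv R h' ≤ qv R (fun ω => h ω + h' ω) ∧
    qv R h' ≤ qv R (fun ω => h ω + h' ω) := by
  have pos : ∀ a b : ℝ, 0 < 1 - tanh a ^ 2 * tanh b ^ 2 := fun a b => by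
    nlinarith [tanh_sq_lt a, tanh_sq_lt b, sq_nonneg (tanh a), sq_nonneg (tanh b)]
  let k : Ob V × Ob V → ℝ := fun p => (1 - tanh (h p.1) ^ 2 * tanh (h' p.2) ^ 2)⁻¹
  have kb : BM k := (hv.bm.comp measurable_fst).cont₂ (hv'.bm.comp measurable_snd)
    (φ := fun q => (1 - tanh q.1 ^ 2 * tanh q.2 ^ 2)⁻¹) (Continuous.inv₀ (continuous_const.sub
      (((continuous_tanh'.comp continuous_fst).pow 2).mul
        ((continuous_tanh'.comp continuous_snd).pow 2))) fun q => (pos _ _).ne')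
  have b1 : BM fun p : Ob V × Ob V => tanh (h p.1) := BM.tanh (hv.bm.meas.comp measurable_fst)
  have b2 : BM fun p : Ob V × Ob V => tanh (h' p.2) := BM.tanh (hv'.bm.meas.comp measurable_snd)
  have c1 := b1.mul (((BM.const 1).sub (b2.pow 2)).mul kb)
  have c2 := b2.mul (((BM.const 1).sub (b1.pow 2)).mul kb)
  have a1 := hv.fst c1 (fun ω ω' => by simp [k, hv.odd, tanh_neg])
    fun ω' _ _ e => by simp only [k, hv.dep e]
  have a2 := hv'.snd c2 (fun ω ω' => by simp [k, hv'.odd, tanh_neg])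
    fun ω' _ _ e => by simp only [k, hv'.dep e]
  let f : Ob V × Ob V → ℝ := fun p => (tanh (h p.1) ^ 2 + tanh (h' p.2) ^ 2 -
    2 * (tanh (h p.1) ^ 2 * tanh (h' p.2) ^ 2)) * k p
  have fb : BM f := (((b1.pow 2).add (b2.pow 2)).sub (((b1.pow 2).mul (b2.pow 2)).cmul 2)).mul kb
  have e : qv R (fun ω => h ω + h' ω) = ∫ p, f p ∂(R.prod R) := by
    have d1 := ((BM.const 1).sub b1).mul c1
    have d2 := ((BM.const 1).sub b2).mul c2
    rw [(hv.add hS hv' hB hB').qv_eq, hS.integral (BM.tanh (hv.bm.add hv'.bm).meas),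
      ← add_zero (∫ p, f p ∂_), ← add_zero 0]
    nth_rewrite 1 [← a1]
    rw [← a2, ← integral_add' d1 d2, ← integral_add' fb (d1.add d2)]
    congr 1
    funext p
    have h1 := (one_add_tanh_mul_pos (h p.1) (h' p.2)).ne'
    have h2 := (pos (h p.1) (h' p.2)).ne'
    simp only [pw_left hv.dep hB, pw_right hv'.dep hB', tanh_add', k, f]
    field_simp
    ring
  have i1 : ∫ p, tanh (h p.1) ^ 2 ∂(R.prod R) = qv R h := by
    simpa [qv] using integral_prod_mul (μ := R) (ν := R) (fun ω => tanh (h ω) ^ 2) fun _ => (1 : ℝ)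
  have i2 : ∫ p, tanh (h' p.2) ^ 2 ∂(R.prod R) = qv R h' := by
    simpa [qv] using integral_prod_mul (μ := R) (ν := R) (fun _ => (1 : ℝ)) fun ω => tanh (h' ω) ^ 2
  have i3 : ∫ p, tanh (h p.1) ^ 2 * tanh (h' p.2) ^ 2 ∂(R.prod R) = qv R h * qv R h' :=
    integral_prod_mul (fun ω => tanh (h ω) ^ 2) fun ω => tanh (h' ω) ^ 2
  have pw : ∀ p, f p ≤ tanh (h p.1) ^ 2 + tanh (h' p.2) ^ 2 - tanh (h p.1) ^ 2 * tanh (h' p.2) ^ 2
      ∧ tanh (h p.1) ^ 2 + tanh (h' p.2) ^ 2 - 2 * (tanh (h p.1) ^ 2 * tanh (h' p.2) ^ 2) ≤ f p ∧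
      tanh (h p.1) ^ 2 + (1 - tanh (h p.1) ^ 2) ^ 2 * tanh (h' p.2) ^ 2 ≤ f p ∧
      tanh (h' p.2) ^ 2 ≤ f p := fun p => by
    have h2 := pos (h p.1) (h' p.2)
    have h3 := (tanh_sq_lt (h p.1)).le
    have h4 := (tanh_sq_lt (h' p.2)).le
    have h5 := sq_nonneg (tanh (h p.1))
    have h6 := sq_nonneg (tanh (h' p.2))
    simp only [f, k, ← div_eq_mul_inv, div_le_iff₀ h2, le_div_iff₀ h2]
    generalize tanh (h p.1) ^ 2 = a at *
    generalize tanh (h' p.2) ^ 2 = b at *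
    have h7 := mul_nonneg h5 h6
    have h8 := mul_nonneg (sub_nonneg.2 h3) (sub_nonneg.2 h4)
    refine ⟨by nlinarith [mul_nonneg h7 h8], ?_, ?_, ?_⟩
    · nlinarith [mul_nonneg h7 (add_nonneg (mul_nonneg h5 (sub_nonneg.2 h4))
        (mul_nonneg h6 (sub_nonneg.2 h3)))]
    · nlinarith [mul_nonneg h7 (mul_nonneg h6 (sq_nonneg (1 - a)))]
    · nlinarith [mul_nonneg h5 (sq_nonneg (1 - b))]
  rw [e]
  refine ⟨?_, ?_, ?_, ?_⟩
  · have := integral_le_of_ae (μ := R.prod R) fb (((b1.pow 2).add (b2.pow 2)).sub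
      ((b1.pow 2).mul (b2.pow 2))) (ae_of_all _ fun p => (pw p).1)
    rw [integral_sub' ((b1.pow 2).add (b2.pow 2)) ((b1.pow 2).mul (b2.pow 2)),
      integral_add' (b1.pow 2) (b2.pow 2), i1, i2, i3] at this
    linarith
  · have := integral_le_of_ae (μ := R.prod R) (((b1.pow 2).add (b2.pow 2)).sub
      (((b1.pow 2).mul (b2.pow 2)).cmul 2)) fb (ae_of_all _ fun p => (pw p).2.1)
    rwa [integral_sub' ((b1.pow 2).add (b2.pow 2)) (((b1.pow 2).mul (b2.pow 2)).cmul 2),
      integral_add' (b1.pow 2) (b2.pow 2), integral_const_mul, i1, i2, i3] at this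
  · have b3 := ((BM.const 1).sub (b1.pow 2)).pow 2
    have b4 := (BM.const 1).sub ((BM.tanh hv.bm.meas).pow 2)
    have := integral_le_of_ae (μ := R.prod R) ((b1.pow 2).add (b3.mul (b2.pow 2))) fb
      (ae_of_all _ fun p => (pw p).2.2.1)
    rw [integral_add' (b1.pow 2) (b3.mul (b2.pow 2)), i1, integral_prod_mul
      (fun ω => (1 - tanh (h ω) ^ 2) ^ 2) fun ω => tanh (h' ω) ^ 2] at this
    refine le_trans (add_le_add_right (mul_le_mul_of_nonneg_right ?_ qv_nonneg) _) this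
    have h3 := integral_le_of_ae (μ := R) (((b4.cmul (2 * (1 - qv R h))).sub
      (BM.const ((1 - qv R h) ^ 2)))) (b4.pow 2) (ae_of_all _ fun ω => by
        nlinarith [sq_nonneg (1 - tanh (h ω) ^ 2 - (1 - qv R h))])
    rw [integral_sub' (b4.cmul _) (BM.const _), integral_const_mul,
      integral_sub' (BM.const 1) ((BM.tanh hv.bm.meas).pow 2), ← qv] at h3
    simp only [integral_const, probReal_univ, one_smul] at h3
    linarith
  · exact i2 ▸ integral_le_of_ae (b2.pow 2) fb (ae_of_all _ fun p => (pw p).2.2.2)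

omit [IsProbabilityMeasure R] in
lemma SV.zero : SV R ∅ fun _ => 0 where
  bm := BM.const 0
  odd := by simp
  dep _ _ _ := rfl
  sym D _ ho hd := by
    have : ∀ ω, D ω = 0 := fun ω => by linarith [ho ω, hd (x := neg ω) (y := ω) (by simp)]
    simp [this]

lemma SV.sum {ι : Type*} (J : Finset ι) {h : ι → Ob V → ℝ} {B C : ι → Set (V × ℕ)}
    (hv : ∀ j ∈ J, SV R (B j) (h j) ∧ Split R (C j) ∧ B j ⊆ C j)
    (hd : ∀ j ∈ J, ∀ j' ∈ J, j ≠ j' → B j' ⊆ (C j)ᶜ) :
    SV R (⋃ j ∈ J, B j) (fun ω => ∑ j ∈ J, h j ω) ∧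
      ∏ j ∈ J, (1 - qv R (h j)) ≤ 1 - qv R (fun ω => ∑ j ∈ J, h j ω) ∧
      ∀ x : ι → ℝ, (∀ j ∈ J, x j ≤ 1 / 2 ∧ x j ≤ qv R (h j)) →
        1 - 2 * qv R (fun ω => ∑ j ∈ J, h j ω) ≤ ∏ j ∈ J, (1 - 2 * x j) := by
  induction J using Finset.induction_on with
  | empty => simpa [qv] using SV.zero
  | insert i J hi ih =>
    obtain ⟨a1, a2, a3⟩ := ih (fun j hj => hv j (mem_insert_of_mem hj))
      fun j hj j' hj' => hd j (mem_insert_of_mem hj) j' (mem_insert_of_mem hj')
    obtain ⟨b1, b2, b3⟩ := hv i (mem_insert_self _ _)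
    have b4 : ⋃ j ∈ J, B j ⊆ (C i)ᶜ := Set.iUnion₂_subset fun j hj =>
      hd i (mem_insert_self _ _) j (mem_insert_of_mem hj) fun h => hi (h ▸ hj)
    obtain ⟨c1, c2, c3, c4⟩ := b1.qv_add b2 a1 b3 b4
    simp only [sum_insert hi, prod_insert hi, Finset.set_biUnion_insert]
    refine ⟨b1.add b2 a1 b3 b4, le_trans (mul_le_mul_of_nonneg_left a2
      (sub_nonneg.2 (qv_le b1.bm.meas))) c1, fun x hx => ?_⟩
    have d1 := a3 x fun j hj => hx j (mem_insert_of_mem hj)
    obtain ⟨d2, d3⟩ := hx i (mem_insert_self _ _)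
    have d4 : 0 ≤ ∏ j ∈ J, (1 - 2 * x j) := prod_nonneg fun j hj => by
      linarith [(hx j (mem_insert_of_mem hj)).1]
    have d5 : qv R (h i) ≤ qv R fun ω => h i ω + ∑ j ∈ J, h j ω :=
      le_trans (le_add_of_nonneg_right (mul_nonneg (sq_nonneg _) qv_nonneg)) c3
    generalize qv R (fun ω => h i ω + ∑ j ∈ J, h j ω) = q at *
    generalize qv R (fun ω => ∑ j ∈ J, h j ω) = q2 at *
    generalize ∏ j ∈ J, (1 - 2 * x j) = P at *
    by_cases e1 : 1 / 2 ≤ q
    · nlinarith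
    · calc _ ≤ (1 - 2 * qv R (h i)) * (1 - 2 * q2) := by linarith
        _ ≤ _ := mul_le_mul (by linarith) d1 (by linarith) (by linarith)

end

noncomputable def yc (p : I × ℝ) : ℝ := max (-1) (min 1 p.2)

noncomputable def tau (p : I × ℝ) : ℝ := aT p.1 * yc p

noncomputable def gN (N : ℕ) (ω : Ob V) (v : V) : ℝ := ∑ n ∈ range N, artanh (tau (ω (v, n)))

lemma abs_yc_le (p : I × ℝ) : |yc p| ≤ 1 :=
  abs_le.2 ⟨le_max_left _ _, max_le (by norm_num) (min_le_left _ _)⟩

lemma yc_eq (T : I) {y : ℝ} (h : |y| ≤ 1) : yc (T, y) = y := by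
  simp only [yc, min_eq_right (abs_le.1 h).2, max_eq_right (abs_le.1 h).1]

lemma abs_tau_le (p : I × ℝ) : |tau p| ≤ 1 / 2 := abs_mul_le_half (abs_aT_le _) (abs_yc_le p)

lemma abs_tau_lt (p : I × ℝ) : |tau p| < 1 := (abs_tau_le p).trans_lt (by norm_num)

lemma yc_neg (T : I) (y : ℝ) : yc (T, -y) = -yc (T, y) := by
  simp only [yc, max_def, min_def]
  split_ifs <;> linarith

lemma tau_neg (ω : Ob V) (i : V × ℕ) : tau (neg ω i) = -tau (ω i) := by
  simp only [tau, neg, yc_neg, mul_neg]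

@[fun_prop] lemma measurable_yc : Measurable yc := by unfold yc; fun_prop

@[fun_prop] lemma measurable_tau : Measurable tau := by unfold tau; fun_prop

lemma tanh_artanh_tau (p : I × ℝ) : tanh (artanh (tau p)) = tau p :=
  tanh_artanh (abs_lt.1 (abs_tau_lt p))

lemma gN_neg (N : ℕ) (ω : Ob V) : gN N (neg ω) = fun v => -gN N ω v := by
  funext v
  simp only [gN, tau_neg, artanh_neg' (abs_tau_lt _), sum_neg_distrib]

lemma abs_gN_le (N : ℕ) (ω : Ob V) (v : V) : |gN N ω v| ≤ N * artanh (1 / 2) :=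
  (abs_sum_le_sum_abs _ _).trans ((sum_le_card_nsmul _ _ _ fun n _ =>
    abs_artanh_le (abs_tau_le _) (by norm_num)).trans_eq (by simp))

lemma measurable_gN (N : ℕ) (v : V) : Measurable fun ω : Ob V => gN N ω v :=
  Finset.measurable_sum _ fun n _ => measurable_artanh.comp (by fun_prop)

lemma sv_own (A : Sel V) (z : V) (n : ℕ) :
    SV (Pz G θ A z) {(z, n)} fun ω => artanh (tau (ω (z, n))) where
  bm := ⟨measurable_artanh.comp (by fun_prop), _, fun ω =>
    abs_artanh_le (abs_tau_le _) (by norm_num)⟩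
  odd ω := by rw [tau_neg, artanh_neg' (abs_tau_lt _)]
  dep _ _ e := by simp only [e _ rfl]
  sym D hD ho hd := by
    have b : BM fun ω : Ob V => (1 - tanh (artanh (tau (ω (z, n))))) * D ω :=
      ((BM.const 1).sub (BM.tanh (measurable_artanh.comp (by fun_prop)))).mul hD
    rw [resample A z n b]
    refine integral_eq_zero_of_ae (ae_of_all _ fun ω => ?_)
    have h1 : ∀ T y, D (Function.update ω (z, n) (T, -y)) = -D (Function.update ω (z, n) (T, y)) :=
      fun T y => by rw [← ho]; exact hd fun i hi => by simp [show i = _ from hi, neg]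
    have hm : Measurable fun p : I × I => Function.update ω (z, n)
        (p.1, if p.1 ∈ A.s (z, n) then Qf (aT p.1) p.2 else 0) :=
      (measurable_update ω).comp (measurable_fst.prodMk (Measurable.ite (measurable_fst (A.meas _))
        (measurable_Qf.comp (f := fun q : I × I => (aT q.1, (q.2 : ℝ))) (by fun_prop))
        measurable_const))
    simp only [lam, Pi.zero_apply]
    rw [integral_prod' (b.comp hm)]
    refine integral_eq_zero_of_ae (ae_of_all _ fun T => ?_)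
    simp only [Function.update_self, tanh_artanh_tau, Pi.zero_apply]
    split_ifs
    · rw [cov (abs_aT_le T) fun y => (1 - tau (T, y)) * D (Function.update ω (z, n) (T, y)),
        ← integral_odd (ψ := fun y => (1 - (aT T * y) ^ 2) / 2 *
          D (Function.update ω (z, n) (T, y))) fun y => by rw [h1]; ring]
      refine setIntegral_congr_fun measurableSet_Icc fun y hy => ?_
      simp only [tau, yc_eq T (abs_le.2 hy)]
      ring
    · have := h1 T 0
      rw [neg_zero] at this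
      simp [show D (Function.update ω (z, n) (T, 0)) = 0 by linarith]

lemma sv_gN (hG : G.Connected) {A : Sel V} {N : ℕ} (hA : ∀ i, N ≤ i.2 → A.s i = ∅) (z : V) :
    SV (Pz G θ A z) {i | i.1 = z} fun ω => gN N ω z := by
  have h1 : SV (Pz G θ A z) {i | i.1 = z ∧ i.2 ∈ Set.Ici N} fun _ => 0 :=
    ⟨BM.const 0, by simp, fun _ _ _ => rfl, fun D hD ho hd => by
      simp only [tanh_zero, sub_zero, one_mul]
      rw [← integral_comp_mp (mp_ob A z) hD.meas]
      refine integral_eq_zero_of_ae (ae_of_all _ fun ω => ?_)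
      have := hd (x := neg (ob G θ A z ω)) (y := ob G θ A z ω) fun i hi => by
        simp [neg, ob, cut, hA i hi.2]
      rw [ho] at this
      simp only [Pi.zero_apply]
      linarith⟩
  have h2 := (SV.sum (R := Pz G θ A z) (range N) (B := fun n => {(z, n)})
    (C := fun n => {i | i.1 = z ∧ i.2 ∈ ({n} : Set ℕ)}) (fun n _ => ⟨sv_own A z n,
      split_own hG A z _, by simp⟩) fun j _ j' _ h => by simpa using h.symm).1
  have h3 := h1.add (split_own hG A z _) h2 subset_rfl (by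
    simp only [Set.iUnion_subset_iff]; intro n hn; simpa using hn)
  simp only [zero_add] at h3
  simp only [gN]
  convert h3 using 1
  ext ⟨v, n⟩
  simp only [Set.mem_setOf_eq, Set.mem_union, Set.mem_Ici, mem_range, Set.mem_iUnion,
    Set.mem_singleton_iff, Prod.mk.injEq, exists_prop, exists_eq_right_right']
  have := le_or_gt N n
  tauto

variable (hG : G.IsTree) (h0 : 0 ≤ θ) (h1 : θ < 1)
include hG h0 h1

lemma SV.edge {A : Sel V} {z c : V} (h : G.Adj z c) {B : Set (V × ℕ)} {f : Ob V → ℝ}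
    (hB : B ⊆ {i | i.1 ∈ side G z c}) (hv : SV (Pz G θ A c) B f) :
    SV (Pz G θ A z) B (fun ω => Ps θ (f ω)) ∧
      qv (Pz G θ A z) (fun ω => Ps θ (f ω)) = θ ^ 2 * qv (Pz G θ A c) f := by
  have b := BM.tanh hv.bm.meas
  refine ⟨⟨hv.bm.cont (continuous_Ps h0 h1), fun ω => by rw [hv.odd, Ps_neg h0 h1],
    fun _ _ e => by simp only [hv.dep e], fun D hD ho hd => ?_⟩, ?_⟩
  · have := hv.sym D hD ho hd
    simp only [tanh_Ps h0 h1]
    rw [edge_pass hG h0 h1 A h (((BM.const 1).sub (b.cmul θ)).mul hD) fun _ _ e => by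
      simp only [hv.dep fun i hi => e i (hB hi), hd fun i hi => e i (hB hi)], ← integral_const_mul,
      ← integral_const_mul, ← integral_add' ((((BM.const 1).sub (b.cmul θ)).mul hD).cmul _)
      (((((BM.const 1).sub (b.cmul θ)).mul hD).comp measurable_neg').cmul _), ← mul_zero θ, ← this,
      ← integral_const_mul]
    congr 1
    funext ω
    rw [hv.odd, ho, tanh_neg]
    ring
  · simp only [qv, tanh_Ps h0 h1, mul_pow, integral_const_mul]
    rw [edge_pass hG h0 h1 A h (b.pow 2) fun _ _ e => by simp only [hv.dep fun i hi => e i (hB hi)]]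
    simp only [hv.odd, tanh_neg, neg_sq]
    ring

variable [G.LocallyFinite]

lemma SV.step {A : Sel V} {N : ℕ} (hA : ∀ i, N ≤ i.2 → A.s i = ∅) (z : V) {J : Finset V}
    (hJ : ∀ c ∈ J, G.Adj z c) {B : V → Set V} {f : V → Ob V → ℝ}
    (hB : ∀ c ∈ J, B c ⊆ side G z c) (hv : ∀ c ∈ J, SV (Pz G θ A c) {i | i.1 ∈ B c} (f c)) :
    SV (Pz G θ A z) {i | i.1 = z ∨ ∃ c ∈ J, i.1 ∈ B c}
      (fun ω => gN N ω z + ∑ c ∈ J, Ps θ (f c ω)) ∧
    (1 - qv (Pz G θ A z) fun ω => gN N ω z) * ∏ c ∈ J, (1 - θ ^ 2 * qv (Pz G θ A c) (f c)) ≤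
      1 - qv (Pz G θ A z) (fun ω => gN N ω z + ∑ c ∈ J, Ps θ (f c ω)) ∧
    qv (Pz G θ A z) (fun ω => gN N ω z) ≤
      qv (Pz G θ A z) (fun ω => gN N ω z + ∑ c ∈ J, Ps θ (f c ω)) ∧
    ∀ x y : ℝ, x ≤ 1 / 2 → y ≤ 1 / 2 → x ≤ qv (Pz G θ A z) (fun ω => gN N ω z) →
      (∀ c ∈ J, y ≤ θ ^ 2 * qv (Pz G θ A c) (f c)) →
      1 - 2 * qv (Pz G θ A z) (fun ω => gN N ω z + ∑ c ∈ J, Ps θ (f c ω)) ≤
        (1 - 2 * x) * (1 - 2 * y) ^ J.card := by
  have e := fun c hc => SV.edge hG h0 h1 (B := {i | i.1 ∈ B c}) (hJ c hc)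
    (fun i hi => hB c hc hi) (hv c hc)
  obtain ⟨a1, a2, a3⟩ := SV.sum (R := Pz G θ A z) J (C := fun c => {i | i.1 ∈ side G z c})
    (fun c hc => ⟨(e c hc).1, split_side hG A (hJ c hc), fun i hi => hB c hc hi⟩)
    fun c hc c' hc' hne i hi => side_disjoint hG (hJ c' hc') (hJ c hc) hne.symm (hB c' hc' hi)
  have b1 := sv_gN (θ := θ) hG.connected hA z
  have b2 := split_own (θ := θ) hG.connected A z Set.univ
  have b3 : {i : V × ℕ | i.1 = z} ⊆ {i | i.1 = z ∧ i.2 ∈ Set.univ} := fun i hi => ⟨hi, trivial⟩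
  have b4 : ⋃ c ∈ J, {i : V × ℕ | i.1 ∈ B c} ⊆ {i | i.1 = z ∧ i.2 ∈ Set.univ}ᶜ :=
    Set.iUnion₂_subset fun c hc i hi h => not_mem_side hG.isAcyclic (hJ c hc) (h.1 ▸ hB c hc hi)
  obtain ⟨c1, c2, c3, c4⟩ := b1.qv_add b2 a1 b3 b4
  have d5 := le_trans (le_add_of_nonneg_right (mul_nonneg (sq_nonneg _) qv_nonneg)) c3
  refine ⟨?_, le_trans (mul_le_mul_of_nonneg_left ?_ (sub_nonneg.2 (qv_le b1.bm.meas))) c1, d5,
    fun x y hx hy hx' hy' => ?_⟩
  · convert b1.add b2 a1 b3 b4 using 1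
    ext i
    simp
  · rwa [prod_congr rfl fun c hc => by rw [(e c hc).2]] at a2
  · have d1 := a3 (fun _ => y) fun c hc => ⟨hy, (e c hc).2 ▸ hy' c hc⟩
    rw [prod_const] at d1
    have d4 : 0 ≤ (1 - 2 * y) ^ J.card := pow_nonneg (by linarith) _
    generalize qv (Pz G θ A z) (fun ω => gN N ω z + ∑ c ∈ J, Ps θ (f c ω)) = q at *
    generalize qv (Pz G θ A z) (fun ω => ∑ c ∈ J, Ps θ (f c ω)) = q2 at *
    by_cases e1 : 1 / 2 ≤ q
    · nlinarith
    · calc _ ≤ (1 - 2 * qv (Pz G θ A z) fun ω => gN N ω z) * (1 - 2 * q2) := by linarith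
        _ ≤ _ := mul_le_mul (by linarith) d1 (by linarith) (by linarith)

lemma sv_hb {A : Sel V} {N : ℕ} (hA : ∀ i, N ≤ i.2 → A.s i = ∅) (k : ℕ) : ∀ z y,
    SV (Pz G θ A z) {i | i.1 ∈ reg G k z y} fun ω => hb G θ (gN N ω) k z y := by
  induction k with
  | zero => exact fun z y => SV.zero
  | succ k ih =>
    intro z y
    simp only [hb]
    convert (SV.step hG h0 h1 hA z (J := (G.neighborFinset z).erase y) (fun c hc => by
      simpa using (mem_erase.1 hc).2) (fun c _ => reg_subset_side hG.isAcyclic k c z)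
      fun c _ => ih c z).1 using 1
    ext i
    simp [reg, and_comm, and_assoc, and_left_comm]

lemma SV.proj {A : Sel V} {z : V} {B : Set (V × ℕ)} {f : Ob V → ℝ} (hv : SV (Pz G θ A z) B f)
    {k : Ob V → ℝ} (hk : BM k) (hd : DependsOn k B) :
    ∫ ω, tanh (f ω) * k ω ∂Q G θ A = ∫ ω, k ω ∂Pz G θ A z - ∫ ω, k ω ∂Q G θ A := by
  have b := BM.tanh hv.bm.meas
  have hn := hk.comp measurable_neg'
  have := hv.sym _ (hk.sub hn) (fun ω => by simp) fun _ _ e => by simp only [hd e, dep_neg hd e]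
  simp only [sub_mul, mul_sub, one_mul] at this
  rw [integral_sub' (hk.sub (b.mul hk)) (hn.sub (b.mul hn)), integral_sub' hk (b.mul hk),
    integral_sub' hn (b.mul hn)] at this
  rw [integral_Q hG h0 h1 A z hk, integral_Q hG h0 h1 A z (b.mul hk)]
  simp only [hv.odd, tanh_neg, neg_mul, integral_neg]
  linarith

lemma levy {A : Sel V} {N : ℕ} (hA : ∀ i, N ≤ i.2 → A.s i = ∅) {d : ℕ}
    (hd : ∀ v, G.degree v ≤ d) (z y : V) :
    (∀ᵐ ω ∂Q G θ A, ∃ l, Tendsto (fun k => hb G θ (gN N ω) k z y) atTop (𝓝 l)) ∧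
    SV (Pz G θ A z) {i | ∃ k, i.1 ∈ reg G k z y} fun ω => X G θ (gN N ω) z y := by
  let φ : (V → Bool) × (V × ℕ → I × I) → Ob V := fun p => cut A (obs p)
  have hφ : MeasurePreserving φ (Pn G θ) (Q G θ A) := mp_Q A
  let ϖ : Set (V × ℕ) → Ob V → Ob V := fun B ω => B.piecewise ω fun _ => (1, 0)
  have hϖ : ∀ B, Measurable (ϖ B) := fun B =>
    (measurable_pw B).comp (measurable_id.prodMk measurable_const)
  let ℱ : Filtration ℕ (inferInstance : MeasurableSpace ((V → Bool) × (V × ℕ → I × I))) :=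
    ⟨fun k => MeasurableSpace.comap (fun p => ϖ {i | i.1 ∈ reg G k z y} (φ p)) inferInstance,
      monotone_nat_of_le_succ fun k => by
        have : (fun p => ϖ {i | i.1 ∈ reg G k z y} (φ p)) = ϖ {i | i.1 ∈ reg G k z y} ∘
            fun p => ϖ {i | i.1 ∈ reg G (k + 1) z y} (φ p) := by
          funext p i
          by_cases hi : i.1 ∈ reg G k z y
          · simp [ϖ, hi, reg_mono k z y hi]
          · simp [ϖ, hi]
        rw [this, ← MeasurableSpace.comap_comp]
        exact MeasurableSpace.comap_mono (hϖ _).comap_le,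
      fun k => ((hϖ _).comp hφ.measurable).comap_le⟩
  have b : BM fun p : (V → Bool) × (V × ℕ → I × I) => spin (p.1 z) :=
    ⟨measurable_spin.comp (by fun_prop), 1, fun p => by cases p.1 z <;> simp [spin]⟩
  have c1 : ∀ k, (fun p => tanh (hb G θ (gN N (φ p)) k z y)) =ᵐ[Pn G θ]
      (Pn G θ)[fun p => spin (p.1 z)|ℱ k] := fun k => by
    have hv := sv_hb hG h0 h1 hA k z y
    refine IsCE.ae_eq (ℱ.le k) b ⟨?_, fun f hf => ?_⟩
    · convert BM.comap (fun p => ϖ {i | i.1 ∈ reg G k z y} (φ p)) (BM.tanh hv.bm.meas) using 3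
      exact (pw_left hv.dep subset_rfl _ _).symm
    · obtain ⟨f', f1, f2⟩ := BM.factor hf
      simp only [f2]
      rw [integral_spin hG h0 h1 A z (f1.comp (hϖ _)), ← hv.proj hG h0 h1 (f1.comp (hϖ _))
        fun _ _ e => congrArg f' (funext fun i => if_ctx_congr Iff.rfl (e i) fun _ => rfl),
        ← integral_comp_mp hφ ((BM.tanh hv.bm.meas).mul (f1.comp (hϖ _))).meas]
  have c2 : ∀ᵐ p ∂Pn G θ, (∃ l, Tendsto (fun k => hb G θ (gN N (φ p)) k z y) atTop (𝓝 l)) ∧
      tanh (X G θ (gN N (φ p)) z y) = ((Pn G θ)[fun p => spin (p.1 z)|⨆ k, ℱ k]) p := by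
    filter_upwards [tendsto_ae_condExp (ℱ := ℱ) (μ := Pn G θ) fun p => spin (p.1 z),
      ae_all_iff.2 c1] with p hp hp'
    simp only [← hp'] at hp
    have e1 : |((Pn G θ)[fun p => spin (p.1 z)|⨆ k, ℱ k]) p| < 1 :=
      (le_of_tendsto' hp.abs fun k => by
        rw [abs_tanh]; exact tanh_mono (abs_hb_le h0 h1 hd (abs_gN_le N _) k z y)).trans_lt
        (tanh_lt_one _)
    have e2 := (continuousAt_artanh e1).tendsto.comp hp
    simp only [Function.comp_def, artanh_tanh] at e2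
    exact ⟨⟨_, e2⟩, by rw [X, lim0_eq e2, tanh_artanh (abs_lt.1 e1)]⟩
  have mX := measurable_X (G := G) (θ := θ) (measurable_gN (V := V) N) z y
  refine ⟨?_, ⟨mX, _, fun ω => abs_X_le h0 h1 hd (abs_gN_le N ω) z y⟩,
    fun ω => by rw [gN_neg, X_neg h0 h1], fun ω ω' e => ?_, fun D hD ho hd' => ?_⟩
  · rw [← hφ.map_eq]
    exact (ae_map_iff hφ.measurable.aemeasurable (measurableSet_exists_tendsto fun k =>
      measurable_hb (measurable_gN N) k z y)).2 (c2.mono fun p hp => hp.1)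
  · simp only [X, fun k => (sv_hb hG h0 h1 hA k z y).dep fun i hi => e i ⟨k, hi⟩]
  · have e1 : @BM _ (⨆ k, ℱ k) fun p => D (φ p) := by
      have : @Measurable _ _ (⨆ k, ℱ k) _ fun p => ϖ {i | ∃ k, i.1 ∈ reg G k z y} (φ p) := by
        refine @measurable_pi_lambda _ _ _ (⨆ k, ℱ k) _ _ fun i => ?_
        by_cases hi : ∃ k, i.1 ∈ reg G k z y
        · obtain ⟨k, hk⟩ := hi
          convert ((measurable_pi_apply i).comp (comap_measurable fun p =>
            ϖ {i | i.1 ∈ reg G k z y} (φ p))).mono (le_iSup (fun k => ℱ k) k) le_rfl using 2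
          simp [ϖ, hk, show ∃ k, i.1 ∈ reg G k z y from ⟨k, hk⟩]
        · simpa [ϖ, hi] using measurable_const
      convert @BM.comp _ _ _ (⨆ k, ℱ k) D hD _ this using 2
      exact (pw_left hd' subset_rfl _ _).symm
    have e2 := integral_condExp_mul (μ := Pn G θ) (iSup_le ℱ.le) b e1
    rw [integral_spin hG h0 h1 A z hD, integral_Q hG h0 h1 A z hD,
      ← integral_congr_ae (f := fun p => tanh (X G θ (gN N (φ p)) z y) * D (φ p))
        (c2.mono fun p hp => by simp only [hp.2]),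
      integral_comp_mp hφ ((BM.tanh mX).mul hD).meas, integral_even hG h0 h1 A z
        ((BM.tanh mX).mul hD) fun ω => by simp [gN_neg, X_neg h0 h1, tanh_neg, ho]] at e2
    simp only [sub_mul, one_mul, ho, integral_neg] at e2 ⊢
    rw [integral_sub' hD ((BM.tanh mX).mul hD), e2]
    ring

end Vale.Agent.P161
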