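import Vale.Agent.P161.Defs

/-!
Bounded measurable functions, conditional expectations by duality, and the observation channel.
-/

open MeasureTheory Real Set
open scoped BigOperators Classical unitInterval

namespace Vale.Agent.P161

structure BM {X : Type*} [MeasurableSpace X] (f : X → ℝ) : Prop where
  meas : Measurable f
  bdd : ∃ B, ∀ x, |f x| ≤ B

namespace BM

variable {X Y : Type*} [mX : MeasurableSpace X] [MeasurableSpace Y] {f g : X → ℝ}

lemma const (c : ℝ) : BM fun _ : X => c := ⟨measurable_const, |c|, fun _ => le_rfl⟩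

lemma add (hf : BM f) (hg : BM g) : BM fun x => f x + g x := by
  obtain ⟨A, hA⟩ := hf.bdd
  obtain ⟨B, hB⟩ := hg.bdd
  exact ⟨hf.meas.add hg.meas, A + B, fun x => (abs_add_le _ _).trans (add_le_add (hA x) (hB x))⟩

lemma neg (hf : BM f) : BM fun x => -f x := ⟨hf.meas.neg, by simpa using hf.bdd⟩

lemma sub (hf : BM f) (hg : BM g) : BM fun x => f x - g x := by
  simpa only [sub_eq_add_neg] using hf.add hg.neg

lemma mul (hf : BM f) (hg : BM g) : BM fun x => f x * g x := by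
  obtain ⟨A, hA⟩ := hf.bdd
  obtain ⟨B, hB⟩ := hg.bdd
  exact ⟨hf.meas.mul hg.meas, A * B, fun x => by
    rw [abs_mul]; exact mul_le_mul (hA x) (hB x) (abs_nonneg _) ((abs_nonneg _).trans (hA x))⟩

lemma cmul (c : ℝ) (hf : BM f) : BM fun x => c * f x := (const c).mul hf

lemma div_const (hf : BM f) (c : ℝ) : BM fun x => f x / c := by
  simpa only [div_eq_mul_inv] using hf.mul (const c⁻¹)

lemma pow (hf : BM f) (n : ℕ) : BM fun x => f x ^ n := by
  induction n with
  | zero => simpa using const 1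
  | succ n ih => simpa only [pow_succ] using ih.mul hf

lemma comp (hf : BM f) {φ : Y → X} (hφ : Measurable φ) : BM fun y => f (φ y) :=
  ⟨hf.meas.comp hφ, hf.bdd.imp fun _ h _ => h _⟩

lemma sum {ι : Type*} (s : Finset ι) {f : ι → X → ℝ} (h : ∀ i ∈ s, BM (f i)) :
    BM fun x => ∑ i ∈ s, f i x := by
  induction s using Finset.induction_on with
  | empty => simpa using const 0
  | insert i s hi ih =>
    simpa only [Finset.sum_insert hi] using (h i (by simp)).add (ih fun j hj => h j (by simp [hj]))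

lemma prod {ι : Type*} (s : Finset ι) {f : ι → X → ℝ} (h : ∀ i ∈ s, BM (f i)) :
    BM fun x => ∏ i ∈ s, f i x := by
  induction s using Finset.induction_on with
  | empty => simpa using const 1
  | insert i s hi ih =>
    simpa only [Finset.prod_insert hi] using (h i (by simp)).mul (ih fun j hj => h j (by simp [hj]))

lemma ite {p : X → Prop} [DecidablePred p] (hp : MeasurableSet {x | p x}) (hf : BM f) (hg : BM g) :
    BM fun x => if p x then f x else g x := by
  obtain ⟨A, hA⟩ := hf.bdd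
  obtain ⟨B, hB⟩ := hg.bdd
  refine ⟨Measurable.ite hp hf.meas hg.meas, max A B, fun x => ?_⟩
  split_ifs
  · exact (hA x).trans (le_max_left _ _)
  · exact (hB x).trans (le_max_right _ _)

lemma cont (hf : BM f) {φ : ℝ → ℝ} (hφ : Continuous φ) : BM fun x => φ (f x) := by
  obtain ⟨A, hA⟩ := hf.bdd
  obtain ⟨B, hB⟩ := (isCompact_Icc (a := -A) (b := A)).exists_bound_of_continuousOn hφ.continuousOn
  exact ⟨hφ.measurable.comp hf.meas, B, fun x => hB _ (abs_le.1 (hA x))⟩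

lemma integrable (hf : BM f) (μ : Measure X) [IsFiniteMeasure μ] : Integrable f μ := by
  obtain ⟨A, hA⟩ := hf.bdd
  exact Integrable.of_bound hf.meas.aestronglyMeasurable A (ae_of_all _ hA)

lemma integral_right {f : X × Y → ℝ} (hf : BM f) (ν : Measure Y) [IsFiniteMeasure ν] :
    BM fun x => ∫ y, f (x, y) ∂ν := by
  obtain ⟨A, hA⟩ := hf.bdd
  refine ⟨hf.meas.stronglyMeasurable.integral_prod_right'.measurable, A * ν.real univ, fun x => ?_⟩
  exact norm_integral_le_of_norm_le_const (f := fun y => f (x, y)) (ae_of_all _ fun y => hA _)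

lemma mono {m' : MeasurableSpace X} (h : m' ≤ mX) (hf : @BM X m' f) : @BM X mX f :=
  @BM.mk X mX f ((@BM.meas X m' f hf).mono h le_rfl) (@BM.bdd X m' f hf)

end BM

section
variable {X Y : Type*} [MeasurableSpace X] [MeasurableSpace Y]

lemma integral_le_of_ae {μ : Measure X} [IsFiniteMeasure μ] {f g : X → ℝ} (hf : BM f) (hg : BM g)
    (h : ∀ᵐ x ∂μ, f x ≤ g x) : ∫ x, f x ∂μ ≤ ∫ x, g x ∂μ :=
  integral_mono_ae (hf.integrable μ) (hg.integrable μ) h

lemma integral_le_const {μ : Measure X} [IsProbabilityMeasure μ] {f : X → ℝ} (hf : BM f) {c : ℝ}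
    (h : ∀ x, f x ≤ c) : ∫ x, f x ∂μ ≤ c :=
  (integral_le_of_ae hf (BM.const c) (ae_of_all _ h)).trans_eq (by simp)

lemma integral_add' {μ : Measure X} [IsFiniteMeasure μ] {f g : X → ℝ} (hf : BM f) (hg : BM g) :
    ∫ x, f x + g x ∂μ = ∫ x, f x ∂μ + ∫ x, g x ∂μ :=
  integral_add (hf.integrable μ) (hg.integrable μ)

lemma integral_sub' {μ : Measure X} [IsFiniteMeasure μ] {f g : X → ℝ} (hf : BM f) (hg : BM g) :
    ∫ x, f x - g x ∂μ = ∫ x, f x ∂μ - ∫ x, g x ∂μ :=
  integral_sub (hf.integrable μ) (hg.integrable μ)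

lemma integral_sum' {μ : Measure X} [IsFiniteMeasure μ] {ι : Type*} (s : Finset ι)
    {f : ι → X → ℝ} (h : ∀ i ∈ s, BM (f i)) :
    ∫ x, ∑ i ∈ s, f i x ∂μ = ∑ i ∈ s, ∫ x, f i x ∂μ :=
  integral_finset_sum s fun i hi => (h i hi).integrable μ

lemma integral_comp_mp {μ : Measure X} {ν : Measure Y} {φ : X → Y} (h : MeasurePreserving φ μ ν)
    {f : Y → ℝ} (hf : Measurable f) : ∫ x, f (φ x) ∂μ = ∫ y, f y ∂ν := by
  rw [← h.map_eq, integral_map h.measurable.aemeasurable hf.aestronglyMeasurable]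

lemma real_eq_integral' {P : Measure X} {p : X → Prop} [DecidablePred p]
    (h : MeasurableSet {x | p x}) : P.real {x | p x} = ∫ x, if p x then (1 : ℝ) else 0 ∂P := by
  rw [← integral_indicator_one h]
  congr 1
  funext x
  by_cases hx : p x <;> simp [hx]

lemma integral_prod' {μ : Measure X} {ν : Measure Y} [IsFiniteMeasure μ] [IsFiniteMeasure ν]
    {f : X × Y → ℝ} (hf : BM f) : ∫ p, f p ∂μ.prod ν = ∫ x, ∫ y, f (x, y) ∂ν ∂μ :=
  integral_prod _ (hf.integrable _)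

lemma integral_prod'' {μ : Measure X} {ν : Measure Y} [IsFiniteMeasure μ] [IsFiniteMeasure ν]
    {f : X × Y → ℝ} (hf : BM f) : ∫ p, f p ∂μ.prod ν = ∫ y, ∫ x, f (x, y) ∂μ ∂ν :=
  integral_prod_symm _ (hf.integrable _)

end

section CE
variable {X : Type*} {H : MeasurableSpace X} [mX : MeasurableSpace X] {μ : Measure X}
  [IsProbabilityMeasure μ] {f f' g g' : X → ℝ}

structure IsCE (H : MeasurableSpace X) [MeasurableSpace X] (μ : Measure X) (f g : X → ℝ) :
    Prop where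
  bm : @BM X H g
  eq : ∀ k, @BM X H k → ∫ x, f x * k x ∂μ = ∫ x, g x * k x ∂μ

lemma exists_isCE (hH : H ≤ mX) (hf : Measurable f) {a b : ℝ} (h : ∀ x, f x ∈ Icc a b) :
    ∃ g, IsCE H μ f g ∧ ∀ x, g x ∈ Icc a b := by
  have hb : BM f := ⟨hf, max |a| |b|, fun x => abs_le_max_abs_abs (h x).1 (h x).2⟩
  have hab : a ≤ b := by
    obtain ⟨x⟩ := nonempty_of_isProbabilityMeasure μ
    exact (h x).1.trans (h x).2
  have h1 : ∀ᵐ x ∂μ, max a (min b ((μ[f|H]) x)) = (μ[f|H]) x := by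
    have e1 := condExp_mono (m := H) (integrable_const a) (hb.integrable μ)
      (ae_of_all _ fun x => (h x).1)
    have e2 := condExp_mono (m := H) (hb.integrable μ) (integrable_const b)
      (ae_of_all _ fun x => (h x).2)
    rw [condExp_const hH] at e1 e2
    filter_upwards [e1, e2] with x e1 e2
    rw [min_eq_right e2, max_eq_right e1]
  have h2 : ∀ x, max a (min b ((μ[f|H]) x)) ∈ Icc a b := fun x =>
    ⟨le_max_left _ _, max_le hab (min_le_left _ _)⟩
  refine ⟨fun x => max a (min b ((μ[f|H]) x)), ⟨@BM.mk X H _ (@Measurable.max _ _ _ _ _ H _ _ _ _ _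
    measurable_const (@Measurable.min _ _ _ _ _ H _ _ _ _ _ measurable_const
    stronglyMeasurable_condExp.measurable)) ⟨max |a| |b|, fun x =>
      abs_le_max_abs_abs (h2 x).1 (h2 x).2⟩, fun k hk => ?_⟩, h2⟩
  have e3 := condExp_mul_of_stronglyMeasurable_right (m := H) (μ := μ)
    (@BM.meas X H k hk).stronglyMeasurable ((hb.mul (hk.mono hH)).integrable μ) (hb.integrable μ)
  rw [← integral_condExp hH]
  refine integral_congr_ae ?_
  filter_upwards [e3, h1] with x e3 h1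
  rw [h1]
  exact e3

lemma IsCE.nonneg (hH : H ≤ mX) (h : IsCE H μ f g) (h0 : ∀ᵐ x ∂μ, 0 ≤ f x) :
    ∀ᵐ x ∂μ, 0 ≤ g x := by
  have hk : @BM X H fun x => min (g x) 0 := @BM.cont X H g h.bm _ (continuous_id.min continuous_const)
  have h1 := h.eq _ hk
  have h2 : ∫ x, f x * min (g x) 0 ∂μ ≤ 0 :=
    integral_nonpos_of_ae (h0.mono fun x hx => mul_nonpos_of_nonneg_of_nonpos hx (min_le_right _ _))
  have h3 : ∀ x, g x * min (g x) 0 = min (g x) 0 ^ 2 := fun x => by
    rcases le_total (g x) 0 with h | h <;> simp [h, sq]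
  simp only [h3] at h1
  have h4 := (integral_eq_zero_iff_of_nonneg (fun x => sq_nonneg _)
    (((hk.mono hH).pow 2).integrable μ)).1 (le_antisymm (h1 ▸ h2) (integral_nonneg fun x => sq_nonneg _))
  filter_upwards [h4] with x hx
  exact min_eq_right_iff.1 (pow_eq_zero_iff two_ne_zero |>.1 hx)

lemma IsCE.add (hH : H ≤ mX) (hf : BM f) (hf' : BM f') (h : IsCE H μ f g) (h' : IsCE H μ f' g') :
    IsCE H μ (fun x => f x + f' x) fun x => g x + g' x where
  bm := @BM.add X H _ _ h.bm h'.bm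
  eq k hk := by
    simp only [add_mul]
    rw [integral_add' (hf.mul (hk.mono hH)) (hf'.mul (hk.mono hH)), h.eq k hk, h'.eq k hk,
      integral_add' ((h.bm.mono hH).mul (hk.mono hH)) ((h'.bm.mono hH).mul (hk.mono hH))]

omit [IsProbabilityMeasure μ] in
lemma IsCE.cmul (c : ℝ) (h : IsCE H μ f g) : IsCE H μ (fun x => c * f x) fun x => c * g x where
  bm := @BM.cmul X H _ c h.bm
  eq k hk := by simp only [mul_assoc, integral_const_mul, h.eq k hk]

omit [IsProbabilityMeasure μ] in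
lemma IsCE.self (h : @BM X H f) : IsCE H μ f f := ⟨h, fun _ _ => rfl⟩

lemma IsCE.mono (hH : H ≤ mX) (hf : BM f) (hf' : BM f') (h : IsCE H μ f g) (h' : IsCE H μ f' g')
    (h0 : ∀ᵐ x ∂μ, f x ≤ f' x) : ∀ᵐ x ∂μ, g x ≤ g' x :=
  ((h'.add hH hf' (hf.cmul (-1)) (h.cmul (-1))).nonneg hH (h0.mono fun x hx => by linarith)).mono
    fun x hx => by linarith

lemma IsCE.unique (hH : H ≤ mX) (hf : BM f) (h : IsCE H μ f g) (h' : IsCE H μ f g') :
    ∀ᵐ x ∂μ, g x = g' x := by
  filter_upwards [h.mono hH hf hf h' (ae_of_all _ fun _ => le_rfl),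
    h'.mono hH hf hf h (ae_of_all _ fun _ => le_rfl)] with x h1 h2 using le_antisymm h1 h2

lemma IsCE.pyth (hH : H ≤ mX) (hf : BM f) (h : IsCE H μ f g) {k : X → ℝ} (hk : @BM X H k) :
    ∫ x, (f x - k x) ^ 2 ∂μ = ∫ x, (f x - g x) ^ 2 ∂μ + ∫ x, (g x - k x) ^ 2 ∂μ := by
  have hg := h.bm.mono hH
  have hk' := hk.mono hH
  have h1 := h.eq _ (@BM.sub X H _ _ h.bm hk)
  rw [← sub_eq_zero, ← integral_sub' (hf.mul (hg.sub hk')) (hg.mul (hg.sub hk'))] at h1
  rw [← integral_add' ((hf.sub hg).pow 2) ((hg.sub hk').pow 2), ← add_zero (∫ x, _ + _ ∂μ),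
    ← mul_zero 2, ← h1, ← integral_const_mul, ← integral_add' (((hf.sub hg).pow 2).add
      ((hg.sub hk').pow 2)) (((hf.mul (hg.sub hk')).sub (hg.mul (hg.sub hk'))).cmul 2)]
  congr 1
  funext x
  ring

lemma IsCE.le (hH : H ≤ mX) (hf : BM f) (h : IsCE H μ f g) {k : X → ℝ} (hk : @BM X H k) :
    ∫ x, (f x - g x) ^ 2 ∂μ ≤ ∫ x, (f x - k x) ^ 2 ∂μ := by
  rw [h.pyth hH hf hk]
  exact le_add_of_nonneg_right (integral_nonneg fun x => sq_nonneg _)

lemma IsCE.comp (hH : H ≤ mX) (hf : BM f) (h : IsCE H μ f g) {φ : X → X}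
    (hφ : MeasurePreserving φ μ μ) (hi : ∀ x, φ (φ x) = x) (hφ' : @Measurable X X H H φ) :
    IsCE H μ (fun x => f (φ x)) fun x => g (φ x) where
  bm := @BM.comp X X H H g h.bm φ hφ'
  eq k hk := by
    have hk' : @BM X H fun x => k (φ x) := @BM.comp X X H H k hk φ hφ'
    have h1 := h.eq _ hk'
    rw [← integral_comp_mp hφ (hf.mul (hk'.mono hH)).meas,
      ← integral_comp_mp hφ ((h.bm.mono hH).mul (hk'.mono hH)).meas] at h1
    simpa only [hi] using h1

lemma IsCE.integral (h : IsCE H μ f g) : ∫ x, f x ∂μ = ∫ x, g x ∂μ := by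
  simpa using h.eq _ (@BM.const X H 1)

end CE

noncomputable def Fc (c y : ℝ) : ℝ := (y + 1) / 2 + c * (y ^ 2 - 1) / 4

noncomputable def Qf (c u : ℝ) : ℝ := (4 * u + c - 2) / (1 + √((1 - c) ^ 2 + 4 * c * u))

noncomputable def Uf (c y : ℝ) : I := projIcc 0 1 zero_le_one (Fc c y)

lemma measurable_Qf : Measurable fun p : ℝ × ℝ => Qf p.1 p.2 := by
  unfold Qf
  fun_prop

lemma measurable_Uf : Measurable fun p : ℝ × ℝ => Uf p.1 p.2 :=
  (continuous_projIcc.comp (by unfold Fc; fun_prop)).measurable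

lemma Fc_sub (c y y' : ℝ) : Fc c y - Fc c y' = (y - y') * (1 / 2 + c * (y + y') / 4) := by
  simp only [Fc]; ring

lemma Fc_slope {c y y' : ℝ} (hc : |c| ≤ 1 / 2) (hy : |y| ≤ 1) (hy' : |y'| ≤ 1) :
    1 / 4 ≤ 1 / 2 + c * (y + y') / 4 := by
  have h : |c * (y + y')| ≤ 1 / 2 * 2 := by
    rw [abs_mul]
    exact mul_le_mul hc ((abs_add_le _ _).trans (by linarith)) (abs_nonneg _) (by norm_num)
  linarith [(abs_le.1 h).1]

lemma Qf_spec {c u : ℝ} (hc : |c| ≤ 1 / 2) (hu : u ∈ Icc (0 : ℝ) 1) :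
    |Qf c u| ≤ 1 ∧ Fc c (Qf c u) = u := by
  obtain ⟨c1, c2⟩ := abs_le.1 hc
  obtain ⟨u1, u2⟩ := hu
  have h0 : (1 - |c|) ^ 2 ≤ (1 - c) ^ 2 + 4 * c * u := by
    rcases le_total 0 c with h | h
    · rw [abs_of_nonneg h]; nlinarith [mul_nonneg h u1]
    · rw [abs_of_nonpos h]; nlinarith
  have h1 := le_sqrt_of_sq_le h0
  have h2 := sq_sqrt ((sq_nonneg _).trans h0)
  rw [Qf]
  set r := √((1 - c) ^ 2 + 4 * c * u) with hr
  have h3 : 0 < 1 + r := by linarith
  constructor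
  · rw [abs_div, abs_of_pos h3, div_le_one h3, abs_le]
    constructor
    · by_contra h
      rcases le_total 0 c with h4 | h4
      · rw [abs_of_nonneg h4] at h1; linarith
      · have h5 : r < 1 - c - 4 * u := by linarith
        nlinarith
    · by_contra h
      rcases le_total 0 c with h4 | h4
      · have h5 : r < 4 * u + c - 3 := by linarith
        nlinarith
      · rw [abs_of_nonpos h4] at h1; linarith
  · rw [Fc]
    field_simp
    linear_combination (2 * (2 - c - 4 * u)) * h2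

lemma Qf_Fc {c y : ℝ} (hc : |c| ≤ 1 / 2) (hy : |y| ≤ 1) :
    Fc c y ∈ Icc (0 : ℝ) 1 ∧ Qf c (Fc c y) = y := by
  have h1 : Fc c y ∈ Icc (0 : ℝ) 1 := by
    have a1 := Fc_sub c y (-1)
    have a2 := Fc_sub c 1 y
    have a3 := Fc_slope hc hy (y' := -1) (by simp)
    have a4 := Fc_slope hc (y := 1) (by simp) hy
    obtain ⟨y1, y2⟩ := abs_le.1 hy
    have e1 : Fc c (-1) = 0 := by simp [Fc]
    have e2 : Fc c 1 = 1 := by simp [Fc]
    constructor <;> nlinarith
  obtain ⟨h2, h3⟩ := Qf_spec hc h1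
  have h4 := Fc_sub c (Qf c (Fc c y)) y
  rw [h3, sub_self] at h4
  have h5 := Fc_slope hc h2 hy
  exact ⟨h1, sub_eq_zero.1 ((mul_eq_zero.1 h4.symm).resolve_right (by linarith))⟩

lemma Uf_Qf {c : ℝ} (hc : |c| ≤ 1 / 2) (u : I) : Uf c (Qf c u) = u := by
  rw [Uf, (Qf_spec hc u.2).2, projIcc_val]

lemma Qf_Uf {c y : ℝ} (hc : |c| ≤ 1 / 2) (hy : |y| ≤ 1) : Qf c (Uf c y) = y := by
  rw [Uf, projIcc_of_mem _ (Qf_Fc hc hy).1, (Qf_Fc hc hy).2]

lemma Uf_neg (c y : ℝ) : Uf (-c) (-y) = σ (Uf c y) := by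
  have : Fc (-c) (-y) = 1 - Fc c y := by simp only [Fc]; ring
  ext
  rw [Uf, this, unitInterval.coe_symm_eq, Uf, coe_projIcc, coe_projIcc]
  rcases le_total (Fc c y) 0 with h | h
  · rw [min_eq_left (by linarith), min_eq_right (by linarith), max_eq_left h]; simp
  · rcases le_total (Fc c y) 1 with h' | h'
    · rw [min_eq_right (by linarith), min_eq_right h', max_eq_right h, max_eq_right (by linarith)]
    · rw [min_eq_right (by linarith), min_eq_left h', max_eq_left (by linarith)]; simp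

lemma Qf_lip {c c' : ℝ} (hc : |c| ≤ 1 / 2) (hc' : |c'| ≤ 1 / 2) (u : I) :
    |Qf c u - Qf c' u| ≤ |c - c'| := by
  obtain ⟨a1, a2⟩ := Qf_spec hc u.2
  obtain ⟨b1, b2⟩ := Qf_spec hc' u.2
  have h1 := Fc_sub c (Qf c u) (Qf c' u)
  have h2 := Fc_slope hc a1 b1
  have h3 : Fc c (Qf c u) - Fc c (Qf c' u) = (c - c') * ((1 - Qf c' u ^ 2) / 4) := by
    rw [a2]; nth_rewrite 1 [← b2]; simp only [Fc]; ring
  have h4 := congrArg abs (h1.symm.trans h3)
  have h5 : Qf c' u ^ 2 ≤ 1 := (sq_le_one_iff_abs_le_one _).2 b1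
  rw [abs_mul, abs_mul, abs_of_nonneg (by linarith : 0 ≤ 1 / 2 + c * (Qf c u + Qf c' u) / 4),
    abs_of_nonneg (by linarith : 0 ≤ (1 - Qf c' u ^ 2) / 4)] at h4
  nlinarith [abs_nonneg (Qf c u - Qf c' u), abs_nonneg (c - c'), sq_nonneg (Qf c' u)]

lemma cov {c : ℝ} (hc : |c| ≤ 1 / 2) (ψ : ℝ → ℝ) :
    ∫ u : I, ψ (Qf c u) = ∫ y in Icc (-1 : ℝ) 1, (1 + c * y) / 2 * ψ y := by
  have h1 : Fc c '' Icc (-1) 1 = Icc 0 1 := Subset.antisymm
    (by rintro _ ⟨y, hy, rfl⟩; exact (Qf_Fc hc (abs_le.2 hy)).1)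
    fun u hu => ⟨_, abs_le.1 (Qf_spec hc hu).1, (Qf_spec hc hu).2⟩
  have h2 := integral_image_eq_integral_abs_deriv_smul (f := Fc c) (f' := fun y => (1 + c * y) / 2)
    (s := Icc (-1 : ℝ) 1) measurableSet_Icc (fun y _ => by
      have : HasDerivAt (Fc c) ((1 + c * y) / 2) y := by
        unfold Fc
        convert (((hasDerivAt_id' y).add_const 1).div_const 2).add
          ((((hasDerivAt_pow 2 y).sub_const 1).const_mul c).div_const 4) using 1
        all_goals first | rfl | (norm_num; ring)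
      exact this.hasDerivWithinAt)
    (fun y hy y' hy' h => by
      rw [← (Qf_Fc hc (abs_le.2 hy)).2, h, (Qf_Fc hc (abs_le.2 hy')).2]) fun x => ψ (Qf c x)
  rw [h1] at h2
  rw [unitInterval.measurePreserving_coe.integral_comp unitInterval.measurableEmbedding_coe
    fun x => ψ (Qf c x), h2]
  refine setIntegral_congr_fun measurableSet_Icc fun y hy => ?_
  have h3 := Fc_slope hc (abs_le.2 hy) (abs_le.2 hy)
  simp only [smul_eq_mul]
  rw [(Qf_Fc hc (abs_le.2 hy)).2, abs_of_nonneg (by linarith)]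

lemma integral_odd {ψ : ℝ → ℝ} (h : ∀ y, ψ (-y) = -ψ y) : ∫ y in Icc (-1 : ℝ) 1, ψ y = 0 := by
  rw [integral_Icc_eq_integral_Ioc, ← intervalIntegral.integral_of_le (by norm_num)]
  have h1 := intervalIntegral.integral_comp_neg (a := -1) (b := 1) ψ
  simp only [h, intervalIntegral.integral_neg, neg_neg] at h1
  linarith

lemma cov_neg {c : ℝ} (hc : |c| ≤ 1 / 2) (ψ : ℝ → ℝ) :
    ∫ u : I, ψ (-Qf c u) = ∫ y in Icc (-1 : ℝ) 1, (1 - c * y) / 2 * ψ y := by
  have h1 : ∀ u : I, -Qf c u = Qf (-c) (σ u) := fun u => by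
    rw [Qf, Qf, unitInterval.coe_symm_eq, ← neg_div]
    congr 3 <;> ring
  simp only [h1]
  rw [unitInterval.measurePreserving_symm.integral_comp
    unitInterval.symmMeasurableEquiv.measurableEmbedding fun u => ψ (Qf (-c) u),
    cov (by rwa [abs_neg])]
  simp only [neg_mul, ← sub_eq_add_neg]

lemma integral_Qf_sq {c : ℝ} (hc : |c| ≤ 1 / 2) : ∫ u : I, Qf c u ^ 2 = 1 / 3 := by
  rw [cov hc fun y => y ^ 2, integral_Icc_eq_integral_Ioc,
    ← intervalIntegral.integral_of_le (by norm_num)]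
  have : ∀ y : ℝ, (1 + c * y) / 2 * y ^ 2 = 1 / 2 * y ^ 2 + c / 2 * y ^ 3 := fun y => by ring
  simp only [this]
  rw [intervalIntegral.integral_add (by apply Continuous.intervalIntegrable; fun_prop)
    (by apply Continuous.intervalIntegrable; fun_prop), intervalIntegral.integral_const_mul,
    intervalIntegral.integral_const_mul, integral_pow, integral_pow]
  norm_num

noncomputable def psi (a m m' : ℝ) (u : I) : ℝ := a * Qf (a * m) u / (1 + m' * (a * Qf (a * m) u))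

lemma abs_mul_le_half {a m : ℝ} (ha : |a| ≤ 1 / 2) (hm : |m| ≤ 1) : |a * m| ≤ 1 / 2 := by
  rw [abs_mul]
  exact (mul_le_of_le_one_right (abs_nonneg _) hm).trans ha

lemma integral_psi {a m : ℝ} (ha : |a| ≤ 1 / 2) (hm : |m| ≤ 1) : ∫ u, psi a m m u = 0 := by
  unfold psi
  rw [cov (abs_mul_le_half ha hm) fun y => a * y / (1 + m * (a * y)),
    ← integral_odd (ψ := fun y => a * y / 2) fun y => by ring]
  refine setIntegral_congr_fun measurableSet_Icc fun y hy => ?_
  have h := (abs_le.1 (abs_mul_le_half (abs_mul_le_half ha hm) (abs_le.2 hy))).1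
  have h2 : 1 + m * (a * y) ≠ 0 := by nlinarith
  have h3 : 1 + a * m * y = 1 + m * (a * y) := by ring
  simp only [h3]
  rw [div_mul_div_comm, mul_comm (2 : ℝ), mul_div_mul_left _ _ h2]

lemma frac_bound {t m : ℝ} (ht : |t| ≤ 1 / 2) (hm : |m| ≤ 1) : |t / (1 + m * t)| ≤ 2 * |t| := by
  have h := (abs_le.1 (abs_mul_le_half ht hm)).1
  rw [abs_div, abs_of_pos (by linarith : 0 < 1 + m * t), div_le_iff₀ (by linarith)]
  nlinarith [abs_nonneg t]

lemma abs_psi_le {a m m' : ℝ} (ha : |a| ≤ 1 / 2) (hm : |m| ≤ 1) (hm' : |m'| ≤ 1) (u : I) :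
    |psi a m m' u| ≤ 2 * |a| := by
  have h := (Qf_spec (abs_mul_le_half ha hm) u.2).1
  refine (frac_bound (abs_mul_le_half ha h) hm').trans ?_
  rw [abs_mul]
  gcongr
  exact mul_le_of_le_one_right (abs_nonneg _) h

lemma psi_lip {a m m' n n' : ℝ} (ha : |a| ≤ 1 / 2) (hm : |m| ≤ 1) (hm' : |m'| ≤ 1) (hn : |n| ≤ 1)
    (hn' : |n'| ≤ 1) (u : I) :
    |psi a m m' u - psi a n n' u| ≤ 2 * |a| * (|m - n| + |m' - n'|) := by
  have q1 := (Qf_spec (abs_mul_le_half ha hm) u.2).1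
  have q2 := (Qf_spec (abs_mul_le_half ha hn) u.2).1
  have q3 := Qf_lip (abs_mul_le_half ha hm) (abs_mul_le_half ha hn) u
  rw [← mul_sub, abs_mul] at q3
  have d1 := (abs_le.1 (abs_mul_le_half (abs_mul_le_half ha q1) hm')).1
  have d2 := (abs_le.1 (abs_mul_le_half (abs_mul_le_half ha q2) hn')).1
  rw [psi, psi]
  generalize Qf (a * m) u = p at *
  generalize Qf (a * n) u = q at *
  have e1 : 1 / 2 ≤ 1 + m' * (a * p) := by linarith
  have e2 : 1 / 2 ≤ 1 + n' * (a * q) := by linarith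
  rw [div_sub_div _ _ (by linarith) (by linarith), abs_div, abs_of_pos (a := _ * _) (by positivity),
    div_le_iff₀ (by positivity)]
  have e3 : a * p * (1 + n' * (a * q)) - (1 + m' * (a * p)) * (a * q) =
      a * ((p - q) - a * (p * q * (m' - n'))) := by ring
  have e4 : |p * q * (m' - n')| ≤ |m' - n'| := by
    rw [abs_mul, abs_mul]
    exact mul_le_of_le_one_left (abs_nonneg _) (mul_le_one₀ q1 (abs_nonneg _) q2)
  have e5 : |(p - q) - a * (p * q * (m' - n'))| ≤ 1 / 2 * (|m - n| + |m' - n'|) := by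
    refine (abs_sub _ _).trans ?_
    rw [abs_mul]
    nlinarith [abs_nonneg (m - n), abs_nonneg a, abs_nonneg (p * q * (m' - n'))]
  rw [e3, abs_mul]
  have e6 : 1 / 4 ≤ (1 + m' * (a * p)) * (1 + n' * (a * q)) := by nlinarith
  calc _ ≤ |a| * (1 / 2 * (|m - n| + |m' - n'|)) := by gcongr
    _ = 2 * |a| * (|m - n| + |m' - n'|) * (1 / 4) := by ring
    _ ≤ _ := by gcongr

lemma measurable_psi {X : Type*} [MeasurableSpace X] {a m m' : X → ℝ} {u : X → I}
    (ha : Measurable a) (hm : Measurable m) (hm' : Measurable m') (hu : Measurable u) :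
    Measurable fun x => psi (a x) (m x) (m' x) (u x) := by
  unfold psi Qf
  fun_prop

end Vale.Agent.P161
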