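import Vale.Agent.P161.Crit

/-!
Above the threshold the correlations decay too slowly for a factor of IID.
-/

open Finset MeasureTheory Filter Topology Real
open scoped BigOperators Classical ENNReal unitInterval InnerProductSpace

namespace Vale.Agent.P161

variable {V : Type*} {G : SimpleGraph V} {θ : ℝ}

lemma bm_spin {X : Type*} [MeasurableSpace X] {f : X → Bool} (hf : Measurable f) :
    BM fun x => spin (f x) :=
  ⟨measurable_spin.comp hf, 1, fun x => by cases f x <;> norm_num [spin]⟩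

lemma sb_mean (hG : G.Connected) (h0 : 0 ≤ θ) (h1 : θ < 1) (z v : V) :
    ∫ α, spin (sb G θ z α v) ∂Lam V = θ ^ G.dist z v := by
  refine par_ind hG z (P := fun v => ∫ α, spin (sb G θ z α v) ∂Lam V = θ ^ G.dist z v)
    (by simp [sb_root, spin]) (fun u hu ih => ?_) v
  have m : MeasurableSet {p | eps θ p = true} := measurable_eps (measurableSet_singleton _)
  have e : ∫ p, spin (eps θ p) ∂lam = θ := by
    rw [show (fun p => spin (eps θ p)) = fun p => 2 * (if eps θ p = true then (1 : ℝ) else 0) - 1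
      from funext fun p => by cases eps θ p <;> norm_num [spin], integral_sub' (((BM.const 1).ite m
      (BM.const 0)).cmul 2) (BM.const 1), integral_const_mul, ← real_eq_integral' m, lam_eps h0 h1]
    simp [spin]
    ring
  rw [integral_resample u (bm_spin (measurable_pi_iff.1 (measurable_sb z) u)),
    ← (par_spec hG hu).2, pow_succ', ← ih, ← integral_const_mul]
  refine congrArg _ (funext fun α => ?_)
  rw [← e, ← integral_mul_const, e]
  refine congrArg _ (funext fun p => ?_)
  rw [sb_par hG hu, Function.update_self, spin_beq,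
    sb_congr hG (B := {w | G.dist z w < G.dist z u}) (α' := α) (fun w hw h => Or.inl (by
      have := (par_spec hG h).2
      simp only [Set.mem_setOf_eq] at hw ⊢
      omega)) (fun w hw _ => Function.update_of_ne (fun h => by simp [h] at hw) _ _) _
    (Or.inl (by simp [← (par_spec hG hu).2]))]

lemma Cay.sum_dist {b : ℕ} (S : Cay G (b + 1)) (hG : G.IsTree) {ψ : ℕ → ℝ} {l : ℝ}
    (h0 : (b + 1) * ψ 1 = l * ψ 0) (h : ∀ n, ψ n + b * ψ (n + 2) = l * ψ (n + 1)) (o v : V) :
    ∑ i, ψ (G.dist o (S.st i v)) = l * ψ (G.dist o v) := by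
  by_cases hv : v = o
  · subst hv
    simp [SimpleGraph.dist_eq_one_iff_adj.2 (S.adj_st _ v), h0]
  · obtain ⟨a1, a2⟩ := par_spec hG.connected hv
    obtain ⟨i, hi⟩ := (S.adj _ _).1 a1.symm
    rw [← add_sum_erase _ _ (mem_univ i), ← hi, ← a2, ← h, sum_congr rfl fun j hj => by
      rw [((adj_cases hG o (S.adj_st j v)).resolve_right fun e =>
        ne_of_mem_erase hj (S.inj v (e.2.symm.trans hi))).1, ← a2]]
    simp

variable [G.LocallyFinite] (hG : G.IsTree) (h0 : 0 ≤ θ) (h1 : θ < 1)
include hG h0 h1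

lemma mu_corr (z v : V) : ∫ ς, spin (ς z) * spin (ς v) ∂mu G θ = θ ^ G.dist z v := by
  have b := (bm_spin (measurable_pi_apply (X := fun _ : V => Bool) z)).mul
    (bm_spin (measurable_pi_apply v))
  rw [← integral_comp_mp (measurePreserving_fst (ν := Lam (V × ℕ))) b.meas, ← Pn,
    integral_Pn hG h0 h1 z (b.comp measurable_fst), ← sb_mean hG.connected h0 h1,
    ← integral_comp_mp (comp_mp (Sum.inl_injective (β := V × ℕ)))
    (bm_spin (measurable_pi_iff.1 (measurable_sb z) v)).meas]
  simp [spin_not, sb_root, show spin true = 1 from rfl, show spin false = -1 from rfl]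

theorem not_factor {b : ℕ} (hreg : ∀ v, G.degree v = b + 1) (hθ : 1 < b * θ ^ 2) :
    ¬IsFactorOfIID G (mu G θ) := by
  rintro ⟨Φ, mΦ, hΦ, he⟩
  obtain ⟨S⟩ := exists_cay hG hreg
  have t0 : 0 < θ := h0.lt_of_ne fun h => by norm_num [← h] at hθ
  have b1 : (1 : ℝ) < b := by nlinarith [mul_le_of_le_one_right b.cast_nonneg (pow_le_one₀ (n := 2)
    h0 h1.le)]
  haveI : IsProbabilityMeasure (iidUniform V) := by unfold iidUniform; infer_instance
  have mT : MeasurePreserving (fun (ω : Ob V) v => (ω (v, 0)).1) (Q G θ (top V)) (iidUniform V) := by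
    refine mp_of_integral (by fun_prop) fun f hf => ?_
    have a1 : MeasurePreserving (fun (ξ : V → I × I) v => (ξ v).1) (Lam V) (iidUniform V) :=
      ⟨by fun_prop, by
        rw [Lam, Measure.infinitePi_map_pi _ fun _ => measurable_fst, iidUniform, lam]
        simp⟩
    rw [← integral_comp_mp (mp_Q (top V)) (hf.comp (by fun_prop)).meas, ← integral_comp_mp
      ((a1.comp (comp_mp (e := fun v => (v, 0)) fun _ _ h => (Prod.ext_iff.1 h).1)).comp
      (measurePreserving_snd (μ := mu G θ))) hf.meas]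
    rfl
  have mp := (MeasurePreserving.mk mΦ hΦ).comp mT
  have hp := fun g => mp_pull hG h0 h1 (A := top V) g fun _ => rfl
  have bs := bm_spin (measurable_pi_apply (X := fun _ : V => Bool) S.o)
  let f : EE (Q G θ (top V)) fun x => (x.1, -x.2) := ⟨fun ω => spin (Φ (fun v => (ω (v, 0)).1) S.o),
    bs.comp mp.measurable, fun _ => rfl, (integral_comp_mp mp bs.meas).trans (by
      have := integral_spin hG h0 h1 (top V) S.o (BM.const 1)
      rw [← integral_comp_mp (measurePreserving_fst (ν := Lam (V × ℕ))) bs.meas]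
      simpa [Pn] using this)⟩
  have base : ∀ g : G ≃g G, ⟪UE hp g f, f⟫_ℝ = θ ^ G.dist S.o (g S.o) := fun g => by
    rw [inner_EE, ← mu_corr hG h0 h1, ← integral_comp_mp mp (bs.mul
      (bm_spin (measurable_pi_apply _))).meas]
    refine integral_congr_ae ((mT.quasiMeasurePreserving.ae (he g.symm)).mono fun ω h => ?_)
    exact (mul_comm _ _).trans (congrArg (_ * spin ·) (congrFun h S.o))
  obtain ⟨η, hη⟩ : ∃ η, η = 1 / (b * θ) := ⟨_, rfl⟩
  have η0 : 0 < η := by rw [hη]; positivity
  have η1 : η < θ := by rw [hη, div_lt_iff₀ (by positivity)]; nlinarith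
  have e' : b * (θ * η) = 1 := by rw [hη]; field_simp
  obtain ⟨κ, hκ⟩ : ∃ κ, κ = (b * η - θ) / (b * θ - η) := ⟨_, rfl⟩
  have d0 : 0 < b * θ - η := by nlinarith
  have κ0 : 0 ≤ κ := hκ ▸ div_nonneg (by nlinarith) d0.le
  have κ1 : κ < 1 := by rw [hκ, div_lt_one d0]; nlinarith
  rw [eq_div_iff d0.ne'] at hκ
  have sd := S.sum_dist hG (ψ := fun n => θ ^ n - κ * η ^ n) (l := b * θ + b * η)
    (by linear_combination hκ) fun n => by linear_combination (κ * η ^ n - θ ^ n) * e'
  have low : ∀ n (g : G ≃g G), (b * θ + b * η) ^ n * (θ ^ G.dist S.o (g S.o) -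
      κ * η ^ G.dist S.o (g S.o)) ≤ ⟪((∑ i, UE hp (S.gen i)) ^ n) (UE hp g f), f⟫_ℝ := fun n => by
    induction n with
    | zero => intro g; simp [base]; positivity
    | succ n ih =>
      intro g
      rw [pow_succ (∑ _, _), Module.End.mul_apply, LinearMap.sum_apply, map_sum, sum_inner,
        pow_succ, mul_assoc, SimpleGraph.dist_comm, ← sd, mul_sum]
      refine sum_le_sum fun i _ => le_trans (le_of_eq ?_) (ih (g.trans (S.gen i)))
      rw [RelIso.trans_apply, ← dist_iso (S.gen i) S.o, S.gen_gen hG, S.gen_o,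
        SimpleGraph.dist_comm]
  have γ0 : 0 < (θ + η) / 2 := by positivity
  have gp := gap (ν := fun x => (x.1, -x.2)) hp S hG (mp_neg hG h0 h1 _) (by simp) (1, 0) (fun z c h f g df dg => by
    rw [inner_EE, integral_even hG h0 h1 _ z (f.2.1.mul g.2.1) fun ω =>
      congrArg₂ _ (f.2.2.1 ω) (g.2.2.1 ω), (split_side hG _ h).mul f.2.1 g.2.1 df dg,
      ← integral_even hG h0 h1 _ z f.2.1 f.2.2.1, f.2.2.2, zero_mul]) γ0 (by linarith)
  obtain ⟨ρ, hρ⟩ : ∃ ρ, ρ = b * ((θ + η) / 2) + ((θ + η) / 2)⁻¹ := ⟨_, rfl⟩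
  have ρ0 : 0 < ρ := by rw [hρ]; positivity
  have ρ1 : ρ < b * θ + b * η := by
    rw [hρ, ← lt_sub_iff_add_lt', inv_lt_iff_one_lt_mul₀ γ0]
    nlinarith [mul_pos (zero_lt_one.trans b1) (pow_pos (sub_pos.2 η1) 2)]
  rw [← hρ] at gp
  have up : ∀ n, ‖((∑ i, UE hp (S.gen i)) ^ n) f‖ ≤ ρ ^ n * ‖f‖ := fun n => by
    induction n with
    | zero => simp
    | succ n ih =>
      rw [pow_succ', Module.End.mul_apply, LinearMap.sum_apply, pow_succ', mul_assoc]
      exact (gp _).trans (mul_le_mul_of_nonneg_left ih ρ0.le)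
  obtain ⟨n, hn⟩ := ((tendsto_pow_atTop_atTop_of_one_lt ((one_lt_div ρ0).2 ρ1)).atTop_mul_const
    (sub_pos.2 κ1)).eventually_gt_atTop (‖f‖ * ‖f‖) |>.exists
  have := (low n (RelIso.refl _)).trans ((real_inner_le_norm _ _).trans
    (mul_le_mul_of_nonneg_right (up n) (norm_nonneg _)))
  rw [div_pow, div_mul_eq_mul_div, lt_div_iff₀ (by positivity)] at hn
  simp only [RelIso.refl_apply, SimpleGraph.dist_self, pow_zero, mul_one] at this
  linarith

end Vale.Agent.P161
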