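import Vale.Agent.P161.Main

/-!
Assembly of the factor map below the Kesten-Stigum threshold.
-/

open Finset MeasureTheory Filter Topology
open scoped BigOperators Classical ENNReal

namespace Vale.Agent.P161

variable {V : Type*} {G : SimpleGraph V} {θ : ℝ}

noncomputable def sk (G : SimpleGraph V) (θ : ℝ) (n R : ℕ) (key ξ : ℕ × V → ℝ) (v : V) : Bool :=
  decide (0 < M G θ (ball G v R) (range n ×ˢ ball G v R) key n v ξ)

lemma measurable_sk (a : ℝ) (n R : ℕ) (v : V) :
    Measurable fun L : V → Lab => sk G θ n R (keyL L) (xiL a L) v := by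
  refine measurable_to_bool ?_
  have : (fun L : V → Lab => sk G θ n R (keyL L) (xiL a L) v) ⁻¹' {true} =
    {L | 0 < M G θ (ball G v R) (range n ×ˢ ball G v R) (keyL L) n v (xiL a L)} := by
    ext L; simp [sk]
  rw [this]
  exact measurableSet_lt measurable_const (measurable_M measurable_keyL (measurable_xiL a) _ _)

lemma exists_scales [G.LocallyFinite] (hG : G.IsTree) {d : ℕ} (hd : ∀ v, G.degree v ≤ d + 1)
    (hd1 : 1 ≤ d) (h0 : 0 ≤ θ) (h1 : θ < 1) (h : d * θ ^ 2 < 1) :
    ∃ (a : ℝ) (n R : ℕ → ℕ), |a| ≤ 1 / 2 ∧ Monotone n ∧ Monotone R ∧ (∀ k, 0 < R k) ∧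
      ∀ k v D n', WConn G D → ball G v (R k) ⊆ D → n k ≤ n' → ∀ key b : ℕ × V → ℝ,
        Set.InjOn key (range n' ×ˢ D : Finset (ℕ × V)) →
        (∀ i, (i.1 : ℝ) ≤ key i ∧ key i < i.1 + 1) → (∀ j, b j ^ 2 = a ^ 2) →
        E (range n' ×ˢ D) b (fun ξ => (M G θ (ball G v (R k)) (range (n k) ×ˢ ball G v (R k))
          key (n k) v ξ - M G θ D (range n' ×ˢ D) key (n k) v ξ) ^ 2) ≤ (1 / 2) ^ k ∧
        E (range n' ×ˢ D) b (fun ξ => 1 - M G θ D (range n' ×ˢ D) key (n k) v ξ ^ 2) ≤
          (1 / 2) ^ k := by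
  obtain ⟨l, γ, K, a, p1, p2, p3, p4, p5, p6, p7, p8⟩ := exists_params h0 h1 h hd1
  obtain ⟨N, hN⟩ := exists_nat_ge (1 / a ^ 2)
  obtain ⟨r, hr⟩ := pow_unbounded_of_one_lt 2 p1
  refine ⟨a, fun k => N * 4 ^ k, fun k => r * (N * 4 ^ k + k) + 1, p7, fun i j hij => ?_,
    fun i j hij => ?_, fun k => Nat.succ_pos _, fun k v D n' hD hR hn key b hk hkey hb => ⟨?_, ?_⟩⟩
  · dsimp only
    gcongr
    norm_num
  · dsimp only
    gcongr
    norm_num
  · have hv : v ∈ ball G v (r * (N * 4 ^ k + k) + 1) := (mem_ball hG.connected).2 (by simp)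
    refine (compare hG hd h0 h1 p1 p2 p3 p4 p5 p6 p7 hR (wconn_ball hG.connected _ _) hD hn hk
      (fun i => ⟨(hkey i).1, (hkey i).2.le⟩) hb subset_rfl _ le_rfl _ le_rfl v hv).trans ?_
    have a1 : (2 : ℝ) ^ (N * 4 ^ k + k) ≤ l ^ (r * (N * 4 ^ k + k) + 1) :=
      calc _ ≤ (l ^ r) ^ (N * 4 ^ k + k) := pow_le_pow_left₀ zero_le_two hr.le _
        _ ≤ _ := by rw [← pow_mul]; exact pow_le_pow_right₀ p1.le (Nat.le_succ _)
    rw [SimpleGraph.dist_self, pow_zero, mul_one_div, div_le_iff₀ (by positivity)]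
    calc _ ≤ (1 / 2) ^ k * (2 : ℝ) ^ (N * 4 ^ k + k) := by
          rw [pow_add, one_div_pow]
          field_simp
          linarith
      _ ≤ _ := by gcongr
  · refine localize hG.isAcyclic h0 h1 hn hk (fun i => (hkey i).2) hb p7 (by positivity) ?_
      (hR ((mem_ball hG.connected).2 (by simp)))
    rw [div_le_iff₀ (by positivity)] at hN
    refine hN.trans_eq ?_
    rw [← pow_mul, mul_comm k, pow_mul]
    push_cast
    have : (4 : ℝ) ^ k * ((1 / 2) ^ 2) ^ k = 1 := by rw [← mul_pow]; norm_num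
    linear_combination (-(N : ℝ) * a ^ 2) * this

lemma real_eq_integral {X : Type*} [MeasurableSpace X] {P : Measure X} {p : X → Prop}
    [DecidablePred p] (h : MeasurableSet {x | p x}) :
    P.real {x | p x} = ∫ x, if p x then (1 : ℝ) else 0 ∂P := by
  rw [← integral_indicator_one h]
  congr 1
  funext x
  by_cases hx : p x <;> simp [hx]

theorem exists_factor [G.LocallyFinite] (hG : G.IsTree) {d : ℕ} (hd : ∀ v, G.degree v ≤ d + 1)
    (hd1 : 1 ≤ d) (h0 : 0 ≤ θ) (h1 : θ < 1) (h : d * θ ^ 2 < 1) :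
    ∃ μ, IsFreeIsing G θ μ ∧ IsFactorOfIID G μ := by
  obtain ⟨a, n, R, ha, hn, hR, hR0, H⟩ := exists_scales hG hd hd1 h0 h1 h
  have hb' : ∀ b ξ : ℕ × V → ℝ, (∀ j, b j ^ 2 = a ^ 2) → Sg b ξ → ∀ j, |ξ j| ≤ 1 / 2 :=
    fun b ξ hb hξ j => by rwa [hξ.abs, (sq_eq_sq_iff_abs_eq_abs _ _).1 (hb j)]
  let S : ℕ → (V → Lab) → V → Bool := fun k L => sk G θ (n k) (R k) (keyL L) (xiL a L)
  let Ψ : (V → Lab) → V → Bool := fun L v => decide (∀ᶠ k in atTop, S k L v = true)
  have mS : ∀ k v, Measurable fun L => S k L v := fun k v => measurable_sk a _ _ v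
  have mΨ : Measurable Ψ := measurable_pi_lambda _ fun v => by
    refine measurable_to_bool ?_
    have : (fun L => Ψ L v) ⁻¹' {true} = ⋃ K : ℕ, ⋂ k : ℕ, ⋂ _ : K ≤ k, {L | S k L v = true} := by
      ext L; simp [Ψ, eventually_atTop]
    rw [this]
    exact MeasurableSet.iUnion fun K => MeasurableSet.iInter fun k => MeasurableSet.iInter fun _ =>
      mS k v (measurableSet_singleton true)
  have step : ∀ k v, (PL V).real {L | S k L v ≠ S (k + 1) L v} ≤ 10 * (1 / 2) ^ k := fun k v => by
    have hm : MeasurableSet {L | S k L v ≠ S (k + 1) L v} :=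
      (measurableSet_eq_fun (mS k v) (mS _ v)).compl
    rw [real_eq_integral hm]
    refine integral_le (B := 1) (range (n (k + 1)) ×ˢ ball G v (R (k + 1)))
      (H := fun key ξ => if sk G θ (n k) (R k) key ξ v ≠ sk G θ (n (k + 1)) (R (k + 1)) key ξ v
        then (1 : ℝ) else 0) (Measurable.ite hm measurable_const measurable_const)
      (fun _ _ => by split_ifs <;> simp) fun key b hk hkey hb => ?_
    obtain ⟨e1, e2⟩ := H k v _ _ (wconn_ball hG.connected v (R (k + 1))) (fun u hu =>
      (mem_ball hG.connected).2 (((mem_ball hG.connected).1 hu).trans_le (hR k.le_succ)))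
      (hn k.le_succ) key b hk hkey hb
    refine (E_mono fun ξ hξ => sign_ineq ((F_nonneg_M_le (D := ball G v (R (k + 1)))
      hG.isAcyclic h0 h1 hk (hb' b ξ hb hξ) (n k)).2 v)).trans ?_
    have e3 : E _ b _ ≤ E _ b (fun _ => 1) := E_mono (D := range (n (k + 1)) ×ˢ
      ball G v (R (k + 1))) fun ξ hξ => (sq_le_one_iff_abs_le_one _).2
      ((F_nonneg_M_le (D := ball G v (R (k + 1)))
      hG.isAcyclic h0 h1 hk (hb' b ξ hb hξ) (n (k + 1))).2 v)
    rw [E_add, E_add, E_mul, E_mul, E_mul, incr hk (by exact_mod_cast hn k.le_succ)]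
    rw [E_sub] at e2 ⊢
    linarith
  have conv : ∀ v, ∀ᵐ L ∂(PL V), ∀ᶠ k in atTop, S k L v = Ψ L v := fun v => by
    have h2 : ∑' k, PL V {L | S k L v ≠ S (k + 1) L v} ≠ ∞ := by
      refine ne_top_of_le_ne_top (Summable.tsum_ofReal_ne_top
        (f := fun k : ℕ => 10 * (1 / 2 : ℝ) ^ k) (summable_geometric_two.mul_left _))
        (ENNReal.tsum_le_tsum fun k => ?_)
      rw [← ofReal_measureReal]
      exact ENNReal.ofReal_le_ofReal (step k v)
    filter_upwards [ae_eventually_notMem h2] with L hL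
    obtain ⟨K, hK⟩ := eventually_atTop.1 hL
    have h3 : ∀ k, K ≤ k → S k L v = S K L v := fun k hk => by
      induction k, hk using Nat.le_induction with
      | base => rfl
      | succ k hk ih => rw [← ih]; exact (not_not.1 (hK k hk)).symm
    have h4 : ∀ᶠ k in atTop, S k L v = S K L v := eventually_atTop.2 ⟨K, h3⟩
    refine h4.mono fun k hk => ?_
    rw [hk, eq_comm]
    cases h5 : S K L v
    · rw [h5] at h4
      exact decide_eq_false fun h6 => by simpa using (h4.and h6).exists
    · rw [h5] at h4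
      exact decide_eq_true h4
  obtain ⟨f, hf, hfl⟩ := Measure.exists_measurable_map_eq labLaw
  have mf : Measurable fun (U : V → unitInterval) v => f (U v) :=
    measurable_pi_lambda _ fun v => hf.comp (measurable_pi_apply v)
  have hPL : (iidUniform V).map (fun U v => f (U v)) = PL V := by
    rw [iidUniform, Measure.infinitePi_map_pi _ fun _ => hf]
    simp only [hfl, PL]
  refine ⟨(PL V).map Ψ, ⟨Measure.isProbabilityMeasure_map mΨ.aemeasurable, fun A hA η => ?_⟩,
    fun U => Ψ fun v => f (U v), mΨ.comp mf, ?_, fun g => ae_of_all _ fun U => ?_⟩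
  · have mA : MeasurableSet {σ : V → Bool | ∀ v ∈ A, σ v = η v} := by
      rw [Set.setOf_forall]
      simp only [Set.setOf_forall, ← Finset.set_biInter_coe]
      exact MeasurableSet.biInter A.countable_toSet fun v _ =>
        measurable_pi_apply v (measurableSet_singleton _)
    have mS' : ∀ k, Measurable (S k) := fun k => measurable_pi_lambda _ (mS k)
    rw [map_measureReal_apply mΨ mA]
    have t1 : Tendsto (fun k => (PL V).real (S k ⁻¹' {σ | ∀ v ∈ A, σ v = η v})) atTop
        (𝓝 ((PL V).real (Ψ ⁻¹' {σ | ∀ v ∈ A, σ v = η v}))) := by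
      refine (ENNReal.tendsto_toReal (measure_ne_top _ _)).comp
        (tendsto_measure_of_ae_tendsto_indicator_of_isFiniteMeasure atTop (mΨ mA)
          (fun k => mS' k mA) ?_)
      filter_upwards [(eventually_all_finset A).2 fun v _ => conv v] with L hL
      filter_upwards [(eventually_all_finset A).2 hL] with k hk
      exact forall₂_congr fun v hv => by rw [hk v hv]
    set m := 1 / 2 * ∏ e ∈ ED G A, (1 + θ * (e.map fun v => spin (η v)).mul) / 2 with hm
    have t2 : ∀ k, |(PL V).real (S k ⁻¹' {σ | ∀ v ∈ A, σ v = η v}) - m| ≤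
        A.card * 6 * (1 / 2) ^ k := fun k => by
      obtain ⟨o⟩ := hG.connected.nonempty
      obtain ⟨ρ, r1, -⟩ := exists_subset_ball hG.connected o (A.biUnion fun v => ball G v (R k))
      have r2 : ∀ v ∈ A, ball G v (R k) ⊆ ball G o ρ := fun v hv =>
        (subset_biUnion_of_mem (fun v => ball G v (R k)) hv).trans r1
      have r3 : A ⊆ ball G o ρ := fun v hv =>
        r2 v hv ((mem_ball hG.connected).2 (by simpa using hR0 k))
      set D := ball G o ρ with hD
      let Y : (ℕ × V → ℝ) → (ℕ × V → ℝ) → ℝ := fun key ξ =>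
        if ∀ v ∈ A, sk G θ (n k) (R k) key ξ v = η v then 1 else 0
      have q : ∀ key b : ℕ × V → ℝ, Set.InjOn key (range (n k) ×ˢ D : Finset (ℕ × V)) →
          (∀ i, (i.1 : ℝ) ≤ key i ∧ key i < i.1 + 1) → (∀ j, b j ^ 2 = a ^ 2) →
          |E (range (n k) ×ˢ D) b (Y key) - m| ≤ A.card * 6 * (1 / 2) ^ k := by
        intro key b hk hkey hb
        have q1 : m = E (range (n k) ×ˢ D) b fun ξ => E D 1 fun s =>
            chi A (fun v => spin (η v)) s * F G θ D (range (n k) ×ˢ D) key (n k) ξ s := by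
          rw [E_comm, hm, ← E_chi_W hG.isAcyclic hA r3 (sg_spin η)]
          refine E_congr fun s _ => ?_
          rw [E_mul, mean_F hk (fun i => le_trans (Nat.cast_nonneg _) (hkey i).1)
            (Nat.cast_nonneg _)]
        rw [q1, ← E_sub]
        refine (E_abs_le (g := fun ξ => ∑ v ∈ A, (2 * (1 - M G θ D (range (n k) ×ˢ D) key
          (n k) v ξ ^ 2) + 4 * (M G θ (ball G v (R k)) (range (n k) ×ˢ ball G v (R k))
          key (n k) v ξ - M G θ D (range (n k) ×ˢ D) key (n k) v ξ) ^ 2)) fun ξ hξ => ?_).trans ?_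
        · obtain ⟨f1, f2⟩ := F_nonneg_M_le (D := D) hG.isAcyclic h0 h1 hk (hb' b ξ hb hξ) (n k)
          have f3 := E_F (θ := θ) (D := D) hG.isAcyclic hk ξ (n k)
          have f4 : Y key ξ = E D 1 fun s => chi A (fun v => spin (η v))
              (fun v => spin (sk G θ (n k) (R k) key ξ v)) *
              F G θ D (range (n k) ×ˢ D) key (n k) ξ s := by
            rw [E_mul, f3, mul_one, chi_eq (sg_spin _) (sg_spin _)]
            refine if_congr (forall₂_congr fun v _ => ?_) rfl rfl
            cases sk G θ (n k) (R k) key ξ v <;> cases η v <;> norm_num [spin]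
          rw [f4, ← E_sub]
          refine (E_abs_le (g := fun s => ∑ v ∈ A, (1 / 2 * F G θ D (range (n k) ×ˢ D) key (n k) ξ s
            - spin (sk G θ (n k) (R k) key ξ v) / 2 *
              (s v * F G θ D (range (n k) ×ˢ D) key (n k) ξ s))) fun s hs => ?_).trans ?_
          · rw [← sub_mul, abs_mul, abs_of_nonneg (f1 s hs)]
            refine (mul_le_mul_of_nonneg_right (chi_sub_le (sg_spin η) hs (sg_spin _))
              (f1 s hs)).trans_eq ?_
            rw [sum_mul]
            exact sum_congr rfl fun v _ => by ring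
          · rw [E_sum]
            refine sum_le_sum fun v _ => ?_
            rw [E_sub, E_mul, E_mul, f3]
            have := sign_ineq' (x := M G θ (ball G v (R k)) (range (n k) ×ˢ ball G v (R k))
              key (n k) v ξ) (f2 v)
            simp only [M, sk] at this ⊢
            linarith
        · rw [E_sum, mul_assoc, ← nsmul_eq_mul]
          refine sum_le_card_nsmul _ _ _ fun v hv => ?_
          obtain ⟨e1, e2⟩ := H k v D _ (wconn_ball hG.connected o ρ) (r2 v hv) le_rfl key b hk
            hkey hb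
          rw [E_add, E_mul, E_mul]
          linarith
      have mY : Measurable fun L => Y (keyL L) (xiL a L) :=
        Measurable.ite (mS' k mA) measurable_const measurable_const
      have y1 : (PL V).real (S k ⁻¹' {σ | ∀ v ∈ A, σ v = η v}) =
          ∫ L, Y (keyL L) (xiL a L) ∂(PL V) := by
        exact real_eq_integral (p := fun L => ∀ v ∈ A, S k L v = η v) (mS' k mA)
      have y2 := integral_le (B := 1) (c := m + A.card * 6 * (1 / 2) ^ k) (range (n k) ×ˢ D) mY
        (fun _ _ => by simp only [Y]; split_ifs <;> simp) fun key b hk hkey hb => by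
          linarith [(abs_le.1 (q key b hk hkey hb)).2]
      have y3 := integral_le (B := 1) (c := -m + A.card * 6 * (1 / 2) ^ k) (range (n k) ×ˢ D)
        (H := fun key ξ => -Y key ξ) mY.neg
        (fun _ _ => by simp only [Y]; split_ifs <;> simp) fun key b hk hkey hb => by
          rw [E_neg]
          linarith [(abs_le.1 (q key b hk hkey hb)).1]
      rw [integral_neg] at y3
      rw [y1, abs_le]
      constructor <;> linarith
    refine tendsto_nhds_unique t1 ?_
    rw [tendsto_iff_norm_sub_tendsto_zero]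
    refine squeeze_zero (fun _ => norm_nonneg _) t2 ?_
    simpa using (tendsto_pow_atTop_nhds_zero_of_lt_one (r := (1 / 2 : ℝ)) (by norm_num)
      (by norm_num)).const_mul ((A.card : ℝ) * 6)
  · rw [← hPL, Measure.map_map mΨ mf]
    rfl
  · funext v
    obtain ⟨w, rfl⟩ := g.surjective v
    have : ∀ k, S k (fun v => f (U (g.symm v))) (g w) = S k (fun v => f (U v)) w := fun k => by
      simp only [S, sk]
      rw [ball_iso g hG.connected, M_iso]
      simp [keyL, xiL]
      rfl
    simp only [Ψ, this, RelIso.symm_apply_apply]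

end Vale.Agent.P161
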