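import Vale.Agent.P161.Gron
import Vale.Agent.P161.Sub

/-!
The critical point: the spins are a function of the innovations.
-/

open Finset MeasureTheory Filter Topology Real
open scoped BigOperators Classical ENNReal unitInterval

namespace Vale.Agent.P161

variable {V : Type*} {G : SimpleGraph V} {θ : ℝ}

lemma adj_cases (hG : G.IsTree) (o : V) {v w : V} (h : G.Adj v w) :
    (G.dist o w = G.dist o v + 1 ∧ par G o w = v) ∨ (G.dist o v = G.dist o w + 1 ∧ par G o v = w) :=
  (mem_side_or hG h o).symm.imp (fun a => ⟨(dist_of_mem_side hG h.symm a).symm,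
    par_eq hG h (dist_of_mem_side hG h.symm a)⟩) fun a => ⟨(dist_of_mem_side hG h a).symm,
    par_eq hG h.symm (dist_of_mem_side hG h a)⟩

lemma exists_cay [G.LocallyFinite] (hG : G.IsTree) {b : ℕ} (hreg : ∀ v, G.degree v = b + 1) :
    Nonempty (Cay G (b + 1)) := by
  obtain ⟨o⟩ := hG.connected.nonempty
  have h0 : ∀ v, ∃ e : Fin (b + 1) → V, Function.Injective e ∧ ∀ w, G.Adj v w ↔ ∃ i, e i = w :=
    fun v => by
      let e := (G.neighborFinset v).equivFinOfCardEq (hreg v)
      exact ⟨fun i => e.symm i, Subtype.val_injective.comp e.symm.injective, fun w =>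
        ⟨fun h => ⟨e ⟨w, by simpa using h⟩, by simp⟩, fun ⟨i, h⟩ =>
          h ▸ (G.mem_neighborFinset _ _).1 (e.symm i).2⟩⟩
  choose e e1 e2 using h0
  let c : ℕ → V → Fin (b + 1) → V := fun k => Nat.rec e (fun _ c v => e v ∘ Equiv.swap
    (Function.invFun (c (par G o v)) v) (Function.invFun (e v) (par G o v))) k
  have c1 : ∀ k v, Function.Injective (c k v) ∧ ∀ w, G.Adj v w ↔ ∃ i, c k v i = w := by
    rintro (_ | k) v
    · exact ⟨e1 v, e2 v⟩
    · exact ⟨(e1 v).comp (Equiv.injective _), fun w => (e2 v w).trans (Equiv.surjective _).exists⟩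
  have c2 : ∀ k v w, G.Adj v w → par G o w = v →
      c (k + 1) w (Function.invFun (c k v) w) = v := fun k v w h hp => by
    show e w (Equiv.swap _ _ _) = v
    rw [hp, Equiv.swap_apply_left]
    exact Function.invFun_eq ((e2 w v).1 h.symm)
  obtain ⟨st, s1, s2, s3⟩ : ∃ st : Fin (b + 1) → V → V, (∀ i v, st i (st i v) = v) ∧
      (∀ v w, G.Adj v w ↔ ∃ i, w = st i v) ∧ ∀ v, Function.Injective fun i => st i v := by
    refine ⟨fun i v => c (G.dist o v) v i, fun i v => ?_, fun v w => by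
      simpa only [eq_comm] using (c1 _ v).2 w, fun v => (c1 _ v).1⟩
    have h := ((c1 (G.dist o v) v).2 _).2 ⟨i, rfl⟩
    rcases adj_cases hG o h with ⟨a1, a2⟩ | ⟨a1, a2⟩
    · have := c2 (G.dist o v) _ _ h a2
      rwa [Function.leftInverse_invFun (c1 _ v).1 i, ← a1] at this
    · have := c2 (G.dist o (c (G.dist o v) v i)) _ _ h.symm a2
      rw [← a1] at this
      exact (congrArg (c _ _) ((c1 _ v).1 this).symm).trans
        (Function.invFun_eq (((c1 _ _).2 _).1 h.symm))
  have ex : ∀ x a : V, ∃ f : V → V, f x = a ∧ ∀ j v, f (st j v) = st j (f v) := fun x a => by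
    let F : ℕ → V → V := fun k => Nat.rec (fun _ => a) (fun _ F v =>
      st (Function.invFun (fun i => st i (par G x v)) v) (F (par G x v))) k
    have F1 : ∀ j v, G.dist x (st j v) = G.dist x v + 1 → par G x (st j v) = v →
        F (G.dist x (st j v)) (st j v) = st j (F (G.dist x v) v) := fun j v a1 a2 => by
      rw [a1]
      show st _ _ = _
      rw [a2, Function.leftInverse_invFun (s3 v) j]
    refine ⟨fun v => F (G.dist x v) v, by simp [F], fun j v => ?_⟩
    rcases adj_cases hG x ((s2 v _).2 ⟨j, rfl⟩) with ⟨a1, a2⟩ | ⟨a1, a2⟩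
    · exact F1 j v a1 a2
    · have := F1 j (st j v) (by rwa [s1]) (by rwa [s1])
      rw [s1] at this
      simp only [this, s1]
  choose f f1 f2 using ex
  have inv : ∀ x a v, f a x (f x a v) = v := fun x a => par_ind hG.connected x (by rw [f1, f1])
    fun u hu h => by
      obtain ⟨j, hj⟩ := (s2 _ _).1 (par_spec hG.connected hu).1
      rw [hj, f2, f2, h]
  exact ⟨⟨o, st, s1, s2, s3, fun i => ⟨⟨f o (st i o), f (st i o) o, inv _ _, inv _ _⟩, by
    simp only [Equiv.coe_fn_mk, s2, ← f2, (Function.LeftInverse.injective (inv _ _)).eq_iff,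
      implies_true]⟩, fun i => f2 _ _, fun i => f1 _ _⟩⟩

variable [G.LocallyFinite] {b : ℕ} (hG : G.IsTree) (h0 : 0 ≤ θ) (h1 : θ < 1) (hb : 2 ≤ b)
  (hθ : b * θ ^ 2 = 1)
include hG h0 h1 hb hθ

lemma Cay.recover (S : Cay G (b + 1)) : ∃ φ : (V × ℕ → I × I) → Bool, Measurable φ ∧
    ∀ᵐ p ∂Pn G θ, φ (Inn G θ (obs p)) = p.1 S.o := by
  have mI := (measurable_Inn (G := G) (θ := θ)).comp measurable_obs
  have sp : ∀ x, spin x ∈ Set.Icc (-1 : ℝ) 1 := fun x => by cases x <;> norm_num [spin]
  have bf : BM fun p : (V → Bool) × (V × ℕ → I × I) => spin (p.1 S.o) :=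
    ⟨measurable_spin.comp (by fun_prop), 1, fun _ => abs_le.2 (sp _)⟩
  obtain ⟨g, g1, -⟩ := exists_isCE (μ := Pn G θ) mI.comap_le bf.meas fun _ => sp _
  obtain ⟨k, k1, k2⟩ := g1.bm.factor
  have b1 := (bf.sub (g1.bm.mono mI.comap_le)).pow 2
  have key : ∫ p, (spin (p.1 S.o) - g p) ^ 2 ∂Pn G θ ≤ 0 := by
    refine ge_of_tendsto (f := fun N : ℕ => 2 * (192 / (N + 192 : ℝ))) (by
      simpa using (tendsto_const_nhds.div_atTop (tendsto_atTop_add_const_right _ (192 : ℝ)
        tendsto_natCast_atTop_atTop)).const_mul 2) ((eventually_ge_atTop 1).mono fun N hN => ?_)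
    refine le_of_forall_pos_le_add fun e he => ?_
    obtain ⟨_, ⟨k, k1, rfl⟩, k2⟩ := exists_lt_of_csInf_lt (by exact ⟨_, _, BM.const 0, rfl⟩)
      ((S.dl_eq hG h0 h1 hb hθ hN).trans_lt (half_pos he))
    have hA : ∀ i, N ≤ i.2 → (tm V N).s i = ∅ := sl_bound le_rfl
    have mc := (mp_Q (G := G) (θ := θ) (tm V N)).measurable
    have bm := bm_mm (G := G) (θ := θ) N S.o
    have bk := k1.comp (measurable_inn (G := G) (θ := θ) N)
    rw [← integral_comp_mp (mp_Q _) ((bm.sub bk).pow 2).meas] at k2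
    have a1 := integral_spin hG h0 h1 (tm V N) S.o bm
    have sv := sv_m hG h0 h1 S.degree_eq hA S.o
    have a2 := sv.proj hG h0 h1 bm fun _ _ h => congrArg _ (funext fun i => h i trivial)
    have a3 := integral_even hG h0 h1 (tm V N) S.o (bm.pow 2) fun ω => by
      rw [mm, gN_neg, X_neg h0 h1, tanh_neg, neg_sq, mm]
    have a4 := (qv_rec hG h0 h1 S.degree_eq hA S.o S.o).2.1
    have a5 := gN_loc (θ := θ) hG.connected (A := tm V N) (z := S.o) N fun n hn T hT =>
      mem_tm.2 (by linarith [show (n + 1 : ℝ) ≤ N by exact_mod_cast hn])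
    have c1 := (((BM.const 1).sub ((bf.mul (bm.comp mc)).cmul 2)).add ((bm.pow 2).comp mc)).cmul 2
    have c2 := (((bm.sub bk).pow 2).comp mc).cmul 2
    refine (g1.le mI.comap_le bf (BM.comap _ (k1.comp (measurable_fgt N)))).trans
      ((integral_le_of_ae ((bf.sub ((k1.comp (measurable_fgt N)).comp mI)).pow 2) (c1.add c2)
      (.of_forall fun p => ?_)).trans ?_)
    · rw [inn_cut fun _ => subset_rfl,
        show k (fgt N ((Inn G θ ∘ obs) p)) = k (inn G θ N (obs p)) from rfl]
      have : spin (p.1 S.o) ^ 2 = 1 := by cases p.1 S.o <;> norm_num [spin]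
      nlinarith [sq_nonneg (spin (p.1 S.o) - 2 * mm G θ N S.o (cut (tm V N) (obs p)) +
        k (inn G θ N (obs p)))]
    · rw [integral_add' c1 c2, integral_const_mul, integral_const_mul, integral_add' ((BM.const
        1).sub ((bf.mul (bm.comp mc)).cmul 2)) ((bm.pow 2).comp mc), integral_sub' (BM.const 1)
        ((bf.mul (bm.comp mc)).cmul 2), integral_const_mul, a1, ← a2,
        integral_comp_mp (mp_Q _) (bm.pow 2).meas]
      simp only [qv, mm, ← sq, integral_const, probReal_univ, one_smul] at a3 a4 a5 k2 ⊢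
      linarith
  refine ⟨fun ξ => decide (0 < k ξ), measurable_to_bool (by
    simpa [Set.preimage] using measurableSet_lt measurable_const k1.meas), ?_⟩
  filter_upwards [(integral_eq_zero_iff_of_nonneg (fun _ => sq_nonneg _) (b1.integrable _)).1
    (le_antisymm key (integral_nonneg fun _ => sq_nonneg _))] with p hp
  have := k2 p ▸ sub_eq_zero.1 (pow_eq_zero_iff two_ne_zero |>.1 hp)
  rw [show k (Inn G θ (obs p)) = spin (p.1 S.o) from this.symm]
  cases p.1 S.o <;> norm_num [spin]

theorem critical_factor (hreg : ∀ v, G.degree v = b + 1) : IsFactorOfIID G (mu G θ) := by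
  obtain ⟨S⟩ := exists_cay hG hreg
  obtain ⟨φ, mφ, hφ⟩ := S.recover hG h0 h1 hb hθ
  have := countable_V hG
  have mI : MeasurePreserving (fun p => Inn G θ (obs p)) (Pn G θ) (Lam (V × ℕ)) := by
    simpa only [Function.comp_def, cut_top] using (mp_Inn hG h0 h1 hreg).comp (mp_Q (top V))
  have key : ∀ γ : G ≃g G, ∀ᵐ p ∂Pn G θ, φ (pull γ (Inn G θ (obs p))) = p.1 (γ S.o) := fun γ =>
    ((mp_pull_Pn hG h0 h1 γ).quasiMeasurePreserving.ae hφ).mono fun p hp => by
      rw [← Inn_pull]; exact hp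
  have go : ∀ v, S.gw (S.wd v) S.o = v := fun v => by rw [S.gw_o, (S.wd_spec hG v).2]
  have mΦ : ∀ v, Measurable fun ξ => φ (pull (S.gw (S.wd v)) ξ) := fun v =>
    mφ.comp (measurable_pull _)
  obtain ⟨f, hf, hfl⟩ := Measure.exists_measurable_map_eq (Lam ℕ)
  have mf : MeasurePreserving (fun (U : V → I) (i : V × ℕ) => f (U i.1) i.2) (iidUniform V)
      (Lam (V × ℕ)) := ⟨by fun_prop, by
    rw [Lam, ← Measure.infinitePi_map_curry_symm (μ := fun _ _ => lam), ← Lam, ← hfl,
      ← Measure.infinitePi_map_pi _ fun _ => hf, Measure.map_map (by fun_prop) (by fun_prop)]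
    rfl⟩
  refine ⟨fun U v => φ (pull (S.gw (S.wd v)) fun i => f (U i.1) i.2),
    (measurable_pi_lambda _ mΦ).comp mf.measurable, ?_, fun g => ?_⟩
  · refine (((MeasurePreserving.mk (measurable_pi_lambda _ mΦ) ?_).comp mf).map_eq)
    rw [← mI.map_eq, Measure.map_map (measurable_pi_lambda _ mΦ) mI.measurable,
      Function.comp_def, Measure.map_congr (g := Prod.fst) ((ae_all_iff.2 fun v => key (S.gw (S.wd v))).mono
        fun p hp => funext fun v => (hp v).trans (by rw [go])), Pn]
    exact measurePreserving_fst.map_eq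
  · refine (ae_all_iff.2 fun v => mf.quasiMeasurePreserving.ae (p := fun ξ =>
      φ (pull (S.gw (S.wd v)) (pull g.symm ξ)) = φ (pull (S.gw (S.wd (g.symm v))) ξ)) ?_).mono
      fun U hU => funext hU
    rw [← mI.map_eq]
    refine (ae_map_iff mI.aemeasurable (measurableSet_eq_fun ((mΦ v).comp
      (measurable_pull g.symm)) (mΦ _))).2 ?_
    filter_upwards [key ((S.gw (S.wd v)).trans g.symm), key (S.gw (S.wd (g.symm v)))] with p a1 a2
    rw [a2, go]
    exact a1.trans (by rw [RelIso.trans_apply, go])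

end Vale.Agent.P161
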