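import Vale.Agent.P161.Mom

/-!
Decay of conditional correlations along paths: one path at a time, and averaged over spheres.
-/

open Finset MeasureTheory Filter Topology Real
open scoped BigOperators Classical ENNReal unitInterval

namespace Vale.Agent.P161

variable {V : Type*} {G : SimpleGraph V} {θ : ℝ} [G.LocallyFinite] {b : ℕ}

lemma dep_gN (N : ℕ) {B : Set V} {ω ω' : Ob V} (h : ∀ i ∈ {i : V × ℕ | i.1 ∈ B}, ω i = ω' i) :
    ∀ u ∈ B, gN N ω u = gN N ω' u := fun u hu => sum_congr rfl fun n _ => by rw [h (u, n) hu]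

lemma gN_pull (N : ℕ) (g : G ≃g G) (ω : Ob V) : gN N (pull g ω) = fun v => gN N ω (g v) := rfl

namespace Cay

variable {d : ℕ} (S : Cay G d)

include S in
lemma degree_eq (v : V) : G.degree v = d := by
  rw [← SimpleGraph.card_neighborFinset_eq_degree, show G.neighborFinset v =
    univ.image fun i => S.st i v by ext c; simp [S.adj, eq_comm], card_image_of_injective _ (S.inj v)]
  simp

omit [G.LocallyFinite] in
lemma measurable_ad {Y : Type*} [MeasurableSpace Y] {f : Y → V → Fin d → ℝ}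
    (hf : ∀ v i, Measurable fun x => f x v i) (w : List (Fin d)) :
    ∀ v, Measurable fun x => S.ad (f x) v w := by
  induction w with
  | nil => exact fun _ => measurable_const
  | cons i w ih => exact fun v => (hf v i).add (ih _)

lemma measurable_yf {Y : Type*} [MeasurableSpace Y] {g : Y → V → ℝ}
    (hg : ∀ v, Measurable fun x => g x v) (v : V) (i : Fin d) :
    Measurable fun x => S.yf θ (g x) v i :=
  measurable_yv.comp (BM.tanh (measurable_X hg _ _)).meas

lemma measurable_ys {Y : Type*} [MeasurableSpace Y] {g : Y → V → ℝ}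
    (hg : ∀ v, Measurable fun x => g x v) (v : V) (i : Fin d) :
    Measurable fun x => S.ys θ (g x) v i :=
  ((S.measurable_yf hg _ _).add (S.measurable_yf hg _ _)).div_const _

lemma yf_iso (φ : G ≃g G) (hφ : ∀ j v, φ (S.st j v) = S.st j (φ v)) (g : V → ℝ) (v : V)
    (i : Fin d) : S.yf θ g (φ v) i = S.yf θ (fun v => g (φ v)) v i := by
  rw [yf, yf, ← hφ, X_iso]

lemma ys_iso (φ : G ≃g G) (hφ : ∀ j v, φ (S.st j v) = S.st j (φ v)) (g : V → ℝ) (v : V)
    (i : Fin d) : S.ys θ g (φ v) i = S.ys θ (fun v => g (φ v)) v i := by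
  rw [ys, ys, ← hφ, S.yf_iso φ hφ, S.yf_iso φ hφ]

noncomputable def Ew (θ l : ℝ) (N : ℕ) (v : V) (w : List (Fin d)) (ω : Ob V) : ℝ :=
  exp (-(l * S.ad (S.yf θ (gN N ω)) v w))

variable (hG : G.IsTree) (h0 : 0 ≤ θ) (h1 : θ < 1)
include h0 h1

lemma yf_neg (g : V → ℝ) : S.yf θ (fun v => -g v) = S.yf θ g := by
  funext v i
  simp only [yf, X_neg h0 h1, tanh_neg, yv, neg_sq]

lemma ys_neg (g : V → ℝ) : S.ys θ (fun v => -g v) = S.ys θ g := by
  funext v i
  simp only [ys, S.yf_neg h0 h1]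

variable {l : ℝ} {N : ℕ}

lemma Ew_le (hl : 0 ≤ l) (v : V) (w : List (Fin d)) (ω : Ob V) : S.Ew θ l N v w ω ≤ 1 :=
  exp_le_one_iff.2 (neg_nonpos.2 (mul_nonneg hl (S.ad_nonneg (S.yf_nonneg h0 h1 _) _ _)))

lemma bm_Ew (hl : 0 ≤ l) (v : V) (w : List (Fin d)) : BM (S.Ew θ l N v w) :=
  ⟨((S.measurable_ad (S.measurable_yf (measurable_gN N)) w v).const_mul l).neg.exp, 1, fun ω =>
    (abs_of_pos (exp_pos _)).trans_le (S.Ew_le h0 h1 hl v w ω)⟩

lemma Ew_neg (v : V) (w : List (Fin d)) (ω : Ob V) : S.Ew θ l N v w (neg ω) = S.Ew θ l N v w ω := by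
  rw [Ew, gN_neg, S.yf_neg h0 h1, Ew]

omit h0 h1 in
lemma Ew_cons (v : V) (i : Fin d) (w : List (Fin d)) (ω : Ob V) : S.Ew θ l N v (i :: w) ω =
    exp (-(l * S.yf θ (gN N ω) v i)) * S.Ew θ l N (S.st i v) w ω := by
  rw [Ew, Ew, ad, mul_add, neg_add, exp_add]

include hG

omit h0 h1 in
lemma dep_Ew (n : ℕ) : ∀ k z, ∀ w ∈ RW d n (some k),
    DependsOn (S.Ew θ l N z (k :: w)) {i | i.1 ∈ side G z (S.st k z)} := by
  induction n with
  | zero =>
    intro k z w hw ω ω' h
    obtain rfl := mem_singleton.1 hw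
    simp only [Ew, ad, yf, X_congr hG.isAcyclic (dep_gN N h)]
  | succ n ih =>
    intro k z w hw ω ω' h
    cases w with
    | nil => simp [mem_RW] at hw
    | cons j w =>
      obtain ⟨a1, a2⟩ := cons_mem_RW.1 hw
      rw [Ew_cons, Ew_cons _ z, ih j _ w a2 fun i hi =>
        h i (side_subset hG.isAcyclic (S.adj_st _ _) (S.st_ne a1 z) hi)]
      simp only [yf, X_congr hG.isAcyclic (dep_gN N h)]

end Cay

lemma kappa_le {R : Measure (Ob V)} [IsProbabilityMeasure R] {x : Ob V → ℝ} (hx : BM x)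
    {l q M : ℝ} (hl : 0 ≤ l) (hq : q ≤ ∫ ω, x ω ^ 2 ∂(R)) (hM : ∫ ω, x ω ^ 4 ∂(R) ≤ M) :
    ∫ ω, exp (-(l * x ω ^ 2)) ∂(R) ≤ 1 - (l * q - l ^ 2 * M / 2) := by
  refine (integral_le_of_ae (((hx.pow 2).cmul l).neg.cont continuous_exp) (((BM.const 1).sub
    ((hx.pow 2).cmul l)).add ((hx.pow 4).cmul (l ^ 2 / 2))) (ae_of_all _ fun ω =>
      (exp_neg_le (by positivity)).trans_eq (by ring))).trans ?_
  rw [integral_add' ((BM.const 1).sub ((hx.pow 2).cmul l)) ((hx.pow 4).cmul _),
    integral_sub' (BM.const 1) ((hx.pow 2).cmul l), integral_const_mul, integral_const_mul]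
  simp only [integral_const, probReal_univ, one_smul]
  nlinarith [mul_le_mul_of_nonneg_left hq hl, mul_le_mul_of_nonneg_left hM (sq_nonneg l)]

namespace Cay

variable (S : Cay G (b + 1)) (hG : G.IsTree) (h0 : 0 ≤ θ) (h1 : θ < 1) (hb : 2 ≤ b)
  {A : Sel V} {N : ℕ} (hA : ∀ i, N ≤ i.2 → A.s i = ∅) {l : ℝ} (hl : 0 ≤ l)
include hG h0 h1 hb hA hl

lemma decay {κ : ℝ} (hκ : ∀ z c, G.Adj z c → ∫ ω, exp (-(l * ((1 - θ ^ 2) * θ ^ 2) *
    tanh (X G θ (gN N ω) c z) ^ 2)) ∂Pz G θ A c ≤ 1 - κ) (n : ℕ) :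
    ∀ a v, ∀ w ∈ RW (b + 1) n a,
      ∫ ω, S.Ew θ l N v w ω ∂Q G θ A ≤ (1 - (1 - θ) / 2 * κ) ^ n := by
  have hκ1 : κ ≤ 1 := by
    linarith [(integral_nonneg fun ω => (exp_pos _).le).trans (hκ _ _ (S.adj_st 0 S.o))]
  have hρ : 0 ≤ 1 - (1 - θ) / 2 * κ := by nlinarith
  induction n with
  | zero => intro a v w hw; obtain rfl := mem_singleton.1 hw; simp [Ew, ad]
  | succ n ih =>
    intro a v w hw
    cases w with
    | nil => simp [mem_RW] at hw
    | cons j w =>
      obtain ⟨-, a2⟩ := cons_mem_RW.1 hw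
      obtain ⟨k, -, hk⟩ := exists_mem_notMem_of_card_lt_card (s := {j, w.headD j})
        (t := (univ : Finset (Fin (b + 1)))) (card_le_two.trans_lt (by simp; omega))
      simp only [mem_insert, mem_singleton, not_or] at hk
      set z := S.st j v
      set c := S.st k z
      have hc : G.Adj z c := S.adj_st k z
      have hc' : c ∈ (G.neighborFinset z).erase v :=
        mem_erase.2 ⟨S.st_ne (by simpa using hk.1) v, by simpa using hc⟩
      have d2 : DependsOn (S.Ew θ l N z w) {i | i.1 ∈ side G z c}ᶜ := by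
        cases w with
        | nil => exact fun _ _ _ => by simp only [Ew, ad]
        | cons k' w =>
          cases n with
          | zero => simp [mem_RW] at a2
          | succ n =>
            exact fun _ _ h => S.dep_Ew hG n k' z w (cons_mem_RW.1 a2).2 fun i hi => h i
              (side_disjoint hG (S.adj_st k' z) hc (fun h2 => hk.2 (S.inj z h2).symm) hi)
      have sx := fun c (h : G.Adj z c) => sv_X hG h0 h1 S.degree_eq hA h
      let r : Ob V → ℝ := fun ω => gN N ω z +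
        ∑ c' ∈ ((G.neighborFinset z).erase v).erase c, Ps θ (X G θ (gN N ω) c' z)
      have mr : Measurable r := (measurable_gN N z).add (Finset.measurable_sum _ fun c' _ =>
        (continuous_Ps h0 h1).measurable.comp (measurable_X (measurable_gN N) _ _))
      have d1 : DependsOn r {i | i.1 ∈ side G z c}ᶜ := fun ω ω' h => by
        simp only [r, dep_gN N (B := (side G z c)ᶜ) h z (not_mem_side hG.isAcyclic hc)]
        congr 1
        refine sum_congr rfl fun c' hc' => ?_
        simp only [mem_erase, SimpleGraph.mem_neighborFinset] at hc'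
        exact congrArg _ ((sx c' hc'.2.2).dep fun i hi => h i (side_disjoint hG hc'.2.2 hc hc'.1 hi))
      let φ : ℝ → ℝ := fun h => exp (-(l * yv θ (tanh h)))
      have φ1 : ∀ h, φ h ≤ 1 := fun h =>
        exp_le_one_iff.2 (neg_nonpos.2 (mul_nonneg hl (yv_nonneg h0 h1 (tanh_abs_lt _))))
      have bφ : BM φ := ⟨((measurable_yv.comp continuous_tanh'.measurable).const_mul l).neg.exp, 1,
        fun h => by rw [abs_of_pos (exp_pos _)]; exact φ1 h⟩
      have mP := ((sx c hc).bm.cont (continuous_Ps h0 h1)).meas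
      have bE := S.bm_Ew (N := N) h0 h1 hl z w
      have key : ∀ x, ∫ ω, φ (Ps θ (X G θ (gN N ω) c z) + x) ∂Pz G θ A z ≤
          1 - (1 - θ) / 2 * κ := fun x => by
        have b1 := bφ.comp (mP.add_const x)
        have b2 := b1.comp measurable_neg'
        have b3 := (((BM.tanh (sx c hc).bm.meas).pow 2).cmul
          (l * ((1 - θ ^ 2) * θ ^ 2))).neg.cont continuous_exp
        rw [edge_pass hG h0 h1 A hc b1 fun _ _ h => by simp only [(sx c hc).dep h]]
        have e1 := integral_le_const (μ := Pz G θ A c) b1 fun ω => φ1 _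
        have e2 := integral_le_of_ae (μ := Pz G θ A c) (b1.add b2) ((BM.const 1).add b3)
          (ae_of_all _ fun ω => by
            have e3 : ∀ h, |Ps θ (X G θ (gN N ω) c z)| ≤ |h| → φ h ≤ exp (-(l * ((1 - θ ^ 2) *
                θ ^ 2) * tanh (X G θ (gN N ω) c z) ^ 2)) := fun h hh => by
              have e4 := tanh_sq_le hh
              rw [tanh_Ps h0 h1, mul_pow] at e4
              refine exp_le_exp.2 (neg_le_neg ?_)
              rw [mul_assoc, mul_assoc]
              exact mul_le_mul_of_nonneg_left ((mul_le_mul_of_nonneg_left e4 (by nlinarith)).trans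
                (le_yv h0 h1 (tanh_abs_lt _))) hl
            rw [(sx c hc).odd, Ps_neg h0 h1]
            rcases le_total 0 (Ps θ (X G θ (gN N ω) c z) * x) with h | h
            · rw [add_comm]
              exact add_le_add (φ1 _) (e3 _ (sq_le_sq.1 (by nlinarith [sq_nonneg x])))
            · exact add_le_add (φ1 _) (e3 _ (sq_le_sq.1 (by nlinarith [sq_nonneg x]))))
        rw [integral_add' b1 b2, integral_add' (BM.const 1) b3] at e2
        simp only [integral_const, probReal_univ, one_smul] at e2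
        nlinarith [hκ z c hc]
      have bF : BM fun ω => φ (Ps θ (X G θ (gN N ω) c z) + r ω) * S.Ew θ l N z w ω :=
        (bφ.comp (mP.add mr)).mul bE
      calc _ = ∫ ω, φ (Ps θ (X G θ (gN N ω) c z) + r ω) * S.Ew θ l N z w ω ∂Pz G θ A z := by
            rw [integral_even hG h0 h1 A z (S.bm_Ew h0 h1 hl _ _) (S.Ew_neg h0 h1 _ _)]
            refine integral_congr_ae ((ae_Pz hG h0 h1 z (good_ae hG h0 h1 S.degree_eq hA)).mono
              fun ω hω => ?_)
            simp only [Ew_cons, yf, φ, r]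
            rw [hω.eq h0 h1, ← add_sum_erase _ _ hc', add_left_comm]
        _ ≤ ∫ ω, (1 - (1 - θ) / 2 * κ) * S.Ew θ l N z w ω ∂Pz G θ A z := by
            rw [(split_side hG A hc).integral bF, integral_prod'' (bF.comp (measurable_pw _))]
            refine integral_le_of_ae (((bF.comp (measurable_pw _)).comp
              measurable_swap).integral_right _) (bE.cmul _) (ae_of_all _ fun ω' => ?_)
            simp only [pw_left (sx c hc).dep subset_rfl, pw_right d1 subset_rfl,
              pw_right d2 subset_rfl, integral_mul_const]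
            exact mul_le_mul_of_nonneg_right (key _) (exp_pos _).le
        _ ≤ _ := by
            rw [integral_const_mul, pow_succ', ← integral_even hG h0 h1 A z bE (S.Ew_neg h0 h1 _ _)]
            exact mul_le_mul_of_nonneg_left (ih _ _ w a2) hρ

omit hb hA hl in
lemma prod_indep (z : V) (J : Finset (Fin (b + 1))) {f : Fin (b + 1) → Ob V → ℝ}
    (hf : ∀ k, BM (f k)) (he : ∀ k ω, f k (neg ω) = f k ω)
    (hd : ∀ k, DependsOn (f k) {i | i.1 ∈ side G z (S.st k z)}) :
    ∫ ω, ∏ k ∈ J, f k ω ∂Q G θ A = ∏ k ∈ J, ∫ ω, f k ω ∂Q G θ A := by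
  rw [integral_even hG h0 h1 A z (BM.prod J fun k _ => hf k) fun ω => by simp only [he]]
  simp only [fun k => integral_even hG h0 h1 A z (hf k) (he k)]
  induction J using Finset.induction_on with
  | empty => simp
  | insert k J hk ih =>
    simp only [prod_insert hk]
    rw [(split_side hG A (S.adj_st k z)).mul (hf k) (BM.prod J fun k _ => hf k) (hd k)
      fun _ _ h => prod_congr rfl fun j hj => hd j fun i hi => h i (side_disjoint hG
        (S.adj_st j z) (S.adj_st k z) (fun h2 => hk (S.inj z h2 ▸ hj)) hi), ih]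

omit hA in
lemma sphere {ρ : ℝ} (hρ : 0 ≤ ρ) (hρ1 : ρ ≤ 1) (hd : ∀ n a v, ∀ w ∈ RW (b + 1) n a,
    ∫ ω, S.Ew θ l N v w ω ∂Q G θ A ≤ ρ ^ n) {W : Ob V → ℝ} (hW : BM W) {B : ℝ}
    (hW' : ∀ ω, W ω ∈ Set.Icc 0 B) (m j : ℕ) :
    ∑ w ∈ RW (b + 1) (m + j + 1) none, ∫ ω, W ω * S.Ew θ l N S.o w ω ∂Q G θ A ≤
      2 * b ^ (m + j + 1) * (3 * ρ ^ m * ∫ ω, W ω ∂Q G θ A + B * exp (-(b ^ j * ρ ^ m))) := by
  have b2 : (2 : ℝ) ≤ b := by exact_mod_cast hb
  let F : ℕ → Fin (b + 1) → V → Ob V → ℝ := fun n i v ω =>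
    (∑ w ∈ RW (b + 1) n (some i), S.Ew θ l N v (i :: w) ω) / b ^ n
  have bS := fun n i v => BM.sum (RW (b + 1) n (some i)) fun w _ =>
    S.bm_Ew (N := N) h0 h1 hl v (i :: w)
  have bF : ∀ n i v, BM (F n i v) := fun n i v => (bS n i v).div_const _
  have F1 : ∀ n i v ω, F n i v ω ∈ Set.Icc (0 : ℝ) 1 := fun n i v ω =>
    ⟨div_nonneg (sum_nonneg fun _ _ => (exp_pos _).le) (by positivity),
      div_le_one_of_le₀ ((sum_le_card_nsmul _ _ _ fun w _ => S.Ew_le h0 h1 hl _ _ _).trans_eq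
        (by simp [card_RW_some])) (by positivity)⟩
  have mgf : ∀ j i v, ∫ ω, exp (b ^ j * F (m + j) i v ω) ∂Q G θ A ≤ exp (2 * (b ^ j * ρ ^ m)) := by
    intro j
    induction j with
    | zero =>
      intro i v
      simp only [pow_zero, one_mul, add_zero]
      refine (integral_le_of_ae ((bF m i v).cont continuous_exp) ((BM.const 1).add
        ((bF m i v).cmul 2)) (ae_of_all _ fun ω => ?_)).trans (le_trans ?_ (add_one_le_exp _))
      · have := abs_exp_sub_one_le (x := F m i v ω) (by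
          rw [abs_of_nonneg (F1 m i v ω).1]; exact (F1 m i v ω).2)
        rw [abs_of_nonneg (F1 m i v ω).1] at this
        linarith [le_abs_self (exp (F m i v ω) - 1)]
      · rw [integral_add' (BM.const 1) ((bF m i v).cmul 2), integral_const_mul, integral_div,
          integral_sum' _ fun w _ => S.bm_Ew h0 h1 hl v (i :: w), add_comm]
        simp only [integral_const, probReal_univ, one_smul]
        gcongr
        rw [div_le_iff₀ (by positivity), ← card_RW_some m i, mul_comm, ← nsmul_eq_mul]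
        exact sum_le_card_nsmul _ _ _ fun w hw => (hd _ none _ _ (cons_mem_RW.2
          ⟨by simp, hw⟩)).trans (pow_le_pow_of_le_one hρ hρ1 m.le_succ)
    | succ j ih =>
      intro i v
      have b1 := fun k => ((bF (m + j) k (S.st i v)).cmul (b ^ j)).cont continuous_exp
      refine (integral_le_of_ae (((bF _ i v).cmul _).cont continuous_exp)
        (BM.prod {k | some k ≠ some i} fun k _ => b1 k) (ae_of_all _ fun ω => ?_)).trans ?_
      · rw [← exp_sum, exp_le_exp, ← mul_sum, ← sum_div]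
        simp only [F]
        rw [← add_assoc, sum_RW, pow_succ, pow_succ, mul_comm _ (b : ℝ), mul_comm _ (b : ℝ),
          mul_assoc, mul_left_comm, ← mul_div_assoc, mul_div_mul_left _ _ (by positivity)]
        gcongr with k _ w _
        rw [Ew_cons]
        exact mul_le_of_le_one_left (exp_pos _).le (exp_le_one_iff.2 (neg_nonpos.2
          (mul_nonneg hl (S.yf_nonneg h0 h1 _ _ _))))
      · rw [S.prod_indep hG h0 h1 (S.st i v) _ b1 (fun k ω => by simp only [F, S.Ew_neg h0 h1])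
          fun k _ _ h => by
            simp only [F, sum_congr rfl fun w hw => S.dep_Ew (θ := θ) (l := l) (N := N) hG _ k _ w
              hw h]]
        refine (prod_le_prod (fun k _ => integral_nonneg fun _ => (exp_pos _).le)
          fun k _ => ih k _).trans_eq ?_
        rw [prod_const, ← exp_nat_mul, card_ne]
        congr 1
        ring
  rw [sum_RW]
  refine (sum_le_card_nsmul _ _ (b ^ (m + j) * (3 * ρ ^ m * ∫ ω, W ω ∂Q G θ A +
    B * exp (-(b ^ j * ρ ^ m)))) fun i _ => ?_).trans ?_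
  · have b1 := ((bF (m + j) i S.o).cmul (b ^ j)).cont continuous_exp
    rw [← integral_sum' _ fun w _ => hW.mul (S.bm_Ew h0 h1 hl _ _)]
    refine (integral_le_of_ae (BM.sum _ fun w _ => hW.mul (S.bm_Ew h0 h1 hl _ _))
      (((hW.cmul (3 * ρ ^ m)).add (b1.cmul (B * exp (-(3 * (b ^ j * ρ ^ m)))))).cmul (b ^ (m + j)))
      (ae_of_all _ fun ω => ?_)).trans ?_
    · have e1 : ∑ w ∈ RW (b + 1) (m + j) (some i), W ω * S.Ew θ l N S.o (i :: w) ω =
          b ^ (m + j) * (W ω * F (m + j) i S.o ω) := by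
        rw [← mul_sum]; simp only [F]; field_simp
      rw [e1]
      refine mul_le_mul_of_nonneg_left ?_ (by positivity)
      have e2 : F (m + j) i S.o ω - 3 * ρ ^ m ≤
          exp (-(3 * (b ^ j * ρ ^ m))) * exp (b ^ j * F (m + j) i S.o ω) := by
        rw [← exp_add]
        rcases le_total (F (m + j) i S.o ω - 3 * ρ ^ m) 0 with h | h
        · exact h.trans (exp_pos _).le
        · have := le_mul_of_one_le_left h (one_le_pow₀ (n := j) (by linarith : (1 : ℝ) ≤ b))
          linarith [add_one_le_exp (-(3 * (b ^ j * ρ ^ m)) + b ^ j * F (m + j) i S.o ω)]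
      have e3 := mul_le_mul_of_nonneg_left e2 (hW' ω).1
      have e4 := mul_le_mul_of_nonneg_right (hW' ω).2 (mul_pos (exp_pos (-(3 * (b ^ j * ρ ^ m))))
        (exp_pos (b ^ j * F (m + j) i S.o ω))).le
      linarith
    · rw [integral_const_mul, integral_add' (hW.cmul _) (b1.cmul _), integral_const_mul,
        integral_const_mul, mul_assoc B]
      have B0 : 0 ≤ B := (hW' fun _ => (1, 0)).1.trans (hW' _).2
      gcongr
      refine (mul_le_mul_of_nonneg_left (mgf j i _) (exp_pos _).le).trans_eq ?_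
      rw [← exp_add]
      congr 1
      ring
  · have B0 : 0 ≤ B := (hW' fun _ => (1, 0)).1.trans (hW' _).2
    have : 0 ≤ ∫ ω, W ω ∂Q G θ A := integral_nonneg fun ω => (hW' ω).1
    rw [nsmul_eq_mul, ← mul_assoc, pow_succ' _ (m + j), ← mul_assoc]
    gcongr
    simp
    linarith

omit hA in
lemma bad (hinv : ∀ (g : G ≃g G) (i : V × ℕ), A.s (g i.1, i.2) = A.s i)
    {ρ : ℝ} (hρ : 3 / 4 ≤ ρ) (hρ1 : ρ ≤ 1) (hd : ∀ n a v, ∀ w ∈ RW (b + 1) n a,
    ∫ ω, S.Ew θ l N v w ω ∂Q G θ A ≤ ρ ^ n) {W : Ob V → ℝ} (hW : BM W) {B : ℝ}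
    (hW' : ∀ ω, W ω ∈ Set.Icc 0 B) (c : ℝ) {n k : ℕ} (hn : 0 < n) (hk : k ≤ n) :
    ∑ w ∈ RW (b + 1) n none, ∫ ω, W (pull (S.gw (w.take k)) ω) *
      (if S.ad (S.ys θ (gN N ω)) S.o w < c then 1 else 0) ∂Q G θ A ≤
      4 * b ^ n * exp (2 * l * c) * (3 * ρ ^ (n / 4) * ∫ ω, W ω ∂Q G θ A +
        B * exp (-((3 / 2) ^ (n / 4) / b))) := by
  have b2 : (2 : ℝ) ≤ b := by exact_mod_cast hb
  have B0 : 0 ≤ B := (hW' fun _ => (1, 0)).1.trans (hW' _).2
  have W0 : 0 ≤ ∫ ω, W ω ∂Q G θ A := integral_nonneg fun ω => (hW' ω).1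
  have my := fun w => S.measurable_ad (S.measurable_ys (θ := θ) (measurable_gN N)) w S.o
  have bΦ : ∀ w w', BM fun ω => W ω * if S.ad (S.ys θ (gN N ω)) S.o w +
      S.ad (S.ys θ (gN N ω)) S.o w' < c then 1 else 0 := fun w w' => hW.mul
    ((BM.const 1).ite (measurableSet_lt ((my w).add (my w')) measurable_const) (BM.const 0))
  let Φ : List (Fin (b + 1)) → List (Fin (b + 1)) → ℝ := fun w w' => ∫ ω, W ω *
    (if S.ad (S.ys θ (gN N ω)) S.o w + S.ad (S.ys θ (gN N ω)) S.o w' < c then 1 else 0) ∂Q G θ A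
  have key : ∀ m m', m + m' = n → m' ≤ m →
      ∑ w ∈ RW (b + 1) m none, ∑ w' ∈ RW (b + 1) m' none, Φ w w' ≤ 4 * b ^ n * exp (2 * l * c) *
        (3 * ρ ^ (n / 4) * ∫ ω, W ω ∂Q G θ A + B * exp (-((3 / 2) ^ (n / 4) / b))) := by
    intro m m' hm hm'
    obtain ⟨j, hj⟩ : ∃ j, m = n / 4 + j + 1 := ⟨m - 1 - n / 4, by omega⟩
    have e1 := S.sphere hG h0 h1 hb hl (by linarith) hρ1 hd hW hW' (n / 4) j
    rw [← hj] at e1
    have e2 : ∀ w w', Φ w w' ≤ exp (2 * l * c) * ∫ ω, W ω * S.Ew θ l N S.o w ω ∂Q G θ A := by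
      intro w w'
      rw [← integral_const_mul]
      refine integral_le_of_ae (bΦ w w') ((hW.mul (S.bm_Ew h0 h1 hl _ _)).cmul _)
        (ae_of_all _ fun ω => ?_)
      rw [mul_left_comm, Ew, ← exp_add]
      refine mul_le_mul_of_nonneg_left ?_ (hW' ω).1
      split_ifs with h
      · have := S.ad_yf_le h0 h1 (gN N ω) S.o w
        have := S.ad_nonneg (S.ys_nonneg h0 h1 (gN N ω)) w' S.o
        exact one_le_exp (by nlinarith)
      · exact (exp_pos _).le
    have e3 : (3 / 2 : ℝ) ^ (n / 4) / b ≤ b ^ j * ρ ^ (n / 4) := by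
      rw [div_le_iff₀ (by linarith), mul_right_comm, ← pow_succ]
      calc (3 / 2 : ℝ) ^ (n / 4) ≤ (b * ρ) ^ (n / 4) := by gcongr; nlinarith
        _ ≤ _ := by
          rw [mul_pow]
          gcongr
          · linarith
          · omega
    calc _ ≤ ∑ w ∈ RW (b + 1) m none, 2 * b ^ m' *
          (exp (2 * l * c) * ∫ ω, W ω * S.Ew θ l N S.o w ω ∂Q G θ A) := by
          refine sum_le_sum fun w _ => (sum_le_card_nsmul _ _ _ fun w' _ => e2 w w').trans ?_
          rw [nsmul_eq_mul]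
          exact mul_le_mul_of_nonneg_right (card_RW_le (by omega) _) (mul_nonneg (exp_pos _).le
            (integral_nonneg fun ω => mul_nonneg (hW' ω).1 (exp_pos _).le))
      _ ≤ 2 * b ^ m' * (exp (2 * l * c) * (2 * b ^ m * (3 * ρ ^ (n / 4) * ∫ ω, W ω ∂Q G θ A +
          B * exp (-((3 / 2) ^ (n / 4) / b))))) := by
          rw [← mul_sum, ← mul_sum]
          gcongr
          refine e1.trans ?_
          gcongr
      _ = _ := by rw [← hm]; ring
  have e : ∀ w : List (Fin (b + 1)), ∫ ω, W (pull (S.gw (w.take k)) ω) *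
      (if S.ad (S.ys θ (gN N ω)) S.o w < c then 1 else 0) ∂Q G θ A =
      Φ (w.take k).reverse (w.drop k) := fun w => by
    simp only [Φ]
    rw [← integral_comp_mp (mp_pull hG h0 h1 (S.gw (w.take k)) (hinv _)) (bΦ _ _).meas]
    congr 1
    funext ω
    have e1 := fun w' => S.ad_iso (S.gw (w.take k)) (S.gw_st _)
      (S.ys_iso (θ := θ) _ (S.gw_st _) (gN N ω)) w' S.o
    rw [gN_pull, ← e1, ← e1, gw_o, (S.ad_reverse (S.ys_st _) _ _).2, ← ad_append,
      List.take_append_drop]
  simp only [e]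
  refine (sum_RW_split hk (φ := fun w w' => Φ w.reverse w') fun w w' => integral_nonneg fun ω =>
    mul_nonneg (hW' ω).1 (by split_ifs <;> simp)).trans ?_
  rw [sum_RW_reverse k fun w => ∑ w' ∈ RW (b + 1) (n - k) none, Φ w w']
  rcases le_total (n - k) k with h | h
  · exact key _ _ (by omega) h
  · rw [sum_comm]
    simpa only [Φ, add_comm] using key (n - k) k (by omega) h

end Cay

end Vale.Agent.P161
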