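import Mathlib

open MeasureTheory

namespace Vale.Agent.P161

variable {V : Type*}

/-- The spin `+1` is coded by `true` and the spin `-1` by `false`. -/
def spin (b : Bool) : ℝ := if b then 1 else -1

open Classical in
/-- `μ` is the free zero-field Ising measure on the tree `G` with parameter `θ = tanh β`: a
probability measure on spin configurations with the stated marginal on every finite connected
subtree `D`. -/
def IsFreeIsing (G : SimpleGraph V) (θ : ℝ) (μ : Measure (V → Bool)) : Prop :=
  IsProbabilityMeasure μ ∧
    ∀ D : Finset V, (G.induce (D : Set V)).Connected → ∀ η : V → Bool,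
      μ.real {σ | ∀ v ∈ D, σ v = η v} =
        1 / 2 * ∏ e ∈ D.sym2 with e ∈ G.edgeSet, (1 + θ * (e.map fun v => spin (η v)).mul) / 2

/-- The law of a family of i.i.d. uniform `[0,1]` labels of the vertices. -/
noncomputable def iidUniform (V : Type*) : Measure (V → unitInterval) :=
  Measure.infinitePi fun _ => volume

/-- `μ` is the law of `Φ(U)` for a measurable `Φ` that commutes almost surely with every
automorphism of `G`. -/
def IsFactorOfIID (G : SimpleGraph V) (μ : Measure (V → Bool)) : Prop :=
  ∃ Φ : (V → unitInterval) → (V → Bool), Measurable Φ ∧ (iidUniform V).map Φ = μ ∧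
    ∀ g : G ≃g G, ∀ᵐ U ∂(iidUniform V), Φ (fun v => U (g.symm v)) = fun v => Φ U (g.symm v)

end Vale.Agent.P161
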