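import Vale.Agent.P161.Scheme

/-!
Second moment estimates for the finite-volume scheme below the Kesten-Stigum threshold.
-/

open Finset
open scoped BigOperators Classical

namespace Vale.Agent.P161

variable {V : Type*} {G : SimpleGraph V} {θ : ℝ} {D D' : Finset V} {I I' : Finset (ℕ × V)}
  {key b : ℕ × V → ℝ}

lemma add_sq_le {l : ℝ} (hl : 1 < l) (p q : ℝ) : (p + q) ^ 2 ≤ l * p ^ 2 + l / (l - 1) * q ^ 2 := by
  have h : 0 < l - 1 := by linarith
  have h2 : l * p ^ 2 + l / (l - 1) * q ^ 2 - (p + q) ^ 2 = ((l - 1) * p - q) ^ 2 / (l - 1) := by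
    field_simp
    ring
  have : 0 ≤ ((l - 1) * p - q) ^ 2 / (l - 1) := by positivity
  linarith

lemma cov_diff (hG : G.IsTree) (h0 : 0 ≤ θ) (h1 : θ < 1) (hDD : D ⊆ D') (hD : WConn G D)
    (hD' : WConn G D') (hk : Set.InjOn key I) (hk' : Set.InjOn key I') (hb : ∀ j, |b j| ≤ 1 / 2)
    {l γ K Δ : ℝ} (hl : 1 < l) (hγ : θ ^ 2 * l ≤ γ) (hK : 4 ≤ K) (hΔ : 0 ≤ Δ)
    (hM : l * θ ^ 2 * K + l / (l - 1) * (4 / (1 - θ) ^ 3) ^ 2 * (4 * l) ≤ K * γ)
    {J : Finset (ℕ × V)} {t : ℝ} {v : V} (hv : v ∈ D)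
    (h : ∀ z ∈ D, E J b (fun ξ => (M G θ D I key t z ξ - M G θ D' I' key t z ξ) ^ 2) ≤
      Δ * l ^ G.dist v z) (n : ℕ) : ∀ u ∈ D, G.dist v u = n →
    E J b (fun ξ => (C G θ D I key t v u ξ - C G θ D' I' key t v u ξ) ^ 2) ≤ K * Δ * γ ^ n := by
  have hb' : ∀ ξ, Sg b ξ → ∀ j, |ξ j| ≤ 1 / 2 := fun ξ hξ j => by rw [hξ.abs]; exact hb j
  induction n with
  | zero =>
    intro u _ hu
    obtain rfl := hG.connected.dist_eq_zero_iff.1 hu
    have h2 := h v hv
    rw [hu, pow_zero, mul_one] at h2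
    refine (E_mono (g := fun ξ => 4 * (M G θ D I key t v ξ - M G θ D' I' key t v ξ) ^ 2)
      fun ξ hξ => ?_).trans ?_
    · have a1 := abs_le.1 ((F_nonneg_M_le (D := D) hG.isAcyclic h0 h1 hk (hb' ξ hξ) t).2 v)
      have a2 := abs_le.1 ((F_nonneg_M_le (D := D') hG.isAcyclic h0 h1 hk' (hb' ξ hξ) t).2 v)
      rw [C_self hG.isAcyclic hk, C_self hG.isAcyclic hk']
      generalize M G θ D I key t v ξ = p at *
      generalize M G θ D' I' key t v ξ = q at *
      have a3 : (p + q) ^ 2 ≤ 4 := by nlinarith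
      nlinarith [mul_le_mul_of_nonneg_right a3 (sq_nonneg (p - q))]
    · rw [E_mul]
      nlinarith
  | succ n ih =>
    intro u hu hn
    obtain ⟨y, h2, h3⟩ := exists_par hG.connected (v := v) (u := u) (by rintro rfl; simp at hn)
    have hy := hD.par_mem hG hv hu h2 h3
    have hyn : G.dist v y = n := by omega
    have hs := not_mem_side_of_dist hG h2 h3
    set L := 4 / (1 - θ) ^ 3 with hL
    have hl0 : 0 ≤ l / (l - 1) := div_nonneg (by linarith) (by linarith)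
    refine (E_mono (g := fun ξ =>
      l * θ ^ 2 * (C G θ D I key t v y ξ - C G θ D' I' key t v y ξ) ^ 2 +
      l / (l - 1) * L ^ 2 * (θ ^ 2) ^ n * 2 *
        ((M G θ D I key t y ξ - M G θ D' I' key t y ξ) ^ 2 +
          (M G θ D I key t u ξ - M G θ D' I' key t u ξ) ^ 2)) fun ξ hξ => ?_).trans ?_
    · obtain ⟨x, x1, x2, x3⟩ := cov_rec hG.isAcyclic h0 h1 hk (hb' ξ hξ) t hy hu h2
      obtain ⟨x', x1', x2', x3'⟩ :=
        cov_rec hG.isAcyclic h0 h1 hk' (hb' ξ hξ) t (hDD hy) (hDD hu) h2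
      have a1 := R_lip (m' := M G θ D' I' key t y ξ) h0 h1 x1 x1'
        ((F_nonneg_M_le (D := D) hG.isAcyclic h0 h1 hk (hb' ξ hξ) t).2 y)
      rw [← x2, ← x2', ← hL] at a1
      have a2 := C_abs_le h0 h1 hk' (hb' ξ hξ) hG hD' t (hDD hv) n y (hDD hy) hyn
      rw [x3 v hs, x3' v hs]
      have a3 := Rf_nonneg h0 h1 x1
      have a4 := Rf_le h0 h1 x1
      generalize M G θ D I key t y ξ - M G θ D' I' key t y ξ = p at *
      generalize M G θ D I key t u ξ - M G θ D' I' key t u ξ = q at *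
      generalize C G θ D I key t v y ξ = c at *
      generalize C G θ D' I' key t v y ξ = c' at *
      have a5 := add_sq_le hl (Rf θ x * (c - c')) ((Rf θ x - Rf θ x') * c')
      have a6 : (Rf θ x * (c - c')) ^ 2 ≤ θ ^ 2 * (c - c') ^ 2 := by
        rw [mul_pow]
        exact mul_le_mul_of_nonneg_right (pow_le_pow_left₀ a3 a4 2) (sq_nonneg _)
      have a7 : ((Rf θ x - Rf θ x') * c') ^ 2 ≤ L ^ 2 * (θ ^ 2) ^ n * 2 * (p ^ 2 + q ^ 2) := by
        have b1 : (Rf θ x - Rf θ x') ^ 2 ≤ L ^ 2 * (2 * (p ^ 2 + q ^ 2)) := by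
          rw [← sq_abs]
          refine (pow_le_pow_left₀ (abs_nonneg _) a1 2).trans ?_
          rw [mul_pow]
          refine mul_le_mul_of_nonneg_left ?_ (sq_nonneg _)
          nlinarith [sq_abs p, sq_abs q, sq_nonneg (|p| - |q|)]
        have b2 : c' ^ 2 ≤ (θ ^ 2) ^ n := by
          rw [← sq_abs, ← pow_mul, mul_comm, pow_mul]
          exact pow_le_pow_left₀ (abs_nonneg _) a2 2
        rw [mul_pow]
        refine (mul_le_mul b1 b2 (sq_nonneg _) (by positivity)).trans_eq (by ring)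
      have a8 := mul_le_mul_of_nonneg_left a6 (show 0 ≤ l by linarith)
      have a9 := mul_le_mul_of_nonneg_left a7 hl0
      calc _ = (Rf θ x * (c - c') + (Rf θ x - Rf θ x') * c') ^ 2 := by ring
        _ ≤ _ := by linarith
    · rw [E_add, E_mul, E_mul, E_add]
      have a1 := ih y hy hyn
      have a2 := h y hy
      have a3 := h u hu
      rw [hyn] at a2
      rw [hn] at a3
      have a4 : (θ ^ 2) ^ n * l ^ n ≤ γ ^ n := by
        rw [← mul_pow]
        exact pow_le_pow_left₀ (by positivity) hγ n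
      have a5 : l ^ n ≤ l ^ (n + 1) := pow_le_pow_right₀ hl.le (Nat.le_succ n)
      have a6 : 0 ≤ γ ^ n := le_trans (by positivity) a4
      calc _ ≤ l * θ ^ 2 * (K * Δ * γ ^ n) + l / (l - 1) * L ^ 2 * (θ ^ 2) ^ n * 2 *
            (Δ * l ^ (n + 1) + Δ * l ^ (n + 1)) := by
            gcongr
            exact a2.trans (mul_le_mul_of_nonneg_left a5 hΔ)
        _ = l * θ ^ 2 * (K * Δ * γ ^ n) + l / (l - 1) * L ^ 2 * (4 * l) * Δ *
            ((θ ^ 2) ^ n * l ^ n) := by ring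
        _ ≤ l * θ ^ 2 * (K * Δ * γ ^ n) + l / (l - 1) * L ^ 2 * (4 * l) * Δ * γ ^ n := by
            gcongr
        _ = (l * θ ^ 2 * K + l / (l - 1) * L ^ 2 * (4 * l)) * (Δ * γ ^ n) := by ring
        _ ≤ K * γ * (Δ * γ ^ n) := by gcongr
        _ = _ := by ring

lemma compare [G.LocallyFinite] (hG : G.IsTree) {d : ℕ} (hd : ∀ v, G.degree v ≤ d + 1)
    (h0 : 0 ≤ θ) (h1 : θ < 1) {l γ K a : ℝ} (hl : 1 < l) (hγ : θ ^ 2 * l ≤ γ) (hγ' : d * γ < 1)
    (hK : 4 ≤ K) (hM : l * θ ^ 2 * K + l / (l - 1) * (4 / (1 - θ) ^ 3) ^ 2 * (4 * l) ≤ K * γ)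
    (ha : a ^ 2 * K * 2 * ((1 + γ) / (1 - d * γ)) ≤ 1) (ha' : |a| ≤ 1 / 2)
    (hDD : D ⊆ D') (hD : WConn G D) (hD' : WConn G D') {n n' : ℕ} (hn : n ≤ n')
    (hk : Set.InjOn key (range n' ×ˢ D' : Finset (ℕ × V)))
    (hkey : ∀ i, (i.1 : ℝ) ≤ key i ∧ key i ≤ i.1 + 1) (hb : ∀ j, b j ^ 2 = a ^ 2)
    {o : V} {R : ℕ} (hR : ball G o R ⊆ D) (t : ℝ) : t ≤ n → ∀ r : ℕ, t ≤ r → ∀ v ∈ D,
    E (range n' ×ˢ D') b (fun ξ => (M G θ D (range n ×ˢ D) key t v ξ -
      M G θ D' (range n' ×ˢ D') key t v ξ) ^ 2) ≤ (2 ^ r - 1) * (l ^ G.dist o v / l ^ R) := by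
  have hI : range n ×ˢ D ⊆ range n' ×ˢ D' := product_subset_product (range_mono hn) hDD
  have hk0 : Set.InjOn key (range n ×ˢ D : Finset (ℕ × V)) := hk.mono (by exact_mod_cast hI)
  have hb' : ∀ j, |b j| ≤ 1 / 2 := fun j => by rwa [(sq_eq_sq_iff_abs_eq_abs _ _).1 (hb j)]
  have hγ0 : 0 ≤ γ := le_trans (by positivity) hγ
  have hw : ∀ v u, l ^ G.dist o u / l ^ R ≤ l ^ G.dist o v / l ^ R * l ^ G.dist v u := fun v u => by
    rw [div_mul_eq_mul_div, ← pow_add]
    gcongr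
    · exact hl.le
    · exact hG.connected.dist_triangle
  induction t using time_ind (range n' ×ˢ D') key with
  | h t ih =>
    intro ht r hr v hv
    set w := l ^ G.dist o v / l ^ R with hw0
    have hw1 : 0 ≤ w := by positivity
    rw [((mart_M hI v).sub (mart_M subset_rfl v)).sq hk hb (fun t h => by
      rw [M_zero hI hv h, M_zero subset_rfl (hDD hv) h]; simp)]
    calc _ ≤ ∑ i ∈ range n' ×ˢ D' with key i < t,
          a ^ 2 * (K * (2 ^ (i.1 + 1) * w) * γ ^ G.dist v i.2) := by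
          refine sum_le_sum fun i hi => mul_le_mul_of_nonneg_left ?_ (sq_nonneg _)
          obtain ⟨i1, i2⟩ := mem_filter.1 hi
          have i3 := ih i i1 i2 (i2.le.trans ht) (i.1 + 1) (by simpa using (hkey i).2)
          simp only [i1, if_true]
          by_cases i4 : i ∈ range n ×ˢ D
          · simp only [i4, if_true]
            refine cov_diff hG h0 h1 hDD hD hD' hk0 hk hb' hl hγ hK (by positivity) hM hv
              (fun z hz => (i3 z hz).trans ?_) _ _ (mem_product.1 i4).2 rfl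
            rw [mul_assoc]
            exact mul_le_mul (by linarith) (hw v z) (by positivity) (by positivity)
          · simp only [i4, if_false]
            have i5 : i.2 ∉ D := fun h => i4 (mem_product.2 ⟨mem_range.2 (by
              have := ((hkey i).1.trans_lt i2).trans_le ht
              exact_mod_cast this), h⟩)
            have i6 : 1 ≤ w * l ^ G.dist v i.2 := by
              refine le_trans ?_ (hw v i.2)
              rw [one_le_div (by positivity)]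
              exact pow_le_pow_right₀ hl.le (not_lt.1 fun h => i5 (hR ((mem_ball hG.connected).2 h)))
            refine (E_mono (g := fun _ => (θ ^ 2) ^ G.dist v i.2) fun ξ hξ => ?_).trans ?_
            · rw [zero_sub, neg_sq, ← sq_abs, ← pow_mul, mul_comm, pow_mul]
              exact pow_le_pow_left₀ (abs_nonneg _) (C_abs_le h0 h1 hk (fun j => by
                rw [hξ.abs]; exact hb' j) hG hD' _ (hDD hv) _ _ (mem_product.1 i1).2 rfl) 2
            · rw [E_const]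
              have i7 : (θ ^ 2 * l) ^ G.dist v i.2 ≤ γ ^ G.dist v i.2 :=
                pow_le_pow_left₀ (by positivity) hγ _
              have i8 : (1 : ℝ) ≤ K * 2 ^ (i.1 + 1) :=
                one_le_mul_of_one_le_of_one_le (by linarith) (one_le_pow₀ one_le_two)
              calc _ ≤ (θ ^ 2) ^ G.dist v i.2 * (w * l ^ G.dist v i.2) :=
                    le_mul_of_one_le_right (by positivity) i6
                _ = 1 * (w * (θ ^ 2 * l) ^ G.dist v i.2) := by rw [mul_pow]; ring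
                _ ≤ K * 2 ^ (i.1 + 1) * (w * γ ^ G.dist v i.2) := by gcongr
                _ = _ := by ring
      _ ≤ ∑ i ∈ range r ×ˢ D', a ^ 2 * (K * (2 ^ (i.1 + 1) * w) * γ ^ G.dist v i.2) := by
          refine sum_le_sum_of_subset_of_nonneg (fun i hi => ?_) fun _ _ _ => by positivity
          obtain ⟨i1, i2⟩ := mem_filter.1 hi
          refine mem_product.2 ⟨mem_range.2 ?_, (mem_product.1 i1).2⟩
          have := ((hkey i).1.trans_lt i2).trans_le hr
          exact_mod_cast this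
      _ = ∑ j ∈ range r, (a ^ 2 * K * 2 * ∑ u ∈ D', γ ^ G.dist v u) * (2 ^ j * w) := by
          rw [sum_product]
          refine sum_congr rfl fun j _ => ?_
          rw [mul_sum, sum_mul]
          exact sum_congr rfl fun u _ => by ring
      _ ≤ ∑ j ∈ range r, 2 ^ j * w := by
          refine sum_le_sum fun j _ => mul_le_of_le_one_left (by positivity) (le_trans ?_ ha)
          gcongr
          exact geom_sum_le hG.connected hd hγ0 hγ' v D'
      _ = _ := by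
          rw [← sum_mul, geom_sum_eq (by norm_num)]
          norm_num

lemma exists_params {d : ℕ} (h0 : 0 ≤ θ) (h1 : θ < 1) (h : d * θ ^ 2 < 1) (hd : 1 ≤ d) :
    ∃ l γ K a : ℝ, 1 < l ∧ θ ^ 2 * l ≤ γ ∧ d * γ < 1 ∧ 4 ≤ K ∧
      l * θ ^ 2 * K + l / (l - 1) * (4 / (1 - θ) ^ 3) ^ 2 * (4 * l) ≤ K * γ ∧
      a ^ 2 * K * 2 * ((1 + γ) / (1 - d * γ)) ≤ 1 ∧ |a| ≤ 1 / 2 ∧ 0 < a := by
  have hd' : (0 : ℝ) < d := by exact_mod_cast hd
  obtain ⟨γ, g1, g2⟩ := exists_between ((lt_div_iff₀' hd').2 h)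
  rw [lt_div_iff₀' hd'] at g2
  have t1 : θ ^ 2 ≤ 1 := by nlinarith
  have g3 : θ ^ 2 * (1 + (γ - θ ^ 2) / 2) < γ := by nlinarith [sq_nonneg θ]
  set l := 1 + (γ - θ ^ 2) / 2 with hl
  have l1 : 1 < l := by linarith
  set c := l / (l - 1) * (4 / (1 - θ) ^ 3) ^ 2 * (4 * l) with hc
  have g0 : 0 ≤ γ := (sq_nonneg θ).trans g1.le
  set K := max 4 (c / (γ - θ ^ 2 * l)) with hK
  have k1 : 4 ≤ K := le_max_left _ _
  have k2 : c ≤ K * (γ - θ ^ 2 * l) := (div_le_iff₀ (by linarith)).1 (le_max_right _ _)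
  set S := K * 2 * ((1 + γ) / (1 - d * γ)) with hS
  have s0 : 0 < S := by
    have : 0 < 1 - d * γ := by linarith
    positivity
  refine ⟨l, γ, K, min (1 / 2) (1 / S), l1, g3.le, g2, k1, by linarith, ?_, ?_, by positivity⟩
  · have a1 : min (1 / 2) (1 / S) ≤ 1 := (min_le_left _ _).trans (by norm_num)
    have a2 : min (1 / 2) (1 / S) * S ≤ 1 := (le_div_iff₀ s0).1 (min_le_right _ _)
    have a3 : 0 ≤ min (1 / 2) (1 / S) := by positivity
    calc _ = min (1 / 2) (1 / S) * (min (1 / 2) (1 / S) * S) := by rw [hS]; ring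
      _ ≤ 1 := mul_le_one₀ a1 (by positivity) a2
  · rw [abs_of_pos (by positivity)]
    exact min_le_left _ _

lemma sq_M (hk : Set.InjOn key I) {a : ℝ} (hb : ∀ j, b j ^ 2 = a ^ 2) {v : V} (hv : v ∈ D)
    (t : ℝ) : E I b (fun ξ => M G θ D I key t v ξ ^ 2) =
      ∑ i ∈ I with key i < t, a ^ 2 * E I b (fun ξ => C G θ D I key (key i) v i.2 ξ ^ 2) := by
  rw [(mart_M subset_rfl v).sq hk hb fun t h => M_zero subset_rfl hv h]
  exact sum_congr rfl fun i hi => by simp only [(mem_filter.1 hi).1, if_true]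

lemma localize (hG : G.IsAcyclic) (h0 : 0 ≤ θ) (h1 : θ < 1) {n n' : ℕ} (hn : n ≤ n')
    (hk : Set.InjOn key (range n' ×ˢ D : Finset (ℕ × V)))
    (hkey : ∀ i, key i < i.1 + 1) {a ε : ℝ} (hb : ∀ j, b j ^ 2 = a ^ 2) (ha : |a| ≤ 1 / 2)
    (hε : 0 < ε) (h : 1 ≤ n * a ^ 2 * ε ^ 2) {v : V} (hv : v ∈ D) :
    E (range n' ×ˢ D) b (fun ξ => 1 - M G θ D (range n' ×ˢ D) key n v ξ ^ 2) ≤ ε := by
  set I := range n' ×ˢ D with hI
  have hb' : ∀ ξ, Sg b ξ → ∀ j, |ξ j| ≤ 1 / 2 := fun ξ hξ j => by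
    rwa [hξ.abs, (sq_eq_sq_iff_abs_eq_abs _ _).1 (hb j)]
  have hmono : ∀ t t', t ≤ t' → E I b (fun ξ => M G θ D I key t v ξ ^ 2) ≤
      E I b (fun ξ => M G θ D I key t' v ξ ^ 2) := fun t t' h => by
    rw [sq_M hk hb hv, sq_M hk hb hv]
    exact sum_le_sum_of_subset_of_nonneg (monotone_filter_right _ fun _ _ hi => hi.trans_le h)
      fun _ _ _ => mul_nonneg (sq_nonneg _) (E_nonneg fun _ _ => sq_nonneg _)
  by_contra hcon
  push Not at hcon
  have h2 : E I b (fun ξ => M G θ D I key n v ξ ^ 2) ≤ 1 :=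
    (E_mono fun ξ hξ => (sq_le_one_iff_abs_le_one _).2
      ((F_nonneg_M_le hG h0 h1 hk (hb' ξ hξ) _).2 v)).trans_eq (E_const 1)
  have hlt : ∀ j ∈ range n, key (j, v) < n := fun j hj => (hkey _).trans_le (by
    exact_mod_cast mem_range.1 hj)
  have h3 : ∑ j ∈ range n, a ^ 2 * E I b (fun ξ => C G θ D I key (key (j, v)) v v ξ ^ 2) ≤
      E I b (fun ξ => M G θ D I key n v ξ ^ 2) := by
    rw [sq_M hk hb hv, ← sum_image (s := range n) (g := fun j => (j, v))
      (f := fun i => a ^ 2 * E I b (fun ξ => C G θ D I key (key i) v i.2 ξ ^ 2))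
      (fun _ _ _ _ h => (Prod.mk.inj h).1)]
    refine sum_le_sum_of_subset_of_nonneg (fun i hi => ?_)
      fun _ _ _ => mul_nonneg (sq_nonneg _) (E_nonneg fun _ _ => sq_nonneg _)
    obtain ⟨j, hj, rfl⟩ := mem_image.1 hi
    exact mem_filter.2 ⟨mem_product.2 ⟨range_mono hn hj, hv⟩, hlt j hj⟩
  set X := E I b (fun ξ => 1 - M G θ D I key n v ξ ^ 2) with hX
  have h4 : ∀ j ∈ range n, a ^ 2 * X ^ 2 ≤
      a ^ 2 * E I b (fun ξ => C G θ D I key (key (j, v)) v v ξ ^ 2) := fun j hj => by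
    refine mul_le_mul_of_nonneg_left (le_trans ?_
      (E_sq_le (f := fun ξ => C G θ D I key (key (j, v)) v v ξ))) (sq_nonneg _)
    refine pow_le_pow_left₀ (hε.le.trans hcon.le) ?_ 2
    simp only [C_self hG hk]
    rw [hX, E_sub, E_sub]
    linarith [hmono _ _ (hlt j hj).le]
  have h5 := sum_le_sum h4
  rw [sum_const, card_range, nsmul_eq_mul] at h5
  have h6 : ε ^ 2 < X ^ 2 := pow_lt_pow_left₀ hcon hε.le two_ne_zero
  have h7 : 0 < n * a ^ 2 := by
    by_contra h8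
    nlinarith [sq_nonneg ε]
  nlinarith

lemma incr (hk : Set.InjOn key I) {v : V} {t t' : ℝ} (h : t ≤ t') :
    E I b (fun ξ => (M G θ D I key t' v ξ - M G θ D I key t v ξ) ^ 2) =
      E I b (fun ξ => M G θ D I key t' v ξ ^ 2) - E I b (fun ξ => M G θ D I key t v ξ ^ 2) := by
  have h1 := (mart_M (G := G) (θ := θ) (D := D) subset_rfl v).mean (b := b) hk
    (Y := M G θ D I key t v) (fun i hi ht ξ => (mart_M subset_rfl v).dep t i hi ht ξ) t' h
  rw [E_congr (g := fun ξ => M G θ D I key t' v ξ ^ 2 - 2 * (M G θ D I key t v ξ *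
    M G θ D I key t' v ξ) + M G θ D I key t v ξ * M G θ D I key t v ξ) fun ξ _ => by ring,
    E_add, E_sub, E_mul, h1, E_congr (f := fun ξ => M G θ D I key t v ξ ^ 2)
      fun ξ _ => sq _]
  ring

lemma mean_F (hk : Set.InjOn key I) (hkey : ∀ i, 0 ≤ key i) {t : ℝ} (ht : 0 ≤ t) (s : V → ℝ) :
    E I b (fun ξ => F G θ D I key t ξ s) = W G θ D s := by
  have h1 := (mart_F (G := G) (θ := θ) (D := D) subset_rfl s).mean (b := b) hk
    (Y := fun _ => 1) (fun _ _ _ _ => rfl) t ht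
  simp only [one_mul] at h1
  rw [h1, ← E_const (D := I) (b := b) (W G θ D s)]
  refine E_congr fun ξ _ => ?_
  rw [F_eq, filter_eq_empty_iff.2 fun j _ => not_lt.2 (hkey j)]
  simp

end Vale.Agent.P161
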