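import Vale.Agent.P161.Tree

/-!
Finite-volume Ising weights on a tree: the Markov property across an edge and consistency.
-/

open Finset
open scoped BigOperators Classical

namespace Vale.Agent.P161

variable {V : Type*} {G : SimpleGraph V} {θ : ℝ}

noncomputable def ED (G : SimpleGraph V) (D : Finset V) : Finset (Sym2 V) :=
  {e ∈ D.sym2 | e ∈ G.edgeSet}

lemma mem_ED {D : Finset V} {p q : V} : s(p, q) ∈ ED G D ↔ p ∈ D ∧ q ∈ D ∧ G.Adj p q := by
  simp [ED, and_assoc]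

noncomputable def WE (θ : ℝ) (A : Finset (Sym2 V)) (s : V → ℝ) : ℝ :=
  ∏ e ∈ A, (1 + θ * (e.map s).mul)

noncomputable def W (G : SimpleGraph V) (θ : ℝ) (D : Finset V) (s : V → ℝ) : ℝ :=
  WE θ (ED G D) s

lemma Sg.one_cases {s : V → ℝ} (h : Sg 1 s) (v : V) : s v = 1 ∨ s v = -1 := h v

lemma WE_nonneg (h0 : 0 ≤ θ) (h1 : θ ≤ 1) (A : Finset (Sym2 V)) {s : V → ℝ} (hs : Sg 1 s) :
    0 ≤ WE θ A s := by
  refine prod_nonneg fun e _ => ?_
  induction e using Sym2.ind with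
  | h p q =>
    rcases hs.one_cases p with h | h <;> rcases hs.one_cases q with h' | h' <;>
      simp [h, h'] <;> linarith

lemma WE_congr {A : Finset (Sym2 V)} {s s' : V → ℝ} (h : ∀ e ∈ A, ∀ x ∈ e, s x = s' x) :
    WE θ A s = WE θ A s' := by
  refine prod_congr rfl fun e he => ?_
  induction e using Sym2.ind with
  | h p q => simp [h _ he p (by simp), h _ he q (by simp)]

noncomputable def Pf (θ x : ℝ) : ℝ := x * (1 - θ ^ 2) / (1 - θ ^ 2 * x ^ 2)

noncomputable def Rf (θ x : ℝ) : ℝ := θ * (1 - x ^ 2) / (1 - θ ^ 2 * x ^ 2)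

lemma den_pos (h0 : 0 ≤ θ) (h1 : θ < 1) {x : ℝ} (hx : |x| ≤ 1) : 0 < 1 - θ ^ 2 * x ^ 2 := by
  have : x ^ 2 ≤ 1 := by rwa [sq_le_one_iff_abs_le_one]
  nlinarith [sq_nonneg θ]

lemma Rf_nonneg (h0 : 0 ≤ θ) (h1 : θ < 1) {x : ℝ} (hx : |x| ≤ 1) : 0 ≤ Rf θ x := by
  have : x ^ 2 ≤ 1 := by rwa [sq_le_one_iff_abs_le_one]
  exact div_nonneg (mul_nonneg h0 (by linarith)) (den_pos h0 h1 hx).le

lemma Rf_le (h0 : 0 ≤ θ) (h1 : θ < 1) {x : ℝ} (hx : |x| ≤ 1) : Rf θ x ≤ θ := by
  rw [Rf, div_le_iff₀ (den_pos h0 h1 hx)]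
  refine mul_le_mul_of_nonneg_left ?_ h0
  have : θ ^ 2 ≤ 1 := by nlinarith
  nlinarith [sq_nonneg x]

lemma x_lip (h0 : 0 ≤ θ) (h1 : θ < 1) {x x' m m' : ℝ} (hx : |x| ≤ 1) (hx' : |x'| ≤ 1)
    (hm : |m| ≤ 1) :
    |x - x'| ≤ 4 / (1 - θ) * (|m - m'| + |Pf θ x + Rf θ x * m - (Pf θ x' + Rf θ x' * m')|) ∧
      |Rf θ x - Rf θ x'| ≤ 1 / (1 - θ) ^ 2 * |x - x'| := by
  obtain ⟨a1, a2⟩ := abs_le.1 hx
  obtain ⟨b1, b2⟩ := abs_le.1 hx'
  obtain ⟨c1, c2⟩ := abs_le.1 hm
  have p1 : 1 - θ ≤ 1 + θ * x := by nlinarith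
  have p2 : 1 - θ ≤ 1 - θ * x := by nlinarith
  have p3 : 1 - θ ≤ 1 + θ * x' := by nlinarith
  have p4 : 1 - θ ≤ 1 - θ * x' := by nlinarith
  have q1 : 1 + θ * x ≤ 2 := by nlinarith
  have q2 : 1 - θ * x ≤ 2 := by nlinarith
  have q3 : 1 + θ * x' ≤ 2 := by nlinarith
  have q4 : 1 - θ * x' ≤ 2 := by nlinarith
  have t : 0 < 1 - θ := by linarith
  have e1 : 1 - θ ^ 2 * x ^ 2 = (1 + θ * x) * (1 - θ * x) := by ring
  have e2 : 1 - θ ^ 2 * x' ^ 2 = (1 + θ * x') * (1 - θ * x') := by ring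
  have key : ∀ u w : ℝ, 1 - θ ≤ u → 1 - θ ≤ w → u ≤ 2 → w ≤ 2 →
      (1 - θ) / 4 ≤ (1 - θ ^ 2) / (u * w) ∧ (1 - θ ^ 2) / (u * w) ≤ 1 / (1 - θ) ^ 2 := by
    intro u w h2 h3 h4 h5
    have hu : 0 < u := by linarith
    have hw : 0 < w := by linarith
    constructor
    · rw [div_le_div_iff₀ (by norm_num) (by positivity)]
      have : u * w ≤ 4 := by nlinarith
      nlinarith
    · refine div_le_div₀ zero_le_one (by nlinarith) (by positivity) ?_
      rw [sq]
      exact mul_le_mul h2 h3 t.le hu.le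
  obtain ⟨k1, k2⟩ := key _ _ p1 p3 q1 q3
  obtain ⟨k3, k4⟩ := key _ _ p2 p4 q2 q4
  set kp := (1 - θ ^ 2) / ((1 + θ * x) * (1 + θ * x')) with hkp
  set km := (1 - θ ^ 2) / ((1 - θ * x) * (1 - θ * x')) with hkm
  have n1 : 1 + θ * x ≠ 0 := by linarith
  have n2 : 1 - θ * x ≠ 0 := by linarith
  have n3 : 1 + θ * x' ≠ 0 := by linarith
  have n4 : 1 - θ * x' ≠ 0 := by linarith
  have f1 : Rf θ x - Rf θ x' = (x - x') * ((kp - km) / 2) := by
    rw [Rf, Rf, e1, e2, hkp, hkm]; field_simp; ring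
  have f2 : Pf θ x - Pf θ x' = (x - x') * ((kp + km) / 2) := by
    have n5 : 1 + x * θ ≠ 0 := by linarith
    have n6 : 1 - x * θ ≠ 0 := by linarith
    have n7 : 1 + x' * θ ≠ 0 := by linarith
    have n8 : 1 - x' * θ ≠ 0 := by linarith
    rw [Pf, Pf, e1, e2, hkp, hkm]; field_simp; ring
  constructor
  · have f3 : (x - x') * ((1 + m) / 2 * kp + (1 - m) / 2 * km) =
        Pf θ x + Rf θ x * m - (Pf θ x' + Rf θ x' * m') - Rf θ x' * (m - m') := by
      linear_combination (-1 : ℝ) * f2 - m * f1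
    have f4 : (1 - θ) / 4 ≤ (1 + m) / 2 * kp + (1 - m) / 2 * km := by nlinarith
    have f5 : |Rf θ x' * (m - m')| ≤ |m - m'| := by
      rw [abs_mul, abs_of_nonneg (Rf_nonneg h0 h1 hx')]
      exact mul_le_of_le_one_left (abs_nonneg _) ((Rf_le h0 h1 hx').trans h1.le)
    have f6 := abs_sub (Pf θ x + Rf θ x * m - (Pf θ x' + Rf θ x' * m')) (Rf θ x' * (m - m'))
    rw [← f3, abs_mul, abs_of_nonneg (le_trans (by positivity) f4)] at f6
    rw [div_mul_eq_mul_div, le_div_iff₀ t]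
    nlinarith [abs_nonneg (x - x')]
  · rw [f1, abs_mul, mul_comm]
    refine mul_le_mul_of_nonneg_right (abs_le.2 ⟨?_, ?_⟩) (abs_nonneg _) <;>
      nlinarith [t.le]

lemma R_lip (h0 : 0 ≤ θ) (h1 : θ < 1) {x x' m m' : ℝ} (hx : |x| ≤ 1) (hx' : |x'| ≤ 1)
    (hm : |m| ≤ 1) :
    |Rf θ x - Rf θ x'| ≤
      4 / (1 - θ) ^ 3 * (|m - m'| + |Pf θ x + Rf θ x * m - (Pf θ x' + Rf θ x' * m')|) := by
  obtain ⟨a, b⟩ := x_lip (m' := m') h0 h1 hx hx' hm
  have t : 0 < 1 - θ := by linarith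
  refine b.trans ((mul_le_mul_of_nonneg_left a (by positivity)).trans_eq ?_)
  field_simp

variable {ι : Type*}

/-- The part of the weight that lives on the `z`-side of the edge `yz`. -/
noncomputable def FB (G : SimpleGraph V) (θ : ℝ) (D : Finset V) (J : Finset ι) (st : ι → V)
    (h : ι → ℝ → ℝ) (y z : V) (s : V → ℝ) : ℝ :=
  WE θ {e ∈ (ED G D).erase s(y, z) | ∀ x ∈ e, x ∈ side G y z} s *
    ∏ j ∈ J with st j ∈ side G y z, h j (s (st j))

noncomputable def cav (G : SimpleGraph V) (θ : ℝ) (D : Finset V) (J : Finset ι) (st : ι → V)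
    (h : ι → ℝ → ℝ) (y z : V) : ℝ :=
  E D 1 (fun s => s z * FB G θ D J st h y z s) / E D 1 (FB G θ D J st h y z)

lemma markov (hG : G.IsAcyclic) (h0 : 0 ≤ θ) (h1 : θ < 1) {D : Finset V} {y z : V}
    (hy : y ∈ D) (hz : z ∈ D) (hyz : G.Adj y z) (J : Finset ι) (st : ι → V) (h : ι → ℝ → ℝ)
    (hh : ∀ j ∈ J, 0 ≤ h j 1 ∧ 0 ≤ h j (-1)) :
    |cav G θ D J st h y z| ≤ 1 ∧
    ∀ φ : (V → ℝ) → ℝ, (∀ s s', (∀ v, v ∉ side G y z → s v = s' v) → φ s = φ s') →
      E D 1 (fun s => φ s * s z * (W G θ D s * ∏ j ∈ J, h j (s (st j)))) =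
        Pf θ (cav G θ D J st h y z) *
          E D 1 (fun s => φ s * (W G θ D s * ∏ j ∈ J, h j (s (st j)))) +
        Rf θ (cav G θ D J st h y z) *
          E D 1 (fun s => φ s * s y * (W G θ D s * ∏ j ∈ J, h j (s (st j)))) := by
  set B := side G y z with hB
  set fb := FB G θ D J st h y z with hfb
  let fa : (V → ℝ) → ℝ := fun s => WE θ {e ∈ (ED G D).erase s(y, z) | ¬ ∀ x ∈ e, x ∈ B} s *
    ∏ j ∈ J with st j ∉ B, h j (s (st j))
  have hyB : y ∉ B := not_mem_side hG hyz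
  have hzB : z ∈ B := mem_side_self y z
  have da : ∀ s s', (∀ v, v ∉ B → s v = s' v) → fa s = fa s' := fun s s' hs => by
    refine congrArg₂ _ (WE_congr fun e he x hx => hs x ?_) (prod_congr rfl fun j hj => by
      rw [hs _ (mem_filter.1 hj).2])
    obtain ⟨h2, h3⟩ := mem_filter.1 he
    obtain ⟨h4, h5⟩ := mem_erase.1 h2
    induction e using Sym2.ind with
    | h p q =>
      have h6 := side_iff (mem_ED.1 h5).2.2 h4
      simp only [Sym2.mem_iff, forall_eq_or_imp, forall_eq] at h3 hx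
      rcases hx with rfl | rfl <;> tauto
  have db : ∀ s s', (∀ v, v ∈ B → s v = s' v) → fb s = fb s' := fun s s' hs =>
    congrArg₂ _ (WE_congr fun e he x hx => hs x ((mem_filter.1 he).2 x hx))
      (prod_congr rfl fun j hj => by rw [hs _ (mem_filter.1 hj).2])
  have hsplit : ∀ s, W G θ D s * ∏ j ∈ J, h j (s (st j)) =
      (1 + θ * (s y * s z)) * (fa s * fb s) := fun s => by
    rw [W, WE, ← mul_prod_erase _ _ (mem_ED.2 ⟨hy, hz, hyz⟩),
      ← prod_filter_mul_prod_filter_not ((ED G D).erase s(y, z)) (fun e => ∀ x ∈ e, x ∈ B),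
      ← prod_filter_mul_prod_filter_not J (fun j => st j ∈ B)]
    simp only [fa, hfb, FB, WE, Sym2.map_mk, Sym2.mul_mk]
    ring
  have hpos : ∀ s, Sg 1 s → 0 ≤ fb s := fun s hs =>
    mul_nonneg (WE_nonneg h0 h1.le _ hs) (prod_nonneg fun j hj => by
      have := hh j (mem_filter.1 hj).1
      rcases hs.one_cases (st j) with h2 | h2 <;> rw [h2] <;> tauto)
  have hb1 : |E D 1 (fun s => s z * fb s)| ≤ E D 1 fb := E_abs_le fun s hs => by
    rw [abs_mul, hs.abs, abs_of_nonneg (hpos s hs)]; simp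
  set x := cav G θ D J st h y z with hx
  have hx1 : |x| ≤ 1 := by
    rw [hx, cav, abs_div, abs_of_nonneg (E_nonneg hpos)]
    exact div_le_one_of_le₀ hb1 (E_nonneg hpos)
  have hx2 : E D 1 (fun s => s z * fb s) = x * E D 1 fb := by
    by_cases h2 : E D 1 fb = 0
    · rw [h2] at hb1 ⊢
      simpa using hb1
    · rw [hx, cav, div_mul_cancel₀ _ h2]
  refine ⟨hx1, fun φ hφ => ?_⟩
  have i0 : E D 1 (fun s => (φ s * fa s) * fb s) = E D 1 (fun s => φ s * fa s) * E D 1 fb :=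
    E_indep B (fun s s' hs => by rw [hφ s s' hs, da s s' hs]) db
  have i1 : E D 1 (fun s => (φ s * fa s) * (s z * fb s)) =
      E D 1 (fun s => φ s * fa s) * E D 1 (fun s => s z * fb s) :=
    E_indep B (fun s s' hs => by rw [hφ s s' hs, da s s' hs])
      fun s s' hs => by rw [db s s' hs, hs z hzB]
  have i2 : E D 1 (fun s => (φ s * s y * fa s) * fb s) =
      E D 1 (fun s => φ s * s y * fa s) * E D 1 fb :=
    E_indep B (fun s s' hs => by rw [hφ s s' hs, da s s' hs, hs y hyB]) db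
  have i3 : E D 1 (fun s => (φ s * s y * fa s) * (s z * fb s)) =
      E D 1 (fun s => φ s * s y * fa s) * E D 1 (fun s => s z * fb s) :=
    E_indep B (fun s s' hs => by rw [hφ s s' hs, da s s' hs, hs y hyB])
      fun s s' hs => by rw [db s s' hs, hs z hzB]
  have j1 : E D 1 (fun s => φ s * s z * (W G θ D s * ∏ j ∈ J, h j (s (st j)))) =
      E D 1 (fun s => (φ s * fa s) * (s z * fb s)) +
        θ * E D 1 (fun s => (φ s * s y * fa s) * fb s) := by
    rw [← E_mul, ← E_add]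
    refine E_congr fun s hs => ?_
    rw [hsplit]
    rcases hs.one_cases z with h2 | h2 <;> rw [h2] <;> ring
  have j2 : E D 1 (fun s => φ s * (W G θ D s * ∏ j ∈ J, h j (s (st j)))) =
      E D 1 (fun s => (φ s * fa s) * fb s) +
        θ * E D 1 (fun s => (φ s * s y * fa s) * (s z * fb s)) := by
    rw [← E_mul, ← E_add]
    refine E_congr fun s _ => ?_
    rw [hsplit]; ring
  have j3 : E D 1 (fun s => φ s * s y * (W G θ D s * ∏ j ∈ J, h j (s (st j)))) =
      E D 1 (fun s => (φ s * s y * fa s) * fb s) +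
        θ * E D 1 (fun s => (φ s * fa s) * (s z * fb s)) := by
    rw [← E_mul, ← E_add]
    refine E_congr fun s hs => ?_
    rw [hsplit]
    rcases hs.one_cases y with h2 | h2 <;> rw [h2] <;> ring
  rw [j1, j2, j3, i0, i1, i2, i3, hx2, Pf, Rf]
  have n1 := (den_pos h0 h1 hx1).ne'
  have n2 : 1 - x ^ 2 * θ ^ 2 ≠ 0 := by rwa [mul_comm]
  field_simp
  ring

lemma WE_flip {A : Finset (Sym2 V)} {B : Set V}
    (h : ∀ p q, s(p, q) ∈ A → (p ∈ B ↔ q ∈ B)) (s : V → ℝ) : WE θ A (flip B s) = WE θ A s := by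
  refine prod_congr rfl fun e he => ?_
  induction e using Sym2.ind with
  | h p q =>
    have := h p q he
    by_cases hp : p ∈ B
    · simp [flip, hp, this.1 hp]
    · simp [flip, hp, mt this.2 hp]

lemma E_spin_W {D : Finset V} {v : V} (hv : v ∈ D) : E D 1 (fun s => s v * W G θ D s) = 0 := by
  refine E_odd (B := D) subset_rfl fun s => ?_
  rw [W, WE_flip fun p q h => by simp [(mem_ED.1 h).1, (mem_ED.1 h).2.1]]
  simp [flip, hv, W]

lemma E_WE (hG : G.IsAcyclic) {F D : Finset V} (hF : WConn G F) {φ : (V → ℝ) → ℝ}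
    (hφ : ∀ s s', (∀ v ∈ F, s v = s' v) → φ s = φ s') (A : Finset (Sym2 V))
    (hA : A ⊆ ED G D \ ED G F) : E D 1 (fun s => φ s * WE θ A s) = E D 1 φ := by
  induction A using Finset.induction_on with
  | empty => simp [WE]
  | insert e A he ih =>
    have h1 := mem_sdiff.1 (hA (mem_insert_self _ _))
    have hA' : A ⊆ ED G D \ ED G F := (subset_insert _ _).trans hA
    induction e using Sym2.ind with
    | h y z =>
      obtain ⟨hy, hz, hyz⟩ := mem_ED.1 h1.1
      have h2 : ∃ B : Set V, (∀ v ∈ F, v ∉ B) ∧ (y ∈ B ↔ z ∉ B) ∧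
          ∀ p q, G.Adj p q → s(p, q) ≠ s(y, z) → (p ∈ B ↔ q ∈ B) := by
        by_cases h3 : ∀ v ∈ F, v ∉ side G y z
        · exact ⟨side G y z, h3, by simp [not_mem_side hG hyz, mem_side_self],
            fun p q => side_iff⟩
        · push Not at h3
          obtain ⟨q, hq, hq'⟩ := h3
          refine ⟨(side G y z)ᶜ, fun p hp hp' => ?_, by
            simp [not_mem_side hG hyz, mem_side_self], fun p q h4 h5 => not_congr (side_iff h4 h5)⟩
          have := hF.cross hp hq hp' hq'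
          exact h1.2 (mem_ED.2 ⟨this.1, this.2, hyz⟩)
      obtain ⟨B, b1, b2, b3⟩ := h2
      have h4 : E D 1 (fun s => φ s * WE θ A s * (s y * s z)) = 0 := by
        refine E_odd (B := B ∩ D) Set.inter_subset_right fun s => ?_
        rw [WE_flip, hφ _ s fun v hv => by simp [flip, b1 v hv]]
        · by_cases h5 : y ∈ B
          · simp [flip, h5, b2.1 h5, hy]
          · simp [flip, h5, not_not.1 (mt b2.2 h5), hz]
        · intro p q h5
          obtain ⟨hp, hq, hpq⟩ := mem_ED.1 (mem_sdiff.1 (hA' h5)).1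
          simp [hp, hq, b3 p q hpq (fun h6 => he (h6 ▸ h5))]
      rw [← ih hA', ← add_zero (E D 1 fun s => φ s * WE θ A s), ← mul_zero θ, ← h4, ← E_mul,
        ← E_add]
      refine E_congr fun s _ => ?_
      simp only [WE, prod_insert he, Sym2.map_mk, Sym2.mul_mk]
      ring

lemma E_W (hG : G.IsAcyclic) (D : Finset V) : E D 1 (W G θ D) = 1 := by
  have := E_WE (θ := θ) (F := ∅) (D := D) hG (fun p hp => by simp at hp) (φ := fun _ => 1)
    (fun _ _ _ => rfl) (ED G D) (by simp [ED])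
  simp only [one_mul, E_const] at this
  exact this

noncomputable def chi (F : Finset V) (η s : V → ℝ) : ℝ := ∏ v ∈ F, (1 + η v * s v) / 2

lemma E_chi {F D : Finset V} (h : F ⊆ D) (η : V → ℝ) :
    E D 1 (chi F η) = (1 / 2) ^ F.card := by
  induction F using Finset.induction_on with
  | empty => exact (E_const (D := D) (b := 1) 1).trans (by simp)
  | insert v F hv ih =>
    have h1 : E D 1 (fun s => s v * chi F η s) = 0 := by
      refine E_odd (B := {v}) (by simpa using h (mem_insert_self _ _)) fun s => ?_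
      have : chi F η (flip {v} s) = chi F η s := prod_congr rfl fun u hu => by
        have : u ≠ v := fun h2 => hv (h2 ▸ hu)
        simp [flip, this]
      simp [this, flip]
    have h2 : E D 1 (chi (insert v F) η) =
        1 / 2 * E D 1 (chi F η) + η v / 2 * E D 1 (fun s => s v * chi F η s) := by
      rw [← E_mul, ← E_mul, ← E_add]
      refine E_congr fun s _ => ?_
      simp only [chi, prod_insert hv]
      ring
    rw [h2, h1, ih ((subset_insert _ _).trans h), card_insert_of_notMem hv]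
    ring

lemma chi_eq {F : Finset V} {η s : V → ℝ} (hη : Sg 1 η) (hs : Sg 1 s) :
    chi F η s = if ∀ v ∈ F, s v = η v then 1 else 0 := by
  split_ifs with h
  · refine prod_eq_one fun v hv => ?_
    rw [h v hv]
    rcases hη.one_cases v with h2 | h2 <;> rw [h2] <;> norm_num
  · push Not at h
    obtain ⟨v, hv, h2⟩ := h
    refine prod_eq_zero hv ?_
    rcases hη.one_cases v with h3 | h3 <;> rcases hs.one_cases v with h4 | h4 <;>
      simp_all

lemma card_ED (hG : G.IsAcyclic) {F : Finset V} (hF : (G.induce (F : Set V)).Connected) :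
    (ED G F).card + 1 = F.card := by
  have h1 := (SimpleGraph.IsTree.mk hF (hG.induce _)).card_edgeFinset
  simp only [Finset.coe_sort_coe, Fintype.card_coe] at h1
  rw [← h1]
  congr 1
  symm
  refine card_nbij (Sym2.map Subtype.val) (fun e he => ?_) (fun e _ e' _ h =>
    Sym2.map.injective Subtype.val_injective h) fun e he => ?_
  · induction e using Sym2.ind with
    | h p q => exact mem_ED.2 ⟨p.2, q.2, by simpa using he⟩
  · induction e using Sym2.ind with
    | h p q =>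
      obtain ⟨hp, hq, h⟩ := mem_ED.1 he
      exact ⟨s(⟨p, hp⟩, ⟨q, hq⟩), by simpa using h, rfl⟩

lemma E_chi_W (hG : G.IsAcyclic) {F D : Finset V} (hF : (G.induce (F : Set V)).Connected)
    (h : F ⊆ D) {η : V → ℝ} (hη : Sg 1 η) :
    E D 1 (fun s => chi F η s * W G θ D s) =
      1 / 2 * ∏ e ∈ ED G F, (1 + θ * (e.map η).mul) / 2 := by
  have hs : ED G F ⊆ ED G D := filter_subset_filter _ (sym2_mono h)
  have h1 := E_WE (θ := θ) (D := D) hG (wconn_of_connected hF) (φ := chi F η)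
    (fun s s' hs => prod_congr rfl fun v hv => by rw [hs v hv]) _ subset_rfl
  rw [prod_div_distrib, prod_const, ← mul_div_assoc, ← E_congr
    (f := fun s => WE θ (ED G F) η * (chi F η s * WE θ (ED G D \ ED G F) s)), E_mul, h1,
    E_chi h, ← card_ED hG hF, WE]
  · rw [one_div_pow, pow_succ]
    field_simp
  · intro s hs'
    rw [chi_eq hη hs']
    split_ifs with h2
    · rw [W, WE, WE, WE, ← prod_sdiff hs, ← WE, ← WE, ← WE, WE_congr (s := η) (s' := s)]
      · ring
      · intro e he x hx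
        exact (h2 x (mem_sym2_iff.1 (mem_filter.1 he).1 x hx)).symm
    · simp

end Vale.Agent.P161
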