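import Vale.Agent.P161.Step

/-!
The Gronwall argument: the posterior mean is a function of the innovations.
-/

open Finset MeasureTheory Filter Topology Real
open scoped BigOperators Classical ENNReal unitInterval

namespace Vale.Agent.P161

lemma gron {δ : ℝ → ℝ} {N C : ℝ} (hN : 1 ≤ N) (hC : 1 ≤ C) {ε : ℕ → ℝ}
    (hε : ∀ M, 0 ≤ M → Tendsto (fun L : ℕ => ε L * exp (M * (1 + L) ^ 3)) atTop (𝓝 0))
    (δ0 : ∀ s, 0 ≤ δ s) (hs : ∀ e, 0 < e → ∃ s, 0 < s ∧ s ≤ 1 ∧ δ s ≤ e) {P : ℝ → ℝ → ℝ → Prop}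
    (P1 : ∀ s, P s 1 0) (P2 : ∀ j : ℕ, ∃ D, 0 ≤ D ∧ ∀ s, 0 < s → s ≤ 1 / 2 → P s √s (D * s ^ j))
    (h : ∀ s0 τ : ℝ, 0 < s0 → 0 < τ → ∃ (Φ : ℝ → ℝ) (B : ℝ), (∀ s, 0 ≤ Φ s ∧ Φ s ≤ B) ∧
      ∀ s t, s0 ≤ s → s ≤ t → t ≤ N → t ≤ 2 * s → Φ s ≤ Φ t ∧
      ∀ (η p : ℝ) (L : ℕ), 0 ≤ η → η ≤ 1 → P s η p → δ t ≤ δ s + (t - s) *
        (C * ((1 + L) ^ 3 * (δ s + p) + (η ^ 2 * δ s + p) / min s (1 / 2)) + ε L + τ +
        (Φ t - Φ s))) : δ N = 0 := by
  obtain ⟨p, hp⟩ := exists_nat_ge C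
  obtain ⟨D, D0, hD⟩ := P2 (p + 2)
  have key : ∀ (L : ℕ) (r : ℝ), 0 < r → r ≤ 1 / 2 → δ N ≤ N ^ p * exp ((C * (1 + L) ^ 3 + 2 * C) * N) *
      (N * ((C * (1 + L) ^ 3 + C) * D * r + |ε L| / r ^ p)) := fun L r r0 r1 => by
    obtain ⟨K, hK⟩ : ∃ K, K = C * (1 + L) ^ 3 := ⟨_, rfl⟩
    have K0 : 0 ≤ K := by rw [hK]; positivity
    rw [← hK]
    obtain ⟨γ, hγ⟩ : ∃ γ : ℝ → ℝ, ∀ t, γ t = max t r ^ p * exp ((K + 2 * C) * t) :=
      ⟨_, fun _ => rfl⟩
    have γ0 : ∀ t, 0 ≤ t → r ^ p ≤ γ t := fun t ht => hγ t ▸ (pow_le_pow_left₀ r0.le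
      (le_max_right _ _) p).trans (le_mul_of_one_le_right (by positivity)
      (one_le_exp (by positivity)))
    have rp : 0 < r ^ p := by positivity
    rw [show N ^ p = max N r ^ p by rw [max_eq_left (by linarith)], ← hγ,
      ← div_le_iff₀' (rp.trans_le (γ0 _ (by linarith)))]
    refine le_of_forall_pos_le_add fun e' he' => ?_
    obtain ⟨e, he, rfl⟩ : ∃ e, 0 < e ∧ e' = (2 + N) * e / r ^ p :=
      ⟨e' * r ^ p / (2 + N), by positivity, by field_simp⟩
    obtain ⟨s0, s1, s2, s3⟩ := hs e he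
    obtain ⟨Φ, B, hΦ, h⟩ := h s0 e s1 he
    have st : ∀ s t, s0 ≤ s → s ≤ t → t ≤ N → t ≤ 2 * s → δ t / γ t ≤ δ s / γ s +
        (t - s) * (((K + C) * D * r ^ (p + 1) + |ε L| + e + (Φ t - Φ s)) / r ^ p) := by
      intro s t a1 a2 a3 a4
      obtain ⟨b1, b2⟩ := h s t a1 a2 a3 a4
      have s0 := s1.trans_le a1
      have ts := sub_nonneg.2 a2
      have ex : 1 + (t - s) * (K + 2 * C) ≤ exp ((K + 2 * C) * (t - s)) := by
        linarith [add_one_le_exp ((K + 2 * C) * (t - s))]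
      have ee : exp ((K + 2 * C) * t) = exp ((K + 2 * C) * s) * exp ((K + 2 * C) * (t - s)) := by
        rw [← exp_add]; ring_nf
      obtain ⟨g, g1, g2⟩ : ∃ g, g * γ s ≤ γ t ∧ δ t ≤ δ s * g +
          (t - s) * ((K + C) * D * r ^ (p + 1) + |ε L| + e + (Φ t - Φ s)) := by
        rcases le_total s r with c | c
        · refine ⟨1 + (t - s) * (K + 2 * C), ?_, (b2 _ _ L (sqrt_nonneg _) (sqrt_le_one.2
            (by linarith)) (hD s s0 (c.trans r1))).trans ?_⟩
          · rw [hγ, hγ, ee, mul_comm, ← mul_assoc]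
            gcongr
          · rw [min_eq_left (c.trans r1), sq_sqrt s0.le, show (s * δ s + D * s ^ (p + 2)) / s =
              δ s + D * s ^ (p + 1) by field_simp; ring, mul_add C, ← mul_assoc C, ← hK]
            have c1 : D * s ^ (p + 1) ≤ D * r ^ (p + 1) := by gcongr
            have c2 : D * s ^ (p + 2) ≤ D * s ^ (p + 1) := mul_le_mul_of_nonneg_left
              (pow_le_pow_of_le_one s0.le (by linarith) (by omega)) D0
            nlinarith [mul_le_mul_of_nonneg_left (add_le_add (add_le_add (mul_le_mul_of_nonneg_left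
              (c2.trans c1) K0) (mul_le_mul_of_nonneg_left c1 (zero_le_one.trans hC)))
              (le_abs_self (ε L))) ts, mul_nonneg (mul_nonneg ts (zero_le_one.trans hC)) (δ0 s)]
        · refine ⟨1 + (t - s) * (K + 2 * C + C / s), ?_, (b2 _ _ L zero_le_one le_rfl (P1 s)).trans ?_⟩
          · have c1 := one_add_mul_le_pow (a := (t - s) / s) (by linarith [div_nonneg ts s0.le]) p
            rw [show 1 + (t - s) / s = t / s by field_simp; ring, div_pow,
              le_div_iff₀ (by positivity)] at c1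
            have c2 : 1 + (t - s) * (K + 2 * C + C / s) ≤
                (1 + p * ((t - s) / s)) * (1 + (t - s) * (K + 2 * C)) := by
              have : (t - s) * (C / s) ≤ p * ((t - s) / s) := by
                rw [mul_comm, div_mul_eq_mul_div, mul_div_assoc]; gcongr
              nlinarith [show 0 ≤ p * ((t - s) / s) * ((t - s) * (K + 2 * C)) by positivity]
            rw [hγ, hγ, ee, max_eq_left c, max_eq_left (c.trans a2)]
            refine (mul_le_mul_of_nonneg_right (c2.trans (mul_le_mul_of_nonneg_left ex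
              (by positivity))) (by positivity)).trans (le_trans (le_of_eq (by ring))
              (mul_le_mul_of_nonneg_right c1 (by positivity)))
          · have c1 : (1 ^ 2 * δ s + 0) / min s (1 / 2) ≤ (2 + 1 / s) * δ s := by
              rw [one_pow, one_mul, add_zero, div_eq_inv_mul]
              refine mul_le_mul_of_nonneg_right ?_ (δ0 s)
              rcases le_total s (1 / 2) with c | c
              · rw [min_eq_left c, one_div]; linarith
              · rw [min_eq_right c]; linarith [one_div_pos.2 s0, show (1 / 2 : ℝ)⁻¹ = 2 by norm_num]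
            rw [mul_add C, ← mul_assoc C, ← hK, div_eq_mul_one_div C]
            nlinarith [mul_le_mul_of_nonneg_left (add_le_add (add_le_add (mul_le_mul_of_nonneg_left
              c1 (zero_le_one.trans hC)) (show 0 ≤ (K + C) * D * r ^ (p + 1) by positivity))
              (le_abs_self (ε L))) ts]
      have t0 := rp.trans_le (γ0 t (by linarith))
      refine (div_le_div_of_nonneg_right g2 t0.le).trans ?_
      rw [add_div, mul_div_assoc (t - s)]
      refine add_le_add ?_ (mul_le_mul_of_nonneg_left (div_le_div_of_nonneg_left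
        (add_nonneg (by positivity) (sub_nonneg.2 b1)) rp (γ0 t (by linarith))) ts)
      rw [div_le_div_iff₀ t0 (rp.trans_le (γ0 s s0.le)), mul_assoc]
      exact mul_le_mul_of_nonneg_left g1 (δ0 s)
    have B0 := (hΦ 0).1.trans (hΦ 0).2
    obtain ⟨m, hm⟩ := exists_nat_gt (N / s0 + N * B / e)
    have m1 : N / s0 < m := (le_add_of_nonneg_right (by positivity)).trans_lt hm
    have m2 : N * B / e < m := (le_add_of_nonneg_left (by positivity)).trans_lt hm
    have m0 : (0 : ℝ) < m := lt_trans (by positivity) m1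
    obtain ⟨u, hu⟩ : ∃ u, u = (N - s0) / m := ⟨_, rfl⟩
    have u0 : 0 ≤ u := hu ▸ div_nonneg (by linarith) m0.le
    have u1 : m * u = N - s0 := by rw [hu]; field_simp
    rw [div_lt_iff₀ s1] at m1
    rw [div_lt_iff₀ he] at m2
    have u2 : u ≤ s0 := le_of_mul_le_mul_left (by linarith) m0
    have u3 : u * B ≤ e := le_of_mul_le_mul_left (by nlinarith) m0
    have it : ∀ i : ℕ, i ≤ m → δ (s0 + i * u) / γ (s0 + i * u) ≤ δ s0 / γ s0 +
        (i * u * ((K + C) * D * r ^ (p + 1) + |ε L| + e) + u * (Φ (s0 + i * u) - Φ s0)) / r ^ p := by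
      intro i hi
      induction i with
      | zero => simp
      | succ i ih =>
        have : (i + 1 : ℝ) ≤ m := by exact_mod_cast hi
        have i0 : 0 ≤ i * u := by positivity
        push_cast
        refine (st (s0 + i * u) _ (by linarith) (by linarith) (by nlinarith) (by linarith)).trans
          ((add_le_add (ih (by omega)) le_rfl).trans_eq (by ring))
    have a1 := it m le_rfl
    rw [u1, add_sub_cancel] at a1
    have a2 : δ s0 / γ s0 ≤ e / r ^ p := div_le_div₀ he.le s3 rp (γ0 _ s1.le)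
    refine a1.trans ((add_le_add a2 (div_le_div_of_nonneg_right (add_le_add
      (mul_le_mul_of_nonneg_right (sub_le_self N s1.le) (by positivity)) ((mul_le_mul_of_nonneg_left
      ((sub_le_self _ (hΦ _).1).trans (hΦ _).2) u0).trans u3)) rp.le)).trans_eq ?_)
    field_simp
    ring
  obtain ⟨M, hM⟩ : ∃ M, M = 3 * C * N + 2 * C + 1 := ⟨_, rfl⟩
  have M1 : 1 ≤ M := by rw [hM]; nlinarith
  have t := (((tendsto_exp_neg_atTop_nhds_zero.comp tendsto_natCast_atTop_atTop).const_mul D).add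
    (hε (3 * C * N + p * M) (by positivity)).abs).const_mul (N ^ p * N)
  simp only [mul_zero, abs_zero, add_zero] at t
  refine le_antisymm (ge_of_tendsto' t fun L => ?_) (δ0 N)
  have L0 : (0 : ℝ) ≤ L := L.cast_nonneg
  obtain ⟨x, hx⟩ : ∃ x : ℝ, x = (1 + L) ^ 3 := ⟨_, rfl⟩
  have x1 : 1 + L ≤ x := hx ▸ le_self_pow₀ (by linarith) (by norm_num)
  refine (key L (exp (-(M * x))) (exp_pos _) ((exp_le_exp.2 (show _ ≤ -1 by nlinarith)).trans
    (exp_neg_one_lt_half.le))).trans ?_
  rw [← hx, abs_mul, abs_of_pos (exp_pos _), ← exp_nat_mul, div_eq_mul_inv, ← exp_neg, Function.comp]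
  have a1 : exp ((C * x + 2 * C) * N) ≤ exp (3 * C * N * x) := exp_le_exp.2 (by
    nlinarith [mul_le_mul_of_nonneg_left (show 1 ≤ x by linarith) (show 0 ≤ C * N by positivity)])
  have a2 : C * x + C ≤ exp (2 * C * x) := by
    nlinarith [add_one_le_exp (2 * C * x), mul_le_mul_of_nonneg_left (show 1 ≤ x by linarith)
      (show 0 ≤ C by positivity)]
  have a3 : exp (3 * C * N * x) * (exp (2 * C * x) * exp (-(M * x))) ≤ exp (-L) := by
    rw [← exp_add, ← exp_add, exp_le_exp, hM]; linarith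
  have a4 : exp ((3 * C * N + p * M) * x) = exp (3 * C * N * x) * exp (-(p * -(M * x))) := by
    rw [← exp_add]; ring_nf
  rw [a4]
  have : 0 ≤ x := by linarith
  calc _ ≤ N ^ p * exp (3 * C * N * x) * (N * (exp (2 * C * x) * D * exp (-(M * x)) +
        |ε L| * exp (-(p * -(M * x))))) := by gcongr
    _ = N ^ p * N * (D * (exp (3 * C * N * x) * (exp (2 * C * x) * exp (-(M * x)))) +
        |ε L| * (exp (3 * C * N * x) * exp (-(p * -(M * x))))) := by ring
    _ ≤ _ := by gcongr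

variable {V : Type*} {G : SimpleGraph V} {θ : ℝ} [G.LocallyFinite]

lemma Cay.dl_eq {b : ℕ} (S : Cay G (b + 1)) (hG : G.IsTree) (h0 : 0 ≤ θ) (h1 : θ < 1) (hb : 2 ≤ b)
    (hθ : b * θ ^ 2 = 1) {N : ℕ} (hN : 1 ≤ N) : dl G θ N S.o N = 0 := by
  obtain ⟨C, C1, ε, ε1, h⟩ := S.step hG h0 h1 hb hθ N
  have N1 : (1 : ℝ) ≤ N := by exact_mod_cast hN
  refine gron N1 C1 ε1 (dl_nonneg N S.o) (fun e he => ?_) (fun s y z _ => ?_) (fun j => ?_) h
  · have b2 : (2 : ℝ) ≤ b := by exact_mod_cast hb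
    obtain ⟨s, hs⟩ : ∃ s, s = min 1 (e / (1 + 2 * b)) := ⟨_, rfl⟩
    have s0 : 0 < s := hs ▸ lt_min one_pos (by positivity)
    have s1 : s ≤ 1 := hs ▸ min_le_left _ _
    have s2 : s ≤ e / (1 + 2 * b) := hs ▸ min_le_right _ _
    rw [le_div_iff₀ (by positivity)] at s2
    have hA : ∀ i, N ≤ i.2 → (tm V s).s i = ∅ := sl_bound (s1.trans N1)
    obtain ⟨q, q1, -, q2⟩ := q_upper hG h0 h1 S.degree_eq hA hb hθ
      (gN_upper s0.le (tm_small s1) N)
    refine ⟨s, s0, s1, (dl_le N S.o s (BM.const 0)).trans ?_⟩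
    simp only [sub_zero]
    rw [integral_even hG h0 h1 _ S.o ((bm_mm N _).pow 2) fun ω => by
      rw [mm, gN_neg, X_neg h0 h1, tanh_neg, neg_sq, mm]]
    have s3 : s ^ 3 ≤ s ^ 2 := pow_le_pow_of_le_one s0.le s1 (by norm_num)
    have := le_of_sq_le_sq (b := b * s) (q1.trans (by rw [mul_pow]; gcongr)) (by positivity)
    exact (q2 _).trans (by nlinarith)
  · simp only [fun x => (tanh_abs_lt x).not_gt, Set.setOf_false, measureReal_empty, le_rfl]
  · obtain ⟨D, D1, hD⟩ := moments hG h0 h1 S.degree_eq hb hθ (2 * j)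
    refine ⟨D, by linarith, fun s s0 s1 y z hyz => ?_⟩
    have r0 := sqrt_pos.2 s0
    have s2 : s ≤ 1 := by linarith
    have bx := BM.tanh (measurable_X (G := G) (θ := θ) (measurable_gN N) z y)
    have m := measurableSet_lt (measurable_const (a := √s)) bx.meas.abs
    have a1 := hD (sl_bound (s := 0) (A := Set.univ) (s2.trans N1)) (tm_small s2) s0.le s2
      (r := s * √s) (by positivity) (by rw [mul_pow, sq_sqrt s0.le]; linarith) y z hyz
    have a2 := integral_le_of_ae (μ := Q G θ (tm V s)) (((BM.const 1).ite m (BM.const 0)).cmul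
      (s ^ 2 ^ (2 * j))) (bx.pow (2 * 2 ^ (2 * j))) (.of_forall fun ω => by
        rw [pow_mul (tanh _), ← sq_abs]
        split_ifs with h
        · exact (mul_one _).trans_le (pow_le_pow_left₀ s0.le ((sq_sqrt s0.le).symm.trans_le
            (pow_le_pow_left₀ r0.le h.le 2)) _)
        · exact (mul_zero _).trans_le (by positivity))
    rw [integral_const_mul, ← real_eq_integral' m] at a2
    have a3 := a2.trans a1
    rw [mul_pow, mul_left_comm] at a3
    refine (le_of_mul_le_mul_left a3 (by positivity)).trans (mul_le_mul_of_nonneg_left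
      ((pow_le_pow_of_le_one r0.le (sqrt_le_one.2 s2) Nat.lt_two_pow_self.le).trans_eq ?_)
      (by linarith))
    rw [pow_mul, sq_sqrt s0.le]

end Vale.Agent.P161
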