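import Vale.Agent.P161.BSV

/-!
Innovations of the sequentially revealed observations.
-/

open Finset MeasureTheory Filter Topology Real
open scoped BigOperators Classical ENNReal unitInterval

namespace Vale.Agent.P161

variable {V : Type*} {G : SimpleGraph V} {θ : ℝ}

lemma cov0 {c : ℝ} (hc : |c| ≤ 1 / 2) (ψ : ℝ → ℝ) :
    (∫ u : I, ψ (Qf c u) = ∫ u : I, (1 + c * Qf 0 u) * ψ (Qf 0 u)) ∧
      ∫ u : I, ψ (-Qf c u) = ∫ u : I, (1 - c * Qf 0 u) * ψ (Qf 0 u) := by
  rw [cov hc, cov_neg hc, cov (by simp) fun y => (1 + c * y) * ψ y,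
    cov (by simp) fun y => (1 - c * y) * ψ y]
  constructor <;> congr 1 <;> funext y <;> ring

lemma bm_Qf0 : BM fun p : I × I => aT p.1 * Qf 0 p.2 :=
  ⟨(measurable_aT.comp measurable_fst).mul (measurable_Qf.comp (f := fun p : I × I =>
    ((0 : ℝ), (p.2 : ℝ))) (by fun_prop)), _, fun p =>
    abs_mul_le_half (abs_aT_le _) (Qf_spec (by simp) p.2.2).1⟩

def rho {Y : Type*} (ω : V × ℕ → I × Y) (i : V × ℕ) : ℝ := i.2 + (ω i).1

@[fun_prop] lemma measurable_rho {Y : Type*} [MeasurableSpace Y] (i : V × ℕ) :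
    Measurable fun ω : V × ℕ → I × Y => rho ω i := by unfold rho; fun_prop

def sl (s : ℝ) (A : Set V) (r : ℝ) : Sel V where
  s i := {T | (i.2 : ℝ) + T < r ∧ ((i.2 : ℝ) + T < s ∨ i.1 ∈ A)}
  meas i := by measurability

def tm (V : Type*) (r : ℝ) : Sel V := sl 0 Set.univ r

lemma mem_tm {r : ℝ} {i : V × ℕ} {T : I} : T ∈ (tm V r).s i ↔ (i.2 : ℝ) + T < r := by simp [tm, sl]

lemma sl_bound {s r : ℝ} {A : Set V} {N : ℕ} (h : r ≤ N) (i : V × ℕ) (hi : N ≤ i.2) :
    (sl s A r).s i = ∅ := Set.eq_empty_of_forall_notMem fun T hT => by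
  have : (N : ℝ) ≤ i.2 := by exact_mod_cast hi
  linarith [hT.1, T.2.1]

lemma measurable_cut_sl {Y : Type*} [MeasurableSpace Y] (s : ℝ) (A : Set V) {r : Y → ℝ}
    {ω : Y → Ob V} (hr : Measurable r) (hω : Measurable ω) :
    Measurable fun y => cut (sl s A (r y)) (ω y) :=
  measurable_pi_lambda _ fun i => Measurable.prodMk (by fun_prop) (Measurable.ite
    (by simp only [sl, Set.mem_setOf_eq]; measurability) (by fun_prop) measurable_const)

lemma tau_cut {A : Sel V} {ω : Ob V} {i : V × ℕ} :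
    tau (cut A ω i) = if (ω i).1 ∈ A.s i then tau (ω i) else 0 := by
  by_cases h : (ω i).1 ∈ A.s i <;> simp [cut, h, tau, yc]

lemma gN_congr (N : ℕ) {ω ω' : Ob V} (h : ∀ i, tau (ω i) = tau (ω' i)) : gN N ω = gN N ω' :=
  funext fun v => sum_congr rfl fun n _ => by rw [h]

lemma gN_cut {A : Sel V} {N N' : ℕ} (h : N ≤ N') (hA : ∀ i, N ≤ i.2 → A.s i = ∅) (ω : Ob V) :
    gN N' (cut A ω) = gN N (cut A ω) := funext fun v =>
  (sum_subset (range_mono h) fun n _ hn => by
    simp [tau_cut, hA (v, n) (by simpa using hn)]).symm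

noncomputable def pc (s : ℝ) (A : Set V) (j : V × ℕ) (ω : Ob V) : Ob V :=
  cut (sl s A (rho ω j)) ω

lemma measurable_pc (s : ℝ) (A : Set V) (j : V × ℕ) : Measurable (pc s A j) :=
  measurable_cut_sl s A (measurable_rho j) measurable_id

lemma pc_pc {s : ℝ} {A : Set V} {i j : V × ℕ} {ω : Ob V} (h : rho ω i ≤ rho ω j) :
    pc s A i (pc s A j ω) = pc s A i ω :=
  cut_cut (A := sl s A (rho ω i)) (B := sl s A (rho ω j))
    (fun _ _ hT => ⟨hT.1.trans_le h, hT.2⟩) ω

lemma pc_apply {s : ℝ} {A : Set V} {i j : V × ℕ} {ω : Ob V} (h : rho ω i < rho ω j)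
    (hi : rho ω i < s ∨ i.1 ∈ A) : pc s A j ω i = ω i := by
  rw [pc, cut, if_pos ⟨h, hi⟩]

variable [G.LocallyFinite]

noncomputable def mm (G : SimpleGraph V) [G.LocallyFinite] (θ : ℝ) (N : ℕ) (v : V) (ω : Ob V) :
    ℝ := tanh (X G θ (gN N ω) v v)

lemma bm_mm (N : ℕ) (v : V) : BM (mm G θ N v) := BM.tanh (measurable_X (measurable_gN N) v v)

lemma abs_mm_le (N : ℕ) (v : V) (ω : Ob V) : |mm G θ N v ω| ≤ 1 := (tanh_abs_lt _).le

noncomputable def UU (G : SimpleGraph V) [G.LocallyFinite] (θ s : ℝ) (A : Set V) (N : ℕ)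
    (j : V × ℕ) (ω : Ob V) : I := Uf (aT (ω j).1 * mm G θ N j.1 (pc s A j ω)) (yc (ω j))

lemma measurable_UU (s : ℝ) (A : Set V) (N : ℕ) (j : V × ℕ) : Measurable (UU G θ s A N j) :=
  measurable_Uf.comp (f := fun ω : Ob V => (aT (ω j).1 * mm G θ N j.1 (pc s A j ω), yc (ω j)))
    (((measurable_aT.comp (by fun_prop)).mul ((bm_mm N _).meas.comp (measurable_pc s A j))).prodMk
      (by fun_prop))

lemma UU_pc {s : ℝ} {A : Set V} {N : ℕ} {i j : V × ℕ} {ω : Ob V} (h : rho ω i < rho ω j)
    (hi : rho ω i < s ∨ i.1 ∈ A) : UU G θ s A N i (pc s A j ω) = UU G θ s A N i ω := by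
  rw [UU, pc_apply h hi, pc_pc h.le, UU]

lemma tau_eq (s : ℝ) (A : Set V) (N : ℕ) (j : V × ℕ) (ω : Ob V) : tau (ω j) =
    aT (ω j).1 * Qf (aT (ω j).1 * mm G θ N j.1 (pc s A j ω)) (UU G θ s A N j ω) := by
  rw [UU, Qf_Uf (abs_mul_le_half (abs_aT_le _) (abs_mm_le _ _ _)) (abs_yc_le _), tau]

variable (hG : G.IsTree) (h0 : 0 ≤ θ) (h1 : θ < 1)
include hG h0 h1

lemma resT (j : V × ℕ) {F : I × Ob V → ℝ} (hF : BM F) :
    ∫ ω, F ((ω j).1, Function.update ω j (1, 0)) ∂Q G θ (top V) =
      ∫ T, ∫ ω, F (T, Function.update ω j (1, 0)) ∂Q G θ (top V) := by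
  have m : Measurable fun ω : Ob V => Function.update ω j (1, 0) := measurable_update_left
  have b1 := hF.comp (φ := fun ω : Ob V => ((ω j).1, Function.update ω j (1, 0)))
    (Measurable.prodMk (by fun_prop) m)
  have b2 := hF.comp (φ := fun p : I × Ob V => (p.1, Function.update p.2 j (1, 0)))
    (measurable_fst.prodMk (m.comp measurable_snd))
  have b3 : BM fun ω : Ob V => ∫ T, F (T, Function.update ω j (1, 0)) :=
    (b2.comp measurable_swap).integral_right volume
  have e : ∀ ω : Ob V, ∫ p, F (p.1, Function.update ω j (1, 0)) ∂lam =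
      ∫ T, F (T, Function.update ω j (1, 0)) := fun ω => integral_comp_mp measurePreserving_fst
    (f := fun T => F (T, Function.update ω j (1, 0))) (hF.comp measurable_prodMk_right).meas
  have e' : ∀ (ω : Ob V) c, Function.update (neg (Function.update ω j c)) j (1, 0) =
      Function.update (neg ω) j (1, 0) := fun ω c => by
    funext i; by_cases h : i = j <;> simp [h, neg]
  rw [← integral_prod' b2, integral_prod'' b2, integral_Q hG h0 h1 _ j.1 b1,
    integral_Q hG h0 h1 _ j.1 b3, resample _ j.1 j.2 b1,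
    resample _ j.1 j.2 (b1.comp measurable_neg')]
  simp only [Prod.mk.eta, Function.update_self, Function.update_idem, e, e', Prod.swap,
    show ∀ ω : Ob V, (neg ω j).1 = (ω j).1 from fun _ => rfl]

lemma resQ (j : V × ℕ) {F : Ob V → ℝ} (hF : BM F) : ∫ ω, F ω ∂Q G θ (top V) =
    ∫ p, (∫ ω, F (Function.update ω j (p.1, Qf 0 p.2)) ∂Q G θ (top V) + aT p.1 * Qf 0 p.2 *
      (∫ ω, F (Function.update ω j (p.1, Qf 0 p.2)) ∂Pz G θ (top V) j.1 -
        ∫ ω, F (Function.update ω j (p.1, Qf 0 p.2)) ∂Q G θ (top V))) ∂lam := by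
  have m : ∀ {c : I × I → ℝ}, Measurable c → Measurable fun q : (I × I) × Ob V =>
      Function.update q.2 j (q.1.1, c q.1) := fun hc => measurable_update'.comp
    (measurable_snd.prodMk (measurable_fst.fst.prodMk (hc.comp measurable_fst)))
  have m0 : Measurable fun p : I × I => Qf 0 p.2 :=
    measurable_Qf.comp (f := fun p : I × I => ((0 : ℝ), (p.2 : ℝ))) (by fun_prop)
  have ma : Measurable fun p : I × I => Qf (aT p.1) p.2 :=
    measurable_Qf.comp (f := fun p : I × I => (aT p.1, (p.2 : ℝ))) (by fun_prop)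
  have b1 := hF.comp (m m0)
  have b2 : BM fun q : (I × I) × Ob V => F (Function.update (neg q.2) j (q.1.1, Qf 0 q.1.2)) :=
    b1.comp (measurable_fst.prodMk (measurable_neg'.comp measurable_snd))
  have c1 := (((BM.const 1).add bm_Qf0).comp measurable_fst).mul b1
  have c2 := (((BM.const 1).sub bm_Qf0).comp measurable_fst).mul b2
  have e' : ∀ (ω : Ob V) T y, neg (Function.update ω j (T, y)) =
      Function.update (neg ω) j (T, -y) := fun ω T y => by
    funext i; by_cases h : i = j <;> simp [h, neg]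
  have e1 : ∀ ω : Ob V, ∫ p, F (Function.update ω j (p.1, Qf (aT p.1) p.2)) ∂lam =
      ∫ p, (1 + aT p.1 * Qf 0 p.2) * F (Function.update ω j (p.1, Qf 0 p.2)) ∂lam := fun ω => by
    rw [lam, integral_prod' ((hF.comp (m ma)).comp measurable_prodMk_right),
      integral_prod' (c1.comp measurable_prodMk_right)]
    exact congrArg _ (funext fun T => (cov0 (abs_aT_le T) fun y =>
      F (Function.update ω j (T, y))).1)
  have e2 : ∀ ω : Ob V, ∫ p, F (Function.update (neg ω) j (p.1, -Qf (aT p.1) p.2)) ∂lam =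
      ∫ p, (1 - aT p.1 * Qf 0 p.2) * F (Function.update (neg ω) j (p.1, Qf 0 p.2)) ∂lam := by
    intro ω
    rw [lam, integral_prod' ((hF.comp (m (c := fun p => -Qf (aT p.1) p.2) ma.neg)).comp
      (measurable_prodMk_right (y := neg ω))),
      integral_prod' (c2.comp measurable_prodMk_right)]
    exact congrArg _ (funext fun T => (cov0 (abs_aT_le T) fun y =>
      F (Function.update (neg ω) j (T, y))).2)
  rw [integral_Q hG h0 h1 _ j.1 hF, resample _ j.1 j.2 hF,
    resample _ j.1 j.2 (hF.comp measurable_neg')]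
  simp only [show ∀ i T, T ∈ (top V).s i from fun _ _ => trivial, if_true, Prod.mk.eta, e', e1, e2]
  rw [← integral_prod'' c1, ← integral_prod'' c2, integral_prod' c1, integral_prod' c2,
    ← integral_add' (c1.integral_right _) (c2.integral_right _), ← integral_div]
  refine congrArg _ (funext fun p => ?_)
  rw [integral_Q hG h0 h1 _ j.1 (b1.comp measurable_prodMk_left)]
  simp only [integral_const_mul, Function.comp]
  ring

lemma ties {i j : V × ℕ} (h : i ≠ j) : ∀ᵐ ω ∂Q G θ (top V), rho ω i ≠ rho ω j := by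
  have m : MeasurableSet {p : I × Ob V | rho p.2 i = j.2 + p.1} :=
    measurableSet_eq_fun (by fun_prop) (by fun_prop)
  have m' : MeasurableSet {ω : Ob V | rho ω i = rho ω j} :=
    measurableSet_eq_fun (by fun_prop) (by fun_prop)
  have b := ((BM.const 1).ite m (BM.const 0))
  have e := resT hG h0 h1 j b
  simp only [show ∀ (ω : Ob V) c, rho (Function.update ω j c) i = rho ω i from fun ω c => by
    rw [rho, Function.update_of_ne h, rho]] at e
  rw [← integral_prod' b, integral_prod'' b] at e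
  rw [ae_iff, ← measureReal_eq_zero_iff]
  simp only [not_not]
  rw [real_eq_integral' m']
  refine e.trans (integral_eq_zero_of_ae (ae_of_all _ fun ω => integral_eq_zero_of_ae ?_))
  have : ({T : I | rho ω i = j.2 + T}).Subsingleton := fun a ha c hc =>
    Subtype.ext (by linarith [show _ = _ from ha, show _ = _ from hc])
  filter_upwards [this.countable.ae_notMem volume] with T hT
  exact if_neg hT

lemma palm (j : V × ℕ) {s t κ : ℝ} (hst : s ≤ t) (hκ : 0 ≤ κ) {K : I × Ob V → ℝ} (hK : BM K)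
    (hK0 : ∀ p, 0 ≤ K p) (hi : ∀ (T : I) (ω : Ob V), s ≤ j.2 + (T : ℝ) → T ≤ (ω j).1 →
      K (T, Function.update ω j (1, 0)) = K (T, ω))
    (hb : ∀ T : I, s ≤ j.2 + (T : ℝ) → j.2 + (T : ℝ) < t → ∫ ω, K (T, ω) ∂Q G θ (top V) ≤ κ) :
    ∫ ω, (if s ≤ rho ω j ∧ rho ω j < t ∧ ((ω j).1 : ℝ) < 1 / 2 then K ((ω j).1, ω) else 0)
      ∂Q G θ (top V) ≤ 2 * (t - s) * κ := by
  have m : MeasurableSet {T : I | s ≤ j.2 + (T : ℝ) ∧ j.2 + (T : ℝ) < t ∧ (T : ℝ) < 1 / 2} := by
    measurability
  have m1 : MeasurableSet {T : I | s - j.2 ≤ T ∧ (T : ℝ) < t - j.2} := by measurability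
  have m2 : MeasurableSet {T : I | 1 / 2 ≤ (T : ℝ) ∧ (T : ℝ) < 1} := by measurability
  have mu : Measurable fun ω : Ob V => Function.update ω j (1, 0) := measurable_update_left
  have b := hK.ite (p := fun p : I × Ob V =>
    s ≤ j.2 + (p.1 : ℝ) ∧ j.2 + (p.1 : ℝ) < t ∧ (p.1 : ℝ) < 1 / 2) (measurable_fst m) (BM.const 0)
  have e := resT hG h0 h1 j b
  refine (Eq.trans (integral_congr_ae (ae_of_all _ fun ω => if_ctx_congr Iff.rfl
    (fun h => (hi _ ω h.1 le_rfl).symm) fun _ => rfl)) e).trans_le ?_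
  calc
    _ ≤ ∫ T : I, 2 * κ * if s - j.2 ≤ T ∧ (T : ℝ) < t - j.2 then 1 else 0 := by
      refine integral_le_of_ae ((b.comp (φ := fun p : I × Ob V =>
        (p.1, Function.update p.2 j (1, 0)))
        (measurable_fst.prodMk (mu.comp measurable_snd))).integral_right _)
        (((BM.const 1).ite m1 (BM.const 0)).cmul _) (ae_of_all _ fun T => ?_)
      by_cases h : s ≤ j.2 + (T : ℝ) ∧ j.2 + (T : ℝ) < t ∧ (T : ℝ) < 1 / 2
      · have b1 := hK.comp (measurable_prodMk_left (x := T))
        let χ : I → ℝ := fun T => if 1 / 2 ≤ (T : ℝ) ∧ (T : ℝ) < 1 then 1 else 0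
        have b2 := (BM.comp (f := χ) ((BM.const 1).ite m2 (BM.const 0)) measurable_fst).mul
          (b1.comp (measurable_snd (α := I)))
        have e2 := resT hG h0 h1 j b2
        simp only [integral_const_mul, integral_mul_const] at e2
        rw [← real_eq_integral' m2, (volI _ _).2 (by norm_num) (by norm_num) le_rfl] at e2
        have e3 := integral_le_of_ae (μ := Q G θ (top V)) (b2.comp (φ := fun ω : Ob V =>
          ((ω j).1, Function.update ω j (1, 0))) (Measurable.prodMk (by fun_prop) mu)) b1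
          (ae_of_all _ fun ω => by
            simp only [χ]
            split_ifs with h2
            · rw [one_mul, hi T ω h.1 (by rw [← Subtype.coe_le_coe]; linarith [h.2.2, h2.1])]
            · simpa using hK0 _)
        simp only [if_pos h, if_pos (show s - j.2 ≤ T ∧ (T : ℝ) < t - j.2 from
          ⟨by linarith [h.1], by linarith [h.2.1]⟩)]
        linarith [hb T h.1 h.2.1]
      · simp only [if_neg h, integral_zero]
        split_ifs <;> simp [hκ]
    _ ≤ _ := by
      rw [integral_const_mul, ← real_eq_integral' m1]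
      nlinarith [(volI (s - j.2) (t - j.2)).1 (by linarith)]

variable {b : ℕ} (hreg : ∀ v, G.degree v = b + 1)
include hreg

lemma proj0 {A B : Sel V} {N : ℕ} (hA : ∀ i, N ≤ i.2 → A.s i = ∅) (hB : ∀ i, A.s i ⊆ B.s i)
    (v : V) {k : Ob V → ℝ} (hk : BM k) (hk' : ∀ ω, k (cut A ω) = k ω) :
    ∫ ω, mm G θ N v (cut A ω) * k ω ∂Q G θ B = ∫ ω, k ω ∂Pz G θ B v - ∫ ω, k ω ∂Q G θ B := by
  have := (sv_m hG h0 h1 hreg hA v).proj hG h0 h1 hk (dependsOn_univ _)
  rw [← integral_comp_mp (mp_cut_Q hB) ((BM.tanh (measurable_X (measurable_gN N) v v)).mul hk).meas,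
    ← integral_comp_mp (mp_cut_Q hB) hk.meas, ← integral_comp_mp (mp_cut_R hB v) hk.meas] at this
  simpa only [hk', mm] using this

lemma innov (s : ℝ) (A : Set V) {N : ℕ} {j : V × ℕ} (hj : j.2 < N) {F : Ob V × I → ℝ} (hF : BM F)
    (hz : ∀ ω, ∫ u, F (ω, u) = 0) :
    ∫ ω, F (pc s A j ω, UU G θ s A N j ω) ∂Q G θ (top V) = 0 := by
  have b := hF.comp ((measurable_pc s A j).prodMk (measurable_UU (G := G) (θ := θ) s A N j))
  let B : I → Sel V := fun T => ⟨fun i => if i = j then ∅ else (sl s A (j.2 + T)).s i, fun i => by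
    split_ifs
    · exact .empty
    · exact (sl _ _ _).meas i⟩
  have e1 : ∀ ω T y, pc s A j (Function.update ω j (T, y)) =
      Function.update (cut (B T) ω) j (T, 0) := fun ω T y => by
    funext i
    by_cases h : i = j
    · simp [h, pc, cut, sl, rho]
    · simp only [pc, cut, rho, B, Function.update_self, Function.update_of_ne h, if_neg h]
  have e2 : ∀ ω T, mm G θ N j.1 (Function.update (cut (B T) ω) j (T, 0)) =
      mm G θ N j.1 (cut (B T) ω) := fun ω T => by
    rw [mm, mm, gN_congr N fun i => ?_]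
    by_cases h : i = j <;> simp [h, tau, yc, cut, B]
  have m : Measurable fun q : (I × I) × Ob V => Function.update q.2 j (q.1.1, Qf 0 q.1.2) :=
    measurable_update'.comp (measurable_snd.prodMk (measurable_fst.fst.prodMk
      (measurable_Qf.comp (f := fun q : (I × I) × Ob V => ((0 : ℝ), (q.1.2 : ℝ))) (by fun_prop))))
  have b1 := b.comp m
  rw [resQ hG h0 h1 j b, lam, integral_prod' ((b1.integral_right _).add (bm_Qf0.mul
    ((b1.integral_right _).sub (b1.integral_right _))))]
  refine integral_eq_zero_of_ae (ae_of_all _ fun T => ?_)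
  have bm := (bm_mm (G := G) (θ := θ) N j.1).comp (measurable_cut (B T))
  have b2 := b1.comp (φ := fun q : I × Ob V => ((T, q.1), q.2)) (by fun_prop)
  have b3 := b2.add (((bm_Qf0.comp (φ := fun q : I × Ob V => (T, q.1)) (by fun_prop))).mul
    ((bm.comp measurable_snd).mul b2))
  have hB : ∀ i, N ≤ i.2 → (B T).s i = ∅ := fun i hi => by
    simp only [B]
    split_ifs
    · rfl
    · refine sl_bound ?_ i hi
      have : (j.2 : ℝ) + 1 ≤ N := by exact_mod_cast hj
      linarith [T.2.2]
  refine Eq.trans (congrArg _ (funext fun u => ?_)) (((integral_prod' (μ := volume)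
    (ν := Q G θ (top V)) b3).symm.trans (integral_prod'' b3)).trans
    (integral_eq_zero_of_ae (ae_of_all _ fun ω => ?_)))
  · have b4 := b2.comp (measurable_prodMk_left (x := u))
    rw [← proj0 hG h0 h1 hreg hB (fun _ => Set.subset_univ _) j.1 b4 fun ω => by
      simp only [UU, e1, cut_cut fun _ => subset_rfl, Function.update_self], ← integral_const_mul,
      ← integral_add' b4 ((bm.mul b4).cmul _)]
  · have hc := abs_mul_le_half (abs_aT_le T) (abs_mm_le (G := G) (θ := θ) N j.1 (cut (B T) ω))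
    have := (cov0 hc fun y => F (Function.update (cut (B T) ω) j (T, 0),
      Uf (aT T * mm G θ N j.1 (cut (B T) ω)) (yc (T, y)))).1
    simp only [fun u : I => yc_eq T (Qf_spec hc u.2).1, Uf_Qf hc, hz] at this
    simp only [UU, e1, e2, Function.update_self, Pi.zero_apply]
    refine Eq.trans (congrArg _ (funext fun u => ?_)) this.symm
    ring

lemma orth (s : ℝ) (A : Set V) {N : ℕ} (D : Finset (V × ℕ)) (hD : ∀ j ∈ D, j.1 ∈ A ∧ j.2 < N)
    {φ : V × ℕ → Ob V × I → ℝ} (hφ : ∀ j, BM (φ j)) (hz : ∀ j ω, ∫ u, φ j (ω, u) = 0) :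
    ∫ ω, (∑ j ∈ D, φ j (pc s A j ω, UU G θ s A N j ω)) ^ 2 ∂Q G θ (top V) =
      ∑ j ∈ D, ∫ ω, φ j (pc s A j ω, UU G θ s A N j ω) ^ 2 ∂Q G θ (top V) := by
  have b := fun j => (hφ j).comp
    ((measurable_pc s A j).prodMk (measurable_UU (G := G) (θ := θ) s A N j))
  have m : ∀ i j, MeasurableSet {ω : Ob V | rho ω i < rho ω j} := fun i j =>
    measurableSet_lt (by fun_prop) (by fun_prop)
  have key : ∀ i ∈ D, ∀ j ∈ D, ∫ ω, (if rho ω i < rho ω j then
      φ i (pc s A i ω, UU G θ s A N i ω) else 0) * φ j (pc s A j ω, UU G θ s A N j ω)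
      ∂Q G θ (top V) = 0 := fun i hi j hj => by
    refine Eq.trans (congrArg _ (funext fun ω => ?_)) (innov hG h0 h1 hreg s A (hD j hj).2
      ((((b i).ite (m i j) (BM.const 0)).comp measurable_fst).mul (hφ j))
      fun ω => by simp only [integral_const_mul, hz, mul_zero])
    refine congrArg (· * _) (if_ctx_congr Iff.rfl (fun h => ?_) fun _ => rfl)
    have h' : rho ω i < rho ω j := h
    dsimp only
    rw [pc_pc h'.le, UU_pc h' (Or.inr (hD i hi).1)]
  simp only [sq, sum_mul_sum]
  rw [integral_sum' _ fun i _ => BM.sum _ fun j _ => (b i).mul (b j)]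
  refine sum_congr rfl fun i hi => ?_
  rw [integral_sum' _ fun j _ => (b i).mul (b j), sum_eq_single i (fun j hj hne => ?_) (by simp [hi])]
  have e := integral_add' (μ := Q G θ (top V)) (((b i).ite (m i j) (BM.const 0)).mul (b j))
    (((b j).ite (m j i) (BM.const 0)).mul (b i))
  rw [key i hi j hj, key j hj i hi, add_zero] at e
  refine Eq.trans (integral_congr_ae ((ties hG h0 h1 hne).mono fun ω h => ?_)) e
  rcases lt_or_gt_of_ne h with h | h <;> simp [h, h.not_gt, mul_comm]

omit hG h0 h1 hreg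

noncomputable def Inn (G : SimpleGraph V) [G.LocallyFinite] (θ : ℝ) (ω : Ob V) (j : V × ℕ) :
    I × I := ((ω j).1, UU G θ 0 Set.univ (j.2 + 1) j ω)

lemma measurable_Inn : Measurable (Inn G θ) := measurable_pi_lambda _ fun j =>
  Measurable.prodMk (by fun_prop) (measurable_UU _ _ _ _)

lemma UU_eq {N : ℕ} {j : V × ℕ} (h : j.2 < N) (ω : Ob V) :
    UU G θ 0 Set.univ N j ω = (Inn G θ ω j).2 := by
  rw [Inn, UU, UU, mm, mm, pc, gN_cut h (sl_bound (by
    rw [rho]; push_cast; linarith [(ω j).1.2.2]))]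

omit [G.LocallyFinite] in
lemma integral_Lam_prod {ι : Type*} (s : Finset ι) {ψ : ι → I × I → ℝ} (h : ∀ i, BM (ψ i)) :
    ∫ ξ, ∏ i ∈ s, ψ i (ξ i) ∂Lam ι = ∏ i ∈ s, ∫ p, ψ i p ∂lam := by
  induction s using Finset.induction_on with
  | empty => simp
  | insert i s hi ih =>
    rw [integral_resample i (BM.prod _ fun i _ => (h i).comp (measurable_pi_apply i)),
      prod_insert hi, ← ih, ← integral_const_mul]
    refine congrArg _ (funext fun ξ => ?_)
    rw [← integral_mul_const]
    refine congrArg _ (funext fun p => ?_)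
    rw [prod_insert hi, Function.update_self, prod_congr rfl fun j hj => by
      rw [Function.update_of_ne fun h : j = i => hi (h ▸ hj)]]

include hG h0 h1 hreg

lemma mp_Inn : MeasurePreserving (Inn G θ) (Q G θ (top V)) (Lam (V × ℕ)) := by
  have mT : Measurable fun (ω : Ob V) i => (ω i).1 := by fun_prop
  have key : ∀ {ψ : V × ℕ → I × I → ℝ}, (∀ i, BM (ψ i)) → ∀ s : Finset (V × ℕ),
      ∀ Φ : (V × ℕ → I) → ℝ, BM Φ →
      ∫ ω, Φ (fun i => (ω i).1) * ∏ i ∈ s, ψ i (Inn G θ ω i) ∂Q G θ (top V) =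
      ∫ ω, Φ (fun i => (ω i).1) * ∏ i ∈ s, (∫ u, ψ i ((ω i).1, u)) ∂Q G θ (top V) := by
    intro ψ hψ s
    have b1 : ∀ i, BM fun ω => ψ i (Inn G θ ω i) := fun i =>
      (hψ i).comp ((measurable_pi_apply i).comp measurable_Inn)
    have b2 := fun i => ((hψ i).integral_right volume).comp (φ := fun T : V × ℕ → I => T i)
      (measurable_pi_apply i)
    induction s using Finset.strongInduction with
    | H s ih =>
      intro Φ hΦ
      rcases s.eq_empty_or_nonempty with rfl | hs
      · simp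
      have m : ∀ j : V × ℕ, MeasurableSet {T : V × ℕ → I | ∀ i ∈ s.erase j,
          (i.2 : ℝ) + T i < j.2 + T j} := fun j => by
        simp only [Set.setOf_forall]
        exact (s.erase j).measurableSet_biInter fun i _ =>
          measurableSet_lt (by fun_prop) (by fun_prop)
      obtain ⟨L, hL⟩ : ∃ L : V × ℕ → (V × ℕ → I) → ℝ, ∀ j, L j = fun T =>
        if ∀ i ∈ s.erase j, (i.2 : ℝ) + T i < j.2 + T j then Φ T else 0 := ⟨_, fun _ => rfl⟩
      have bL : ∀ j, BM (L j) := fun j => hL j ▸ hΦ.ite (m j) (BM.const 0)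
      have e : ∀ {f : Ob V → ℝ}, BM f → ∫ ω, Φ (fun i => (ω i).1) * f ω ∂Q G θ (top V) =
          ∑ j ∈ s, ∫ ω, L j (fun i => (ω i).1) * f ω ∂Q G θ (top V) := fun hf => by
        refine Eq.trans (integral_congr_ae ?_) (integral_sum' _ fun j _ => ((bL j).comp mT).mul hf)
        filter_upwards [(eventually_all_finset s.offDiag).2 fun p hp =>
          ties hG h0 h1 (mem_offDiag.1 hp).2.2] with ω hω
        obtain ⟨j, hj, h⟩ := exists_max_image s (rho ω) hs
        simp only [hL]
        rw [sum_eq_single j (fun i hi hne => by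
          rw [if_neg fun h2 => (h2 j (mem_erase.2 ⟨hne.symm, hj⟩)).not_ge (h i hi), zero_mul])
          (by simp [hj]), if_pos (c := ∀ i ∈ s.erase j, (i.2 : ℝ) + (ω i).1 < j.2 + (ω j).1) fun i hi =>
            (h i (mem_of_mem_erase hi)).lt_of_ne
            (hω (i, j) (mem_offDiag.2 ⟨mem_of_mem_erase hi, hj, ne_of_mem_erase hi⟩))]
      rw [e (BM.prod _ fun i _ => b1 i), e (BM.prod _ fun i _ => (b2 i).comp mT)]
      refine sum_congr rfl fun j hj => ?_
      have b3 := ((bL j).comp mT).mul (BM.prod (s.erase j) fun i _ => b1 i)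
      have b4 := (hψ j).comp (φ := fun p : Ob V × I => ((p.1 j).1, p.2)) (by fun_prop)
      have a1 := innov hG h0 h1 hreg 0 Set.univ j.2.lt_succ_self ((b3.comp measurable_fst).mul
        (b4.sub (((b2 j).comp mT).comp measurable_fst))) fun ω => by
          dsimp only
          rw [integral_const_mul, integral_sub' (b4.comp measurable_prodMk_left) (BM.const _)]
          simp
      have a2 := ih _ (erase_ssubset hj) _ ((bL j).mul (b2 j))
      simp only [← mul_prod_erase _ _ hj, ← mul_assoc]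
      rw [← a2, ← sub_eq_zero, ← integral_sub' ((((bL j).comp mT).mul (b1 j)).mul
        (BM.prod _ fun i _ => b1 i)) ((((bL j).mul (b2 j)).comp mT).mul
        (BM.prod _ fun i _ => b1 i))]
      refine Eq.trans (congrArg _ (funext fun ω => ?_)) a1
      by_cases h : ∀ i ∈ s.erase j, rho ω i < rho ω j
      · have : ∀ i ∈ s.erase j, Inn G θ (pc 0 Set.univ j ω) i = Inn G θ ω i := fun i hi => by
          rw [Inn, UU_pc (h i hi) (Or.inr (Set.mem_univ _)), Inn]; rfl
        simp only [prod_congr rfl fun i hi => congrArg (ψ i) (this i hi)]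
        simp only [pc, cut, Inn]
        ring
      · have : L j (fun i => (ω i).1) = 0 := by rw [hL]; exact if_neg h
        simp [pc, cut, this]
  refine ⟨measurable_Inn, Measure.eq_infinitePi _ fun s t ht => ?_⟩
  have m : MeasurableSet (Set.pi s t) := .pi s.countable_toSet fun _ _ => ht _
  have b := fun i => (BM.const 1).ite (p := (· ∈ t i)) (ht i) (BM.const 0)
  have b2 := fun i => ((b i).integral_right volume).comp (measurable_fst (β := I))
  have a1 := key b s _ (BM.const 1)
  simp only [one_mul] at a1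
  rw [← integral_comp_mp (mp_Q (top V)) (f := fun ω => ∏ i ∈ s, ∫ u, if ((ω i).1, u) ∈ t i then
    1 else 0) (BM.prod _ fun i _ => ((b i).integral_right volume).comp (by fun_prop)).meas] at a1
  simp only [cut_top, obs] at a1
  rw [Pn, integral_comp_mp measurePreserving_snd (BM.prod _ fun i _ => (b2 i).comp
    (measurable_pi_apply i)).meas, integral_Lam_prod s b2] at a1
  rw [Measure.map_apply measurable_Inn m, ← ENNReal.toReal_eq_toReal_iff' (by simp)
    (ENNReal.prod_ne_top (by simp)), ENNReal.toReal_prod, ← Measure.real]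
  refine (real_eq_integral' (p := fun ω => ∀ i ∈ s, Inn G θ ω i ∈ t i) (measurable_Inn m)).trans
    (Eq.trans ?_ (a1.trans (prod_congr rfl fun i _ => ?_)))
  · simp only [prod_boole]
  · rw [lam, integral_comp_mp measurePreserving_fst ((b _).integral_right volume).meas,
      ← integral_prod' (b _), ← real_eq_integral' (p := (· ∈ t i)) (ht _)]
    rfl

end Vale.Agent.P161
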