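import Vale.Agent.P161.Est

/-!
The factor map below the Kesten-Stigum threshold and the identification of its law.
-/

open Finset MeasureTheory Filter Topology
open scoped BigOperators Classical ENNReal

namespace Vale.Agent.P161

variable {V : Type*} {G : SimpleGraph V} {θ : ℝ}

section meas
variable {X : Type*} [MeasurableSpace X]

lemma measurable_E {α : Type*} {D : Finset α} {b : α → ℝ} {f : X → (α → ℝ) → ℝ}
    (h : ∀ s, Measurable fun x => f x s) : Measurable fun x => E D b (f x) := by
  simp only [E, Finset.expect_eq_sum_div_card]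
  exact (Finset.measurable_sum _ fun ζ _ => h _).div_const _

variable {D : Finset V} {I : Finset (ℕ × V)} {key ξ : X → ℕ × V → ℝ}
  (hk : ∀ i, Measurable fun x => key x i) (hξ : ∀ i, Measurable fun x => ξ x i)
include hk hξ

lemma measurable_St {m : X → ℕ × V → ℝ} (hm : ∀ i, Measurable fun x => m x i) {t : X → ℝ}
    (ht : Measurable t) (s : V → ℝ) :
    Measurable fun x => St G θ D I (key x) (m x) (ξ x) (t x) s := by
  simp only [St, prod_filter]
  refine (Finset.measurable_prod _ fun j _ => Measurable.ite (measurableSet_lt (hk j) ht) ?_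
    measurable_const).const_mul _
  exact ((hξ j).mul ((hm j).const_sub _)).const_add _

lemma measurable_pic (k : ℕ) : ∀ i, Measurable fun x => pic G θ D I (key x) (ξ x) k i := by
  induction k with
  | zero => exact fun i => measurable_const
  | succ k ih =>
    intro i
    simp only [pic]
    exact measurable_E (f := fun x s => s i.2 *
      St G θ D I (key x) (pic G θ D I (key x) (ξ x) k) (ξ x) (key x i) s)
      fun s => (measurable_St hk hξ ih (hk i) s).const_mul _

lemma measurable_M (t : ℝ) (v : V) : Measurable fun x => M G θ D I (key x) t v (ξ x) :=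
  measurable_E fun s =>
    (measurable_St hk hξ (measurable_pic hk hξ _) measurable_const s).const_mul _

end meas

section equiv
variable (g : G ≃g G)

lemma dist_iso_le (u v : V) : G.dist (g u) (g v) ≤ G.dist u v := by
  by_cases h : G.Reachable u v
  · obtain ⟨w, hw⟩ := h.exists_walk_length_eq_dist
    exact (SimpleGraph.dist_le (w.map g.toHom)).trans_eq (by rw [SimpleGraph.Walk.length_map, hw])
  · rw [SimpleGraph.dist_eq_zero_of_not_reachable (u := g u) fun h' => h (by
      simpa using h'.map g.symm.toHom)]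
    exact Nat.zero_le _

lemma dist_iso (u v : V) : G.dist (g u) (g v) = G.dist u v :=
  le_antisymm (dist_iso_le g u v) (by simpa using dist_iso_le g.symm (g u) (g v))

lemma ball_iso [G.LocallyFinite] (hG : G.Connected) (v : V) (R : ℕ) :
    ball G (g v) R = (ball G v R).map g.toEquiv.toEmbedding := by
  ext u
  obtain ⟨w, rfl⟩ := g.surjective u
  rw [mem_ball hG, dist_iso, ← mem_ball hG]
  exact (mem_map' g.toEquiv.toEmbedding).symm

lemma W_iso (D : Finset V) (s : V → ℝ) :
    W G θ (D.map g.toEquiv.toEmbedding) (fun w => s (g.symm w)) = W G θ D s := by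
  symm
  refine prod_nbij' (Sym2.map g) (Sym2.map g.symm) (fun e he => ?_) (fun e he => ?_)
    (fun e _ => by simp [Sym2.map_map]) (fun e _ => by simp [Sym2.map_map])
    (fun e _ => by simp [Sym2.map_map, Function.comp_def])
  · induction e using Sym2.ind with
    | h p q =>
      obtain ⟨h1, h2, h3⟩ := mem_ED.1 he
      exact mem_ED.2 ⟨mem_map_of_mem _ h1, mem_map_of_mem _ h2, g.map_adj_iff.2 h3⟩
  · induction e using Sym2.ind with
    | h p q =>
      obtain ⟨h1, h2, h3⟩ := mem_ED.1 he
      exact mem_ED.2 ⟨mem_map_equiv.1 h1, mem_map_equiv.1 h2, g.symm.map_adj_iff.2 h3⟩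

lemma St_iso (D : Finset V) (n : ℕ) (key m ξ : ℕ × V → ℝ) (t : ℝ) (s : V → ℝ) :
    St G θ (D.map g.toEquiv.toEmbedding) (range n ×ˢ D.map g.toEquiv.toEmbedding) key m ξ t
      (fun w => s (g.symm w)) = St G θ D (range n ×ˢ D) (fun i => key (i.1, g i.2))
      (fun i => m (i.1, g i.2)) (fun i => ξ (i.1, g i.2)) t s := by
  rw [St, St, W_iso]
  congr 1
  symm
  refine prod_nbij' (fun i => (i.1, g i.2)) (fun i => (i.1, g.symm i.2)) (fun i hi => ?_)
    (fun i hi => ?_) (fun i _ => by simp) (fun i _ => by simp) (fun i _ => by simp)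
  · simp only [mem_filter, mem_product] at hi ⊢
    exact ⟨⟨hi.1.1, mem_map_of_mem _ hi.1.2⟩, hi.2⟩
  · simp only [mem_filter, mem_product] at hi ⊢
    exact ⟨⟨hi.1.1, mem_map_equiv.1 hi.1.2⟩, by simpa using hi.2⟩

lemma pic_iso (D : Finset V) (n : ℕ) (key ξ : ℕ × V → ℝ) (k : ℕ) :
    (fun i : ℕ × V => pic G θ (D.map g.toEquiv.toEmbedding)
      (range n ×ˢ D.map g.toEquiv.toEmbedding) key ξ k (i.1, g i.2)) =
    pic G θ D (range n ×ˢ D) (fun i => key (i.1, g i.2)) (fun i => ξ (i.1, g i.2)) k := by
  induction k with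
  | zero => rfl
  | succ k ih =>
    funext i
    simp only [pic]
    refine (E_map g.toEquiv 1 _).trans (E_congr fun s _ => ?_)
    rw [← ih, ← St_iso]
    exact congrArg₂ _ (congrArg s (g.symm_apply_apply _)) rfl

lemma M_iso (D : Finset V) (n : ℕ) (key ξ : ℕ × V → ℝ) (t : ℝ) (v : V) :
    M G θ (D.map g.toEquiv.toEmbedding) (range n ×ˢ D.map g.toEquiv.toEmbedding) key t (g v) ξ =
    M G θ D (range n ×ˢ D) (fun i => key (i.1, g i.2)) t v (fun i => ξ (i.1, g i.2)) := by
  refine (E_map g.toEquiv 1 _).trans (E_congr fun s _ => ?_)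
  rw [F, F, ← pic_iso, ← St_iso, card_product, card_product, card_map]
  exact congrArg₂ _ (congrArg s (g.symm_apply_apply _)) rfl

end equiv

noncomputable def coin : Measure Bool := (2 : ℝ≥0∞)⁻¹ • Measure.count

instance : IsProbabilityMeasure coin :=
  ⟨by
    rw [coin, Measure.smul_apply, Measure.count_univ]
    simp [ENNReal.inv_mul_cancel]⟩

lemma coin_not : coin.map (fun x => !x) = coin :=
  Measure.ext_of_singleton fun x => by
    rw [Measure.map_apply (measurable_of_countable _) (measurableSet_singleton _)]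
    have : (fun x => !x) ⁻¹' {x} = {!x} := by ext y; cases x <;> cases y <;> simp
    simp [this, coin]

abbrev Lab : Type := unitInterval × (ℕ → Bool)

noncomputable def labLaw : Measure Lab := volume.prod (Measure.infinitePi fun _ => coin)

instance : IsProbabilityMeasure labLaw := by unfold labLaw; infer_instance

noncomputable def PL (V : Type*) : Measure (V → Lab) := Measure.infinitePi fun _ => labLaw

instance : IsProbabilityMeasure (PL V) := by unfold PL; infer_instance

noncomputable def keyL (L : V → Lab) (i : ℕ × V) : ℝ := i.1 + (L i.2).1 / 2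

noncomputable def xiL (a : ℝ) (L : V → Lab) (i : ℕ × V) : ℝ := a * spin ((L i.2).2 i.1)

lemma measurable_keyL (i : ℕ × V) : Measurable fun L : V → Lab => keyL L i := by
  unfold keyL; fun_prop

lemma measurable_xiL (a : ℝ) (i : ℕ × V) : Measurable fun L : V → Lab => xiL a L i :=
  ((measurable_of_countable spin).comp (by fun_prop)).const_mul _

noncomputable def tw (I : Finset (ℕ × V)) (ζ : I → Bool) (i : ℕ × V) (x : Bool) : Bool :=
  if h : i ∈ I then (if ζ ⟨i, h⟩ then x else !x) else x

lemma tw_pres (I : Finset (ℕ × V)) (ζ : I → Bool) : MeasurePreserving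
    (fun (L : V → Lab) v => Prod.map id (fun x n => tw I ζ (n, v) (x n)) (L v)) (PL V) (PL V) := by
  have h1 : ∀ v, Measurable fun (x : ℕ → Bool) n => tw I ζ (n, v) (x n) := fun v =>
    measurable_pi_lambda _ fun n => (measurable_of_countable (tw I ζ (n, v))).comp
      (measurable_pi_apply n)
  refine ⟨measurable_pi_lambda _ fun v => (measurable_id.prodMap (h1 v)).comp
    (measurable_pi_apply v), ?_⟩
  rw [PL, Measure.infinitePi_map_pi _ fun v => measurable_id.prodMap (h1 v)]
  congr 1
  funext v
  rw [labLaw, ← Measure.map_prod_map _ _ measurable_id (h1 v), Measure.map_id,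
    Measure.infinitePi_map_pi _ fun n => measurable_of_countable _]
  congr 2
  funext n
  unfold tw
  split_ifs
  · exact Measure.map_id
  · exact coin_not
  · exact Measure.map_id

lemma ae_injOn (I : Finset (ℕ × V)) : ∀ᵐ L ∂(PL V), Set.InjOn (keyL L) I := by
  have h1 : ∀ u v : V, u ≠ v → ∀ᵐ L ∂(PL V), (L u).1 ≠ (L v).1 := fun u v huv => by
    have hm : MeasurableSet {p : Lab × Lab | p.1.1 ≠ p.2.1} :=
      (measurableSet_eq_fun (by fun_prop) (by fun_prop)).compl
    have h2 : ∀ᵐ p ∂(labLaw.prod labLaw), p.1.1 ≠ p.2.1 := by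
      rw [Measure.ae_prod_iff_ae_ae hm]
      refine ae_of_all _ fun x => ?_
      have : {y : Lab | ¬ x.1 ≠ y.1} = {x.1} ×ˢ Set.univ := by ext y; simp [eq_comm]
      rw [ae_iff, this, labLaw, Measure.prod_prod]
      simp
    rw [← Measure.infinitePi_map_eval_prod (P := fun _ : V => labLaw) huv] at h2
    exact ae_of_ae_map (f := fun ω : V → Lab => (ω u, ω v)) (by fun_prop) h2
  have h2 : ∀ᵐ L ∂(PL V), ∀ i ∈ I, ∀ j ∈ I, i.2 ≠ j.2 → (L i.2).1 ≠ (L j.2).1 := by
    refine (eventually_all_finset I).2 fun i _ => (eventually_all_finset I).2 fun j _ => ?_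
    by_cases h : i.2 = j.2
    · simp [h]
    · exact (h1 _ _ h).mono fun L hL _ => hL
  refine h2.mono fun L hL i hi j hj h => ?_
  have a1 := (L i.2).1.2
  have a2 := (L j.2).1.2
  simp only [keyL] at h
  have h3 : i.1 = j.1 := by
    have b1 : (i.1 : ℝ) < j.1 + 1 := by linarith [a1.1, a2.2]
    have b2 : (j.1 : ℝ) < i.1 + 1 := by linarith [a1.2, a2.1]
    have : i.1 < j.1 + 1 := by exact_mod_cast b1
    have : j.1 < i.1 + 1 := by exact_mod_cast b2
    omega
  refine Prod.ext h3 (by_contra fun h4 => hL i hi j hj h4 (Subtype.ext ?_))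
  rw [h3] at h
  linarith

lemma integral_le {a c B : ℝ} (I : Finset (ℕ × V)) {H : (ℕ × V → ℝ) → (ℕ × V → ℝ) → ℝ}
    (hm : Measurable fun L => H (keyL L) (xiL a L)) (hB : ∀ k ξ, |H k ξ| ≤ B)
    (h : ∀ key b : ℕ × V → ℝ, Set.InjOn key I → (∀ i, (i.1 : ℝ) ≤ key i ∧ key i < i.1 + 1) →
      (∀ j, b j ^ 2 = a ^ 2) → E I b (H key) ≤ c) :
    ∫ L, H (keyL L) (xiL a L) ∂(PL V) ≤ c := by
  have h1 : ∀ (ζ : I → Bool) (L : V → Lab),
      xiL a (fun v => Prod.map id (fun x n => tw I ζ (n, v) (x n)) (L v)) =
        cfg I (xiL a L) ζ := fun ζ L => by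
    funext i
    simp only [xiL, cfg, tw, Prod.map_snd]
    split_ifs with h2 h3
    · simp [h3, spin]
    · cases (L i.2).2 i.1 <;> simp [h3, spin]
    · rfl
  have h2 : ∀ ζ : I → Bool, ∫ L, H (keyL L) (cfg I (xiL a L) ζ) ∂(PL V) =
      ∫ L, H (keyL L) (xiL a L) ∂(PL V) := fun ζ => by
    conv_rhs => rw [← (tw_pres I ζ).map_eq]
    rw [integral_map (tw_pres I ζ).measurable.aemeasurable hm.aestronglyMeasurable]
    simp only [h1]
    rfl
  have h3 : ∀ ζ : I → Bool, Integrable (fun L => H (keyL L) (cfg I (xiL a L) ζ)) (PL V) :=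
    fun ζ => by
      refine Integrable.of_bound (C := B) ?_ (ae_of_all _ fun L => hB _ _)
      simp only [← h1]
      exact (hm.comp (tw_pres I ζ).measurable).aestronglyMeasurable
  have h4 : ∫ L, E I (xiL a L) (H (keyL L)) ∂(PL V) = ∫ L, H (keyL L) (xiL a L) ∂(PL V) := by
    simp only [E, Finset.expect_eq_sum_div_card]
    rw [integral_div, integral_finset_sum _ fun ζ _ => h3 ζ]
    simp only [h2, sum_const, nsmul_eq_mul]
    field_simp
  rw [← h4]
  refine (integral_mono_ae ?_ (integrable_const c) ?_).trans_eq (by simp)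
  · simp only [E, Finset.expect_eq_sum_div_card]
    exact (integrable_finset_sum _ fun ζ _ => h3 ζ).div_const _
  · refine (ae_injOn I).mono fun L hL => h _ _ hL (fun i => ?_) fun j => ?_
    · have := (L i.2).1.2
      simp only [keyL]
      constructor <;> linarith [this.1, this.2]
    · cases h5 : (L j.2).2 j.1 <;> simp [xiL, h5, spin]

lemma sign_ineq {x y z : ℝ} (hy : |y| ≤ 1) :
    (if decide (0 < x) ≠ decide (0 < z) then (1 : ℝ) else 0) ≤
      2 * (1 - y ^ 2) + 4 * (x - y) ^ 2 + 4 * (z - y) ^ 2 := by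
  have h1 := (sq_le_one_iff_abs_le_one _).2 hy
  split_ifs with h
  · by_cases hx : 0 < x <;> by_cases hz : 0 < z <;> simp [hx, hz] at h <;>
      rcases le_total 0 y with h2 | h2 <;> nlinarith [sq_nonneg (x - y), sq_nonneg (z - y)]
  · positivity

lemma sign_ineq' {x y : ℝ} (hy : |y| ≤ 1) :
    1 - spin (decide (0 < x)) * y ≤ 4 * (1 - y ^ 2) + 8 * (x - y) ^ 2 := by
  obtain ⟨h1, h2⟩ := abs_le.1 hy
  by_cases hx : 0 < x <;> simp only [hx, spin, decide_true, decide_false, if_true] <;>
    rcases le_total 0 y with h3 | h3 <;> simp <;>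
    nlinarith [sq_nonneg (x - y), sq_nonneg (2 * y - 1), sq_nonneg (2 * y + 1)]

lemma sg_spin (η : V → Bool) : Sg 1 fun v => spin (η v) := fun v => by
  cases h : η v <;> simp [spin, h]

lemma chi_sub_le {A : Finset V} {η s s' : V → ℝ} (hη : Sg 1 η) (hs : Sg 1 s) (hs' : Sg 1 s') :
    |chi A η s' - chi A η s| ≤ ∑ v ∈ A, (1 - s' v * s v) / 2 := by
  have h1 : ∀ v ∈ A, 0 ≤ (1 - s' v * s v) / 2 := fun v _ => by
    rcases hs.one_cases v with h | h <;> rcases hs'.one_cases v with h' | h' <;> simp [h, h']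
  by_cases h : ∀ v ∈ A, s' v = s v
  · rw [show chi A η s' = chi A η s from prod_congr rfl fun v hv => by rw [h v hv]]
    simpa using sum_nonneg h1
  · push Not at h
    obtain ⟨v, hv, h2⟩ := h
    refine le_trans ?_ (single_le_sum h1 hv)
    have : (1 - s' v * s v) / 2 = 1 := by
      rcases hs.one_cases v with h | h <;> rcases hs'.one_cases v with h' | h' <;> simp_all
    rw [this, chi_eq hη hs, chi_eq hη hs']
    split_ifs <;> simp

lemma free_unique [G.LocallyFinite] (hG : G.Connected) {μ ν : Measure (V → Bool)}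
    (hμ : IsFreeIsing G θ μ) (hν : IsFreeIsing G θ ν) : μ = ν := by
  haveI := hμ.1
  haveI := hν.1
  obtain ⟨o⟩ := hG.nonempty
  refine IsProjectiveLimit.unique (P := fun I : Finset V => ν.map I.restrict) (fun I => ?_)
    fun _ => rfl
  obtain ⟨R, h1, h2⟩ := exists_subset_ball hG o I
  have h3 : μ.map (ball G o R).restrict = ν.map (ball G o R).restrict := by
    refine ext_iff_measureReal_singleton.2 fun x => ?_
    have hc := connected_of_wconn (wconn_ball hG o R) ⟨o, (mem_ball hG).2 (by simpa using h2)⟩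
    have h4 : (ball G o R).restrict (π := fun _ => Bool) ⁻¹' {x} =
        {σ : V → Bool | ∀ v ∈ ball G o R, σ v = (fun v => if h : v ∈ ball G o R then x ⟨v, h⟩
          else false) v} := by
      ext σ
      simp only [Set.mem_preimage, Set.mem_singleton_iff, funext_iff, Subtype.forall,
        Set.mem_setOf_eq, restrict]
      exact forall₂_congr fun v hv => by rw [dif_pos hv]
    rw [map_measureReal_apply (measurable_restrict _) (measurableSet_singleton _),
      map_measureReal_apply (measurable_restrict _) (measurableSet_singleton _), h4,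
      hμ.2 _ hc, hν.2 _ hc]
  rw [← restrict₂_comp_restrict h1, ← Measure.map_map (measurable_restrict₂ h1)
    (measurable_restrict _), h3, Measure.map_map (measurable_restrict₂ h1) (measurable_restrict _)]
  rfl

end Vale.Agent.P161
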