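import Vale.Agent.P161.Bayes

/-!
Moments of the cavity magnetisations at the Kesten-Stigum threshold.
-/

open Finset MeasureTheory Filter Topology Real
open scoped BigOperators Classical ENNReal unitInterval

namespace Vale.Agent.P161

lemma volI (a b : ℝ) : (a ≤ b → (volume : Measure I).real {T | a ≤ T ∧ (T : ℝ) < b} ≤ b - a) ∧
    (0 ≤ a → a ≤ b → b ≤ 1 → (volume : Measure I).real {T | a ≤ T ∧ (T : ℝ) < b} = b - a) := by
  have h := unitInterval.measurePreserving_coe.measureReal_preimage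
    (measurableSet_Ico (a := a) (b := b)).nullMeasurableSet
  rw [measureReal_restrict_apply measurableSet_Ico] at h
  refine ⟨fun h1 => h.trans_le ((measureReal_mono Set.inter_subset_left (by simp)).trans_eq
    (by simp [h1])), fun h1 h2 h3 => h.trans ?_⟩
  rw [Set.inter_eq_left.2 (show Set.Ico a b ⊆ I from
    fun x hx => ⟨h1.trans hx.1, hx.2.le.trans h3⟩)]
  simp [h2]

lemma exp_neg_le {y : ℝ} (h : 0 ≤ y) : exp (-y) ≤ 1 - y + y ^ 2 / 2 := by
  have h1 := quadratic_le_exp_of_nonneg h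
  rw [exp_neg, inv_le_comm₀ (exp_pos _) (by nlinarith [sq_nonneg (y - 1)]), inv_eq_one_div,
    div_le_iff₀ (by nlinarith [sq_nonneg (y - 1)])]
  calc (1 : ℝ) ≤ (1 + y + y ^ 2 / 2) * (1 - y + y ^ 2 / 2) := by nlinarith [sq_nonneg (y ^ 2)]
    _ ≤ _ := mul_le_mul_of_nonneg_right h1 (by nlinarith [sq_nonneg (y - 1)])

lemma add_pow_le' {u v : ℝ} (hu : 0 ≤ u) (hv : 0 ≤ v) (k : ℕ) :
    (u + v) ^ k ≤ (21 / 20) ^ k * u ^ k + 21 ^ k * v ^ k := by
  rw [← mul_pow, ← mul_pow]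
  rcases le_total (20 * v) u with h | h
  · exact le_add_of_le_of_nonneg (pow_le_pow_left₀ (by positivity) (by linarith) k) (by positivity)
  · exact le_add_of_nonneg_of_le (by positivity) (pow_le_pow_left₀ (by positivity) (by linarith) k)

lemma sum_pow_le {ι : Type*} (J : Finset ι) {a : ι → ℝ} (ha : ∀ j, 0 ≤ a j) {k : ℕ} (hk : k ≠ 0) :
    (∑ j ∈ J, a j) ^ (2 * k) ≤ (21 / 20) ^ (2 * k) * ∑ j ∈ J, a j ^ (2 * k) +
      (21 * J.card) ^ (2 * k) * ∑ p ∈ J.offDiag, a p.1 ^ k * a p.2 ^ k := by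
  have p2 : ∀ p ∈ J.offDiag, 0 ≤ a p.1 ^ k * a p.2 ^ k := fun p _ =>
    mul_nonneg (pow_nonneg (ha _) _) (pow_nonneg (ha _) _)
  rcases J.eq_empty_or_nonempty with rfl | hJ
  · simp [hk]
  obtain ⟨i, hi, h⟩ := exists_max_image J a hJ
  rw [← add_sum_erase _ _ hi]
  refine (add_pow_le' (ha i) (sum_nonneg fun j _ => ha j) _).trans (add_le_add
    (mul_le_mul_of_nonneg_left (single_le_sum (f := fun j => a j ^ (2 * k))
      (fun j _ => pow_nonneg (ha j) _) hi) (by positivity)) ?_)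
  rcases (J.erase i).eq_empty_or_nonempty with h1 | h1
  · rw [h1, sum_empty, zero_pow (by omega), mul_zero]
    exact mul_nonneg (by positivity) (sum_nonneg p2)
  obtain ⟨j, hj, h2⟩ := exists_max_image _ a h1
  obtain ⟨h3, h4⟩ := mem_erase.1 hj
  rw [mul_pow, mul_assoc]
  refine mul_le_mul_of_nonneg_left ((pow_le_pow_left₀ (sum_nonneg fun j _ => ha j)
    ((sum_le_card_nsmul _ _ _ h2).trans (c := J.card * a j) ?_) _).trans ?_) (by positivity)
  · rw [nsmul_eq_mul]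
    exact mul_le_mul_of_nonneg_right (by exact_mod_cast card_erase_le) (ha j)
  · rw [mul_pow]
    refine mul_le_mul_of_nonneg_left (le_trans ?_ (single_le_sum p2
      (a := (i, j)) (mem_offDiag.2 ⟨hi, h4, h3.symm⟩))) (by positivity)
    rw [two_mul, pow_add]
    exact mul_le_mul_of_nonneg_right (pow_le_pow_left₀ (ha j) (h j h4) k) (pow_nonneg (ha j) k)

variable {V : Type*} {G : SimpleGraph V} {θ : ℝ}

lemma own_lower {A : Sel V} {z : V} {n : ℕ} {s : ℝ} (hs : 0 ≤ s) (hs' : s ≤ 1 / 2)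
    (hA : ∀ T : I, (T : ℝ) < s → T ∈ A.s (z, n)) :
    s ^ 3 / 24 ≤ qv (Pz G θ A z) fun ω => artanh (tau (ω (z, n))) := by
  have b : BM fun p : I × ℝ => tau p ^ 2 := BM.pow ⟨measurable_tau, _, abs_tau_le⟩ 2
  have b' := b.comp (φ := fun p : I × I => (p.1, if p.1 ∈ A.s (z, n) then Qf (aT p.1) p.2 else 0))
    (measurable_fst.prodMk (Measurable.ite (measurable_fst (A.meas _))
      (measurable_Qf.comp (f := fun q : I × I => (aT q.1, (q.2 : ℝ))) (by fun_prop))
      measurable_const))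
  have m : MeasurableSet {T : I | s / 2 ≤ T ∧ (T : ℝ) < s} :=
    measurable_subtype_coe measurableSet_Ico
  simp only [qv, tanh_artanh_tau]
  rw [resample A z n (b.comp (measurable_pi_apply _))]
  simp only [Function.update_self, integral_const, probReal_univ, one_smul, lam]
  rw [integral_prod' b']
  refine le_trans ?_ (integral_le_of_ae (((BM.const 1).ite m (BM.const 0)).cmul (s ^ 2 / 12))
    (b'.integral_right _) (ae_of_all _ fun T => ?_))
  · rw [integral_const_mul, ← real_eq_integral' m, (volI _ _).2 (by linarith) (by linarith)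
      (by linarith)]
    linarith
  · split_ifs with h
    · simp only [hA T h.2, if_true, tau, fun u : I => yc_eq T (Qf_spec (abs_aT_le T) u.2).1, mul_pow,
        integral_const_mul, integral_Qf_sq (abs_aT_le T)]
      rw [aT, if_pos (by linarith [h.2])]
      nlinarith [h.1]
    · simpa using integral_nonneg fun _ => sq_nonneg _

lemma sv_part (hG : G.Connected) (A : Sel V) (z : V) (N : ℕ) :
    SV (Pz G θ A z) (⋃ n ∈ range N, {(z, n)}) (fun ω => gN N ω z) ∧
      ∀ x : ℕ → ℝ, (∀ n ∈ range N, x n ≤ 1 / 2 ∧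
        x n ≤ qv (Pz G θ A z) fun ω => artanh (tau (ω (z, n)))) →
        1 - 2 * qv (Pz G θ A z) (fun ω => gN N ω z) ≤ ∏ n ∈ range N, (1 - 2 * x n) := by
  have := SV.sum (R := Pz G θ A z) (range N) (B := fun n => {(z, n)})
    (C := fun n => {i | i.1 = z ∧ i.2 ∈ ({n} : Set ℕ)}) (fun n _ => ⟨sv_own A z n,
      split_own hG A z _, by simp⟩) fun j _ j' _ h => by simpa using h.symm
  exact ⟨this.1, this.2.2⟩

lemma gN_lower (hG : G.Connected) {A : Sel V} {z : V} {N : ℕ} (hN : 0 < N) {s : ℝ} (hs : 0 ≤ s)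
    (hs' : s ≤ 1 / 2) (hA : ∀ T : I, (T : ℝ) < s → T ∈ A.s (z, 0)) :
    s ^ 3 / 24 ≤ qv (Pz G θ A z) fun ω => gN N ω z := by
  have := (sv_part (θ := θ) hG A z N).2 (fun n => if n = 0 then s ^ 3 / 24 else 0) fun n _ => by
    split_ifs with h
    · exact ⟨by nlinarith [pow_le_one₀ hs (by linarith : s ≤ 1) (n := 3)], h ▸ own_lower hs hs' hA⟩
    · exact ⟨by norm_num, qv_nonneg⟩
  rw [prod_eq_single 0 (fun n _ h => by simp [h]) (by simp [hN])] at this
  simp only [if_true] at this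
  linarith

lemma gN_loc (hG : G.Connected) {A : Sel V} {z : V} (N : ℕ)
    (hA : ∀ n < N, ∀ T : I, (T : ℝ) < 1 / 2 → T ∈ A.s (z, n)) :
    1 - qv (Pz G θ A z) (fun ω => gN N ω z) ≤ 192 / (N + 192) := by
  induction N with
  | zero => simp [qv_nonneg]
  | succ N ih =>
    have h1 := ((sv_part (θ := θ) hG A z N).1.qv_add (split_own hG A z (Set.Iio N)) (sv_own A z N)
      (by simp only [Set.iUnion_subset_iff]; intro n hn; simpa using hn) (by simp)).2.2.1
    have h2 := own_lower (G := G) (θ := θ) (by norm_num) le_rfl (hA N N.lt_succ_self)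
    have h3 := ih fun n hn => hA n (hn.trans N.lt_succ_self)
    have h4 := qv_le (R := Pz G θ A z) (measurable_gN (V := V) N z)
    simp only [gN, sum_range_succ] at h1 h3 h4 ⊢
    generalize qv (Pz G θ A z) (fun ω => ∑ n ∈ range N, artanh (tau (ω (z, n))) + _) = q' at *
    generalize qv (Pz G θ A z) (fun ω => ∑ n ∈ range N, artanh (tau (ω (z, n)))) = q at *
    have h5 : 1 - q' ≤ (1 - q) - (1 - q) ^ 2 / 192 := by nlinarith [sq_nonneg (1 - q)]
    have h6 : (0 : ℝ) ≤ N := N.cast_nonneg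
    rw [le_div_iff₀ (by positivity)] at h3 ⊢
    push_cast
    generalize 1 - q' = e' at *
    obtain ⟨e, he⟩ : ∃ e, e = 1 - q := ⟨_, rfl⟩
    rw [← he] at h3 h5
    have h7 : 0 ≤ e := by linarith
    by_contra hc
    have h8 : e' * (192 + e) ≤ 192 * e := by nlinarith [mul_nonneg h7 (sq_nonneg e)]
    have h9 : 0 < e' := by nlinarith
    nlinarith

lemma tanh_gN_le {A : Sel V} {s : ℝ} (hs : 0 ≤ s) (hA : ∀ i T, T ∈ A.s i → i.2 = 0 ∧ (T : ℝ) < s)
    (N : ℕ) (ω : Ob V) (z : V) :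
    |tanh (gN N (cut A ω) z)| ≤ s * if ((ω (z, 0)).1 : ℝ) < s then 1 else 0 := by
  have h : ∀ i, (ω i).1 ∉ A.s i → tau (cut A ω i) = 0 := fun i hi => by simp [cut, hi, tau, yc]
  have h2 : 0 ≤ s * if ((ω (z, 0)).1 : ℝ) < s then (1 : ℝ) else 0 := by split_ifs <;> simp [hs]
  rcases N.eq_zero_or_pos with rfl | hN
  · simpa [gN] using h2
  rw [gN, sum_eq_single 0 (fun n _ hn => by rw [h _ fun h3 => hn (hA _ _ h3).1, artanh_zero])
    (by simp [hN]), tanh_artanh_tau]
  by_cases h3 : (ω (z, 0)).1 ∈ A.s (z, 0)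
  · rw [if_pos (hA _ _ h3).2, mul_one, tau, abs_mul, abs_of_nonneg (aT_nonneg _)]
    exact (mul_le_of_le_one_right (aT_nonneg _) (abs_yc_le _)).trans
      ((aT_le _).trans (hA _ _ h3).2.le)
  · rwa [h _ h3, abs_zero]

lemma gN_upper {A : Sel V} {s : ℝ} (hs : 0 ≤ s) (hA : ∀ i T, T ∈ A.s i → i.2 = 0 ∧ (T : ℝ) < s)
    (N : ℕ) (z : V) : qv (Pz G θ A z) (fun ω => gN N ω z) ≤ s ^ 3 := by
  have m : MeasurableSet {ω : Ob V | ((ω (z, 0)).1 : ℝ) < s} :=
    measurableSet_lt (by fun_prop) measurable_const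
  have m' : MeasurableSet {T : I | (T : ℝ) < s} := measurableSet_lt (by fun_prop) measurable_const
  have b := (BM.tanh (measurable_gN N z)).pow 2
  have b' := (BM.const 1).ite m (BM.const 0)
  rw [qv, ← integral_comp_mp (mp_cut_R (A := A) (fun _ => subset_rfl) z) b.meas]
  refine (integral_le_of_ae (b.comp (measurable_cut A)) (b'.cmul (s ^ 2))
    (ae_of_all _ fun ω => ?_)).trans ?_
  · have := tanh_gN_le hs hA N ω z
    rw [← sq_abs]
    refine (pow_le_pow_left₀ (abs_nonneg _) this 2).trans_eq ?_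
    split_ifs <;> simp
  · rw [integral_const_mul, resample A z 0 b', pow_succ s 2]
    simp only [Function.update_self, integral_const, probReal_univ, one_smul, lam]
    rw [integral_prod' (((BM.const 1).ite m' (BM.const 0)).comp measurable_fst)]
    rw [show (fun T : I => ∫ _ : I, if (T : ℝ) < s then (1 : ℝ) else 0) =
      fun T : I => if (T : ℝ) < s then (1 : ℝ) else 0 from funext fun T => by simp,
      ← real_eq_integral' m']
    refine mul_le_mul_of_nonneg_left (le_trans (measureReal_mono fun T hT => And.intro T.2.1 hT)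
      (((volI 0 s).1 hs).trans_eq (sub_zero _))) (sq_nonneg _)

variable [G.LocallyFinite] (hG : G.IsTree) (h0 : 0 ≤ θ) (h1 : θ < 1) {b : ℕ}
  (hreg : ∀ v, G.degree v = b + 1) {A : Sel V} {N : ℕ} (hA : ∀ i, N ≤ i.2 → A.s i = ∅)
include hG h0 h1 hreg hA

omit h0 h1 hreg hA in
lemma countable_V : Countable V := by
  obtain ⟨o⟩ := hG.connected.nonempty
  refine Set.countable_univ_iff.1 ((Set.countable_iUnion fun R =>
    (finite_ball hG.connected o R).countable).mono fun u _ => ?_)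
  exact Set.mem_iUnion.2 ⟨_, Nat.lt_succ_self _⟩

lemma good_ae : ∀ᵐ ω ∂Q G θ A, Good G θ (gN N ω) := by
  haveI := countable_V hG
  exact ae_all_iff.2 fun z => ae_all_iff.2 fun y =>
    (levy hG h0 h1 hA (fun v => (hreg v).le) z y).1

lemma sv_X {y z : V} (h : G.Adj y z) :
    SV (Pz G θ A z) {i | i.1 ∈ side G y z} fun ω => X G θ (gN N ω) z y := by
  convert (levy hG h0 h1 hA (fun v => (hreg v).le) z y).2 using 3
  exact ⟨fun h2 => ⟨_, mem_reg hG _ _ z y (Nat.lt_succ_self _) fun _ => h2⟩,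
    fun ⟨k, h2⟩ => reg_subset_side hG.isAcyclic k z y h2⟩

lemma sv_m (z : V) : SV (Pz G θ A z) Set.univ fun ω => X G θ (gN N ω) z z := by
  convert (levy hG h0 h1 hA (fun v => (hreg v).le) z z).2 using 1
  ext i
  exact iff_of_true trivial ⟨_, mem_reg hG _ _ z z (Nat.lt_succ_self _) fun h => (h.ne rfl).elim⟩

lemma qv_rec (z y : V) :
    (1 - qv (Pz G θ A z) fun ω => gN N ω z) * ∏ c ∈ (G.neighborFinset z).erase y,
      (1 - θ ^ 2 * qv (Pz G θ A c) fun ω => X G θ (gN N ω) c z) ≤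
      1 - qv (Pz G θ A z) (fun ω => X G θ (gN N ω) z y) ∧
    qv (Pz G θ A z) (fun ω => gN N ω z) ≤ qv (Pz G θ A z) (fun ω => X G θ (gN N ω) z y) ∧
    ∀ x x' : ℝ, x ≤ 1 / 2 → x' ≤ 1 / 2 → x ≤ qv (Pz G θ A z) (fun ω => gN N ω z) →
      (∀ c, G.Adj z c → x' ≤ θ ^ 2 * qv (Pz G θ A c) fun ω => X G θ (gN N ω) c z) →
      1 - 2 * qv (Pz G θ A z) (fun ω => X G θ (gN N ω) z y) ≤
        (1 - 2 * x) * (1 - 2 * x') ^ ((G.neighborFinset z).erase y).card := by
  have hJ : ∀ c ∈ (G.neighborFinset z).erase y, G.Adj z c := fun c hc => by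
    simpa using (mem_erase.1 hc).2
  have e : qv (Pz G θ A z) (fun ω => X G θ (gN N ω) z y) = qv (Pz G θ A z) fun ω => gN N ω z +
      ∑ c ∈ (G.neighborFinset z).erase y, Ps θ (X G θ (gN N ω) c z) :=
    integral_congr_ae ((ae_Pz hG h0 h1 z (good_ae hG h0 h1 hreg hA)).mono fun ω hω => by
      simp only [hω.eq h0 h1 z y])
  obtain ⟨-, a1, a2, a3⟩ := SV.step hG h0 h1 hA z hJ (fun _ _ => subset_rfl)
    fun c hc => sv_X hG h0 h1 hreg hA (hJ c hc)
  rw [e]
  exact ⟨a1, a2, fun x x' c1 c2 c3 c4 => a3 x x' c1 c2 c3 fun c hc => c4 c (hJ c hc)⟩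

omit hG h0 h1 hA in
lemma card_erase_nbr {y z : V} (h : G.Adj y z) : ((G.neighborFinset z).erase y).card = b := by
  rw [card_erase_of_mem (by simpa using h.symm), SimpleGraph.card_neighborFinset_eq_degree, hreg]
  rfl

variable (hb : 2 ≤ b) (hθ : b * θ ^ 2 = 1)
include hb hθ

omit hG h0 h1 hreg hA in
lemma sq_le_half : θ ^ 2 ≤ 1 / 2 := by
  have : (2 : ℝ) ≤ b := by exact_mod_cast hb
  nlinarith [sq_nonneg θ]

lemma q_upper {τ : ℝ} (hτ : ∀ z, qv (Pz G θ A z) (fun ω => gN N ω z) ≤ τ) :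
    ∃ q, q ^ 2 ≤ b ^ 2 * τ ∧ (∀ y z, G.Adj y z →
      qv (Pz G θ A z) (fun ω => X G θ (gN N ω) z y) ≤ q) ∧
      ∀ z, qv (Pz G θ A z) (fun ω => X G θ (gN N ω) z z) ≤ τ + 2 * q := by
  let f : G.Dart → ℝ := fun e => qv (Pz G θ A e.snd) fun ω => X G θ (gN N ω) e.snd e.fst
  have f1 : ∀ e, f e ≤ 1 := fun e => qv_le (measurable_X (measurable_gN N) _ _)
  have hf : ∀ y z (h : G.Adj y z), qv (Pz G θ A z) (fun ω => X G θ (gN N ω) z y) ≤ ⨆ e, f e :=
    fun y z h => le_ciSup (f := f) ⟨1, by rintro _ ⟨e, rfl⟩; exact f1 e⟩ ⟨(y, z), h⟩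
  obtain ⟨o⟩ := hG.connected.nonempty
  obtain ⟨c, hc⟩ := (G.degree_pos_iff_exists_adj o).1 (by rw [hreg]; omega)
  haveI : Nonempty G.Dart := ⟨⟨(o, c), hc⟩⟩
  have q0 : 0 ≤ ⨆ e, f e := qv_nonneg.trans (hf o c hc)
  have q1 : ⨆ e, f e ≤ 1 := ciSup_le f1
  have t := sq_le_half hb hθ
  have key : ∀ z y, (1 - θ ^ 2 * ⨆ e, f e) ^ ((G.neighborFinset z).erase y).card - τ ≤
      1 - qv (Pz G θ A z) (fun ω => X G θ (gN N ω) z y) := fun z y => by
    refine le_trans ?_ (qv_rec hG h0 h1 hreg hA z y).1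
    have a1 := prod_le_prod (s := (G.neighborFinset z).erase y) (f := fun _ => 1 - θ ^ 2 * ⨆ e, f e)
      (g := fun c => 1 - θ ^ 2 * qv (Pz G θ A c) fun ω => X G θ (gN N ω) c z)
      (fun _ _ => by nlinarith [sq_nonneg θ]) fun c hc => by
        have := hf z c (by simpa using (mem_erase.1 hc).2)
        nlinarith [sq_nonneg θ]
    rw [prod_const] at a1
    have a2 := pow_le_one₀ (n := ((G.neighborFinset z).erase y).card)
      (show 0 ≤ 1 - θ ^ 2 * ⨆ e, f e by nlinarith [sq_nonneg θ]) (by nlinarith [sq_nonneg θ])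
    have a3 := qv_le (R := Pz G θ A z) (measurable_gN (V := V) N z)
    have a4 := qv_nonneg (R := Pz G θ A z) (h := fun ω => gN N ω z)
    nlinarith [hτ z, mul_le_mul_of_nonneg_left a1 (sub_nonneg.2 a3)]
  generalize hq : ⨆ e, f e = q at *
  have x0 : 0 ≤ θ ^ 2 * q := by positivity
  have x1 : θ ^ 2 * q ≤ 1 / 2 := by nlinarith
  refine ⟨q, ?_, hf, fun z => ?_⟩
  · have a1 : q ≤ 1 + τ - (1 - θ ^ 2 * q) ^ b := hq ▸ ciSup_le fun e => by
      have := key e.snd e.fst
      rw [card_erase_nbr hreg e.adj] at this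
      simp only [f, hq]
      linarith
    obtain ⟨k, rfl⟩ : ∃ k, b = k + 2 := ⟨b - 2, by omega⟩
    have a2 := one_add_mul_le_pow (a := -(θ ^ 2 * q)) (by linarith) k
    rw [pow_add, ← sub_eq_add_neg] at *
    push_cast at hθ ⊢
    have a3 : (θ ^ 2 * q) ^ 2 ≤ τ := by
      have a4 : q = (k + 2) * (θ ^ 2 * q) := by rw [← mul_assoc, hθ, one_mul]
      generalize θ ^ 2 * q = x at *
      have : (0 : ℝ) ≤ k := k.cast_nonneg
      nlinarith [mul_le_mul_of_nonneg_right a2 (sq_nonneg (1 - x)),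
        mul_nonneg (mul_nonneg this (sq_nonneg x)) (show 0 ≤ 2 - x by linarith)]
    calc q ^ 2 = ((k : ℝ) + 2) ^ 2 * (θ ^ 2 * q) ^ 2 := by rw [← mul_pow, ← mul_assoc, hθ, one_mul]
      _ ≤ _ := by gcongr
  · have a1 := key z z
    rw [erase_eq_of_notMem (by simp), SimpleGraph.card_neighborFinset_eq_degree, hreg] at a1
    have a2 := one_add_mul_le_pow (a := -(θ ^ 2 * q)) (by linarith) (b + 1)
    rw [← sub_eq_add_neg] at a2
    push_cast at a2
    nlinarith

lemma q_lower {τ : ℝ} (hτ' : τ ≤ 1 / 2) (hτ : ∀ z, τ ≤ qv (Pz G θ A z) (fun ω => gN N ω z))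
    {y z : V} (h : G.Adj y z) :
    τ / 2 ≤ qv (Pz G θ A z) (fun ω => X G θ (gN N ω) z y) ^ 2 := by
  let f : G.Dart → ℝ := fun e => qv (Pz G θ A e.snd) fun ω => X G θ (gN N ω) e.snd e.fst
  have hf : ∀ y z (h : G.Adj y z), ⨅ e, f e ≤ qv (Pz G θ A z) (fun ω => X G θ (gN N ω) z y) :=
    fun y z h => ciInf_le (f := f) ⟨0, by rintro _ ⟨e, rfl⟩; exact qv_nonneg⟩ ⟨(y, z), h⟩
  haveI : Nonempty G.Dart := ⟨⟨(y, z), h⟩⟩
  have q0 : 0 ≤ ⨅ e, f e := le_ciInf fun _ => qv_nonneg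
  have q1 : ⨅ e, f e ≤ 1 := (hf y z h).trans (qv_le (measurable_X (measurable_gN N) _ _))
  have t := sq_le_half hb hθ
  refine le_trans ?_ (pow_le_pow_left₀ q0 (hf y z h) 2)
  generalize hq : ⨅ e, f e = q at *
  have x1 : θ ^ 2 * q ≤ 1 / 2 := by nlinarith
  have a1 : (1 - (1 - 2 * τ) * (1 - 2 * (θ ^ 2 * q)) ^ b) / 2 ≤ q := hq ▸ le_ciInf fun e => by
    have := (qv_rec hG h0 h1 hreg hA e.snd e.fst).2.2 τ (θ ^ 2 * q) hτ' x1 (hτ _) fun c hc =>
      mul_le_mul_of_nonneg_left (hf _ _ hc) (sq_nonneg _)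
    rw [card_erase_nbr hreg e.adj] at this
    simp only [f, hq]
    linarith
  have a2 : (1 - 2 * (θ ^ 2 * q)) ^ b ≤ 1 - 2 * q + (2 * q) ^ 2 / 2 := by
    refine ((pow_le_pow_left₀ (by linarith) (one_sub_le_exp_neg _) b).trans_eq ?_).trans
      (exp_neg_le (by linarith))
    rw [← exp_nat_mul]
    congr 1
    linear_combination (-2 * q) * hθ
  have a3 := mul_le_mul_of_nonneg_left a2 (show 0 ≤ 1 - 2 * τ by linarith)
  by_contra hc
  have a4 : 0 < τ := by nlinarith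
  nlinarith [mul_nonneg a4.le (sq_nonneg (2 * q - 1))]

omit hA in
lemma moments (m : ℕ) : ∃ C : ℝ, 1 ≤ C ∧ ∀ {A : Sel V} {N : ℕ} {s r : ℝ},
    (∀ i, N ≤ i.2 → A.s i = ∅) → (∀ i T, T ∈ A.s i → i.2 = 0 ∧ (T : ℝ) < s) → 0 ≤ s → s ≤ 1 →
    0 ≤ r → s ^ 3 ≤ r ^ 2 → ∀ y z, G.Adj y z →
      ∫ ω, tanh (X G θ (gN N ω) z y) ^ (2 * 2 ^ m) ∂Q G θ A ≤ C * r ^ 2 ^ m := by
  have ev : ∀ (A : Sel V) (N : ℕ) z y v k, ∫ ω, tanh (X G θ (gN N ω) z y) ^ (2 * k) ∂Q G θ A =
      ∫ ω, tanh (X G θ (gN N ω) z y) ^ (2 * k) ∂Pz G θ A v := fun A N z y v k =>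
    integral_even hG h0 h1 A v ((BM.tanh (measurable_X (measurable_gN N) _ _)).pow _) fun ω => by
      rw [gN_neg, X_neg h0 h1, tanh_neg, (even_two_mul k).neg_pow]
  have b2 : (2 : ℝ) ≤ b := by exact_mod_cast hb
  induction m with
  | zero =>
    refine ⟨b, by linarith, fun {A N s r} hA hA' hs hs' hr hr' y z h => ?_⟩
    obtain ⟨q, q1, q2, -⟩ := q_upper hG h0 h1 hreg hA hb hθ (gN_upper hs hA' N)
    rw [ev A N z y z]
    refine (q2 y z h).trans (le_trans (le_abs_self _) (abs_le_of_sq_le_sq ?_ (by positivity)))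
    rw [pow_zero, pow_one, mul_pow]
    exact q1.trans (by gcongr)
  | succ m ih =>
    obtain ⟨C, hC, ih⟩ := ih
    set k := 2 ^ m with hk
    have k0 : 0 < k := by positivity
    refine ⟨4 * ((21 / 20) ^ (4 * k) * (21 * b) ^ (4 * k) * (b ^ 2 * C ^ 2) + 21 ^ (4 * k)),
      ?_, fun {A N s r} hA hA' hs hs' hr hr' => ?_⟩
    · have : (1 : ℝ) ≤ 21 ^ (4 * k) := one_le_pow₀ (by norm_num)
      have : (0 : ℝ) ≤ (21 / 20) ^ (4 * k) * (21 * b) ^ (4 * k) * (b ^ 2 * C ^ 2) := by positivity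
      linarith
    have bx : ∀ z y, BM fun ω : Ob V => tanh (X G θ (gN N ω) z y) := fun z y =>
      BM.tanh (measurable_X (measurable_gN N) _ _)
    let f : G.Dart → ℝ := fun e => ∫ ω, tanh (X G θ (gN N ω) e.snd e.fst) ^ (2 * (2 * k)) ∂Q G θ A
    have hf : ∀ y z (h : G.Adj y z),
        ∫ ω, tanh (X G θ (gN N ω) z y) ^ (2 * (2 * k)) ∂Q G θ A ≤ ⨆ e, f e :=
      fun y z h => le_ciSup (f := f) ⟨1, by
        rintro _ ⟨e, rfl⟩
        exact integral_le_const ((bx _ _).pow _) fun ω => by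
          rw [pow_mul]; exact pow_le_one₀ (sq_nonneg _) (tanh_sq_lt _).le⟩ ⟨(y, z), h⟩
    intro y z h
    haveI : Nonempty G.Dart := ⟨⟨(y, z), h⟩⟩
    have q0 : 0 ≤ ⨆ e, f e :=
      (integral_nonneg fun ω => (even_two_mul _).pow_nonneg _).trans (hf y z h)
    rw [pow_succ' 2 m]
    refine (hf y z h).trans ?_
    have t := sq_le_half hb hθ
    have c1 : ((21 / 20 : ℝ) ^ (4 * k)) ^ 2 * (b * θ ^ (4 * k)) ≤ 3 / 4 := by
      obtain ⟨j, hj⟩ : ∃ j, k = j + 1 := ⟨k - 1, by omega⟩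
      have : ((21 / 20 : ℝ) ^ (4 * k)) ^ 2 * (b * θ ^ (4 * k)) =
          ((21 / 20) ^ 8 * (θ ^ 2) ^ 2) ^ j * ((21 / 20) ^ 8 * θ ^ 2 * (b * θ ^ 2)) := by
        rw [hj]; generalize (21 / 20 : ℝ) = x; ring
      rw [this, hθ]
      refine (mul_le_of_le_one_left (by positivity) (pow_le_one₀ (by positivity) ?_)).trans ?_ <;>
        nlinarith [sq_nonneg θ]
    suffices ⨆ e, f e ≤ 3 / 4 * (⨆ e, f e) + ((21 / 20) ^ (4 * k) * (21 * b) ^ (4 * k) *
      (b ^ 2 * C ^ 2) + 21 ^ (4 * k)) * r ^ (2 * k) by linarith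
    refine ciSup_le fun e => ?_
    set J := (G.neighborFinset e.snd).erase e.fst with hJ
    have hJ1 : ∀ c ∈ J, G.Adj e.snd c := fun c hc => by simpa using (mem_erase.1 hc).2
    have hJ2 : J.card = b := card_erase_nbr hreg e.adj
    have b1 := BM.sum J fun c _ => ((bx c e.snd).pow (2 * (2 * k))).cmul (θ ^ (4 * k))
    have b2 := BM.sum J.offDiag fun p _ => ((bx p.1 e.snd).pow (2 * k)).mul
      ((bx p.2 e.snd).pow (2 * k))
    refine (integral_le_of_ae ((bx _ _).pow _) ((((b1.cmul ((21 / 20) ^ (4 * k))).add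
      (b2.cmul ((21 * b) ^ (4 * k)))).cmul ((21 / 20) ^ (4 * k))).add
      (BM.const (21 ^ (4 * k) * r ^ (2 * k)))) ?_).trans ?_
    · have : ∀ᵐ ω ∂Q G θ A, |tanh (gN N ω e.snd)| ≤ s := by
        rw [← (mp_cut_Q (G := G) (θ := θ) (A := A) fun _ => subset_rfl).map_eq]
        refine (ae_map_iff (measurable_cut A).aemeasurable (measurableSet_le
          (BM.tanh (measurable_gN N _)).meas.abs measurable_const)).2 (ae_of_all _ fun ω => ?_)
        refine (tanh_gN_le hs hA' N ω _).trans (mul_le_of_le_one_right hs ?_)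
        split_ifs <;> simp
      filter_upwards [this, good_ae hG h0 h1 hreg hA] with ω e1 e2
      have e3 : ∀ J' : Finset V, |tanh (∑ c ∈ J', Ps θ (X G θ (gN N ω) c e.snd))| ≤
          ∑ c ∈ J', θ * |tanh (X G θ (gN N ω) c e.snd)| := fun J' => by
        induction J' using Finset.induction_on with
        | empty => simp
        | insert c J' hc ih =>
          rw [sum_insert hc, sum_insert hc]
          refine (abs_tanh_add_le _ _).trans (add_le_add ?_ ih)
          rw [tanh_Ps h0 h1, abs_mul, abs_of_nonneg h0]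
      have e4 : |tanh (X G θ (gN N ω) e.snd e.fst)| ≤
          ∑ c ∈ J, θ * |tanh (X G θ (gN N ω) c e.snd)| + s := by
        rw [e2.eq h0 h1, add_comm]
        exact (abs_tanh_add_le _ _).trans (add_le_add (e3 _) e1)
      rw [← (even_two_mul _).pow_abs, ← mul_assoc, show 2 * 2 = 4 from rfl]
      refine (pow_le_pow_left₀ (abs_nonneg _) e4 _).trans ((add_pow_le' (by positivity) hs _).trans
        (add_le_add (mul_le_mul_of_nonneg_left ?_ (by positivity))
          (mul_le_mul_of_nonneg_left ?_ (by positivity))))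
      · have := sum_pow_le J (a := fun c => θ * |tanh (X G θ (gN N ω) c e.snd)|)
          (fun c => by positivity) (k := 2 * k) (by omega)
        rw [← mul_assoc, show 2 * 2 = 4 from rfl, hJ2] at this
        refine this.trans (add_le_add (le_of_eq ?_) (mul_le_mul_of_nonneg_left
          (sum_le_sum fun p _ => ?_) (by positivity)))
        · simp only [mul_pow, show 4 * k = 2 * (2 * k) by ring, (even_two_mul _).pow_abs]
        · simp only [mul_pow, (even_two_mul _).pow_abs]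
          have := pow_le_one₀ (n := 2 * k) h0 h1.le
          exact mul_le_mul (mul_le_of_le_one_left ((even_two_mul _).pow_nonneg _) this)
            (mul_le_of_le_one_left ((even_two_mul _).pow_nonneg _) this)
            (mul_nonneg (by positivity) ((even_two_mul _).pow_nonneg _))
            ((even_two_mul _).pow_nonneg _)
      · rw [pow_mul, pow_mul]
        exact pow_le_pow_left₀ (by positivity)
          ((pow_le_pow_of_le_one hs hs' (by norm_num)).trans hr') k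
    · have i1 : ∫ ω, ∑ c ∈ J, θ ^ (4 * k) * tanh (X G θ (gN N ω) c e.snd) ^ (2 * (2 * k))
          ∂Q G θ A ≤ b * θ ^ (4 * k) * ⨆ e, f e := by
        rw [integral_sum' _ fun c _ => ((bx c e.snd).pow _).cmul _, mul_assoc, ← hJ2,
          ← nsmul_eq_mul]
        refine sum_le_card_nsmul _ _ _ fun c hc => ?_
        rw [integral_const_mul]
        exact mul_le_mul_of_nonneg_left (hf _ _ (hJ1 c hc)) (by positivity)
      have i2 : ∫ ω, ∑ p ∈ J.offDiag, tanh (X G θ (gN N ω) p.1 e.snd) ^ (2 * k) *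
          tanh (X G θ (gN N ω) p.2 e.snd) ^ (2 * k) ∂Q G θ A ≤ b ^ 2 * C ^ 2 * r ^ (2 * k) := by
        rw [integral_sum' _ fun p _ => ((bx p.1 e.snd).pow _).mul ((bx p.2 e.snd).pow _)]
        refine (sum_le_card_nsmul _ _ (C * r ^ k * (C * r ^ k)) fun p hp => ?_).trans ?_
        · obtain ⟨p1, p2, p3⟩ := mem_offDiag.1 hp
          rw [integral_even hG h0 h1 A e.snd (((bx _ _).pow _).mul ((bx _ _).pow _)) fun ω => by
              simp only [gN_neg, X_neg h0 h1, tanh_neg, (even_two_mul k).neg_pow],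
            (split_side hG A (hJ1 _ p1)).mul ((bx _ _).pow _) ((bx _ _).pow _)
              (fun _ _ h => by simp only [(sv_X hG h0 h1 hreg hA (hJ1 _ p1)).dep h])
              (fun _ _ h => by simp only [(sv_X hG h0 h1 hreg hA (hJ1 _ p2)).dep fun i hi =>
                h i (side_disjoint hG (hJ1 _ p2) (hJ1 _ p1) p3.symm hi)]), ← ev, ← ev]
          exact mul_le_mul (ih hA hA' hs hs' hr hr' _ _ (hJ1 _ p1))
            (ih hA hA' hs hs' hr hr' _ _ (hJ1 _ p2))
            (integral_nonneg fun ω => (even_two_mul _).pow_nonneg _) (by positivity)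
        · rw [nsmul_eq_mul, offDiag_card, hJ2]
          calc _ ≤ ((b * b : ℕ) : ℝ) * (C * r ^ k * (C * r ^ k)) := by gcongr; omega
            _ = _ := by push_cast; ring
      rw [integral_add' (((b1.cmul _).add (b2.cmul _)).cmul _) (BM.const _), integral_const_mul,
        integral_add' (b1.cmul _) (b2.cmul _), integral_const_mul, integral_const_mul]
      simp only [integral_const, probReal_univ, one_smul]
      have j1 := mul_le_mul_of_nonneg_left i1 (show (0 : ℝ) ≤ ((21 / 20) ^ (4 * k)) ^ 2 by positivity)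
      have j2 := mul_le_mul_of_nonneg_left i2
        (show (0 : ℝ) ≤ (21 / 20) ^ (4 * k) * (21 * b) ^ (4 * k) by positivity)
      have j3 := mul_le_mul_of_nonneg_right c1 q0
      linarith

end Vale.Agent.P161
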