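import Vale.Agent.P161.Space

/-!
Noisy observations of the spins: the laws `R` (gauged at a vertex) and `Q`.
-/

open Finset MeasureTheory Filter Topology Real
open scoped BigOperators Classical ENNReal unitInterval

namespace Vale.Agent.P161

variable {V : Type*} {G : SimpleGraph V} {θ : ℝ}

abbrev Ob (V : Type*) := V × ℕ → I × ℝ

noncomputable def aT (T : I) : ℝ := if (T : ℝ) < 1 / 2 then T else 0

lemma aT_nonneg (T : I) : 0 ≤ aT T := by unfold aT; split_ifs <;> simp [T.2.1]

lemma aT_le (T : I) : aT T ≤ T := by unfold aT; split_ifs <;> simp [T.2.1]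

lemma abs_aT_le (T : I) : |aT T| ≤ 1 / 2 := by
  rw [abs_of_nonneg (aT_nonneg T)]; unfold aT; split_ifs with h <;> linarith

@[fun_prop] lemma measurable_aT : Measurable aT :=
  Measurable.ite (measurableSet_lt (by fun_prop) measurable_const) (by fun_prop) measurable_const

structure Sel (V : Type*) where
  s : V × ℕ → Set I
  meas : ∀ i, MeasurableSet (s i)

noncomputable def cut (A : Sel V) (ω : Ob V) : Ob V := fun i =>
  ((ω i).1, if (ω i).1 ∈ A.s i then (ω i).2 else 0)

def neg (ω : Ob V) : Ob V := fun i => ((ω i).1, -(ω i).2)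

def pull (g : G ≃g G) {X : Type*} (ω : V × ℕ → X) : V × ℕ → X := fun i => ω (g i.1, i.2)

noncomputable def obs (p : (V → Bool) × (V × ℕ → I × I)) : Ob V := fun i =>
  ((p.2 i).1, spin (p.1 i.1) * Qf (aT (p.2 i).1) (p.2 i).2)

lemma measurable_cut (A : Sel V) : Measurable (cut A) :=
  measurable_pi_lambda _ fun i => Measurable.prodMk (by fun_prop) (Measurable.ite
    ((measurable_pi_apply i).fst (A.meas i)) (by fun_prop) measurable_const)

lemma measurable_neg' : Measurable (neg (V := V)) := by unfold neg; fun_prop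

lemma measurable_pull (g : G ≃g G) {X : Type*} [MeasurableSpace X] :
    Measurable (pull g (X := X)) := by unfold pull; fun_prop

lemma measurable_spin : Measurable spin := measurable_of_countable _

lemma measurable_obs : Measurable (obs (V := V)) :=
  measurable_pi_lambda _ fun i => Measurable.prodMk (by fun_prop)
    ((measurable_spin.comp (by fun_prop)).mul (measurable_Qf.comp (f := fun p :
      (V → Bool) × (V × ℕ → I × I) => (aT (p.2 i).1, ((p.2 i).2 : ℝ))) (by fun_prop)))

@[simp] lemma neg_neg' (ω : Ob V) : neg (neg ω) = ω := by funext i; simp [neg]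

lemma cut_neg (A : Sel V) (ω : Ob V) : cut A (neg ω) = neg (cut A ω) := by
  funext i; by_cases h : (ω i).1 ∈ A.s i <;> simp [cut, neg, h]

lemma cut_cut {A B : Sel V} (h : ∀ i, A.s i ⊆ B.s i) (ω : Ob V) : cut A (cut B ω) = cut A ω := by
  funext i
  by_cases h1 : (ω i).1 ∈ A.s i
  · simp [cut, h1, h i h1]
  · simp [cut, h1]

noncomputable def ob (G : SimpleGraph V) (θ : ℝ) (A : Sel V) (z : V) (ω : V ⊕ V × ℕ → I × I) :
    Ob V := cut A (obs (sb G θ z fun v => ω (.inl v), fun k => ω (.inr k)))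

lemma measurable_ob (A : Sel V) (z : V) : Measurable (ob G θ A z) :=
  (measurable_cut A).comp (measurable_obs.comp
    (((measurable_sb z).comp (by fun_prop)).prodMk (by fun_prop)))

noncomputable def Pz (G : SimpleGraph V) (θ : ℝ) (A : Sel V) (z : V) : Measure (Ob V) :=
  (Lam _).map (ob G θ A z)

noncomputable def Pn (G : SimpleGraph V) (θ : ℝ) := (mu G θ).prod (Lam (V × ℕ))

noncomputable def Q (G : SimpleGraph V) (θ : ℝ) (A : Sel V) : Measure (Ob V) :=
  (Pn G θ).map fun p => cut A (obs p)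

instance (A : Sel V) (z : V) : IsProbabilityMeasure (Pz G θ A z) :=
  Measure.isProbabilityMeasure_map (measurable_ob A z).aemeasurable

instance : IsProbabilityMeasure (Pn G θ) := by unfold Pn; infer_instance

instance (A : Sel V) : IsProbabilityMeasure (Q G θ A) :=
  Measure.isProbabilityMeasure_map ((measurable_cut A).comp measurable_obs).aemeasurable

lemma mp_ob (A : Sel V) (z : V) : MeasurePreserving (ob G θ A z) (Lam _) (Pz G θ A z) :=
  ⟨measurable_ob A z, rfl⟩

lemma mp_Q (A : Sel V) : MeasurePreserving (fun p => cut A (obs p)) (Pn G θ) (Q G θ A) :=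
  ⟨(measurable_cut A).comp measurable_obs, rfl⟩

lemma mp_cut_R {A B : Sel V} (h : ∀ i, A.s i ⊆ B.s i) (z : V) :
    MeasurePreserving (cut A) (Pz G θ B z) (Pz G θ A z) :=
  ⟨measurable_cut A, by
    rw [Pz, Measure.map_map (measurable_cut A) (measurable_ob B z), Pz]
    congr 1
    funext ω
    exact cut_cut h _⟩

lemma mp_cut_Q {A B : Sel V} (h : ∀ i, A.s i ⊆ B.s i) :
    MeasurePreserving (cut A) (Q G θ B) (Q G θ A) :=
  ⟨measurable_cut A, by
    rw [Q, Measure.map_map (measurable_cut A) (mp_Q (G := G) (θ := θ) B).measurable, Q]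
    congr 1
    funext ω
    exact cut_cut h _⟩

lemma split_R (hG : G.Connected) (A : Sel V) (z : V) {B : Set (V × ℕ)} {C : Set V}
    (h1 : ∀ u ∈ C, u ≠ z → par G z u ∈ C ∨ par G z u = z)
    (h2 : ∀ u ∈ Cᶜ, u ≠ z → par G z u ∈ Cᶜ ∨ par G z u = z)
    (h : ∀ i, i.1 ≠ z → (i ∈ B ↔ i.1 ∈ C)) : Split (Pz G θ A z) B := by
  refine ⟨measurable_pw B, ?_⟩
  have h3 := (mp_ob (G := G) (θ := θ) A z).comp (split_Lam {j | Sum.elim (· ∈ C) (· ∈ B) j})
  rw [← ((mp_ob A z).prod (mp_ob A z)).map_eq, Measure.map_map (measurable_pw B)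
    ((mp_ob (G := G) (θ := θ) A z).prod (mp_ob A z)).measurable, ← h3.map_eq]
  congr 1
  funext p i
  by_cases hi : i ∈ B
  · have := sb_congr (θ := θ) hG h1 (α := fun v => p.1 (.inl v)) (α' := fun v =>
      Set.piecewise {j | Sum.elim (· ∈ C) (· ∈ B) j} p.1 p.2 (.inl v))
      (fun u hu _ => (Set.piecewise_eq_of_mem _ _ _ (i := Sum.inl u) hu).symm) i.1
      (or_iff_not_imp_right.2 fun h4 => (h i h4).1 hi)
    have e : Set.piecewise {j | Sum.elim (· ∈ C) (· ∈ B) j} p.1 p.2 (.inr i) = p.1 (.inr i) :=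
      Set.piecewise_eq_of_mem _ _ _ hi
    simp [hi, ob, cut, obs, this, e]
  · have := sb_congr (θ := θ) hG h2 (α := fun v => p.2 (.inl v)) (α' := fun v =>
      Set.piecewise {j | Sum.elim (· ∈ C) (· ∈ B) j} p.1 p.2 (.inl v))
      (fun u hu _ => (if_neg hu).symm) i.1
      (or_iff_not_imp_right.2 fun h4 => mt (h i h4).2 hi)
    have e : Set.piecewise {j | Sum.elim (· ∈ C) (· ∈ B) j} p.1 p.2 (.inr i) = p.2 (.inr i) :=
      Set.piecewise_eq_of_notMem _ _ _ hi
    simp [hi, ob, cut, obs, this, e]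

lemma split_side (hG : G.IsTree) (A : Sel V) {z c : V} (h : G.Adj z c) :
    Split (Pz G θ A z) {i | i.1 ∈ side G z c} := by
  have key : ∀ u, u ≠ z → par G z u ≠ z → (par G z u ∈ side G z c ↔ u ∈ side G z c) :=
    fun u hu h2 => side_iff (par_spec hG.connected hu).1 fun h3 => by
      rcases Sym2.eq_iff.1 h3 with ⟨h4, -⟩ | ⟨-, h4⟩
      · exact h2 h4
      · exact hu h4
  exact split_R hG.connected A z (C := side G z c)
    (fun u hu hz => or_iff_not_imp_right.2 fun h2 => (key u hz h2).2 hu)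
    (fun u hu hz => or_iff_not_imp_right.2 fun h2 h3 => hu ((key u hz h2).1 h3)) fun _ _ => Iff.rfl

lemma split_own (hG : G.Connected) (A : Sel V) (z : V) (C : Set ℕ) :
    Split (Pz G θ A z) {i | i.1 = z ∧ i.2 ∈ C} :=
  split_R hG A z (C := ∅) (by simp) (by simp) fun i hi => by simp [hi]

lemma resample (A : Sel V) (z : V) (n : ℕ) {F : Ob V → ℝ} (hF : BM F) :
    ∫ ω, F ω ∂Pz G θ A z = ∫ ω, ∫ p, F (Function.update ω (z, n)
      (p.1, if p.1 ∈ A.s (z, n) then Qf (aT p.1) p.2 else 0)) ∂lam ∂Pz G θ A z := by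
  have hm : Measurable fun q : Ob V × I × I => Function.update q.1 (z, n)
      (q.2.1, if q.2.1 ∈ A.s (z, n) then Qf (aT q.2.1) q.2.2 else 0) :=
    measurable_update'.comp (measurable_fst.prodMk (measurable_snd.fst.prodMk (Measurable.ite
      (measurable_snd.fst (A.meas _)) (measurable_Qf.comp (f := fun q : Ob V × I × I =>
        (aT q.2.1, (q.2.2 : ℝ))) (by fun_prop)) measurable_const)))
  rw [← integral_comp_mp (mp_ob A z) hF.meas, ← integral_comp_mp (mp_ob A z)
    ((hF.comp hm).integral_right lam).meas,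
    integral_resample (.inr (z, n)) (hF.comp (measurable_ob A z))]
  congr 1
  funext ω
  congr 1
  funext p
  congr 1
  funext i
  by_cases hi : i = (z, n)
  · simp [hi, ob, cut, obs, sb_root, spin]
  · simp [hi, ob, cut, obs]
    congr

lemma edge_pass (hG : G.IsTree) (h0 : 0 ≤ θ) (h1 : θ < 1) (A : Sel V) {z c : V} (h : G.Adj z c)
    {f : Ob V → ℝ} (hf : BM f) (hd : DependsOn f {i | i.1 ∈ side G z c}) :
    ∫ ω, f ω ∂Pz G θ A z =
      (1 + θ) / 2 * ∫ ω, f ω ∂Pz G θ A c + (1 - θ) / 2 * ∫ ω, f (neg ω) ∂Pz G θ A c := by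
  have hn := hf.comp measurable_neg'
  rw [← integral_comp_mp (mp_ob A z) hf.meas, ← integral_comp_mp (mp_ob A c) hf.meas,
    ← integral_comp_mp (mp_ob A c) hn.meas, ← integral_const_mul, ← integral_const_mul,
    ← integral_add' ((hf.comp (measurable_ob A c)).cmul _) ((hn.comp (measurable_ob A c)).cmul _),
    integral_resample (.inl c) (hf.comp (measurable_ob A z))]
  congr 1
  funext ω
  have e : ∀ p, f (ob G θ A z (Function.update ω (.inl c) p)) = (if eps θ p = true then 1 else 0) *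
      f (ob G θ A c ω) + (if eps θ p = false then 1 else 0) * f (neg (ob G θ A c ω)) := by
    intro p
    have e1 : ∀ v ∈ side G z c, sb G θ z (fun v => Function.update ω (.inl c) p (.inl v)) v =
        (eps θ p == sb G θ c (fun v => ω (.inl v)) v) := fun v hv => by
      rw [sb_edge hG h _ v hv, Function.update_self, sb_congr (B := Set.univ) hG.connected
        (by simp) (α' := fun v => ω (.inl v)) (fun u _ hu => by simp [hu]) v (by simp)]
    cases h2 : eps θ p
    · simp only [Bool.false_eq_true, if_false, if_true, zero_mul, one_mul, zero_add]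
      refine hd fun i hi => ?_
      rw [ob, ob, ← cut_neg]
      simp only [cut, obs, neg, e1 _ hi]
      simp [h2, spin_not]
      congr
    · simp only [Bool.true_eq_false, if_false, if_true, zero_mul, one_mul, add_zero]
      exact hd fun i hi => by simp only [ob, cut, obs, e1 _ hi]; simp [h2]; congr
  have m : ∀ b, MeasurableSet {p | eps θ p = b} := fun b =>
    measurable_eps (measurableSet_singleton b)
  rw [funext e, integral_add' (((BM.const 1).ite (m _) (BM.const 0)).mul (BM.const _))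
    (((BM.const 1).ite (m _) (BM.const 0)).mul (BM.const _)), integral_mul_const,
    integral_mul_const, ← real_eq_integral' (m _), ← real_eq_integral' (m _), lam_eps h0 h1,
    lam_eps h0 h1]
  simp [spin, sub_eq_add_neg]

variable [G.LocallyFinite]

lemma integral_Pn (hG : G.IsTree) (h0 : 0 ≤ θ) (h1 : θ < 1) (z : V)
    {F : (V → Bool) × (V × ℕ → I × I) → ℝ} (hF : BM F) : ∫ p, F p ∂Pn G θ =
      (∫ ω, F (sb G θ z fun v => ω (.inl v), fun k => ω (.inr k)) ∂Lam (V ⊕ V × ℕ) +
      ∫ ω, F (fun v => !sb G θ z (fun v => ω (.inl v)) v, fun k => ω (.inr k))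
        ∂Lam (V ⊕ V × ℕ)) / 2 := by
  haveI := Measure.isProbabilityMeasure_map (μ := nuz G θ z) measurable_not'.aemeasurable
  have m1 : MeasurePreserving (sb G θ z) (Lam V) (nuz G θ z) := ⟨measurable_sb z, rfl⟩
  have m2 : MeasurePreserving (fun (ς : V → Bool) v => !ς v) (nuz G θ z) _ := ⟨measurable_not', rfl⟩
  have a1 := integral_comp_mp ((m1.prod (MeasurePreserving.id (Lam (V × ℕ)))).comp sum_mp) hF.meas
  have a2 := integral_comp_mp (((m2.comp m1).prod (MeasurePreserving.id (Lam (V × ℕ)))).comp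
    sum_mp) hF.meas
  rw [Pn, mu_eq hG h0 h1 z, muz, Measure.add_prod, Measure.prod_smul_left, Measure.prod_smul_left,
    integral_add_measure ((hF.integrable _).smul_measure (by simp))
      ((hF.integrable _).smul_measure (by simp)), integral_smul_measure, integral_smul_measure,
    ← a1, ← a2]
  simp [Prod.map, Function.comp_def]
  ring

lemma obs_not (ς : V → Bool) (ξ : V × ℕ → I × I) : obs (fun v => !ς v, ξ) = neg (obs (ς, ξ)) := by
  funext i; simp [obs, neg, spin_not]

lemma integral_Q (hG : G.IsTree) (h0 : 0 ≤ θ) (h1 : θ < 1) (A : Sel V) (z : V) {f : Ob V → ℝ}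
    (hf : BM f) :
    ∫ ω, f ω ∂Q G θ A = (∫ ω, f ω ∂Pz G θ A z + ∫ ω, f (neg ω) ∂Pz G θ A z) / 2 := by
  rw [← integral_comp_mp (mp_Q A) hf.meas, integral_Pn hG h0 h1 z (hf.comp (mp_Q (G := G) (θ := θ)
    A).measurable), ← integral_comp_mp (mp_ob A z) hf.meas,
    ← integral_comp_mp (mp_ob A z) (hf.comp measurable_neg').meas]
  simp only [obs_not, cut_neg, ob]

lemma integral_spin (hG : G.IsTree) (h0 : 0 ≤ θ) (h1 : θ < 1) (A : Sel V) (z : V) {f : Ob V → ℝ}
    (hf : BM f) : ∫ p, spin (p.1 z) * f (cut A (obs p)) ∂Pn G θ =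
      ∫ ω, f ω ∂Pz G θ A z - ∫ ω, f ω ∂Q G θ A := by
  have b : BM fun p : (V → Bool) × (V × ℕ → I × I) => spin (p.1 z) :=
    ⟨measurable_spin.comp (by fun_prop), 1, fun p => by cases p.1 z <;> simp [spin]⟩
  rw [integral_Q hG h0 h1 A z hf, integral_Pn hG h0 h1 z (b.mul (hf.comp (mp_Q (G := G) (θ := θ)
    A).measurable)), ← integral_comp_mp (mp_ob A z) hf.meas,
    ← integral_comp_mp (mp_ob A z) (hf.comp measurable_neg').meas]
  simp only [obs_not, cut_neg, ob, sb_root, spin, if_true, Bool.not_true, Bool.false_eq_true,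
    if_false, one_mul, neg_mul, integral_neg]
  ring

lemma integral_even (hG : G.IsTree) (h0 : 0 ≤ θ) (h1 : θ < 1) (A : Sel V) (z : V) {f : Ob V → ℝ}
    (hf : BM f) (he : ∀ ω, f (neg ω) = f ω) : ∫ ω, f ω ∂Q G θ A = ∫ ω, f ω ∂Pz G θ A z := by
  simp only [integral_Q hG h0 h1 A z hf, he, add_self_div_two]

omit [G.LocallyFinite] in
lemma mp_of_integral {X Y : Type*} [MeasurableSpace X] [MeasurableSpace Y] {μ : Measure X}
    {ν : Measure Y} [IsFiniteMeasure μ] [IsFiniteMeasure ν] {φ : X → Y} (hφ : Measurable φ)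
    (h : ∀ f, BM f → ∫ x, f (φ x) ∂μ = ∫ y, f y ∂ν) : MeasurePreserving φ μ ν := by
  refine ⟨hφ, Measure.ext fun s hs => ?_⟩
  rw [← measureReal_eq_measureReal_iff, map_measureReal_apply hφ hs]
  exact (real_eq_integral' (p := fun x => φ x ∈ s) (hφ hs)).trans ((h _ ((BM.const 1).ite
    (p := (· ∈ s)) hs (BM.const 0))).trans (real_eq_integral' (p := (· ∈ s)) hs).symm)

lemma mp_neg (hG : G.IsTree) (h0 : 0 ≤ θ) (h1 : θ < 1) (A : Sel V) :
    MeasurePreserving neg (Q G θ A) (Q G θ A) := by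
  obtain ⟨z⟩ := hG.connected.nonempty
  refine mp_of_integral measurable_neg' fun f hf => ?_
  simp only [integral_Q hG h0 h1 A z hf, integral_Q hG h0 h1 A z (hf.comp measurable_neg'),
    neg_neg', add_comm]

lemma mp_pull_Pn (hG : G.IsTree) (h0 : 0 ≤ θ) (h1 : θ < 1) (g : G ≃g G) :
    MeasurePreserving (Prod.map (fun (ς : V → Bool) v => ς (g v)) (pull g)) (Pn G θ) (Pn G θ) :=
  (mu_iso hG h0 h1 g).prod (comp_mp (e := fun i : V × ℕ => (g i.1, i.2))
    (g.injective.prodMap Function.injective_id))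

def top (V : Type*) : Sel V := ⟨fun _ => Set.univ, fun _ => .univ⟩

omit [G.LocallyFinite] in
@[simp] lemma cut_top (ω : Ob V) : cut (top V) ω = ω := by funext i; simp [cut, top]

omit [G.LocallyFinite] in
lemma cut_pull {A : Sel V} (g : G ≃g G) (hA : ∀ i : V × ℕ, A.s (g i.1, i.2) = A.s i) (ω : Ob V) :
    cut A (pull g ω) = pull g (cut A ω) := by
  funext i
  simp only [cut, pull, hA]
  congr

lemma mp_pull (hG : G.IsTree) (h0 : 0 ≤ θ) (h1 : θ < 1) {A : Sel V} (g : G ≃g G)
    (hA : ∀ i : V × ℕ, A.s (g i.1, i.2) = A.s i) :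
    MeasurePreserving (pull g) (Q G θ A) (Q G θ A) := by
  refine ⟨measurable_pull g, ?_⟩
  have h := (mp_Q A).comp (mp_pull_Pn hG h0 h1 g)
  nth_rewrite 2 [← h.map_eq]
  rw [Q, Measure.map_map (measurable_pull g) (mp_Q (G := G) (θ := θ) _).measurable]
  congr 1
  funext p
  exact (cut_pull g hA _).symm

lemma ae_Pz (hG : G.IsTree) (h0 : 0 ≤ θ) (h1 : θ < 1) {A : Sel V} (z : V) {p : Ob V → Prop}
    (h : ∀ᵐ ω ∂Q G θ A, p ω) : ∀ᵐ ω ∂Pz G θ A z, p ω := by
  refine (Measure.AbsolutelyContinuous.mk fun s hs h2 => ?_).ae_le h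
  have h3 := integral_Q hG h0 h1 A z ((BM.const 1).ite (p := (· ∈ s)) hs (BM.const 0))
  rw [← real_eq_integral' (p := (· ∈ s)) hs, ← real_eq_integral' (p := (· ∈ s)) hs,
    ← real_eq_integral' (p := fun ω => neg ω ∈ s) (measurable_neg' hs)] at h3
  rw [← measureReal_eq_zero_iff] at h2 ⊢
  have a1 : 0 ≤ (Pz G θ A z).real {x | neg x ∈ s} := measureReal_nonneg
  have a2 : 0 ≤ (Pz G θ A z).real s := measureReal_nonneg
  simp only [Set.setOf_mem_eq] at h3
  linarith

end Vale.Agent.P161
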