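import Vale.Agent.P161.Innov

/-!
Predicting the coefficients of the jumps from the past innovations.
-/

open Finset MeasureTheory Filter Topology Real
open scoped BigOperators Classical ENNReal unitInterval

namespace Vale.Agent.P161

section CE
variable {X : Type*} {H : MeasurableSpace X} [mX : MeasurableSpace X] {μ : Measure X}
  [IsProbabilityMeasure μ] {f g : X → ℝ}

lemma IsCE.comp' (hH : H ≤ mX) (hf : BM f) (h : IsCE H μ f g) {φ ψ : X → X}
    (hφ : MeasurePreserving φ μ μ) (hi : ∀ x, ψ (φ x) = x) (hφ' : @Measurable X X H H φ)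
    (hψ : @Measurable X X H H ψ) : IsCE H μ (fun x => f (φ x)) fun x => g (φ x) where
  bm := @BM.comp X X H H g h.bm φ hφ'
  eq k hk := by
    have hk' : @BM X H fun x => k (ψ x) := @BM.comp X X H H k hk ψ hψ
    have h1 := h.eq _ hk'
    rw [← integral_comp_mp hφ (hf.mul (hk'.mono hH)).meas,
      ← integral_comp_mp hφ ((h.bm.mono hH).mul (hk'.mono hH)).meas] at h1
    simpa only [hi] using h1

lemma IsCE.symm (hH : H ≤ mX) (hf : BM f) (h : IsCE H μ f g) {φ : X → X}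
    (hφ : MeasurePreserving φ μ μ) (hi : ∀ x, φ (φ x) = x) (hφ' : @Measurable X X H H φ)
    (e : ∀ x, f (φ x) = f x) : IsCE H μ f fun x => 1 / 2 * (g x + g (φ x)) := by
  convert (h.add hH hf (hf.comp hφ.measurable) (h.comp hH hf hφ hi hφ')).cmul (1 / 2) using 2
  rw [e]
  ring

lemma IsCE.tail (hH : H ≤ mX) (hf : BM f) (h : IsCE H μ f g) {W W' : X → ℝ} (hW : IsCE H μ W W')
    (f0 : ∀ x, 0 ≤ f x) (W0 : ∀ x, 0 ≤ W' x) {c : ℝ} (hc : 0 < c) :
    ∫ x, W x * (if g x < c then 1 else 0) ∂μ ≤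
      2 * ∫ x, W' x * (if f x < 2 * c then 1 else 0) ∂μ := by
  have b1 : @BM X H fun x => if g x < c then (1 : ℝ) else 0 := @BM.ite X H _ _ _ _
    ((@BM.meas X H g h.bm) measurableSet_Iio) (@BM.const X H 1) (@BM.const X H 0)
  have b2 := @BM.mul X H _ _ hW.bm b1
  have b3 := (hW.bm.mono hH).mul ((BM.const 1).ite (p := fun x => f x < 2 * c)
    (measurableSet_lt hf.meas measurable_const) (BM.const 0))
  have a1 := integral_le_of_ae (μ := μ) ((h.bm.mono hH).mul (b2.mono hH)) ((b2.mono hH).cmul c)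
    (.of_forall fun x => by split_ifs with h <;> nlinarith [W0 x])
  have a2 := integral_le_of_ae (μ := μ) (((b2.mono hH).sub b3).cmul (2 * c))
    (hf.mul (b2.mono hH)) (.of_forall fun x => by
      split_ifs with h h' h' <;> nlinarith [W0 x, mul_nonneg (f0 x) (W0 x)])
  rw [integral_const_mul, integral_sub' (b2.mono hH) b3, h.eq _ b2] at a2
  rw [integral_const_mul] at a1
  rw [hW.eq _ b1]
  nlinarith

end CE

lemma pt_bound {a a' e e' t Y Y' m m' u c : ℝ} (ha : a ∈ Set.Icc (0 : ℝ) 1)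
    (ha' : a' ∈ Set.Icc (0 : ℝ) 1) (he : e ∈ Set.Icc (0 : ℝ) 1) (he' : e' ∈ Set.Icc (0 : ℝ) 1)
    (h1 : |a - a'| ≤ u / 2 * |m|) (h2 : |e - e'| ≤ u / 2 * |m'|) (ht : 0 ≤ t) (hu : 4 ≤ u)
    (hY : 0 ≤ Y) (hY' : 0 ≤ Y') (hc : 0 ≤ c) :
    (|a * e * t * exp (-Y) - a' * e' * t * exp (-Y')| + 2 * (a * e * t * exp (-Y)) * |m'|) ^ 2 ≤
      3 * t ^ 2 * (u ^ 2 * ((m ^ 2 + m' ^ 2) * (exp (-c) + if Y < 2 * c then 1 else 0)) +
        (Y - Y') ^ 2 * ((exp (-c) + if Y < 2 * c then 1 else 0) + if Y' < c then 1 else 0)) := by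
  have x0 := exp_pos (-Y)
  have c0 := exp_pos (-c)
  have c1 : exp (-c) ≤ 1 := exp_le_one_iff.2 (by linarith)
  have y1 : exp (-Y) ≤ 1 := exp_le_one_iff.2 (by linarith)
  have a1 : exp (-Y) ^ 2 ≤ exp (-c) + if Y < 2 * c then 1 else 0 := by
    split_ifs with h
    · nlinarith
    · nlinarith [exp_le_exp.2 (show -Y ≤ -c by linarith)]
  have a2 : |exp (-Y) - exp (-Y')| ^ 2 ≤ (Y - Y') ^ 2 *
      ((exp (-c) + if Y < 2 * c then 1 else 0) + if Y' < c then 1 else 0) := by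
    have b1 := pow_le_pow_left₀ (abs_nonneg _) (Cay.abs_exp_neg_sub 0 hY hY') 2
    rw [neg_zero, exp_zero, one_mul, sq_abs (Y - Y')] at b1
    split_ifs with h h' h'
    any_goals nlinarith [mul_nonneg (sq_nonneg (Y - Y')) c0.le]
    have b2 := pow_le_pow_left₀ (abs_nonneg _) (Cay.abs_exp_neg_sub c (a := Y) (b := Y')
      (by linarith) (by linarith)) 2
    rw [mul_pow, sq_abs (Y - Y')] at b2
    nlinarith [mul_nonneg (sq_nonneg (Y - Y')) (mul_nonneg c0.le (sub_nonneg.2 c1))]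
  have a3 : |a * e - a' * e'| ≤ u / 2 * |m| + u / 2 * |m'| := by
    rw [show a * e - a' * e' = (a - a') * e + a' * (e - e') by ring]
    refine (abs_add_le _ _).trans (add_le_add ?_ ?_)
    · rw [abs_mul, abs_of_nonneg he.1]
      exact (mul_le_of_le_one_right (abs_nonneg _) he.2).trans h1
    · rw [abs_mul, abs_of_nonneg ha'.1]
      exact (mul_le_of_le_one_left (abs_nonneg _) ha'.2).trans h2
  have a4 : |a * e * t * exp (-Y) - a' * e' * t * exp (-Y')| + 2 * (a * e * t * exp (-Y)) * |m'| ≤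
      t * (u * |m| * exp (-Y) + u * |m'| * exp (-Y) + |exp (-Y) - exp (-Y')|) := by
    rw [show a * e * t * exp (-Y) - a' * e' * t * exp (-Y') =
      t * ((a * e - a' * e') * exp (-Y) + a' * e' * (exp (-Y) - exp (-Y'))) by ring, abs_mul,
      abs_of_nonneg ht, show 2 * (a * e * t * exp (-Y)) * |m'| =
      t * (a * e * (2 * |m'| * exp (-Y))) by ring, ← mul_add]
    refine mul_le_mul_of_nonneg_left ?_ ht
    have b1 := abs_add_le ((a * e - a' * e') * exp (-Y)) (a' * e' * (exp (-Y) - exp (-Y')))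
    rw [abs_mul, abs_mul (a' * e'), abs_of_pos x0, abs_of_nonneg (mul_nonneg ha'.1 he'.1)] at b1
    have b2 := mul_le_of_le_one_left (abs_nonneg (exp (-Y) - exp (-Y')))
      (mul_le_one₀ ha'.2 he'.1 he'.2)
    have b3 := mul_le_of_le_one_left (show 0 ≤ 2 * |m'| * exp (-Y) by positivity)
      (mul_le_one₀ ha.2 he.1 he.2)
    nlinarith [mul_le_mul_of_nonneg_right a3 x0.le, mul_nonneg (abs_nonneg m) x0.le,
      mul_nonneg (abs_nonneg m') x0.le]
  refine (pow_le_pow_left₀ (add_nonneg (abs_nonneg _) (mul_nonneg (mul_nonneg zero_le_two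
    (mul_nonneg (mul_nonneg (mul_nonneg ha.1 he.1) ht) x0.le)) (abs_nonneg _))) a4 2).trans ?_
  rw [mul_pow, mul_comm 3, mul_assoc (t ^ 2)]
  refine mul_le_mul_of_nonneg_left ?_ (sq_nonneg t)
  have a5 := mul_le_mul_of_nonneg_left a1 (show 0 ≤ u ^ 2 * (|m| ^ 2 + |m'| ^ 2) by positivity)
  rw [← sq_abs m, ← sq_abs m']
  nlinarith [sq_nonneg (u * |m| * exp (-Y) - u * |m'| * exp (-Y)),
    sq_nonneg (u * |m| * exp (-Y) - |exp (-Y) - exp (-Y')|),
    sq_nonneg (u * |m'| * exp (-Y) - |exp (-Y) - exp (-Y')|)]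

lemma BM.factor' {X Y : Type*} [mY : MeasurableSpace Y] {φ : X → Y} {k : X → ℝ}
    (h : @BM X (mY.comap φ) k) {B : ℝ} (h0 : 0 ≤ B) (hB : ∀ x, |k x| ≤ B) :
    ∃ k', BM k' ∧ (∀ y, |k' y| ≤ B) ∧ ∀ x, k x = k' (φ x) := by
  obtain ⟨k', h1, h2⟩ := h.factor
  have h3 : ∀ y, |max (-B) (min B (k' y))| ≤ B := fun y =>
    abs_le.2 ⟨le_max_left _ _, max_le (by linarith) (min_le_left _ _)⟩
  exact ⟨fun y => max (-B) (min B (k' y)), ⟨by have := h1.meas; fun_prop, B, h3⟩, h3, fun x => by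
    simp only [← h2, min_eq_right (abs_le.1 (hB x)).2, max_eq_right (abs_le.1 (hB x)).1]⟩

lemma exists_Lam {θ : ℝ} (h0 : 0 ≤ θ) (h1 : θ < 1) : ∃ Λ : ℝ × ℝ → ℝ, Continuous Λ ∧
    ∀ x m p, |x| ≤ 1 → |m| ≤ 1 →
      |x - Λ p| ≤ 8 / (1 - θ) * (|m - p.1| + |Pf θ x + Rf θ x * m - p.2|) := by
  have t : 0 < 8 / (1 - θ) := div_pos (by norm_num) (by linarith)
  let s : Set (ℝ × ℝ) := {p | |p.1| ≤ 1 ∧ ∃ x, |x| ≤ 1 ∧ p.2 = Pf θ x + Rf θ x * p.1}
  have hs : ∀ p ∈ s, ∃ x, |x| ≤ 1 ∧ p.2 = Pf θ x + Rf θ x * p.1 := fun p hp => hp.2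
  choose! f f1 f2 using hs
  have e : 8 / (1 - θ) = 4 / (1 - θ) * 2 := by ring
  obtain ⟨Λ, a1, a2⟩ := LipschitzOnWith.extend_real (K := NNReal.mk _ t.le) (s := s) (f := f)
    (LipschitzOnWith.of_dist_le_mul fun p hp q hq => by
      have := (x_lip (m' := q.1) h0 h1 (f1 p hp) (f1 q hq) hp.1).1
      rw [← f2 p hp, ← f2 q hq] at this
      rw [Prod.dist_eq, Real.dist_eq, Real.dist_eq, Real.dist_eq, NNReal.coe_mk, e, mul_assoc]
      refine this.trans (mul_le_mul_of_nonneg_left ?_ (by linarith))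
      linarith [le_max_left |p.1 - q.1| |p.2 - q.2|, le_max_right |p.1 - q.1| |p.2 - q.2|])
  refine ⟨Λ, a1.continuous, fun x m p hx hm => ?_⟩
  have hp : (m, Pf θ x + Rf θ x * m) ∈ s := ⟨hm, x, hx, rfl⟩
  have a3 := (x_lip (m' := m) h0 h1 hx (f1 _ hp) hm).1
  rw [← f2 _ hp] at a3
  simp only [sub_self, abs_zero, add_zero, mul_zero, abs_nonpos_iff, sub_eq_zero] at a3
  have a4 := a1.dist_le_mul (m, Pf θ x + Rf θ x * m) p
  rw [← a2 hp, ← a3, Prod.dist_eq, Real.dist_eq, Real.dist_eq, Real.dist_eq] at a4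
  exact a4.trans (mul_le_mul_of_nonneg_left (max_le_add_of_nonneg (abs_nonneg _) (abs_nonneg _))
    t.le)

variable {V : Type*} {G : SimpleGraph V} {θ : ℝ}

noncomputable def fgt (s : ℝ) (ξ : V × ℕ → I × I) (j : V × ℕ) : I × I :=
  if rho ξ j < s then ξ j else (1, 0)

lemma measurable_fgt (s : ℝ) : Measurable (fgt (V := V) s) := measurable_pi_lambda _ fun j =>
  Measurable.ite (measurableSet_lt (by fun_prop) measurable_const) (by fun_prop) measurable_const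

lemma rho_fgt {s t : ℝ} (h : s ≤ t) (ξ : V × ℕ → I × I) (j : V × ℕ) :
    rho (fgt t ξ) j < s ↔ rho ξ j < s := by
  by_cases h1 : rho ξ j < t
  · rw [rho, fgt, if_pos h1, rho]
  · refine iff_of_false ?_ fun h2 => h1 (h2.trans_le h)
    rw [rho, fgt, if_neg h1]
    simp only [rho, Set.Icc.coe_one] at h1 ⊢
    linarith [(ξ j).1.2.2]

lemma fgt_fgt {s t : ℝ} (h : s ≤ t) (ξ : V × ℕ → I × I) : fgt s (fgt t ξ) = fgt s ξ := by
  funext j
  rw [fgt, fgt, fgt]
  simp only [rho_fgt h]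
  split_ifs with h1 h2
  · rfl
  · exact absurd (h1.trans_le h) h2
  · rfl

variable [G.LocallyFinite]

noncomputable def inn (G : SimpleGraph V) [G.LocallyFinite] (θ s : ℝ) (ω : Ob V) :
    V × ℕ → I × I := fgt s (Inn G θ ω)

lemma measurable_inn (s : ℝ) : Measurable (inn G θ s) := (measurable_fgt s).comp measurable_Inn

lemma inn_apply (s : ℝ) (ω : Ob V) (j : V × ℕ) :
    inn G θ s ω j = if rho ω j < s then Inn G θ ω j else (1, 0) := rfl

lemma inn_congr {s : ℝ} {ω ω' : Ob V} (h : ∀ j, rho ω j < s ∨ rho ω' j < s → ω j = ω' j) :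
    inn G θ s ω = inn G θ s ω' := by
  have e : ∀ j, rho ω j < s ∨ rho ω' j < s → rho ω j = rho ω' j := fun j hj => by
    rw [rho, h j hj, rho]
  funext j
  by_cases h1 : rho ω j < s
  · have h2 := e j (Or.inl h1)
    rw [inn_apply, inn_apply, if_pos h1, if_pos (h2 ▸ h1 : rho ω' j < s), Inn, Inn, UU, UU, mm, mm,
      h j (Or.inl h1), pc, pc, ← h2, gN_congr _ fun i => ?_]
    rw [tau_cut, tau_cut]
    by_cases h3 : rho ω i < s ∨ rho ω' i < s
    · rw [h i h3]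
    · rw [if_neg fun h4 => h3 (Or.inl (lt_trans h4.1 h1)),
        if_neg fun h4 => h3 (Or.inr (lt_trans h4.1 h1))]
  · rw [inn_apply, inn_apply, if_neg h1, if_neg fun h2 => h1 ((e j (Or.inr h2)).trans_lt h2)]

lemma inn_cut {s : ℝ} {A : Sel V} (h : ∀ i, (tm V s).s i ⊆ A.s i) (ω : Ob V) :
    inn G θ s (cut A ω) = inn G θ s ω := inn_congr fun j hj => by
  rw [cut, if_pos (c := (ω j).1 ∈ _) (h j (mem_tm.2 (hj.elim id id)))]

lemma inn_update {s : ℝ} {ω : Ob V} {j : V × ℕ} (h : s ≤ rho ω j) :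
    inn G θ s (Function.update ω j (1, 0)) = inn G θ s ω := inn_congr fun i hi => by
  by_cases h1 : i = j
  · subst h1
    simp only [rho, Function.update_self, Set.Icc.coe_one] at h hi
    rcases hi with hi | hi <;> linarith [(ω i).1.2.2]
  · rw [Function.update_of_ne h1]

lemma mm_pull (N : ℕ) (g : G ≃g G) (v : V) (ω : Ob V) :
    mm G θ N v (pull g ω) = mm G θ N (g v) ω := by rw [mm, mm, X_iso, gN_pull]

lemma Inn_pull (g : G ≃g G) (ω : Ob V) : Inn G θ (pull g ω) = pull g (Inn G θ ω) := by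
  funext j
  rw [Inn, UU, pc, cut_pull g fun _ => rfl, mm_pull]
  rfl

lemma inn_pull (s : ℝ) (g : G ≃g G) (ω : Ob V) : inn G θ s (pull g ω) = pull g (inn G θ s ω) := by
  rw [inn, Inn_pull]
  rfl

lemma tm_inv (s : ℝ) (g : G ≃g G) (i : V × ℕ) : (tm V s).s (g i.1, i.2) = (tm V s).s i := rfl

lemma comap_meas {X Y : Type*} [mY : MeasurableSpace Y] {φ : X → Y} {f : X → X} {f' : Y → Y}
    (hf : Measurable f') (h : ∀ x, φ (f x) = f' (φ x)) :
    @Measurable X X (mY.comap φ) (mY.comap φ) f := by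
  rw [measurable_comap_iff, show φ ∘ f = f' ∘ φ from funext h]
  exact hf.comp (comap_measurable φ)

lemma meas_neg (h0 : 0 ≤ θ) (h1 : θ < 1) (s : ℝ) :
    @Measurable _ _ (.comap (inn G θ s) inferInstance) (.comap (inn G θ s) inferInstance) neg := by
  refine comap_meas (f' := fun ξ j => if rho ξ j < s then ((ξ j).1, σ (ξ j).2) else ξ j)
    (measurable_pi_lambda _ fun j => Measurable.ite (measurableSet_lt (by fun_prop)
      measurable_const) (by fun_prop) (by fun_prop)) fun ω => funext fun j => ?_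
  have e : rho (inn G θ s ω) j < s ↔ rho ω j < s := rho_fgt le_rfl _ _
  simp only [e, inn_apply]
  by_cases h : rho ω j < s
  · rw [if_pos h, if_pos h, if_pos (c := rho (neg ω) j < s) h, Inn, Inn, UU, UU, pc, pc, cut_neg,
      mm, gN_neg, X_neg h0 h1, tanh_neg, ← Uf_neg, neg, yc_neg, mul_neg]
    rfl
  · rw [if_neg h, if_neg h, if_neg (c := rho (neg ω) j < s) h]

noncomputable def dl (G : SimpleGraph V) [G.LocallyFinite] (θ : ℝ) (N : ℕ) (o : V) (s : ℝ) : ℝ :=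
  sInf {x | ∃ k, BM k ∧ x = ∫ ω, (mm G θ N o ω - k (inn G θ s ω)) ^ 2 ∂Q G θ (tm V s)}

lemma dl_le (N : ℕ) (o : V) (s : ℝ) {k : (V × ℕ → I × I) → ℝ} (hk : BM k) :
    dl G θ N o s ≤ ∫ ω, (mm G θ N o ω - k (inn G θ s ω)) ^ 2 ∂Q G θ (tm V s) :=
  csInf_le ⟨0, by rintro _ ⟨k, -, rfl⟩; exact integral_nonneg fun _ => sq_nonneg _⟩ ⟨k, hk, rfl⟩

lemma dl_nonneg (N : ℕ) (o : V) (s : ℝ) : 0 ≤ dl G θ N o s :=
  Real.sInf_nonneg (by rintro _ ⟨k, -, rfl⟩; exact integral_nonneg fun _ => sq_nonneg _)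

lemma exists_x0 (h0 : 0 ≤ θ) (h1 : θ < 1) {d : ℕ} (hd : ∀ v, G.degree v ≤ d) (N : ℕ) :
    ∃ x0 : ℝ, 0 ≤ x0 ∧ x0 < 1 ∧ ∀ (ω : Ob V) z y, |tanh (X G θ (gN N ω) z y)| ≤ x0 :=
  ⟨_, abs_nonneg _, tanh_abs_lt _, fun ω z y => by
    rw [abs_tanh, abs_tanh]
    exact tanh_mono ((abs_X_le h0 h1 hd (abs_gN_le N ω) z y).trans (le_abs_self _))⟩

namespace Cay

variable {b : ℕ} (S : Cay G (b + 1))

lemma cof_ys (N : ℕ) (w : List (Fin (b + 1))) : ∀ ω : Ob V,
    S.cof (fun i ω => S.ys θ (gN N ω) S.o i) w ω = S.ad (S.ys θ (gN N ω)) S.o w := by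
  induction w with
  | nil => exact fun _ => rfl
  | cons i w ih =>
    intro ω
    simp only [cof, ad, ih]
    rw [← S.gen_o, S.ad_iso (S.gen i) (S.gen_st i) (S.ys_iso _ (S.gen_st i) _), gN_pull]

omit [G.LocallyFinite] in
lemma cof_sub (f g : Fin (b + 1) → Ob V → ℝ) (w : List (Fin (b + 1))) : ∀ ω,
    S.cof (fun i ω => f i ω - g i ω) w ω = S.cof f w ω - S.cof g w ω := by
  induction w with
  | nil => simp [cof]
  | cons i w ih => intro ω; simp only [cof, ih]; ring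

omit [G.LocallyFinite] in
lemma abs_cof_le (f : Fin (b + 1) → Ob V → ℝ) (w : List (Fin (b + 1))) : ∀ ω, |S.cof f w ω| ≤
    ∑ k ∈ range w.length, ∑ i, |f i (pull (S.gw (w.take k)) ω)| := by
  induction w with
  | nil => simp [cof]
  | cons i w ih =>
    intro ω
    rw [List.length_cons, sum_range_succ', add_comm (∑ _ ∈ _, _)]
    exact (abs_add_le _ _).trans (add_le_add (single_le_sum (f := fun i => |f i ω|)
      (fun _ _ => abs_nonneg _) (mem_univ i)) (ih _))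

omit [G.LocallyFinite] in
lemma bm_cof {f : Fin (b + 1) → Ob V → ℝ} (hf : ∀ i, BM (f i)) (w : List (Fin (b + 1))) :
    BM (S.cof f w) := by
  induction w with
  | nil => exact BM.const 0
  | cons i w ih => exact (hf i).add (ih.comp (measurable_pull _))

variable (hG : G.IsTree) (h0 : 0 ≤ θ) (h1 : θ < 1) (hb : 2 ≤ b) (hθ : b * θ ^ 2 = 1)
include hG h0 h1 hb hθ

set_option maxHeartbeats 2000000 in
lemma pred_core (N : ℕ) : ∃ C : ℝ, 1 ≤ C ∧ ∀ s : ℝ, s ≤ N →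
    ∃ (k0 : (V × ℕ → I × I) → ℝ) (kc : List (Fin (b + 1)) → (V × ℕ → I × I) → ℝ) (ζ : ℝ),
    BM k0 ∧ (∀ ξ, |k0 ξ| ≤ 1) ∧ (∀ w, BM (kc w)) ∧
    ∫ ω, (mm G θ N S.o ω - k0 (inn G θ s ω)) ^ 2 ∂Q G θ (tm V s) ≤ dl G θ N S.o s ∧ 0 ≤ ζ ∧
    (∀ η p : ℝ, 0 ≤ η → (∀ y z, G.Adj y z →
      (Q G θ (tm V s)).real {ω | η < |tanh (X G θ (gN N ω) z y)|} ≤ p) →
      ζ ≤ C * (η ^ 2 * dl G θ N S.o s + p)) ∧
    ∀ (n : ℕ) (c β ε : ℝ), 0 ≤ c → 0 ≤ β → 0 ≤ ε → (c = 0 → n = 0) →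
      (∀ W, BM W → (∀ ω, W ω ∈ Set.Icc 0 C) → ∀ k ≤ n,
        ∑ w ∈ RW (b + 1) n none, ∫ ω, W (pull (S.gw (w.take k)) ω) *
        (if S.ad (S.ys θ (gN N ω)) S.o w < 2 * c then 1 else 0) ∂Q G θ (tm V s) ≤
        b ^ n * (β * ∫ ω, W ω ∂Q G θ (tm V s) + ε)) →
      ∑ w ∈ RW (b + 1) n none, ∫ ω, (|S.Cv θ (gN N ω) S.o w - kc w (inn G θ s ω)| +
        2 * S.Cv θ (gN N ω) S.o w * |mm G θ N (S.pt S.o w) ω -
          k0 (pull (S.gw w) (inn G θ s ω))|) ^ 2 ∂Q G θ (tm V s) ≤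
        C * ((exp (-c) + β) * dl G θ N S.o s + (n * exp (-c) + n ^ 2 * β) * ζ +
          (1 + n ^ 2) * ε) := by
  obtain ⟨x0, x1, x2, x3⟩ := exists_x0 h0 h1 S.degree_le N
  obtain ⟨Λ, Λ1, Λ2⟩ := exists_Lam h0 h1
  obtain ⟨v, hv⟩ : ∃ v, v = 1 - x0 ^ 2 := ⟨_, rfl⟩
  have v0 : 0 < v := by nlinarith
  have v1 : v ≤ 1 := by nlinarith
  have v2 : ∀ x : ℝ, |x| ≤ x0 → v ≤ 1 - x ^ 2 := fun x hx => by
    nlinarith [sq_le_sq' (abs_le.1 hx).1 (abs_le.1 hx).2]
  have b2 : (2 : ℝ) ≤ b := by exact_mod_cast hb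
  have t0 : 0 < 1 - θ := by linarith
  obtain ⟨u, hu⟩ : ∃ u, u = 4 / v := ⟨_, rfl⟩
  have u1 : 4 ≤ u := by rw [hu, le_div_iff₀ v0]; linarith
  obtain ⟨K, hK⟩ : ∃ K, K = 8 / (1 - θ) := ⟨_, rfl⟩
  have K1 : 1 ≤ K := by rw [hK, le_div_iff₀ t0]; linarith
  obtain ⟨C, hC⟩ : ∃ C, C = 243 * ((b + 1) * u * K) ^ 2 := ⟨_, rfl⟩
  have C1 : 243 * ((b + 1) * u) ^ 2 ≤ C := by
    rw [hC, mul_pow _ K]
    nlinarith [mul_le_mul_of_nonneg_left (one_le_pow₀ (n := 2) K1) (sq_nonneg ((b + 1) * u))]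
  have C2 : 243 * (b + 1) ^ 2 ≤ C ∧ 243 * u ^ 2 ≤ C := by
    rw [mul_pow] at C1
    constructor <;> nlinarith [mul_le_mul_of_nonneg_left (show 1 ≤ u ^ 2 by nlinarith)
      (sq_nonneg (b + 1 : ℝ)), mul_le_mul_of_nonneg_right (show 1 ≤ (b + 1 : ℝ) ^ 2 by nlinarith)
      (sq_nonneg u)]
  refine ⟨C, by nlinarith, fun s hs => ?_⟩
  have hA := sl_bound (V := V) (s := 0) (A := Set.univ) hs
  have hH : MeasurableSpace.comap (inn G θ s) inferInstance ≤ _ := (measurable_inn s).comap_le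
  have mp := fun g => mp_pull hG h0 h1 g (tm_inv s g)
  have hp := fun g : G ≃g G => comap_meas (measurable_pull g) (inn_pull (θ := θ) s g)
  have pp : ∀ (g : G ≃g G) (ω : Ob V), pull g.symm (pull g ω) = ω := fun g ω => by
    funext j; simp [pull]
  obtain ⟨m', m1, m2⟩ := exists_isCE (μ := Q G θ (tm V s)) hH (bm_mm N S.o).meas
    fun ω => abs_le.1 (x3 ω _ _)
  obtain ⟨k0, k1, k2, k3⟩ := m1.bm.factor' x1 fun ω => abs_le.2 (m2 ω)
  have d1 : ∫ ω, (mm G θ N S.o ω - k0 (inn G θ s ω)) ^ 2 ∂Q G θ (tm V s) ≤ dl G θ N S.o s :=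
    le_csInf ⟨_, _, BM.const 0, rfl⟩ (by
      rintro _ ⟨k, hk, rfl⟩
      simpa only [k3] using m1.le hH (bm_mm N S.o) (BM.comap _ hk))
  have bk := k1.comp (measurable_inn (G := G) (θ := θ) s)
  have bΔ := ((bm_mm (G := G) (θ := θ) N S.o).sub bk).pow 2
  have yr : ∀ ω v i, S.ys θ (gN N ω) v i ∈ Set.Icc 0 u := fun ω v i =>
    ⟨S.ys_nonneg h0 h1 _ _ _, by
      have := fun v => hu ▸ yv_le h0 h1 v0 (v2 _ (x3 ω (S.st i v) v))
      simp only [ys, yf]
      linarith [this v, this (S.st i v)]⟩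
  have by' : ∀ i, BM fun ω => S.ys θ (gN N ω) S.o i := fun i =>
    ⟨S.measurable_ys (measurable_gN N) _ _, u, fun ω =>
      (abs_of_nonneg (yr ω _ _).1).trans_le (yr ω _ _).2⟩
  have ye : ∀ i ω, S.ys θ (gN N (neg ω)) S.o i = S.ys θ (gN N ω) S.o i := fun i ω => by
    rw [gN_neg, S.ys_neg h0 h1]
  have yg : ∀ i ω, S.ys θ (gN N (pull (S.gen i) ω)) S.o i = S.ys θ (gN N ω) S.o i := fun i ω => by
    rw [gN_pull, ← S.ys_iso _ (S.gen_st i), S.gen_o, S.ys_st]
  have gg : ∀ i (ω : Ob V), pull (S.gen i) (pull (S.gen i) ω) = ω := fun i ω => by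
    funext j; simp [pull, S.gen_gen hG]
  have ey : ∀ i, ∃ y', IsCE (.comap (inn G θ s) inferInstance) (Q G θ (tm V s))
      (fun ω => S.ys θ (gN N ω) S.o i) y' ∧ (∀ ω, y' ω ∈ Set.Icc 0 u) ∧
      (∀ ω, y' (neg ω) = y' ω) ∧ ∀ ω, y' (pull (S.gen i) ω) = y' ω := fun i => by
    obtain ⟨g, g1, g2⟩ := exists_isCE (μ := Q G θ (tm V s)) hH (by' i).meas fun ω => yr ω _ _
    refine ⟨_, (g1.symm hH (by' i) (mp_neg hG h0 h1 _) neg_neg' (meas_neg h0 h1 s) (ye i)).symm hH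
      (by' i) (mp _) (gg i) (hp _) (yg i), fun ω => ?_, fun ω => ?_, fun ω => ?_⟩
    · constructor <;> linarith [(g2 ω).1, (g2 ω).2, (g2 (neg ω)).1, (g2 (neg ω)).2,
        (g2 (pull (S.gen i) ω)).1, (g2 (pull (S.gen i) ω)).2, (g2 (neg (pull (S.gen i) ω))).1,
        (g2 (neg (pull (S.gen i) ω))).2]
    · simp only [show pull (S.gen i) (neg ω) = neg (pull (S.gen i) ω) from rfl, neg_neg']
      ring
    · simp only [gg]
      ring
  choose y' y1 y2 y3 y4 using ey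
  have by2 := fun i => (y1 i).bm.mono hH
  have bZ := fun i => (by' i).sub (by2 i)
  have Y1 : ∀ w, IsCE (.comap (inn G θ s) inferInstance) (Q G θ (tm V s))
      (S.cof (fun i ω => S.ys θ (gN N ω) S.o i) w) (S.cof y' w) := fun w => by
    induction w with
    | nil => exact IsCE.self (@BM.const _ (.comap _ _) 0)
    | cons i w ih =>
      exact (y1 i).add hH (by' i) ((S.bm_cof by' w).comp (measurable_pull _))
        (ih.comp hH (S.bm_cof by' w) (mp _) (gg i) (hp _))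
  have Y2 : ∀ w ω, 0 ≤ S.cof y' w ω := fun w => by
    induction w with
    | nil => exact fun _ => le_rfl
    | cons i w ih => exact fun ω => add_nonneg (y2 i ω).1 (ih _)
  choose ky ky1 ky2 using fun w => (Y1 w).bm.factor
  have cs : Continuous fun x : ℝ => √(1 - x ^ 2) := by fun_prop
  have bc : ∀ w, BM fun ξ => √(1 - k0 ξ ^ 2) * √(1 - k0 (pull (S.gw w) ξ) ^ 2) * θ ^ w.length *
      exp (-ky w ξ) := fun w => (((k1.cont cs).mul ((k1.comp (measurable_pull _)).cont cs)).mul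
    (BM.const _)).mul ((ky1 w).neg.cont continuous_exp)
  have Δ0 : ∀ g, ∫ ω, (mm G θ N S.o (pull g ω) - k0 (inn G θ s (pull g ω))) ^ 2 ∂Q G θ (tm V s) ≤
      dl G θ N S.o s := fun g => (integral_comp_mp (mp g) bΔ.meas).trans_le d1
  have δ0 := dl_nonneg (G := G) (θ := θ) N S.o s
  refine ⟨k0, _, ∑ i, ∫ ω, (S.ys θ (gN N ω) S.o i - y' i ω) ^ 2 ∂Q G θ (tm V s), k1,
    fun ξ => (k2 ξ).trans x2.le, bc, d1, sum_nonneg fun _ _ => integral_nonneg fun _ => sq_nonneg _,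
    fun η p hη hp' => ?_, fun n c β ε hc hβ hε hc' hbad => ?_⟩
  · let φ : ℝ × ℝ → ℝ := fun q => yv θ (max (-min η x0) (min (min η x0) (Λ q)))
    have e0 := le_min hη x1
    have cl : ∀ x, |max (-min η x0) (min (min η x0) x)| ≤ min η x0 := fun x =>
      abs_le.2 ⟨le_max_left _ _, max_le (by linarith) (min_le_left _ _)⟩
    have yb : ∀ x, |x| ≤ x0 → yv θ x ∈ Set.Icc 0 u := fun x hx =>
      ⟨yv_nonneg h0 h1 (hx.trans_lt x2), hu ▸ yv_le h0 h1 v0 (v2 _ hx)⟩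
    have bφ : BM φ := ⟨measurable_yv.comp (by fun_prop), u, fun q => by
      have := yb _ ((cl (Λ q)).trans (min_le_right _ _))
      exact (abs_of_nonneg this.1).trans_le this.2⟩
    have e1 : ∀ x m q, |x| ≤ x0 → |m| ≤ 1 → (yv θ x - φ q) ^ 2 ≤ u ^ 2 * (2 * K ^ 2 * η ^ 2 *
        ((m - q.1) ^ 2 + (Pf θ x + Rf θ x * m - q.2) ^ 2) + if η < |x| then 1 else 0) := by
      intro x m q hx hm
      split_ifs with h
      · have a1 := yb x hx
        have a2 := yb _ ((cl (Λ q)).trans (min_le_right _ _))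
        refine (sq_le_sq' (b := u) (by linarith [a1.1, a2.2]) (by linarith [a1.2, a2.1])).trans
          (le_mul_of_one_le_right (sq_nonneg _) (le_add_of_nonneg_left (by positivity)))
      · have a1 := yv_lip h0 h1 v0 (v2 x hx) (v2 _ ((cl (Λ q)).trans (min_le_right _ _)))
          (not_lt.1 h) ((cl _).trans (min_le_left _ _))
        have a2 : |x - max (-min η x0) (min (min η x0) (Λ q))| ≤ |x - Λ q| := by
          have := abs_le.1 (le_min (not_lt.1 h) hx)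
          rw [max_def, min_def (min η x0)]
          split_ifs <;> cases abs_cases (x - Λ q) <;> rw [abs_le] <;> constructor <;> linarith
        have a3 := hK ▸ Λ2 x m q (hx.trans x2.le) hm
        rw [mul_div_right_comm, ← hu] at a1
        have a4 := pow_le_pow_left₀ (abs_nonneg _) (a1.trans (mul_le_mul_of_nonneg_left
          (a2.trans a3) (by positivity))) 2
        rw [sq_abs] at a4
        rw [← sq_abs (m - _), ← sq_abs (_ - q.2)]
        nlinarith [mul_nonneg (sq_nonneg (u * η * K))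
          (sq_nonneg (|m - q.1| - |Pf θ x + Rf θ x * m - q.2|))]
    refine (sum_le_card_nsmul _ _ (u ^ 2 * (4 * K ^ 2 * η ^ 2 * dl G θ N S.o s + p))
      fun i _ => ?_).trans ?_
    · have mk := (k1.comp (measurable_pull (S.gen i))).meas
      have mx : ∀ z y, MeasurableSet {ω : Ob V | η < |tanh (X G θ (gN N ω) z y)|} := fun z y =>
        measurableSet_lt measurable_const (BM.tanh (measurable_X (measurable_gN N) z y)).meas.abs
      have bx := fun z y => (BM.const 1).ite (mx z y) (BM.const 0)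
      have c1 := ((bφ.comp (k1.meas.prodMk mk)).add (bφ.comp (mk.prodMk k1.meas))).div_const 2
      have c2 := ((bΔ.add (bΔ.comp (measurable_pull (S.gen i)))).cmul (2 * K ^ 2 * η ^ 2))
      refine ((y1 i).le hH (by' i) (BM.comap _ c1)).trans ((integral_le_of_ae (((by' i).sub
        (c1.comp (measurable_inn s))).pow 2) ((c2.add (((bx (S.st i S.o) S.o).add
        (bx S.o (S.st i S.o))).div_const 2)).cmul (u ^ 2)) ?_).trans ?_)
      · filter_upwards [good_ae hG h0 h1 S.degree_eq hA] with ω hω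
        have a1 := e1 _ _ (k0 (inn G θ s ω), k0 (pull (S.gen i) (inn G θ s ω)))
          (x3 ω (S.st i S.o) S.o) (abs_mm_le (G := G) (θ := θ) N S.o ω)
        have a2 := e1 _ _ (k0 (pull (S.gen i) (inn G θ s ω)), k0 (inn G θ s ω))
          (x3 ω S.o (S.st i S.o)) (abs_mm_le (G := G) (θ := θ) N (S.st i S.o) ω)
        simp only [mm, ← (hω.edge h0 h1 (S.adj_st i S.o)).1,
          ← (hω.edge h0 h1 (S.adj_st i S.o).symm).1] at a1 a2
        simp only [mm_pull, inn_pull, S.gen_o, ys, yf, S.inv]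
        simp only [mm]
        nlinarith [sq_nonneg (yv θ (tanh (X G θ (gN N ω) (S.st i S.o) S.o)) -
          φ (k0 (inn G θ s ω), k0 (pull (S.gen i) (inn G θ s ω))) -
          (yv θ (tanh (X G θ (gN N ω) S.o (S.st i S.o))) -
          φ (k0 (pull (S.gen i) (inn G θ s ω)), k0 (inn G θ s ω))))]
      · rw [integral_const_mul, integral_add' c2 (((bx _ _).add (bx _ _)).div_const 2),
          integral_const_mul, integral_add' bΔ (bΔ.comp (measurable_pull _)), integral_div,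
          integral_add' (bx _ _) (bx _ _), ← real_eq_integral' (mx _ _),
          ← real_eq_integral' (mx _ _)]
        refine mul_le_mul_of_nonneg_left ?_ (sq_nonneg _)
        nlinarith [hp' _ _ (S.adj_st i S.o), hp' _ _ (S.adj_st i S.o).symm,
          mul_le_mul_of_nonneg_left (add_le_add d1 (Δ0 (S.gen i)))
            (show 0 ≤ 2 * K ^ 2 * η ^ 2 by positivity)]
    · have p0 : 0 ≤ p := measureReal_nonneg.trans (hp' _ _ (S.adj_st 0 S.o))
      rw [card_univ, Fintype.card_fin, nsmul_eq_mul, ← mul_assoc]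
      push_cast
      have a1 : (b + 1) * u ^ 2 * (4 * K ^ 2) ≤ C := by
        rw [hC]; nlinarith [mul_nonneg (sq_nonneg (u * K)) (show 0 ≤ (b + 1 : ℝ) by positivity),
          mul_nonneg (sq_nonneg (u * K)) (show 0 ≤ (b + 1 : ℝ) * b by positivity)]
      have a2 : (b + 1) * u ^ 2 ≤ C := by
        nlinarith [mul_nonneg (sq_nonneg u) (show 0 ≤ (b + 1 : ℝ) * b by positivity)]
      nlinarith [mul_le_mul_of_nonneg_right a1 (mul_nonneg (sq_nonneg η) δ0),
        mul_le_mul_of_nonneg_right a2 p0]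
  · obtain ⟨ζ, hζ⟩ : ∃ ζ, ζ = ∑ i, ∫ ω, (S.ys θ (gN N ω) S.o i - y' i ω) ^ 2 ∂Q G θ (tm V s) :=
      ⟨_, rfl⟩
    have ζ0 : 0 ≤ ζ := hζ ▸ sum_nonneg fun _ _ => integral_nonneg fun _ => sq_nonneg _
    rw [← hζ]
    have bW := (BM.sum univ fun i _ => (bZ i).cont continuous_abs).pow 2
    have W1 : ∀ ω, (∑ i, |S.ys θ (gN N ω) S.o i - y' i ω|) ^ 2 ∈ Set.Icc 0 C := fun ω => by
      have := sum_le_card_nsmul univ (fun i => |S.ys θ (gN N ω) S.o i - y' i ω|) u fun i _ =>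
        abs_le.2 ⟨by linarith [(yr ω S.o i).1, (y2 i ω).2], by
          linarith [(yr ω S.o i).2, (y2 i ω).1]⟩
      rw [card_univ, Fintype.card_fin, nsmul_eq_mul] at this
      push_cast at this
      refine ⟨sq_nonneg _, (pow_le_pow_left₀ (sum_nonneg fun _ _ => abs_nonneg _) this 2).trans ?_⟩
      nlinarith [sq_nonneg ((b + 1) * u)]
    have W2 : ∫ ω, (∑ i, |S.ys θ (gN N ω) S.o i - y' i ω|) ^ 2 ∂Q G θ (tm V s) ≤ (b + 1) * ζ := by
      rw [hζ, ← integral_sum' _ fun i _ => (bZ i).pow 2, ← integral_const_mul]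
      refine integral_le_of_ae bW ((BM.sum _ fun i _ => (bZ i).pow 2).cmul _)
        (.of_forall fun ω => sq_sum_le_card_mul_sum_sq.trans_eq ?_)
      simp
    obtain ⟨W', W3, W4⟩ := exists_isCE (μ := Q G θ (tm V s)) hH bW.meas W1
    have D1 : ∀ ω, (mm G θ N S.o ω - k0 (inn G θ s ω)) ^ 2 ∈ Set.Icc 0 C := fun ω =>
      ⟨sq_nonneg _, by
        nlinarith [abs_le.1 (abs_mm_le (G := G) (θ := θ) N S.o ω), abs_le.1 (k2 (inn G θ s ω))]⟩
    have bY := fun w => funext (S.cof_ys (θ := θ) N w) ▸ S.bm_cof by' w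
    have bJ := fun w => (BM.const 1).ite (p := fun ω => S.ad (S.ys θ (gN N ω)) S.o w < 2 * c)
      (measurableSet_lt (bY w).meas measurable_const) (BM.const 0)
    have bJ' := fun w => (BM.const 1).ite (p := fun ω => S.cof y' w ω < c)
      (measurableSet_lt (S.bm_cof by2 w).meas measurable_const) (BM.const 0)
    have bp := fun (g : G ≃g G) {W : Ob V → ℝ} (hW : BM W) => hW.comp (measurable_pull g)
    obtain ⟨W, hW⟩ : ∃ W : Ob V → ℝ, ∀ ω, (∑ i, |S.ys θ (gN N ω) S.o i - y' i ω|) ^ 2 = W ω :=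
      ⟨_, fun _ => rfl⟩
    obtain ⟨D, hD⟩ : ∃ D : Ob V → ℝ, ∀ ω, (mm G θ N S.o ω - k0 (inn G θ s ω)) ^ 2 = D ω :=
      ⟨_, fun _ => rfl⟩
    obtain ⟨J, hJ⟩ : ∃ J : List (Fin (b + 1)) → Ob V → ℝ, ∀ w ω,
      (if S.ad (S.ys θ (gN N ω)) S.o w < 2 * c then (1 : ℝ) else 0) = J w ω := ⟨_, fun _ _ => rfl⟩
    obtain ⟨J', hJ'⟩ : ∃ J : List (Fin (b + 1)) → Ob V → ℝ, ∀ w ω,
      (if S.cof y' w ω < c then (1 : ℝ) else 0) = J w ω := ⟨_, fun _ _ => rfl⟩
    obtain ⟨Z, hZ⟩ : ∃ Z : List (Fin (b + 1)) → Ob V → ℝ, ∀ w ω,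
      S.cof (fun i ω => S.ys θ (gN N ω) S.o i - y' i ω) w ω = Z w ω := ⟨_, fun _ _ => rfl⟩
    have bZ' : ∀ w, BM fun ω => Z w ω ^ 2 := fun w => by
      simpa only [hZ] using (S.bm_cof bZ w).pow 2
    have bsv := S.bsv_Q hG h0 h1 hb (tm_inv s) bZ (fun i ω => by rw [ye, y3])
      (fun i => by rw [integral_sub' (by' i) (by2 i), (y1 i).integral, sub_self])
      (fun i ω => by rw [yg, y4]) (ζ := ζ) (fun i => hζ ▸ single_le_sum
        (f := fun i => ∫ ω, (S.ys θ (gN N ω) S.o i - y' i ω) ^ 2 ∂Q G θ (tm V s))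
        (fun _ _ => integral_nonneg fun _ => sq_nonneg _) (mem_univ i)) n
    have J0 : ∀ w ω, 0 ≤ J w ω + J' w ω := fun w ω => by
      rw [← hJ, ← hJ']; split_ifs <;> norm_num
    simp only [hW, hD, hJ, hJ', hZ] at bW W1 W2 W3 D1 bJ bJ' bΔ d1 Δ0 hbad bsv
    have key : ∀ w ∈ RW (b + 1) n none, ∫ ω, (|S.Cv θ (gN N ω) S.o w -
        √(1 - k0 (inn G θ s ω) ^ 2) * √(1 - k0 (pull (S.gw w) (inn G θ s ω)) ^ 2) * θ ^ w.length *
        exp (-ky w (inn G θ s ω))| + 2 * S.Cv θ (gN N ω) S.o w * |mm G θ N (S.pt S.o w) ω -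
          k0 (pull (S.gw w) (inn G θ s ω))|) ^ 2 ∂Q G θ (tm V s) ≤ 3 * (θ ^ 2) ^ n * (u ^ 2 *
        (exp (-c) * (2 * dl G θ N S.o s) +
        (∫ ω, D (pull (S.gw (w.take 0)) ω) * J w ω ∂Q G θ (tm V s) +
        ∫ ω, D (pull (S.gw (w.take n)) ω) * J w ω ∂Q G θ (tm V s))) +
        (exp (-c) * ∫ ω, Z w ω ^ 2 ∂Q G θ (tm V s) + n * ∑ k ∈ range n,
        (∫ ω, W (pull (S.gw (w.take k)) ω) * J w ω ∂Q G θ (tm V s) +
        2 * ∫ ω, W' (pull (S.gw (w.take k)) ω) * J w ω ∂Q G θ (tm V s)))) := by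
      intro w hw
      have hl := (mem_RW.1 hw).1
      have c1 := (bΔ.add (bp (S.gw w) bΔ)).cmul (exp (-c))
      have c2 := fun k => (bp (S.gw (w.take k)) bΔ).mul (bJ w)
      have c3 := (c1.add ((c2 0).add (c2 n))).cmul (u ^ 2)
      have c4 := fun k => (bp (S.gw (w.take k)) bW).mul (bJ w)
      have c5 := fun k => (bp (S.gw (w.take k)) bW).mul (bJ' w)
      have c6 := (BM.sum (range n) fun k _ => (c4 k).add (c5 k)).cmul n
      have c7 := (bZ' w).cmul (exp (-c))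
      refine (integral_mono_of_nonneg (.of_forall fun _ => sq_nonneg _)
        (((c3.add (c7.add c6)).cmul (3 * (θ ^ 2) ^ n)).integrable _)
        (.of_forall fun ω => ?_)).trans ?_
      · have sq : ∀ x : ℝ, √(1 - x ^ 2) ∈ Set.Icc (0 : ℝ) 1 := fun x =>
          ⟨sqrt_nonneg _, sqrt_le_one.2 (by nlinarith)⟩
        have nl := fun z m (hm : |m| ≤ x0) =>
          S.nu_lip v0 z (v2 _ (x3 ω z z)) (hm.trans x2.le)
        rw [show 2 / v = u / 2 by rw [hu]; ring] at nl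
        have a1 := pt_bound (sq _) (sq _) (sq _) (sq _) (nl S.o _ (k2 (inn G θ s ω)))
          (nl (S.pt S.o w) _ (k2 (pull (S.gw w) (inn G θ s ω)))) (pow_nonneg h0 w.length) u1
          (S.ad_nonneg (S.ys_nonneg h0 h1 (gN N ω)) w S.o) (Y2 w ω) hc
        have a2 := pow_le_pow_left₀ (abs_nonneg _)
          (S.abs_cof_le (fun i ω => S.ys θ (gN N ω) S.o i - y' i ω) w ω) 2
        replace a2 := a2.trans sq_sum_le_card_mul_sum_sq
        simp only [hW, hZ, sq_abs, card_range, hl] at a2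
        have a3 : D (pull (S.gw w) ω) = (tanh (X G θ (gN N ω) (S.pt S.o w) (S.pt S.o w)) -
            k0 (pull (S.gw w) (inn G θ s ω))) ^ 2 := by
          rw [← hD, mm_pull, inn_pull, S.gw_o, mm]
        rw [← a3, ← mm, hD, hJ, hJ', ← S.cof_ys (θ := θ) N w ω, ← S.cof_sub, hZ, S.cof_ys] at a1
        simp only [← ky2]
        refine a1.trans ?_
        rw [← pow_mul, mul_comm w.length, pow_mul, hl, List.take_of_length_le hl.le]
        refine mul_le_mul_of_nonneg_left (add_le_add (le_of_eq ?_) ?_) (by positivity)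
        · rw [show pull (S.gw (w.take 0)) ω = ω from rfl]
          ring
        · simp only [← mul_add, ← sum_mul]
          nlinarith [mul_le_mul_of_nonneg_right a2 (J0 w ω)]
      · rw [integral_const_mul, integral_add' c3 (c7.add c6), integral_const_mul,
          integral_add' c1 ((c2 0).add (c2 n)), integral_add' (c2 0) (c2 n), integral_const_mul,
          integral_add' bΔ (bp _ bΔ), integral_add' c7 c6, integral_const_mul, integral_const_mul,
          integral_sum' _ fun k _ => (c4 k).add (c5 k)]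
        gcongr with k hk
        · linarith [Δ0 (S.gw w)]
        · rw [integral_add' (c4 k) (c5 k)]
          have := (Y1 w).tail hH (S.bm_cof by' w) (W3.comp' hH bW (mp (S.gw (w.take k))) (pp _)
            (hp _) (hp _)) (fun ω => by
              rw [S.cof_ys]; exact S.ad_nonneg (S.ys_nonneg h0 h1 (gN N ω)) w S.o)
            (fun ω => (W4 _).1) (hc.lt_of_ne fun h => by simp [hc' h.symm] at hk)
          simp only [S.cof_ys, hJ, hJ'] at this
          linarith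
    refine (sum_le_sum key).trans ?_
    have hn : (θ ^ 2) ^ n * b ^ n = 1 := by rw [← mul_pow, mul_comm, hθ, one_pow]
    have c0 := exp_pos (-c)
    have bn : (0 : ℝ) ≤ b ^ n := by positivity
    have e1 := add_le_add (hbad D bΔ D1 0 n.zero_le) (hbad D bΔ D1 n le_rfl)
    have e2 : ∑ w ∈ RW (b + 1) n none, ∑ k ∈ range n,
        (∫ ω, W (pull (S.gw (w.take k)) ω) * J w ω ∂Q G θ (tm V s) +
        2 * ∫ ω, W' (pull (S.gw (w.take k)) ω) * J w ω ∂Q G θ (tm V s)) ≤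
        n * (3 * (b ^ n * (β * ((b + 1) * ζ) + ε))) := by
      rw [sum_comm]
      refine (sum_le_card_nsmul _ _ _ fun k hk => ?_).trans_eq (by rw [card_range, nsmul_eq_mul])
      rw [sum_add_distrib, ← mul_sum]
      have a1 := hbad W bW W1 k (mem_range.1 hk).le
      have a2 := hbad W' (W3.bm.mono hH) W4 k (mem_range.1 hk).le
      rw [← W3.integral] at a2
      nlinarith [mul_le_mul_of_nonneg_left (mul_le_mul_of_nonneg_left W2 hβ) bn]
    have e3 := mul_le_mul_of_nonneg_right (card_RW_le (b := b) (by omega) n)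
      (show 0 ≤ exp (-c) * (2 * dl G θ N S.o s) by positivity)
    rw [← mul_sum, sum_add_distrib, ← mul_sum, sum_add_distrib, sum_const, nsmul_eq_mul,
      sum_add_distrib, sum_add_distrib, ← mul_sum, ← mul_sum]
    refine (mul_le_mul_of_nonneg_left (add_le_add (mul_le_mul_of_nonneg_left (add_le_add e3
      (e1.trans (add_le_add (mul_le_mul_of_nonneg_left (add_le_add (mul_le_mul_of_nonneg_left d1 hβ)
      le_rfl) bn) (mul_le_mul_of_nonneg_left (add_le_add (mul_le_mul_of_nonneg_left d1 hβ)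
      le_rfl) bn)))) (sq_nonneg u)) (add_le_add (mul_le_mul_of_nonneg_left bsv c0.le)
      (mul_le_mul_of_nonneg_left e2 n.cast_nonneg)))
      (show 0 ≤ 3 * (θ ^ 2) ^ n by positivity)).trans ?_
    refine le_trans (le_of_eq (b := (θ ^ 2) ^ n * b ^ n * (12 * u ^ 2 * (exp (-c) * dl G θ N S.o s) +
      6 * u ^ 2 * (β * dl G θ N S.o s) + 243 * (b + 1) ^ 2 * (n * exp (-c) * ζ) + 9 * (b + 1) *
      (n ^ 2 * β * ζ) + 6 * u ^ 2 * ε + 9 * (n ^ 2 * ε))) (by ring)) ?_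
    rw [hn, one_mul]
    have f1 : 12 * u ^ 2 ≤ C := by nlinarith
    have f2 : 6 * u ^ 2 ≤ C := by nlinarith
    have f3 : 9 * (b + 1 : ℝ) ≤ C := by nlinarith
    have f4 : 9 ≤ C := by nlinarith
    linarith [mul_le_mul_of_nonneg_right f1 (mul_nonneg c0.le δ0),
      mul_le_mul_of_nonneg_right f2 (mul_nonneg hβ δ0), mul_le_mul_of_nonneg_right f2 hε,
      mul_le_mul_of_nonneg_right C2.1 (show 0 ≤ n * exp (-c) * ζ by positivity),
      mul_le_mul_of_nonneg_right f3 (show 0 ≤ n ^ 2 * β * ζ by positivity),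
      mul_le_mul_of_nonneg_right f4 (show 0 ≤ n ^ 2 * ε by positivity)]

end Cay

end Vale.Agent.P161
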