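import Vale.Agent.P161.Pred

/-!
Summing the prediction errors over all levels of the tree.
-/

open Finset MeasureTheory Filter Topology Real
open scoped BigOperators Classical ENNReal unitInterval

namespace Vale.Agent.P161

lemma exists_eps {b C : ℝ} (hb : 0 < b) (hC : 0 ≤ C) : ∃ ε : ℕ → ℝ,
    (∀ M, 0 ≤ M → Tendsto (fun L : ℕ => ε L * exp (M * (1 + L) ^ 3)) atTop (𝓝 0)) ∧
    ∀ L l : ℕ, ∑ n ∈ range l, (if n ≤ L then 0 else
      (1 + (n : ℝ) ^ 2) * (4 * exp n * (C * exp (-((3 / 2) ^ (n / 4) / b))))) ≤ ε L := by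
  obtain ⟨a, ha⟩ : ∃ a : ℕ → ℝ, ∀ n : ℕ,
    (1 + (n : ℝ) ^ 2) * (4 * exp n * (C * exp (-((3 / 2) ^ (n / 4) / b)))) = a n :=
    ⟨_, fun _ => rfl⟩
  have a0 : ∀ n, 0 ≤ a n := fun n => by rw [← ha]; positivity
  have hs : ∀ M, 0 ≤ M → Summable fun n : ℕ => a n * exp (M * (1 + n) ^ 3) := fun M hM => by
    refine .of_norm_bounded_eventually_nat ((summable_exp_neg_nat).mul_left (4 * C)) ?_
    have t := (tendsto_pow_const_div_const_pow_of_one_lt 3 (show (1 : ℝ) < 3 / 2 by norm_num)).comp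
      (Nat.tendsto_div_const_atTop (n := 4) (by norm_num))
    filter_upwards [t.eventually (gt_mem_nhds (show 0 < 1 / (512 * (M + 3) * b) by positivity)),
      eventually_ge_atTop 4] with n h1 h2
    rw [Function.comp, div_lt_div_iff₀ (by positivity) (by positivity), one_mul] at h1
    have h3 : (1 + n : ℝ) ≤ 8 * (n / 4 : ℕ) := by exact_mod_cast (by omega : 1 + n ≤ 8 * (n / 4))
    have h4 := pow_le_pow_left₀ (by positivity) h3 3
    have h5 : (M + 3) * (1 + n) ^ 3 ≤ (3 / 2) ^ (n / 4) / b := by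
      rw [le_div_iff₀ hb]
      nlinarith [mul_le_mul_of_nonneg_left h4 (show 0 ≤ (M + 3) * b by positivity)]
    have n0 : (0 : ℝ) ≤ n := n.cast_nonneg
    have h6 : 1 + (n : ℝ) ^ 2 ≤ exp (n ^ 2) := by linarith [add_one_le_exp ((n : ℝ) ^ 2)]
    rw [Real.norm_of_nonneg (mul_nonneg (a0 n) (exp_pos _).le), ← ha]
    refine (mul_le_mul_of_nonneg_right (mul_le_mul_of_nonneg_right h6 (by positivity))
      (exp_pos _).le).trans (le_trans (le_of_eq (b := 4 * C * (exp (n ^ 2) * exp n *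
      exp (-((3 / 2) ^ (n / 4) / b)) * exp (M * (1 + n) ^ 3))) (by ring)) ?_)
    rw [← exp_add, ← exp_add, ← exp_add]
    exact mul_le_mul_of_nonneg_left (exp_le_exp.2 (by nlinarith [pow_nonneg n0 3])) (by positivity)
  simp only [ha]
  refine ⟨fun L => ∑' n, if n ≤ L then 0 else a n, fun M hM => ?_, fun L l =>
    Summable.sum_le_tsum _ (fun n _ => by split_ifs; exacts [le_rfl, a0 n])
      (.of_nonneg_of_le (fun n => by split_ifs; exacts [le_rfl, a0 n])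
      (fun n => by split_ifs <;> simp [a0 n]) (hs 0 le_rfl))⟩
  simp only [← tsum_mul_right]
  rw [← tsum_zero (β := ℕ)]
  refine tendsto_tsum_of_dominated_convergence (hs M hM) (fun n => tendsto_const_nhds.congr' ?_)
    (.of_forall fun L n => ?_)
  · filter_upwards [eventually_ge_atTop n] with L h
    simp [h]
  · split_ifs with h
    · simpa using mul_nonneg (a0 n) (exp_pos _).le
    · rw [Real.norm_of_nonneg (mul_nonneg (a0 n) (exp_pos _).le)]
      gcongr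
      exacts [a0 n, (not_le.1 h).le]

lemma sum_exp_le {c : ℝ} (h0 : 0 < c) (h1 : c ≤ 1) (l : ℕ) :
    ∑ n ∈ range l, exp (-(c * n)) ≤ 2 / c ∧ ∑ n ∈ range l, n * exp (-(c * n)) ≤ 4 / c ^ 2 := by
  have x0 := exp_pos (-c)
  have x1 : c / 2 ≤ 1 - exp (-c) := by nlinarith [exp_neg_le h0.le]
  have x2 : exp (-c) < 1 := by linarith
  simp only [show ∀ n : ℕ, exp (-(c * n)) = exp (-c) ^ n from fun n => by
    rw [← exp_nat_mul]; ring_nf]
  constructor
  · refine (sum_le_hasSum _ (fun _ _ => by positivity) (hasSum_geometric_of_lt_one x0.le x2)).trans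
      ?_
    rw [inv_eq_one_div, div_le_div_iff₀ (by linarith) h0]
    linarith
  · refine (sum_le_hasSum _ (fun _ _ => by positivity) (hasSum_coe_mul_geometric_of_norm_lt_one
      ((Real.norm_of_nonneg x0.le).trans_lt x2))).trans ?_
    rw [div_le_div_iff₀ (pow_pos (by linarith) 2) (pow_pos h0 2)]
    nlinarith [pow_le_pow_left₀ (by linarith) x1 2, sq_nonneg c]

variable {V : Type*} {G : SimpleGraph V} {θ : ℝ} [G.LocallyFinite]

lemma tm_small {s : ℝ} (hs : s ≤ 1) (i : V × ℕ) (T : I) (h : T ∈ (tm V s).s i) :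
    i.2 = 0 ∧ (T : ℝ) < s := by
  have h1 := mem_tm.1 h
  have h2 : (i.2 : ℝ) < (1 : ℕ) := by push_cast; linarith [T.2.1]
  exact ⟨Nat.lt_one_iff.1 (Nat.cast_lt.1 h2), by linarith [i.2.cast_nonneg (α := ℝ)]⟩

namespace Cay

variable {b : ℕ} (S : Cay G (b + 1)) (hG : G.IsTree) (h0 : 0 ≤ θ) (h1 : θ < 1) (hb : 2 ≤ b)
  (hθ : b * θ ^ 2 = 1)
include hG h0 h1 hb hθ

lemma decay' {A : Sel V} {N : ℕ} (hA : ∀ i, N ≤ i.2 → A.s i = ∅) (hN : 0 < N) {s r M l : ℝ}
    (hs : 0 ≤ s) (hs' : s ≤ 1 / 2) (hr : r ^ 2 ≤ s ^ 3) (hl : 0 ≤ l)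
    (hT : ∀ (z : V) (T : I), (T : ℝ) < s → T ∈ A.s (z, 0))
    (hM : ∀ y z, G.Adj y z → ∫ ω, tanh (X G θ (gN N ω) z y) ^ 4 ∂Q G θ A ≤ M) (n : ℕ) :
    ∀ a v, ∀ w ∈ RW (b + 1) n a, ∫ ω, S.Ew θ (l / ((1 - θ ^ 2) * θ ^ 2)) N v w ω ∂Q G θ A ≤
      (1 - (1 - θ) / 2 * (l * (r / 7) - l ^ 2 * M / 2)) ^ n := by
  have t1 : θ ^ 2 ≠ 0 := fun h => by simp [h] at hθ
  have t2 : 0 < 1 - θ ^ 2 := by nlinarith
  refine S.decay hG h0 h1 hb hA (by positivity) (fun z c h => ?_) n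
  rw [div_mul_cancel₀ _ (mul_ne_zero t2.ne' t1)]
  have bx := BM.tanh (measurable_X (G := G) (θ := θ) (measurable_gN N) c z)
  refine kappa_le bx hl ?_ ?_
  · have := q_lower hG h0 h1 S.degree_eq hA hb hθ (τ := s ^ 3 / 24)
      (by nlinarith [pow_le_pow_left₀ hs hs' 3])
      (fun z => gN_lower hG.connected hN hs hs' (hT z)) h
    exact le_of_sq_le_sq (le_trans (by nlinarith [pow_nonneg hs 3]) this) qv_nonneg
  · rw [← integral_even hG h0 h1 A c (bx.pow 4) fun ω => by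
      rw [gN_neg, X_neg h0 h1, tanh_neg]; ring]
    exact hM _ _ h

set_option maxHeartbeats 1000000 in
lemma pred (N : ℕ) : ∃ C : ℝ, 1 ≤ C ∧ ∃ ε : ℕ → ℝ,
    (∀ M, 0 ≤ M → Tendsto (fun L : ℕ => ε L * exp (M * (1 + L) ^ 3)) atTop (𝓝 0)) ∧
    ∀ s : ℝ, 0 < s → s ≤ N →
    ∃ (k0 : (V × ℕ → I × I) → ℝ) (kc : List (Fin (b + 1)) → (V × ℕ → I × I) → ℝ),
    BM k0 ∧ (∀ ξ, |k0 ξ| ≤ 1) ∧ (∀ w, BM (kc w)) ∧
    ∫ ω, (mm G θ N S.o ω - k0 (inn G θ s ω)) ^ 2 ∂Q G θ (tm V s) ≤ dl G θ N S.o s ∧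
    ∀ (η p : ℝ) (L l : ℕ), 0 ≤ η → η ≤ 1 → (∀ y z, G.Adj y z →
      (Q G θ (tm V s)).real {ω | η < |tanh (X G θ (gN N ω) z y)|} ≤ p) →
      min s (1 / 2) ^ 2 * ∑ n ∈ range l, ∑ w ∈ RW (b + 1) n none,
        ∫ ω, (|S.Cv θ (gN N ω) S.o w - kc w (inn G θ s ω)| +
        2 * S.Cv θ (gN N ω) S.o w * |mm G θ N (S.pt S.o w) ω -
          k0 (pull (S.gw w) (inn G θ s ω))|) ^ 2 ∂Q G θ (tm V s) ≤
        C * ((1 + L) ^ 3 * (dl G θ N S.o s + p) + (η ^ 2 * dl G θ N S.o s + p) / min s (1 / 2)) +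
          ε L := by
  obtain ⟨C, C1, hC⟩ := S.pred_core hG h0 h1 hb hθ N
  obtain ⟨C4, D1, hD⟩ := moments hG h0 h1 S.degree_eq hb hθ 1
  have b2 : (2 : ℝ) ≤ b := by exact_mod_cast hb
  obtain ⟨ε, ε1, ε2⟩ := exists_eps (b := b) (C := C) (by linarith) (by linarith)
  have t0 : 0 < 1 - θ := by linarith
  have t1 : 0 < θ ^ 2 := pow_pos (h0.lt_of_ne fun h => by simp [← h] at hθ) 2
  have t2 : 0 < 1 - θ ^ 2 := by nlinarith
  obtain ⟨κ, hκ⟩ : ∃ κ, κ = 1 / (784 * C4) := ⟨_, rfl⟩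
  have κ0 : 0 < κ := by rw [hκ]; positivity
  have κ1 : κ ≤ 1 / 2 := by rw [hκ]; exact one_div_le_one_div_of_le two_pos (by linarith)
  obtain ⟨c0, hc0⟩ : ∃ c0, c0 = (1 - θ) * κ / 64 := ⟨_, rfl⟩
  have c00 : 0 < c0 := by rw [hc0]; positivity
  have c01 : c0 ≤ 1 / 128 := by nlinarith
  obtain ⟨c1, hc1⟩ : ∃ c1, c1 = (1 - θ) * ((1 - θ ^ 2) * θ ^ 2) / 896 := ⟨_, rfl⟩
  have c10 : 0 < c1 := by rw [hc1]; positivity
  have c11 : c1 ≤ 1 := by
    linarith [mul_le_one₀ (show 1 - θ ≤ 1 by linarith) (mul_pos t2 t1).le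
      (show (1 - θ ^ 2) * θ ^ 2 ≤ 1 by nlinarith)]
  have y1 : ‖exp (-(4 * c0))‖ < 1 := by
    rw [Real.norm_of_nonneg (exp_pos _).le, exp_lt_one_iff]; linarith
  have sb : Summable fun n : ℕ => (1 + (n : ℝ) ^ 2) * (12 * exp 1 * exp (-(4 * c0)) ^ n) :=
    (((summable_geometric_of_norm_lt_one y1).add
      (summable_pow_mul_geometric_of_norm_lt_one 2 y1)).mul_left (12 * exp 1)).congr fun n => by
      ring
  obtain ⟨B, hB⟩ : ∃ B, B = 2 + ∑' n : ℕ, (1 + (n : ℝ) ^ 2) * (12 * exp 1 * exp (-(4 * c0)) ^ n) :=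
    ⟨_, rfl⟩
  have B0 : 2 ≤ B := hB ▸ le_add_of_nonneg_right (tsum_nonneg fun _ => by positivity)
  have hβ : ∀ L l : ℕ, ∑ n ∈ range l, (1 + (n : ℝ) ^ 2) *
      (if n ≤ L then 2 else 12 * exp 1 * exp (-(4 * c0)) ^ n) ≤ B * (1 + L) ^ 3 := fun L l => by
    have a1 := sb.sum_le_tsum (range l) fun _ _ => by positivity
    have a2 : ∑ n ∈ range l, (if n ≤ L then (1 + (L : ℝ) ^ 2) * 2 else 0) ≤
        (1 + L : ℝ) * ((1 + L ^ 2) * 2) := by
      rw [← sum_filter, sum_const, nsmul_eq_mul]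
      refine mul_le_mul_of_nonneg_right ?_ (by positivity)
      exact_mod_cast (card_le_card (t := range (1 + L)) fun n hn => mem_range.2 (by
        have := (mem_filter.1 hn).2; omega)).trans_eq (card_range _)
    have a3 := add_le_add a2 a1
    rw [← sum_add_distrib] at a3
    have L0 : (0 : ℝ) ≤ L := L.cast_nonneg
    refine ((sum_le_sum fun n _ => ?_).trans a3).trans ?_
    · split_ifs with h
      · have : (n : ℝ) ≤ L := by exact_mod_cast h
        have : 0 ≤ (1 + (n : ℝ) ^ 2) * (12 * exp 1 * exp (-(4 * c0)) ^ n) := by positivity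
        nlinarith [n.cast_nonneg (α := ℝ)]
      · rw [zero_add]
    · nlinarith [mul_nonneg (sub_nonneg.2 B0) (sub_nonneg.2 (one_le_pow₀ (n := 3)
        (show (1 : ℝ) ≤ 1 + L by linarith))), sq_nonneg (L : ℝ)]
  obtain ⟨K, hK⟩ : ∃ K, K = 4 / c1 ^ 2 + 2 * B := ⟨_, rfl⟩
  have K0 : 2 / c1 ≤ 4 / c1 ^ 2 := by
    rw [div_le_div_iff₀ c10 (by positivity)]; nlinarith
  have K1 : 0 < 2 / c1 := by positivity
  refine ⟨C ^ 2 * K, by nlinarith, fun L => C * ε L, fun M hM => by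
    simpa only [mul_assoc, mul_zero] using (ε1 M hM).const_mul C, fun s s0 hs => ?_⟩
  obtain ⟨k0, kc, ζ, k1, k2, k3, k4, ζ0, ζ1, hn⟩ := hC s hs
  refine ⟨k0, kc, k1, k2, k3, k4, fun η p L l η0 η1 hp => ?_⟩
  replace ζ1 := ζ1 η p η0 hp
  have p0 : 0 ≤ p := measureReal_nonneg.trans (hp _ _ (S.adj_st 0 S.o))
  have δ0 := dl_nonneg (G := G) (θ := θ) N S.o s
  have hA := sl_bound (V := V) (s := 0) (A := Set.univ) hs
  obtain ⟨t, ht⟩ : ∃ t, t = min s (1 / 2) := ⟨_, rfl⟩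
  rw [← ht]
  have u0 : 0 < t := ht ▸ lt_min s0 one_half_pos
  have u1 : t ≤ 1 / 2 := ht ▸ min_le_right _ _
  have u2 : t ≤ s := ht ▸ min_le_left _ _
  obtain ⟨r, hr⟩ : ∃ r, r = t * √t := ⟨_, rfl⟩
  have r0 : 0 < r := by rw [hr]; positivity
  have r1 : r ^ 2 = t ^ 3 := by rw [hr, mul_pow, sq_sqrt u0.le]; ring
  have r2 : t ^ 2 ≤ r ∧ r ≤ 1 := by
    have := sqrt_le_one.2 (u1.trans (by norm_num))
    constructor <;> nlinarith [sq_sqrt u0.le, sqrt_nonneg t, mul_nonneg u0.le (sqrt_nonneg t)]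
  have l0 : 0 < 1 / (56 * C4 * r) := by positivity
  have dec := S.decay' hG h0 h1 hb hθ hA (by exact_mod_cast s0.trans_le hs) u0.le u1 r1.le l0.le
    (M := 8 * C4 * r ^ 2) (fun z T h => mem_tm.2 (by simpa using h.trans_le u2)) fun y z h => by
      rcases le_total s (1 / 2) with h' | h'
      · have := hD hA (tm_small (h'.trans (by norm_num))) s0.le (h'.trans (by norm_num)) r0.le
          (by rw [r1, ht, min_eq_left h']) y z h
        norm_num at this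
        nlinarith [sq_nonneg r]
      · refine integral_le_const ((BM.tanh (measurable_X (measurable_gN N) _ _)).pow 4) fun ω => ?_
        rw [r1, ht, min_eq_right h']
        nlinarith [tanh_sq_lt (X G θ (gN N ω) z y), sq_nonneg (tanh (X G θ (gN N ω) z y))]
  rw [show 1 - (1 - θ) / 2 * (1 / (56 * C4 * r) * (r / 7) - (1 / (56 * C4 * r)) ^ 2 *
    (8 * C4 * r ^ 2) / 2) = 1 - 32 * c0 by rw [hc0, hκ]; field_simp; ring] at dec
  have e1 : ∀ n : ℕ, exp (2 * (1 / (56 * C4 * r) / ((1 - θ ^ 2) * θ ^ 2)) * (2 * (c1 * r * n))) =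
      exp (4 * c0 * n) := fun n => by
    have : θ ≠ 0 := fun h => by simp [h] at t1
    rw [hc0, hκ, hc1]; congr 1; field_simp; ring
  have key := fun n : ℕ => hn n (c1 * r * n) (if n ≤ L then 2 else 12 * exp 1 * exp (-(4 * c0)) ^ n)
    (if n ≤ L then 0 else 4 * exp n * (C * exp (-((3 / 2) ^ (n / 4) / b)))) (by positivity)
    (by positivity) (by positivity) (fun h => by simpa [c10.ne', r0.ne'] using h)
    fun W hW W1 k hk => by
      have W0 : 0 ≤ ∫ ω, W ω ∂Q G θ (tm V s) := integral_nonneg fun ω => (W1 ω).1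
      split_ifs with h
      · refine (sum_le_card_nsmul _ _ (∫ ω, W ω ∂Q G θ (tm V s)) fun w _ => ?_).trans ?_
        · rw [← integral_comp_mp (mp_pull hG h0 h1 (S.gw (w.take k)) (tm_inv s _)) hW.meas]
          refine integral_mono_of_nonneg (.of_forall fun ω => mul_nonneg (W1 _).1 (by positivity))
            ((hW.comp (measurable_pull _)).integrable _) (.of_forall fun ω => ?_)
          exact mul_le_of_le_one_right (W1 _).1 (by split_ifs <;> norm_num)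
        · rw [nsmul_eq_mul]
          nlinarith [card_RW_le (b := b) (by omega) n]
      · refine (S.bad hG h0 h1 hb (by positivity) (fun g => tm_inv s g) (by linarith) (by linarith)
          dec hW W1 _ (by omega) hk).trans ?_
        rw [e1]
        have a1 : exp (4 * c0 * n) ≤ exp n := exp_le_exp.2 (by nlinarith [n.cast_nonneg (α := ℝ)])
        have a2 : exp (4 * c0 * n) * (1 - 32 * c0) ^ (n / 4) ≤ exp 1 * exp (-(4 * c0)) ^ n := by
          refine (mul_le_mul_of_nonneg_left (pow_le_pow_left₀ (by linarith)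
            (one_sub_le_exp_neg _) _) (exp_pos _).le).trans ?_
          rw [← exp_nat_mul, ← exp_nat_mul, ← exp_add, ← exp_add, exp_le_exp]
          have : (n : ℝ) ≤ 4 * (n / 4 : ℕ) + 3 := by exact_mod_cast (by omega : n ≤ 4 * (n / 4) + 3)
          nlinarith
        have bn : (0 : ℝ) ≤ b ^ n := by positivity
        nlinarith [mul_le_mul_of_nonneg_left (mul_le_mul_of_nonneg_right a2 W0) bn,
          mul_le_mul_of_nonneg_left (mul_le_mul_of_nonneg_right a1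
          (show 0 ≤ C * exp (-((3 / 2) ^ (n / 4) / b)) by positivity)) bn]
  obtain ⟨s1, s2⟩ := sum_exp_le (mul_pos c10 r0) (mul_le_one₀ c11 r0.le r2.2) l
  have s3 := hβ L l
  have s4 := ε2 L l
  have s5 : ∑ n ∈ range l, _ ≤ C * (2 / (c1 * r) * dl G θ N S.o s + 4 / (c1 * r) ^ 2 * ζ +
      B * (1 + L) ^ 3 * (dl G θ N S.o s + ζ) + ε L) := (sum_le_sum fun n _ => key n).trans (by
    rw [← mul_sum]
    refine mul_le_mul_of_nonneg_left (le_trans ?_ (add_le_add (add_le_add (add_le_add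
      (mul_le_mul_of_nonneg_right s1 δ0) (mul_le_mul_of_nonneg_right s2 ζ0))
      (mul_le_mul_of_nonneg_right s3 (add_nonneg δ0 ζ0))) s4)) (by linarith)
    simp only [sum_mul, ← sum_add_distrib]
    refine sum_le_sum fun n _ => ?_
    have : 0 ≤ if n ≤ L then 2 else 12 * exp 1 * exp (-(4 * c0)) ^ n := by positivity
    rw [mul_ite (n ≤ L) (1 + (n : ℝ) ^ 2) 0, mul_zero]
    nlinarith [mul_nonneg this ζ0, mul_nonneg (mul_nonneg (sq_nonneg (n : ℝ)) this) δ0])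
  have ε0 : 0 ≤ ε L := by simpa using ε2 L 0
  refine (mul_le_mul_of_nonneg_left s5 (sq_nonneg t)).trans ?_
  have L1 : (1 : ℝ) ≤ (1 + L) ^ 3 := one_le_pow₀ (by linarith [L.cast_nonneg (α := ℝ)])
  have f1 : t ^ 2 * (2 / (c1 * r)) ≤ 4 / c1 ^ 2 * (1 + L) ^ 3 := by
    refine le_trans ?_ (K0.trans (le_mul_of_one_le_right (by positivity) L1))
    rw [← mul_div_assoc, div_le_div_iff₀ (by positivity) c10]
    linarith [mul_le_mul_of_nonneg_left r2.1 c10.le]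
  have f2 : t ^ 2 * (4 / (c1 * r) ^ 2) * (η ^ 2 * dl G θ N S.o s + p) =
      4 / c1 ^ 2 * ((η ^ 2 * dl G θ N S.o s + p) / t) := by
    rw [mul_pow, r1]; field_simp
  have f3 : t ^ 2 ≤ 1 := r2.1.trans r2.2
  have g1 := (le_add_of_nonneg_right p0).trans (le_mul_of_one_le_left (add_nonneg δ0 p0) C1)
  have f4 : dl G θ N S.o s + ζ ≤ 2 * C * (dl G θ N S.o s + p) := by
    linarith [ζ1.trans (mul_le_mul_of_nonneg_left (add_le_add
      (mul_le_of_le_one_left δ0 (pow_le_one₀ η0 η1)) le_rfl) (by linarith))]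
  have f5 : 0 ≤ (η ^ 2 * dl G θ N S.o s + p) / t := by positivity
  have f6 := mul_le_mul_of_nonneg_left ζ1 (show 0 ≤ t ^ 2 * (4 / (c1 * r) ^ 2) by positivity)
  rw [mul_left_comm, f2] at f6
  have f7 := mul_le_mul f3 (mul_le_mul_of_nonneg_left f4 (show 0 ≤ B * (1 + L) ^ 3 by positivity))
    (by positivity) zero_le_one
  have f8 := mul_le_mul f1 g1 δ0 (by positivity)
  have f9 := mul_le_mul_of_nonneg_right f3 ε0
  beta_reduce
  rw [mul_left_comm, sq C, mul_assoc C, mul_assoc C (C * K), ← mul_add, hK]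
  refine mul_le_mul_of_nonneg_left ?_ (by linarith)
  linarith [mul_nonneg (show 0 ≤ C * B by positivity) f5]

end Cay

end Vale.Agent.P161
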