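import Vale.Agent.P161.Gibbs

/-!
The finite-volume localization scheme driven by independent signs.
-/

open Finset
open scoped BigOperators Classical

namespace Vale.Agent.P161

variable {V : Type*}

noncomputable def St (G : SimpleGraph V) (θ : ℝ) (D : Finset V) (I : Finset (ℕ × V))
    (key m ξ : ℕ × V → ℝ) (t : ℝ) (s : V → ℝ) : ℝ :=
  W G θ D s * ∏ j ∈ I with key j < t, (1 + ξ j * (s j.2 - m j))

noncomputable def pic (G : SimpleGraph V) (θ : ℝ) (D : Finset V) (I : Finset (ℕ × V))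
    (key ξ : ℕ × V → ℝ) : ℕ → ℕ × V → ℝ
  | 0 => 0
  | k + 1 => fun i => E D 1 fun s => s i.2 * St G θ D I key (pic G θ D I key ξ k) ξ (key i) s

noncomputable def F (G : SimpleGraph V) (θ : ℝ) (D : Finset V) (I : Finset (ℕ × V))
    (key : ℕ × V → ℝ) (t : ℝ) (ξ : ℕ × V → ℝ) (s : V → ℝ) : ℝ :=
  St G θ D I key (pic G θ D I key ξ (I.card + 1)) ξ t s

noncomputable def M (G : SimpleGraph V) (θ : ℝ) (D : Finset V) (I : Finset (ℕ × V))
    (key : ℕ × V → ℝ) (t : ℝ) (v : V) (ξ : ℕ × V → ℝ) : ℝ :=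
  E D 1 fun s => s v * F G θ D I key t ξ s

noncomputable def C (G : SimpleGraph V) (θ : ℝ) (D : Finset V) (I : Finset (ℕ × V))
    (key : ℕ × V → ℝ) (t : ℝ) (v u : V) (ξ : ℕ × V → ℝ) : ℝ :=
  (E D 1 fun s => s v * s u * F G θ D I key t ξ s) -
    M G θ D I key t v ξ * M G θ D I key t u ξ

variable {G : SimpleGraph V} {θ : ℝ} {D : Finset V} {I I' : Finset (ℕ × V)}
  {key : ℕ × V → ℝ}

lemma St_congr {m m' ξ ξ' : ℕ × V → ℝ} {t : ℝ}
    (h : ∀ j ∈ I, key j < t → m j = m' j ∧ ξ j = ξ' j) :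
    St G θ D I key m ξ t = St G θ D I key m' ξ' t := by
  funext s
  refine congrArg _ (prod_congr rfl fun j hj => ?_)
  obtain ⟨h1, h2⟩ := mem_filter.1 hj
  rw [(h j h1 h2).1, (h j h1 h2).2]

lemma card_lt {j : ℕ × V} {t : ℝ} (hj : j ∈ I) (h : key j < t) :
    {i ∈ I | key i < key j}.card < {i ∈ I | key i < t}.card :=
  card_lt_card ⟨monotone_filter_right _ fun _ _ hi => hi.trans h, fun hs =>
    lt_irrefl _ (mem_filter.1 (hs (mem_filter.2 ⟨hj, h⟩))).2⟩

lemma pic_stab (ξ : ℕ × V → ℝ) (k : ℕ) : ∀ i, {j ∈ I | key j < key i}.card < k →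
    pic G θ D I key ξ (k + 1) i = pic G θ D I key ξ k i := by
  induction k with
  | zero => simp
  | succ k ih =>
    intro i hi
    have h1 : St G θ D I key (pic G θ D I key ξ (k + 1)) ξ (key i) =
        St G θ D I key (pic G θ D I key ξ k) ξ (key i) :=
      St_congr fun j hj h => ⟨ih j (by have := card_lt hj h; omega), rfl⟩
    exact congrArg (fun f : (V → ℝ) → ℝ => E D 1 fun s => s i.2 * f s) h1

lemma pic_eq (ξ : ℕ × V → ℝ) (i : ℕ × V) :
    pic G θ D I key ξ (I.card + 1) i = M G θ D I key (key i) i.2 ξ :=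
  (pic_stab ξ _ i (Nat.lt_succ_of_le (card_filter_le _ _))).symm

lemma F_eq (t : ℝ) (ξ : ℕ × V → ℝ) (s : V → ℝ) : F G θ D I key t ξ s =
    W G θ D s * ∏ j ∈ I with key j < t, (1 + ξ j * (s j.2 - M G θ D I key (key j) j.2 ξ)) := by
  simp only [F, St, pic_eq]

lemma time_ind (I : Finset (ℕ × V)) (key : ℕ × V → ℝ) {P : ℝ → Prop}
    (h : ∀ t, (∀ j ∈ I, key j < t → P (key j)) → P t) (t : ℝ) : P t := by
  induction hn : {i ∈ I | key i < t}.card using Nat.strong_induction_on generalizing t with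
  | _ n ih => exact h t fun j hj h1 => ih _ (hn ▸ card_lt hj h1) _ rfl

lemma F_congr {ξ ξ' : ℕ × V → ℝ} (t : ℝ) : (∀ j ∈ I, key j < t → ξ j = ξ' j) →
    F G θ D I key t ξ = F G θ D I key t ξ' := by
  induction t using time_ind I key with
  | h t ih =>
    intro h
    funext s
    rw [F_eq, F_eq]
    refine congrArg _ (prod_congr rfl fun j hj => ?_)
    obtain ⟨h1, h2⟩ := mem_filter.1 hj
    rw [h j h1 h2, M, M, ih j h1 h2 fun i hi h3 => h i hi (h3.trans h2)]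

def Last (I : Finset (ℕ × V)) (key : ℕ × V → ℝ) (t : ℝ) (i : ℕ × V) : Prop :=
  i ∈ I ∧ key i < t ∧ {j ∈ I | key j < t} = insert i {j ∈ I | key j < key i}

lemma last_cases (hk : Set.InjOn key I) (t : ℝ) :
    {j ∈ I | key j < t} = ∅ ∨ ∃ i, Last I key t i := by
  rcases ({j ∈ I | key j < t}).eq_empty_or_nonempty with h | h
  · exact Or.inl h
  · obtain ⟨i, hi, h1⟩ := exists_max_image _ key h
    obtain ⟨h2, h3⟩ := mem_filter.1 hi
    refine Or.inr ⟨i, h2, h3, ?_⟩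
    ext j
    simp only [mem_filter, mem_insert]
    constructor
    · rintro ⟨h4, h5⟩
      rcases (h1 j (mem_filter.2 ⟨h4, h5⟩)).eq_or_lt with h6 | h6
      · exact Or.inl (hk h4 h2 h6)
      · exact Or.inr ⟨h4, h6⟩
    · rintro (rfl | ⟨h4, h5⟩)
      · exact ⟨h2, h3⟩
      · exact ⟨h4, h5.trans h3⟩

structure Mart (I : Finset (ℕ × V)) (key : ℕ × V → ℝ) (X : ℝ → (ℕ × V → ℝ) → ℝ)
    (e : ℕ × V → (ℕ × V → ℝ) → ℝ) : Prop where
  step : ∀ t i, Last I key t i → ∀ ξ, X t ξ = X (key i) ξ + ξ i * e i ξ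
  same : ∀ t t', {j ∈ I | key j < t} = {j ∈ I | key j < t'} → X t = X t'
  dep : ∀ t, ∀ i ∈ I, t ≤ key i → ∀ ξ, X t (flip {i} ξ) = X t ξ
  depe : ∀ i ∈ I, ∀ ξ, e i (flip {i} ξ) = e i ξ

section
variable {X X' : ℝ → (ℕ × V → ℝ) → ℝ} {e e' : ℕ × V → (ℕ × V → ℝ) → ℝ} {b : ℕ × V → ℝ}

lemma Mart.sub (h : Mart I key X e) (h' : Mart I key X' e') :
    Mart I key (fun t ξ => X t ξ - X' t ξ) (fun i ξ => e i ξ - e' i ξ) where
  step t i hi ξ := by rw [h.step t i hi, h'.step t i hi]; ring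
  same t t' ht := by rw [h.same t t' ht, h'.same t t' ht]
  dep t i hi ht ξ := by rw [h.dep t i hi ht, h'.dep t i hi ht]
  depe i hi ξ := by rw [h.depe i hi, h'.depe i hi]

lemma E_xi {i : ℕ × V} (hi : i ∈ I) {Y : (ℕ × V → ℝ) → ℝ} (hY : ∀ ξ, Y (flip {i} ξ) = Y ξ) :
    E I b (fun ξ => ξ i * Y ξ) = 0 :=
  E_odd (B := {i}) (by simpa using hi) fun ξ => by simp [hY, flip]

lemma Mart.sq (h : Mart I key X e) (hk : Set.InjOn key I) {a : ℝ} (hb : ∀ i, b i ^ 2 = a ^ 2)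
    (h0 : ∀ t, {j ∈ I | key j < t} = ∅ → X t = fun _ => 0) (t : ℝ) :
    E I b (fun ξ => X t ξ ^ 2) =
      ∑ i ∈ I with key i < t, a ^ 2 * E I b (fun ξ => e i ξ ^ 2) := by
  induction t using time_ind I key with
  | h t ih =>
    rcases last_cases hk t with h1 | ⟨i, h1⟩
    · simp [h0 t h1, h1, E_const]
    · rw [h1.2.2, sum_insert (by simp), ← ih i h1.1 h1.2.1, ← E_mul, ← E_add,
        ← add_zero (E I b fun s => _ + _), ← E_xi (b := b) h1.1
          (Y := fun ξ => 2 * X (key i) ξ * e i ξ)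
          (fun ξ => by rw [h.dep _ i h1.1 le_rfl, h.depe i h1.1]), ← E_add]
      refine E_congr fun ξ hξ => ?_
      rw [h.step t i h1, ← hb i, ← hξ.sq]
      ring

lemma Mart.mean (h : Mart I key X e) (hk : Set.InjOn key I) {t₀ : ℝ} {Y : (ℕ × V → ℝ) → ℝ}
    (hY : ∀ i ∈ I, t₀ ≤ key i → ∀ ξ, Y (flip {i} ξ) = Y ξ) (t : ℝ) : t₀ ≤ t →
    E I b (fun ξ => Y ξ * X t ξ) = E I b (fun ξ => Y ξ * X t₀ ξ) := by
  induction t using time_ind I key with
  | h t ih =>
    intro ht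
    by_cases h2 : ∃ j ∈ I, t₀ ≤ key j ∧ key j < t
    · obtain ⟨j, j1, j2, j3⟩ := h2
      rcases last_cases hk t with h1 | ⟨i, h1⟩
      · exact absurd (h1 ▸ mem_filter.2 ⟨j1, j3⟩) (notMem_empty j)
      · have h3 : t₀ ≤ key i := by
          rcases mem_insert.1 (h1.2.2 ▸ mem_filter.2 ⟨j1, j3⟩) with rfl | h4
          · exact j2
          · exact j2.trans (mem_filter.1 h4).2.le
        rw [← ih i h1.1 h1.2.1 h3, ← add_zero (E I b fun ξ => Y ξ * X (key i) ξ),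
          ← E_xi (b := b) h1.1 (Y := fun ξ => Y ξ * e i ξ)
          (fun ξ => by rw [hY i h1.1 h3, h.depe i h1.1]), ← E_add]
        refine E_congr fun ξ _ => ?_
        rw [h.step t i h1]
        ring
    · push Not at h2
      rw [h.same t t₀ (filter_congr fun j hj => ⟨fun h3 => ?_, fun h3 => h3.trans_le ht⟩)]
      by_contra h4
      exact absurd (h2 j hj (not_lt.1 h4)) (not_le.2 h3)

end

lemma filter_sub (hI : I ⊆ I') (t : ℝ) :
    {j ∈ I | key j < t} = {j ∈ {j ∈ I' | key j < t} | j ∈ I} := by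
  ext j
  simp only [mem_filter]
  exact ⟨fun h => ⟨⟨hI h.1, h.2⟩, h.1⟩, fun h => ⟨h.2, h.1.2⟩⟩

lemma F_flip {t : ℝ} {i : ℕ × V} (ht : t ≤ key i) (ξ : ℕ × V → ℝ) :
    F G θ D I key t (flip {i} ξ) = F G θ D I key t ξ :=
  F_congr t fun j _ hj => by
    have : j ≠ i := fun h => by rw [h] at hj; linarith
    simp [flip, this]

lemma mart_F (hI : I ⊆ I') (s : V → ℝ) : Mart I' key (fun t ξ => F G θ D I key t ξ s)
    (fun i ξ => if i ∈ I then
      F G θ D I key (key i) ξ s * (s i.2 - M G θ D I key (key i) i.2 ξ) else 0) where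
  step t i hi ξ := by
    rw [F_eq t, filter_sub hI t, hi.2.2, filter_insert, ← filter_sub hI]
    split_ifs with h
    · rw [prod_insert (by simp), F_eq (key i)]
      ring
    · rw [F_eq (key i)]
      ring
  same t t' ht := by
    funext ξ
    rw [F_eq, F_eq, filter_sub hI t, filter_sub hI t', ht]
  dep t i _ ht ξ := by rw [F_flip ht]
  depe i _ ξ := by simp only [M, F_flip le_rfl]

variable (hG : G.IsAcyclic) (h0 : 0 ≤ θ) (h1 : θ < 1) (hk : Set.InjOn key I)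
  {ξ : ℕ × V → ℝ} (hξ : ∀ j, |ξ j| ≤ 1 / 2)

include hG hk in
lemma E_F (ξ : ℕ × V → ℝ) (t : ℝ) : E D 1 (F G θ D I key t ξ) = 1 := by
  induction t using time_ind I key with
  | h t ih =>
    rcases last_cases hk t with h2 | ⟨i, h2⟩
    · rw [← E_W (θ := θ) hG D]
      exact E_congr fun s _ => by rw [F_eq, h2]; simp
    · have h3 : E D 1 (F G θ D I key t ξ) = E D 1 (F G θ D I key (key i) ξ) + ξ i *
          (M G θ D I key (key i) i.2 ξ -
            M G θ D I key (key i) i.2 ξ * E D 1 (F G θ D I key (key i) ξ)) := by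
        rw [← E_mul, M, ← E_sub, ← E_mul, ← E_add]
        refine E_congr fun s _ => ?_
        rw [(mart_F subset_rfl s).step t i h2 ξ, if_pos h2.1, M]
        ring
      rw [h3, ih i h2.1 h2.2.1]
      ring

lemma fac_nonneg {c m : ℝ} (hc : |c| ≤ 1 / 2) (hm : |m| ≤ 1) :
    0 ≤ 1 + c * (1 - m) ∧ 0 ≤ 1 + c * (-1 - m) := by
  obtain ⟨a1, a2⟩ := abs_le.1 hc
  obtain ⟨b1, b2⟩ := abs_le.1 hm
  constructor <;> nlinarith

include hG h0 h1 hk hξ

lemma F_nonneg_M_le (t : ℝ) : (∀ s, Sg 1 s → 0 ≤ F G θ D I key t ξ s) ∧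
    ∀ v, |M G θ D I key t v ξ| ≤ 1 := by
  induction t using time_ind I key with
  | h t ih =>
    have h2 : ∀ s, Sg 1 s → 0 ≤ F G θ D I key t ξ s := fun s hs => by
      rw [F_eq]
      refine mul_nonneg (WE_nonneg h0 h1.le _ hs) (prod_nonneg fun j hj => ?_)
      obtain ⟨h3, h4⟩ := mem_filter.1 hj
      have := fac_nonneg (hξ j) ((ih j h3 h4).2 j.2)
      rcases hs.one_cases j.2 with h5 | h5 <;> rw [h5] <;> tauto
    refine ⟨h2, fun v => ?_⟩
    rw [← E_F (θ := θ) (D := D) hG hk ξ t]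
    exact E_abs_le fun s hs => by rw [abs_mul, hs.abs, abs_of_nonneg (h2 s hs)]; simp

lemma cov_rec (t : ℝ) {y u : V} (hy : y ∈ D) (hu : u ∈ D) (hyu : G.Adj y u) :
    ∃ x, |x| ≤ 1 ∧ M G θ D I key t u ξ = Pf θ x + Rf θ x * M G θ D I key t y ξ ∧
      ∀ v, v ∉ side G y u → C G θ D I key t v u ξ = Rf θ x * C G θ D I key t v y ξ := by
  obtain ⟨h2, h3⟩ := markov hG h0 h1 hy hu hyu {j ∈ I | key j < t} Prod.snd
    (fun j x => 1 + ξ j * (x - M G θ D I key (key j) j.2 ξ))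
    (fun j _ => fac_nonneg (hξ j) ((F_nonneg_M_le hG h0 h1 hk hξ _).2 _))
  simp only [← F_eq] at h3
  generalize cav _ _ _ _ _ _ _ _ = x at h2 h3
  have h4 := h3 (fun _ => 1) fun _ _ _ => rfl
  simp only [one_mul] at h4
  rw [show (fun s => F G θ D I key t ξ s) = F G θ D I key t ξ from rfl, E_F hG hk, mul_one] at h4
  refine ⟨_, h2, h4, fun v hv => ?_⟩
  have h5 := h3 (fun s => s v) fun s s' hs => hs v hv
  simp only [C, M] at h4 ⊢
  rw [h5, h4]
  ring

omit h0 h1 hξ in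
lemma C_self (t : ℝ) (v : V) : C G θ D I key t v v ξ = 1 - M G θ D I key t v ξ ^ 2 := by
  rw [C, ← E_F (θ := θ) (D := D) hG hk ξ t, sq]
  congr 1
  refine E_congr fun s hs => ?_
  rcases hs.one_cases v with h | h <;> simp [h]

omit hG h0 h1 hk hξ in
lemma mart_M (hI : I ⊆ I') (v : V) : Mart I' key (fun t => M G θ D I key t v)
    (fun i ξ => if i ∈ I then C G θ D I key (key i) v i.2 ξ else 0) where
  step t i hi ξ := by
    by_cases h : i ∈ I
    · rw [if_pos h, C, M, M, ← E_mul', ← E_sub, ← E_mul, ← E_add]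
      refine E_congr fun s _ => ?_
      rw [(mart_F hI s).step t i hi ξ, if_pos h]
      ring
    · rw [if_neg h, mul_zero, add_zero]
      refine E_congr fun s _ => ?_
      rw [(mart_F hI s).step t i hi ξ, if_neg h]
      ring
  same t t' ht := by
    funext ξ
    exact E_congr fun s _ => by rw [congrFun ((mart_F hI s).same t t' ht) ξ]
  dep t i _ ht ξ := by simp only [M, F_flip ht]
  depe i _ ξ := by simp only [C, M, F_flip le_rfl]

omit hG h0 h1 hk hξ in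
lemma M_zero (hI : I ⊆ I') {v : V} (hv : v ∈ D) {t : ℝ} (h : {j ∈ I' | key j < t} = ∅) :
    M G θ D I key t v = fun _ => 0 := by
  funext ξ
  rw [← E_spin_W (G := G) (θ := θ) hv]
  exact E_congr fun s _ => by rw [F_eq, filter_sub hI, h]; simp

omit hG in
lemma C_abs_le (hG : G.IsTree) (hD : WConn G D) (t : ℝ) {v : V} (hv : v ∈ D) (n : ℕ) :
    ∀ u ∈ D, G.dist v u = n → |C G θ D I key t v u ξ| ≤ θ ^ n := by
  induction n with
  | zero =>
    intro u _ h
    obtain rfl := hG.connected.dist_eq_zero_iff.1 h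
    have := sq_le_one_iff_abs_le_one _ |>.2 ((F_nonneg_M_le (D := D) hG.isAcyclic h0 h1 hk hξ t).2 v)
    rw [C_self hG.isAcyclic hk, pow_zero, abs_le]
    constructor <;> nlinarith [sq_nonneg (M G θ D I key t v ξ)]
  | succ n ih =>
    intro u hu h
    obtain ⟨y, h2, h3⟩ := exists_par hG.connected (v := v) (u := u) (by rintro rfl; simp at h)
    have hy := hD.par_mem hG hv hu h2 h3
    obtain ⟨x, x1, -, x3⟩ := cov_rec hG.isAcyclic h0 h1 hk hξ t hy hu h2
    rw [x3 v (not_mem_side_of_dist hG h2 h3), abs_mul, abs_of_nonneg (Rf_nonneg h0 h1 x1),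
      pow_succ']
    exact mul_le_mul (Rf_le h0 h1 x1) (ih y hy (by omega)) (abs_nonneg _) h0

end Vale.Agent.P161
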