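import Vale.Agent.P161.BP

/-!
Reduced words in an edge-coloured regular tree; covariances along paths.
-/

open Finset Filter Topology Real
open scoped BigOperators Classical

namespace Vale.Agent.P161

noncomputable def RW (d : ℕ) : ℕ → Option (Fin d) → Finset (List (Fin d))
  | 0, _ => {[]}
  | n + 1, a => ({i | some i ≠ a} : Finset (Fin d)).biUnion fun i =>
      (RW d n (some i)).image (List.cons i)

variable {d : ℕ}

lemma sum_RW (n : ℕ) (a : Option (Fin d)) (φ : List (Fin d) → ℝ) :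
    ∑ w ∈ RW d (n + 1) a, φ w = ∑ i with some i ≠ a, ∑ w ∈ RW d n (some i), φ (i :: w) := by
  rw [RW, sum_biUnion]
  · exact sum_congr rfl fun i _ => sum_image fun _ _ _ _ h => List.cons_injective h
  · intro i _ j _ hij
    simp only [Function.onFun, disjoint_left, mem_image]
    rintro _ ⟨w, -, rfl⟩ ⟨w', -, h⟩
    exact hij (List.cons.inj h).1.symm

lemma mem_RW {n : ℕ} {a : Option (Fin d)} {w : List (Fin d)} :
    w ∈ RW d n a ↔ w.length = n ∧ w.IsChain (· ≠ ·) ∧ ∀ i ∈ w.head?, some i ≠ a := by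
  induction n generalizing a w with
  | zero => cases w <;> simp [RW]
  | succ n ih =>
    cases w with
    | nil => simp [RW]
    | cons j w =>
      simp only [RW, mem_biUnion, mem_filter, mem_univ, true_and, mem_image, List.cons.injEq, ih,
        List.isChain_cons, List.length_cons, List.head?_cons, Option.mem_def, Option.some.injEq,
        forall_eq', ne_eq, Nat.add_right_cancel_iff]
      constructor
      · rintro ⟨i, h1, w', ⟨h2, h3, h4⟩, rfl, rfl⟩
        exact ⟨h2, ⟨fun y hy h => h4 y hy h.symm, h3⟩, h1⟩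
      · rintro ⟨h1, ⟨h2, h3⟩, h4⟩
        exact ⟨j, h4, w, ⟨h1, h3, fun y hy h => h2 y hy h.symm⟩, rfl, rfl⟩

lemma cons_mem_RW {n : ℕ} {a : Option (Fin d)} {i : Fin d} {w : List (Fin d)} :
    i :: w ∈ RW d (n + 1) a ↔ some i ≠ a ∧ w ∈ RW d n (some i) := by
  simp only [RW, mem_biUnion, mem_filter, mem_univ, true_and, mem_image, List.cons.injEq]
  exact ⟨fun ⟨j, h1, w', h2, h3, h4⟩ => h3 ▸ h4 ▸ ⟨h1, h2⟩, fun h => ⟨i, h.1, w, h.2, rfl, rfl⟩⟩

lemma RW_subset (n : ℕ) (a : Option (Fin d)) : RW d n a ⊆ RW d n none := fun w hw => by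
  rw [mem_RW] at hw ⊢
  exact ⟨hw.1, hw.2.1, by simp⟩

lemma card_ne {b : ℕ} (i : Fin (b + 1)) :
    (({j | some j ≠ some i} : Finset (Fin (b + 1))).card : ℝ) = b := by
  simp [filter_ne']

lemma card_RW_some {b : ℕ} (n : ℕ) : ∀ i : Fin (b + 1),
    ((RW (b + 1) n (some i)).card : ℝ) = b ^ n := by
  induction n with
  | zero => simp [RW]
  | succ n ih =>
    intro i
    have := sum_RW n (some i) fun _ => 1
    simp only [sum_const, nsmul_eq_mul, mul_one, ih, card_ne] at this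
    rw [this, pow_succ']

lemma card_RW_le {b : ℕ} (hb : 1 ≤ b) (n : ℕ) :
    ((RW (b + 1) n none).card : ℝ) ≤ 2 * b ^ n := by
  have hb' : (1 : ℝ) ≤ b := by exact_mod_cast hb
  cases n with
  | zero => simp [RW]
  | succ n =>
    have := sum_RW n (none : Option (Fin (b + 1))) fun _ => 1
    simp only [sum_const, nsmul_eq_mul, mul_one, card_RW_some] at this
    rw [this, pow_succ', ← mul_assoc]
    gcongr
    simp
    linarith

lemma sum_RW_reverse (n : ℕ) (φ : List (Fin d) → ℝ) :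
    ∑ w ∈ RW d n none, φ w.reverse = ∑ w ∈ RW d n none, φ w := by
  have h : ∀ w ∈ RW d n none, w.reverse ∈ RW d n none := fun w hw => by
    rw [mem_RW] at hw ⊢
    refine ⟨by simp [hw.1], ?_, by simp⟩
    rw [List.isChain_reverse]
    exact hw.2.1.imp fun _ _ h => h.symm
  exact sum_nbij' List.reverse List.reverse h h (by simp) (by simp) (by simp)

lemma sum_RW_split {n j : ℕ} (hj : j ≤ n) {φ : List (Fin d) → List (Fin d) → ℝ}
    (h : ∀ w w', 0 ≤ φ w w') : ∑ w ∈ RW d n none, φ (w.take j) (w.drop j) ≤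
      ∑ w ∈ RW d j none, ∑ w' ∈ RW d (n - j) none, φ w w' := by
  rw [← sum_product', ← sum_image (s := RW d n none) (g := fun w => (w.take j, w.drop j))
    (f := fun p => φ p.1 p.2) fun w _ w' _ h => by
      rw [← List.take_append_drop j w, ← List.take_append_drop j w', (Prod.mk.inj h).1,
        (Prod.mk.inj h).2]]
  refine sum_le_sum_of_subset_of_nonneg (fun p hp => ?_) fun _ _ _ => h _ _
  obtain ⟨w, hw, rfl⟩ := mem_image.1 hp
  rw [mem_RW] at hw
  exact mem_product.2 ⟨mem_RW.2 ⟨by simp [hw.1, hj], hw.2.1.take _, by simp⟩,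
    mem_RW.2 ⟨by simp [hw.1], hw.2.1.drop _, by simp⟩⟩

variable {V : Type*} {G : SimpleGraph V}

structure Cay (G : SimpleGraph V) (d : ℕ) where
  o : V
  st : Fin d → V → V
  inv : ∀ i v, st i (st i v) = v
  adj : ∀ v w, G.Adj v w ↔ ∃ i, w = st i v
  inj : ∀ v, Function.Injective fun i => st i v
  gen : Fin d → G ≃g G
  gen_st : ∀ i j v, gen i (st j v) = st j (gen i v)
  gen_o : ∀ i, gen i o = st i o

namespace Cay

variable (S : Cay G d)

def pt : V → List (Fin d) → V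
  | v, [] => v
  | v, i :: w => pt (S.st i v) w

lemma adj_st (i : Fin d) (v : V) : G.Adj v (S.st i v) := (S.adj _ _).2 ⟨i, rfl⟩

lemma pt_append (w w' : List (Fin d)) : ∀ v, S.pt v (w ++ w') = S.pt (S.pt v w) w' := by
  induction w with
  | nil => exact fun _ => rfl
  | cons i w ih => exact fun v => ih _

lemma gen_pt (i : Fin d) (w : List (Fin d)) : ∀ v, S.gen i (S.pt v w) = S.pt (S.gen i v) w := by
  induction w with
  | nil => exact fun _ => rfl
  | cons j w ih => intro v; rw [pt, pt, ih, S.gen_st]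

lemma sum_nbr [G.LocallyFinite] (v : V) (i : Fin d) (φ : V → ℝ) :
    ∑ c ∈ (G.neighborFinset (S.st i v)).erase v, φ c =
      ∑ j with some j ≠ some i, φ (S.st j (S.st i v)) := by
  symm
  refine sum_bij (fun j _ => S.st j (S.st i v)) (fun j hj => ?_) (fun j _ k _ h => S.inj _ h)
    (fun c hc => ?_) fun _ _ => rfl
  · simp only [mem_erase, SimpleGraph.mem_neighborFinset, S.adj_st, and_true]
    exact fun h => by simpa using (mem_filter.1 hj).2 (congrArg some
      (S.inj (S.st i v) (h.trans (S.inv i v).symm)))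
  · simp only [mem_erase, SimpleGraph.mem_neighborFinset, S.adj] at hc
    obtain ⟨h1, j, rfl⟩ := hc
    exact ⟨j, by simpa using fun h => h1 (by rw [h, S.inv]), rfl⟩

include S in
lemma degree_le [G.LocallyFinite] (v : V) : G.degree v ≤ d := by
  rw [← SimpleGraph.card_neighborFinset_eq_degree]
  refine (card_le_card (t := univ.image fun i => S.st i v) fun c hc => ?_).trans
    (card_image_le.trans (by simp))
  obtain ⟨i, rfl⟩ := (S.adj _ _).1 (by simpa using hc : G.Adj v c)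
  simp

lemma st_ne {i j : Fin d} (h : some j ≠ some i) (v : V) : S.st j (S.st i v) ≠ v := fun h' =>
  h (congrArg some (S.inj (S.st i v) (h'.trans (S.inv i v).symm)))

lemma pt_mem_side (hG : G.IsAcyclic) (n : ℕ) : ∀ i v, ∀ w ∈ RW d n (some i),
    S.pt (S.st i v) w ∈ side G v (S.st i v) := by
  induction n with
  | zero => intro i v w hw; obtain rfl := mem_singleton.1 hw; exact mem_side_self _ _
  | succ n ih =>
    intro i v w hw
    cases w with
    | nil => simp [mem_RW] at hw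
    | cons j w =>
      obtain ⟨h1, h2⟩ := cons_mem_RW.1 hw
      exact side_subset hG (S.adj_st _ _) (S.st_ne h1 v) (ih j _ w h2)

lemma dist_pt (hG : G.IsTree) (n : ℕ) : ∀ a v, ∀ w ∈ RW d n a, G.dist (S.pt v w) v = n := by
  induction n with
  | zero => intro i v w hw; obtain rfl := mem_singleton.1 hw; simp [pt]
  | succ n ih =>
    intro a v w hw
    cases w with
    | nil => simp [mem_RW] at hw
    | cons j w =>
      obtain ⟨-, h2⟩ := cons_mem_RW.1 hw
      rw [pt, ← dist_of_mem_side hG (S.adj_st j v) (S.pt_mem_side hG.isAcyclic n j v w h2),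
        ih _ _ w h2]

lemma exists_word (hG : G.IsTree) (u : V) (n : ℕ) : ∀ v a, G.dist u v = n →
    (∀ i, some i = a → n < G.dist u (S.st i v)) → ∃ w ∈ RW d n a, S.pt v w = u := by
  induction n with
  | zero =>
    intro v a h _
    exact ⟨[], by simp [RW], (hG.connected.dist_eq_zero_iff.1 h).symm⟩
  | succ n ih =>
    intro v a h h'
    obtain ⟨y, h1, h2⟩ := exists_par hG.connected (v := u) (u := v) (by rintro rfl; simp at h)
    obtain ⟨i, rfl⟩ := (S.adj _ _).1 h1.symm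
    obtain ⟨w, h3, h4⟩ := ih (S.st i v) (some i) (by omega) fun j hj => by
      rw [Option.some.inj hj, S.inv]; omega
    exact ⟨i :: w, cons_mem_RW.2 ⟨fun h5 => by have := h' i h5; omega, h3⟩, h4⟩

lemma gen_gen (hG : G.IsTree) (i : Fin d) (v : V) : S.gen i (S.gen i v) = v := by
  obtain ⟨w, -, rfl⟩ := S.exists_word hG v _ S.o none rfl (by simp)
  rw [gen_pt, gen_pt, S.gen_o, S.gen_st, S.gen_o, S.inv]

def gw : List (Fin d) → G ≃g G
  | [] => RelIso.refl _
  | i :: w => (gw w).trans (S.gen i)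

lemma gw_o (w : List (Fin d)) : S.gw w S.o = S.pt S.o w := by
  induction w with
  | nil => rfl
  | cons i w ih => rw [gw, RelIso.trans_apply, ih, gen_pt, S.gen_o, pt]

lemma gw_st (w : List (Fin d)) (j : Fin d) (v : V) : S.gw w (S.st j v) = S.st j (S.gw w v) := by
  induction w with
  | nil => rfl
  | cons i w ih => rw [gw, RelIso.trans_apply, RelIso.trans_apply, ih, S.gen_st]

def ad (f : V → Fin d → ℝ) : V → List (Fin d) → ℝ
  | _, [] => 0
  | v, i :: w => f v i + ad f (S.st i v) w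

lemma ad_nonneg {f : V → Fin d → ℝ} (h : ∀ v i, 0 ≤ f v i) (w : List (Fin d)) :
    ∀ v, 0 ≤ S.ad f v w := by
  induction w with
  | nil => exact fun _ => le_rfl
  | cons i w ih => exact fun v => add_nonneg (h _ _) (ih _)

lemma ad_mono {f g : V → Fin d → ℝ} (h : ∀ v i, f v i ≤ g v i) (w : List (Fin d)) :
    ∀ v, S.ad f v w ≤ S.ad g v w := by
  induction w with
  | nil => exact fun _ => le_rfl
  | cons i w ih => exact fun v => add_le_add (h _ _) (ih _)

lemma ad_mul (f : V → Fin d → ℝ) (c : ℝ) (w : List (Fin d)) :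
    ∀ v, S.ad (fun v i => c * f v i) v w = c * S.ad f v w := by
  induction w with
  | nil => simp [ad]
  | cons i w ih => intro v; rw [ad, ad, ih, mul_add]

lemma ad_append (f : V → Fin d → ℝ) (w w' : List (Fin d)) :
    ∀ v, S.ad f v (w ++ w') = S.ad f v w + S.ad f (S.pt v w) w' := by
  induction w with
  | nil => simp [ad, pt]
  | cons i w ih => intro v; rw [List.cons_append, ad, ad, ih, pt, add_assoc]

lemma ad_reverse {f : V → Fin d → ℝ} (h : ∀ v i, f (S.st i v) i = f v i) (w : List (Fin d)) :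
    ∀ v, S.pt (S.pt v w) w.reverse = v ∧ S.ad f (S.pt v w) w.reverse = S.ad f v w := by
  induction w with
  | nil => simp [ad, pt]
  | cons i w ih =>
    intro v
    simp [pt, ad, pt_append, ad_append, (ih _).1, (ih _).2, S.inv, h, add_comm]

lemma ad_iso (φ : G ≃g G) (hφ : ∀ j v, φ (S.st j v) = S.st j (φ v)) {f f' : V → Fin d → ℝ}
    (h : ∀ v i, f (φ v) i = f' v i) (w : List (Fin d)) : ∀ v, S.ad f (φ v) w = S.ad f' v w := by
  induction w with
  | nil => exact fun _ => rfl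
  | cons i w ih => intro v; rw [ad, ad, h, ← hφ, ih]

variable [G.LocallyFinite] {θ : ℝ}

noncomputable def yf (θ : ℝ) (g : V → ℝ) (v : V) (i : Fin d) : ℝ :=
  yv θ (tanh (X G θ g (S.st i v) v))

noncomputable def ys (θ : ℝ) (g : V → ℝ) (v : V) (i : Fin d) : ℝ :=
  (S.yf θ g v i + S.yf θ g (S.st i v) i) / 2

noncomputable def nu (_S : Cay G d) (θ : ℝ) (g : V → ℝ) (v : V) : ℝ :=
  √(1 - tanh (X G θ g v v) ^ 2)

noncomputable def Cv (θ : ℝ) (g : V → ℝ) (v : V) (w : List (Fin d)) : ℝ :=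
  S.nu θ g v * S.nu θ g (S.pt v w) * θ ^ w.length * exp (-S.ad (S.ys θ g) v w)

lemma ys_st (g : V → ℝ) (v : V) (i : Fin d) : S.ys θ g (S.st i v) i = S.ys θ g v i := by
  rw [ys, ys, S.inv, add_comm]

lemma nu_nonneg (g : V → ℝ) (v : V) : 0 ≤ S.nu θ g v := sqrt_nonneg _

lemma nu_le (g : V → ℝ) (v : V) : S.nu θ g v ≤ 1 :=
  sqrt_le_one.2 (by linarith [sq_nonneg (tanh (X G θ g v v))])

variable (h0 : 0 ≤ θ) (h1 : θ < 1)
include h0 h1

lemma yf_nonneg (g : V → ℝ) (v : V) (i : Fin d) : 0 ≤ S.yf θ g v i :=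
  yv_nonneg h0 h1 (tanh_abs_lt _)

lemma ys_nonneg (g : V → ℝ) (v : V) (i : Fin d) : 0 ≤ S.ys θ g v i :=
  div_nonneg (add_nonneg (S.yf_nonneg h0 h1 _ _ _) (S.yf_nonneg h0 h1 _ _ _)) zero_le_two

lemma ad_yf_le (g : V → ℝ) (v : V) (w : List (Fin d)) :
    S.ad (S.yf θ g) v w ≤ 2 * S.ad (S.ys θ g) v w := by
  rw [← ad_mul]
  exact S.ad_mono (fun v i => by rw [ys]; linarith [S.yf_nonneg h0 h1 g (S.st i v) i]) _ _

lemma Cv_nonneg (g : V → ℝ) (v : V) (w : List (Fin d)) : 0 ≤ S.Cv θ g v w := by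
  have := S.nu_nonneg (θ := θ) g
  unfold Cv
  have := this v
  have := S.nu_nonneg (θ := θ) g (S.pt v w)
  positivity

lemma Cv_le (g : V → ℝ) (v : V) (w : List (Fin d)) :
    S.Cv θ g v w ≤ θ ^ w.length * exp (-S.ad (S.ys θ g) v w) := by
  rw [Cv, mul_assoc]
  exact mul_le_of_le_one_left (by positivity)
    (mul_le_one₀ (S.nu_le g v) (S.nu_nonneg _ _) (S.nu_le _ _))

lemma Cv_sq_le (g : V → ℝ) (v : V) (w : List (Fin d)) :
    S.Cv θ g v w ^ 2 ≤ (θ ^ 2) ^ w.length * exp (-S.ad (S.yf θ g) v w) := by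
  refine (pow_le_pow_left₀ (S.Cv_nonneg h0 h1 g v w) (S.Cv_le h0 h1 g v w) 2).trans ?_
  rw [mul_pow, ← pow_mul, mul_comm w.length, pow_mul, ← exp_nat_mul]
  gcongr
  have := S.ad_yf_le h0 h1 g v w
  push_cast
  linarith

lemma Cv_le_one (g : V → ℝ) (v : V) (w : List (Fin d)) : S.Cv θ g v w ≤ 1 :=
  (S.Cv_le h0 h1 g v w).trans (mul_le_one₀ (pow_le_one₀ h0 h1.le) (exp_pos _).le
    (exp_le_one_iff.2 (neg_nonpos.2 (S.ad_nonneg (S.ys_nonneg h0 h1 g) _ _))))

lemma R_nu {g : V → ℝ} (h : Good G θ g) (v : V) (i : Fin d) :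
    Rf θ (tanh (X G θ g v (S.st i v))) * S.nu θ g (S.st i v) =
      θ * exp (-S.ys θ g v i) * S.nu θ g v := by
  have e := (h.edge h0 h1 (S.adj_st i v)).2
  have a1 := Rf_nonneg h0 h1 (tanh_abs_lt (X G θ g v (S.st i v))).le
  refine (pow_left_inj₀ (mul_nonneg a1 (S.nu_nonneg _ _))
    (mul_nonneg (by positivity) (S.nu_nonneg _ _)) two_ne_zero).1 ?_
  rw [mul_pow, mul_pow _ (S.nu θ g v), nu, nu, sq_sqrt (sub_nonneg.2 (tanh_sq_lt _).le),
    sq_sqrt (sub_nonneg.2 (tanh_sq_lt _).le), sq, mul_assoc, ← e,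
    ← mul_assoc, Rf_eq h0 h1 (tanh_abs_lt _), Rf_eq h0 h1 (tanh_abs_lt _), ys, yf, yf, S.inv,
    mul_pow, ← exp_nat_mul, mul_mul_mul_comm, ← exp_add, ← sq]
  congr 3
  push_cast
  ring

lemma jump (hG : G.IsTree) {g g' : V → ℝ} (h : Good G θ g) {u : V} {τ : ℝ} (hτ : |τ| < 1)
    (hu : ∀ v, v ≠ u → g' v = g v) (hu' : g' u = g u + artanh τ) (n : ℕ) :
    ∀ a v, ∀ w ∈ RW d n a, S.pt v w = u → tanh (X G θ g' v v) - tanh (X G θ g v v) =
      S.Cv θ g v w * (τ / (1 + tanh (X G θ g u u) * τ)) := by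
  have h' := h.update hG h0 h1 hu
  have hX : ∀ y z, u ∉ side G y z → X G θ g' z y = X G θ g z y := fun y z hz =>
    X_congr hG.isAcyclic fun x hx => hu x fun h2 => hz (h2 ▸ hx)
  induction n with
  | zero =>
    intro a v w hw hv
    obtain rfl := mem_singleton.1 hw
    obtain rfl : v = u := hv
    have e1 : X G θ g' v v = X G θ g v v + artanh τ := by
      rw [h'.eq h0 h1, h.eq h0 h1, hu', add_right_comm]
      congr 2
      refine sum_congr rfl fun c hc => ?_
      rw [hX v c (not_mem_side hG.isAcyclic (by simpa using (mem_erase.1 hc).2))]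
    have e2 := one_add_tanh_mul_pos (X G θ g v v) (artanh τ)
    rw [e1, tanh_add']
    rw [tanh_artanh (abs_lt.1 hτ)] at e2 ⊢
    simp only [Cv, pt, ad, List.length_nil, pow_zero, neg_zero, exp_zero, mul_one, nu]
    rw [mul_self_sqrt (by linarith [tanh_sq_lt (X G θ g v v)])]
    field_simp
    ring
  | succ n ih =>
    intro a v w hw hv
    cases w with
    | nil => simp [mem_RW] at hw
    | cons j w =>
      obtain ⟨-, h2⟩ := cons_mem_RW.1 hw
      have h3 : u ∉ side G (S.st j v) v := not_mem_side_of_dist hG (S.adj_st j v).symm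
        (dist_of_mem_side hG (S.adj_st j v) (hv ▸ S.pt_mem_side hG.isAcyclic n j v w h2))
      rw [(h'.edge h0 h1 (S.adj_st j v).symm).1, (h.edge h0 h1 (S.adj_st j v).symm).1, hX _ _ h3,
        add_sub_add_left_eq_sub, ← mul_sub, ih _ _ w h2 hv]
      simp only [Cv, pt, ad, List.length_cons, neg_add, exp_add]
      linear_combination (S.nu θ g (S.pt (S.st j v) w) * θ ^ w.length *
        exp (-S.ad (S.ys θ g) (S.st j v) w) * (τ / (1 + tanh (X G θ g u u) * τ))) *
        S.R_nu h0 h1 h v j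

lemma yf_lip {g g' : V → ℝ} (h : Good G θ g) (h' : Good G θ g') {v0 ε : ℝ} (hv : 0 < v0)
    (hg : ∀ z y, v0 ≤ 1 - tanh (X G θ g z y) ^ 2) (hg' : ∀ z y, v0 ≤ 1 - tanh (X G θ g' z y) ^ 2)
    (v : V) (i : Fin d) (e1 : |tanh (X G θ g v v) - tanh (X G θ g' v v)| ≤ ε)
    (e2 : |tanh (X G θ g (S.st i v) (S.st i v)) - tanh (X G θ g' (S.st i v) (S.st i v))| ≤ ε) :
    |S.yf θ g v i - S.yf θ g' v i| ≤ 32 / (v0 * (1 - θ)) * ε := by
  have a1 := (x_lip (m' := tanh (X G θ g' v v)) h0 h1 (tanh_abs_lt (X G θ g (S.st i v) v)).le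
    (tanh_abs_lt (X G θ g' (S.st i v) v)).le (tanh_abs_lt (X G θ g v v)).le).1
  rw [← (h.edge h0 h1 (S.adj_st i v)).1, ← (h'.edge h0 h1 (S.adj_st i v)).1] at a1
  have t : 0 < 1 - θ := by linarith
  refine (yv_lip h0 h1 hv (hg _ _) (hg' _ _) (tanh_abs_lt _).le (tanh_abs_lt _).le).trans ?_
  calc _ ≤ 4 * 1 / v0 * (4 / (1 - θ) * (ε + ε)) := by
        gcongr
        exact a1.trans (by gcongr)
    _ = _ := by field_simp; ring

omit h0 h1 in
lemma nu_lip {g : V → ℝ} {v0 : ℝ} (hv : 0 < v0) (v : V) (hg : v0 ≤ 1 - tanh (X G θ g v v) ^ 2)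
    {m : ℝ} (hm : |m| ≤ 1) :
    |S.nu θ g v - √(1 - m ^ 2)| ≤ 2 / v0 * |tanh (X G θ g v v) - m| := by
  have a1 := tanh_abs_lt (X G θ g v v)
  rw [nu]
  generalize tanh (X G θ g v v) = x at *
  have a2 : 0 ≤ 1 - m ^ 2 := by linarith [(sq_le_one_iff_abs_le_one m).2 hm]
  have a3 : v0 ≤ √(1 - x ^ 2) := by
    refine le_sqrt_of_sq_le (le_trans ?_ hg)
    nlinarith [sq_nonneg x]
  have a4 : (√(1 - x ^ 2) - √(1 - m ^ 2)) * (√(1 - x ^ 2) + √(1 - m ^ 2)) =
      -(x + m) * (x - m) := by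
    have := sq_sqrt (show 0 ≤ 1 - x ^ 2 by linarith)
    have := sq_sqrt a2
    nlinarith
  have a5 := congrArg abs a4
  rw [abs_mul, abs_mul, abs_neg, abs_of_nonneg (a := _ + _) (by positivity)] at a5
  have a6 : |x + m| ≤ 2 := (abs_add_le _ _).trans (by linarith)
  rw [div_mul_eq_mul_div, le_div_iff₀ hv]
  calc _ ≤ |√(1 - x ^ 2) - √(1 - m ^ 2)| * (√(1 - x ^ 2) + √(1 - m ^ 2)) := by
        gcongr
        linarith [sqrt_nonneg (1 - m ^ 2)]
    _ ≤ _ := by rw [a5]; gcongr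

omit h0 h1 in
lemma abs_exp_neg_sub {a b : ℝ} (c : ℝ) (ha : c ≤ a) (hb : c ≤ b) :
    |exp (-a) - exp (-b)| ≤ exp (-c) * |a - b| := by
  wlog h : a ≤ b generalizing a b
  · rw [abs_sub_comm, abs_sub_comm a]; exact this hb ha (not_le.1 h).le
  rw [abs_of_nonneg (sub_nonneg.2 (exp_le_exp.2 (neg_le_neg h))), abs_of_nonpos (sub_nonpos.2 h)]
  have h2 := add_one_le_exp (a - b)
  have h3 : exp (-b) = exp (-a) * exp (a - b) := by rw [← exp_add]; congr 1; ring
  have h4 : exp (-a) ≤ exp (-c) := exp_le_exp.2 (neg_le_neg ha)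
  have h5 := exp_pos (-a)
  nlinarith

lemma Cv_lip {g g' : V → ℝ} (h : Good G θ g) (h' : Good G θ g') {v0 ε : ℝ} (hv : 0 < v0)
    (hg : ∀ z y, v0 ≤ 1 - tanh (X G θ g z y) ^ 2) (hg' : ∀ z y, v0 ≤ 1 - tanh (X G θ g' z y) ^ 2)
    (v : V) (w : List (Fin d))
    (e : ∀ w', w' <+: w → |tanh (X G θ g (S.pt v w') (S.pt v w')) -
      tanh (X G θ g' (S.pt v w') (S.pt v w'))| ≤ ε) :
    |S.Cv θ g v w - S.Cv θ g' v w| ≤ (4 / v0 + w.length * (32 / (v0 * (1 - θ)))) * ε := by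
  have b1 : |S.ad (S.ys θ g) v w - S.ad (S.ys θ g') v w| ≤ w.length * (32 / (v0 * (1 - θ))) * ε := by
    induction w generalizing v with
    | nil => simp [ad]
    | cons i w ih =>
      have c1 := ih (S.st i v) fun w' hw' => e (i :: w') (by simpa using hw')
      have c2 := e [] (by simp)
      have c3 := e [i] (by simp)
      have c4 := S.yf_lip h0 h1 h h' hv hg hg' v i c2 c3
      have c5 := S.yf_lip h0 h1 h h' hv hg hg' (S.st i v) i c3 (by rw [S.inv]; exact c2)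
      rw [abs_le] at c1 c4 c5 ⊢
      simp only [ad, ys, List.length_cons] at c1 ⊢
      push_cast
      constructor <;> linarith [c1.1, c1.2, c4.1, c4.2, c5.1, c5.2]
  have b2 := (S.nu_lip hv v (hg _ _) (tanh_abs_lt (X G θ g' v v)).le).trans
    (mul_le_mul_of_nonneg_left (e [] (by simp)) (by positivity))
  have b3 := (S.nu_lip hv (S.pt v w) (hg _ _) (tanh_abs_lt (X G θ g' _ _)).le).trans
    (mul_le_mul_of_nonneg_left (e w (by simp)) (by positivity))
  have b4 := abs_exp_neg_sub 0 (S.ad_nonneg (S.ys_nonneg h0 h1 g) w v)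
    (S.ad_nonneg (S.ys_nonneg h0 h1 g') w v)
  rw [neg_zero, exp_zero, one_mul] at b4
  have b5 : exp (-S.ad (S.ys θ g) v w) ≤ 1 :=
    exp_le_one_iff.2 (neg_nonpos.2 (S.ad_nonneg (S.ys_nonneg h0 h1 g) _ _))
  have b6 : θ ^ w.length ≤ 1 := pow_le_one₀ h0 h1.le
  have e1 : S.Cv θ g v w - S.Cv θ g' v w = θ ^ w.length * ((S.nu θ g v - S.nu θ g' v) *
      (S.nu θ g (S.pt v w) * exp (-S.ad (S.ys θ g) v w)) + ((S.nu θ g (S.pt v w) -
      S.nu θ g' (S.pt v w)) * (S.nu θ g' v * exp (-S.ad (S.ys θ g) v w)) +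
      (exp (-S.ad (S.ys θ g) v w) - exp (-S.ad (S.ys θ g') v w)) *
      (S.nu θ g' v * S.nu θ g' (S.pt v w)))) := by
    simp only [Cv]; ring
  have k : ∀ x y : ℝ, 0 ≤ y → y ≤ 1 → |x * y| ≤ |x| := fun x y a b => by
    rw [abs_mul, abs_of_nonneg a]; exact mul_le_of_le_one_right (abs_nonneg _) b
  rw [e1, mul_comm]
  refine (k _ _ (by positivity) b6).trans ((abs_add_le _ _).trans ((add_le_add_right
    (abs_add_le _ _) _).trans ?_))
  have n1 := S.nu_nonneg (θ := θ)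
  have n2 := S.nu_le (θ := θ)
  have k1 := k (S.nu θ g v - S.nu θ g' v) _ (mul_nonneg (n1 g (S.pt v w)) (exp_pos _).le)
    (mul_le_one₀ (n2 _ _) (exp_pos _).le b5)
  have k2 := k (S.nu θ g (S.pt v w) - S.nu θ g' (S.pt v w)) _
    (mul_nonneg (n1 g' v) (exp_pos _).le) (mul_le_one₀ (n2 _ _) (exp_pos _).le b5)
  have k3 := k (exp (-S.ad (S.ys θ g) v w) - exp (-S.ad (S.ys θ g') v w)) _
    (mul_nonneg (n1 g' v) (n1 g' (S.pt v w))) (mul_le_one₀ (n2 _ _) (n1 _ _) (n2 _ _))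
  have e2 : (4 / v0 + w.length * (32 / (v0 * (1 - θ)))) * ε =
    2 / v0 * ε + (2 / v0 * ε + w.length * (32 / (v0 * (1 - θ))) * ε) := by ring
  rw [e2]
  simp only [nu] at k1 k2 k3 b2 b3 ⊢
  linarith

end Cay

end Vale.Agent.P161
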