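import Vale.Agent.P161.Main
import Vale.Agent.P161.Words
import Vale.Agent.P161.Chan

/-!
The broadcast construction of the free Ising measure and the noisy observations of the spins.
-/

open Finset MeasureTheory Filter Topology Real
open scoped BigOperators Classical ENNReal unitInterval

namespace Vale.Agent.P161

variable {V : Type*} {G : SimpleGraph V} {θ : ℝ}

noncomputable def lam : Measure (I × I) := volume.prod volume

instance : IsProbabilityMeasure lam := by unfold lam; infer_instance

noncomputable def Lam (ι : Type*) : Measure (ι → I × I) := Measure.infinitePi fun _ => lam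

instance (ι : Type*) : IsProbabilityMeasure (Lam ι) := by unfold Lam; infer_instance

lemma measurable_pw {ι X : Type*} [MeasurableSpace X] (B : Set ι) :
    Measurable fun p : (ι → X) × (ι → X) => B.piecewise p.1 p.2 :=
  measurable_pi_lambda _ fun i => by by_cases h : i ∈ B <;> simp [h] <;> fun_prop

def Split {ι X : Type*} [MeasurableSpace X] (R : Measure (ι → X)) (B : Set ι) : Prop :=
  MeasurePreserving (fun p : (ι → X) × (ι → X) => B.piecewise p.1 p.2) (R.prod R) R

lemma split_Lam {ι : Type*} (B : Set ι) : Split (Lam ι) B := by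
  refine ⟨measurable_pw B, Measure.eq_infinitePi _ fun s t ht => ?_⟩
  rw [Measure.map_apply (measurable_pw B) (.pi s.countable_toSet fun _ _ => ht _)]
  have : (fun p : (ι → I × I) × (ι → I × I) => B.piecewise p.1 p.2) ⁻¹' Set.pi s t =
      Set.pi ({i ∈ s | i ∈ B} : Finset ι) t ×ˢ Set.pi ({i ∈ s | i ∉ B} : Finset ι) t := by
    ext p
    simp only [Set.mem_preimage, Set.mem_pi, mem_coe, Set.mem_prod, mem_filter]
    refine ⟨fun h => ⟨fun i hi => by simpa [hi.2] using h i hi.1, fun i hi => by
      simpa [hi.2] using h i hi.1⟩, fun h i hi => ?_⟩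
    by_cases h1 : i ∈ B
    · simpa [h1] using h.1 i ⟨hi, h1⟩
    · simpa [h1] using h.2 i ⟨hi, h1⟩
  rw [this, Measure.prod_prod, Lam, Measure.infinitePi_pi _ fun _ _ => ht _,
    Measure.infinitePi_pi _ fun _ _ => ht _, prod_filter_mul_prod_filter_not]

lemma comp_mp {ι κ : Type*} {e : κ → ι} (he : Function.Injective e) :
    MeasurePreserving (fun (ω : ι → I × I) k => ω (e k)) (Lam ι) (Lam κ) := by
  have hm : Measurable fun (ω : ι → I × I) k => ω (e k) := by fun_prop
  refine ⟨hm, Measure.eq_infinitePi _ fun s t ht => ?_⟩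
  rw [Measure.map_apply hm (.pi s.countable_toSet fun _ _ => ht _)]
  have : (fun (ω : ι → I × I) k => ω (e k)) ⁻¹' Set.pi s t =
      Set.pi (s.image e) (Function.extend e t fun _ => Set.univ) := by
    ext ω
    simp [he.extend_apply]
  rw [this, Lam, Measure.infinitePi_pi, prod_image fun _ _ _ _ h => he h]
  · simp only [he.extend_apply]
  · intro i hi
    obtain ⟨k, -, rfl⟩ := mem_image.1 hi
    rw [he.extend_apply]
    exact ht k

lemma sum_mp {ι κ : Type*} : MeasurePreserving (fun ω : ι ⊕ κ → I × I =>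
    (fun i => ω (.inl i), fun k => ω (.inr k))) (Lam (ι ⊕ κ)) ((Lam ι).prod (Lam κ)) := by
  have hm : Measurable fun ω : ι ⊕ κ → I × I => (fun i => ω (.inl i), fun k => ω (.inr k)) := by
    fun_prop
  refine ⟨hm, ?_⟩
  have h := split_Lam (Set.range (Sum.inl : ι → ι ⊕ κ))
  rw [← h.map_eq, Measure.map_map hm h.measurable,
    ← ((comp_mp (ι := ι ⊕ κ) Sum.inl_injective).prod
      (comp_mp (ι := ι ⊕ κ) Sum.inr_injective)).map_eq]
  congr 1
  funext p
  simp [Prod.map]

lemma integral_resample {ι : Type*} [DecidableEq ι] (i : ι) {F : (ι → I × I) → ℝ} (hF : BM F) :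
    ∫ ω, F ω ∂Lam ι = ∫ ω, ∫ p, F (Function.update ω i p) ∂lam ∂Lam ι := by
  rw [← integral_comp_mp (split_Lam {i}) hF.meas, integral_prod'' (hF.comp (measurable_pw _))]
  refine integral_congr_ae (ae_of_all _ fun ω => ?_)
  dsimp only
  rw [← integral_comp_mp (measurePreserving_eval_infinitePi (fun _ : ι => lam) i)
    (f := fun p => F (Function.update ω i p)) (hF.meas.comp (measurable_update ω))]
  simp only [Set.piecewise_singleton, Lam]

noncomputable def par (G : SimpleGraph V) (z u : V) : V :=
  if h : ∃ y, G.Adj y u ∧ G.dist z y + 1 = G.dist z u then h.choose else u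

lemma par_spec (hG : G.Connected) {z u : V} (h : u ≠ z) :
    G.Adj (par G z u) u ∧ G.dist z (par G z u) + 1 = G.dist z u := by
  rw [par, dif_pos (exists_par hG h)]
  exact (exists_par hG h).choose_spec

lemma side_disjoint (hG : G.IsTree) {z c c' u : V} (h : G.Adj z c) (h' : G.Adj z c') (hne : c ≠ c')
    (hu : u ∈ side G z c) : u ∉ side G z c' := fun hu' => by
  have h1 := dist_of_mem_side hG h' hu'
  have h2 := dist_of_mem_side hG h'.symm (side_subset hG.isAcyclic h hne hu)
  omega

lemma par_eq (hG : G.IsTree) {z y u : V} (h : G.Adj y u) (hd : G.dist z y + 1 = G.dist z u) :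
    par G z u = y := by
  obtain ⟨h1, h2⟩ := par_spec hG.connected (z := z) (u := u) (by rintro rfl; simp at hd)
  by_contra hne
  exact side_disjoint hG h1.symm h.symm hne (mem_side_of_dist hG h1.symm h2)
    (mem_side_of_dist hG h.symm hd)

noncomputable def eps (θ : ℝ) (p : I × I) : Bool := decide ((p.1 : ℝ) ≤ (1 + θ) / 2)

noncomputable def sbk (G : SimpleGraph V) (θ : ℝ) (z : V) (α : V → I × I) : ℕ → V → Bool
  | 0, _ => true
  | k + 1, v => eps θ (α v) == sbk G θ z α k (par G z v)

noncomputable def sb (G : SimpleGraph V) (θ : ℝ) (z : V) (α : V → I × I) (v : V) : Bool :=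
  sbk G θ z α (G.dist z v) v

lemma sb_root (z : V) (α : V → I × I) : sb G θ z α z = true := by simp [sb, sbk]

lemma sb_par (hG : G.Connected) {z u : V} (h : u ≠ z) (α : V → I × I) :
    sb G θ z α u = (eps θ (α u) == sb G θ z α (par G z u)) := by
  rw [sb, ← (par_spec hG h).2, sbk, sb]

lemma measurable_eps : Measurable (eps θ) := by
  refine measurable_to_bool ?_
  have : eps θ ⁻¹' {true} = {p | (p.1 : ℝ) ≤ (1 + θ) / 2} := by ext p; simp [eps]
  rw [this]
  exact measurableSet_le (by fun_prop) measurable_const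

lemma measurable_sb (z : V) : Measurable (sb G θ z) := by
  have : ∀ k v, Measurable fun α => sbk G θ z α k v := fun k => by
    induction k with
    | zero => exact fun _ => measurable_const
    | succ k ih =>
      exact fun v => (measurable_of_countable fun p : Bool × Bool => p.1 == p.2).comp
        ((measurable_eps.comp (measurable_pi_apply v)).prodMk (ih _))
  exact measurable_pi_lambda _ fun v => this _ v

lemma par_ind (hG : G.Connected) (z : V) {P : V → Prop} (h0 : P z)
    (h : ∀ u, u ≠ z → P (par G z u) → P u) (v : V) : P v := by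
  induction hn : G.dist z v using Nat.strong_induction_on generalizing v with
  | _ n ih =>
    by_cases hv : v = z
    · exact hv ▸ h0
    · exact h v hv (ih _ (by have := (par_spec hG hv).2; omega) _ rfl)

lemma sb_congr (hG : G.Connected) {z : V} {B : Set V}
    (hB : ∀ u ∈ B, u ≠ z → par G z u ∈ B ∨ par G z u = z) {α α' : V → I × I}
    (h : ∀ u ∈ B, u ≠ z → α u = α' u) (v : V) :
    v ∈ B ∨ v = z → sb G θ z α v = sb G θ z α' v := by
  refine par_ind hG z (P := fun v => v ∈ B ∨ v = z → sb G θ z α v = sb G θ z α' v)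
    (fun _ => by rw [sb_root, sb_root]) (fun u hu ih hB' => ?_) v
  have h1 := hB'.resolve_right hu
  rw [sb_par hG hu, sb_par hG hu, h u h1 hu, ih (hB u h1 hu)]

lemma par_side (hG : G.IsTree) {z c u : V} (h : G.Adj z c) (hu : u ∈ side G z c) (hne : u ≠ c) :
    par G c u ∈ side G z c ∧ par G z u = par G c u := by
  obtain ⟨h1, h2⟩ := par_spec hG.connected hne
  have h3 : par G c u ∈ side G z c := (side_iff h1 fun h4 => by
    rcases Sym2.eq_iff.1 h4 with ⟨-, h5⟩ | ⟨-, h5⟩
    · exact hne h5
    · exact not_mem_side hG.isAcyclic h (h5 ▸ hu)).2 hu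
  refine ⟨h3, par_eq hG h1 ?_⟩
  have a1 := dist_of_mem_side hG h hu
  have a2 := dist_of_mem_side hG h h3
  rw [G.dist_comm (u := c), G.dist_comm (u := c)] at h2
  rw [G.dist_comm (u := z), G.dist_comm (u := z)]
  omega

lemma sb_edge (hG : G.IsTree) {z c : V} (h : G.Adj z c) (α : V → I × I) (v : V) :
    v ∈ side G z c → sb G θ z α v = (eps θ (α c) == sb G θ c α v) := by
  refine par_ind hG.connected c
    (P := fun v => v ∈ side G z c → sb G θ z α v = (eps θ (α c) == sb G θ c α v))
    (fun _ => ?_) (fun u hu ih hu' => ?_) v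
  · rw [sb_par hG.connected h.ne', par_eq hG h (by
      simp [SimpleGraph.dist_eq_one_iff_adj.2 h]), sb_root, sb_root]
  · obtain ⟨h1, h2⟩ := par_side hG h hu' hu
    rw [sb_par hG.connected (u := u) (z := z) (fun h3 => not_mem_side hG.isAcyclic h (h3 ▸ hu')),
      h2, ih h1, sb_par hG.connected hu]
    cases eps θ (α u) <;> cases eps θ (α c) <;> cases sb G θ c α (par G c u) <;> rfl

lemma lam_eps (h0 : 0 ≤ θ) (h1 : θ < 1) (b : Bool) :
    lam.real {p | eps θ p = b} = (1 + θ * spin b) / 2 := by
  have h2 : lam.real {p | eps θ p = true} = (1 + θ) / 2 := by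
    have : {p | eps θ p = true} =
        Set.Iic (⟨(1 + θ) / 2, by linarith, by linarith⟩ : I) ×ˢ Set.univ := by
      ext p; simp [eps, ← Subtype.coe_le_coe]
    rw [this, lam, measureReal_prod_prod, probReal_univ, mul_one, Measure.real,
      unitInterval.volume_Iic, ENNReal.toReal_ofReal (by dsimp only; linarith)]
  cases b
  · have : {p | eps θ p = false} = {p | eps θ p = true}ᶜ := by ext p; simp
    rw [this, probReal_compl_eq_one_sub (s := {p | eps θ p = true})
      (measurable_eps (measurableSet_singleton true)), h2]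
    simp only [spin]
    norm_num
    ring
  · simpa [spin] using h2

lemma spin_beq (a b : Bool) : spin (a == b) = spin a * spin b := by
  cases a <;> cases b <;> simp [spin]

lemma spin_not (a : Bool) : spin (!a) = -spin a := by cases a <;> simp [spin]

lemma measurableSet_cyl (A : Finset V) (η : V → Bool) :
    MeasurableSet {ς : V → Bool | ∀ v ∈ A, ς v = η v} := by
  rw [Set.setOf_forall]
  simp only [Set.setOf_forall, ← Finset.set_biInter_coe]
  exact MeasurableSet.biInter A.countable_toSet fun v _ =>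
    measurable_pi_apply v (measurableSet_singleton _)

noncomputable def nuz (G : SimpleGraph V) (θ : ℝ) (z : V) : Measure (V → Bool) :=
  (Lam V).map (sb G θ z)

instance (z : V) : IsProbabilityMeasure (nuz G θ z) :=
  Measure.isProbabilityMeasure_map (measurable_sb z).aemeasurable

noncomputable def muz (G : SimpleGraph V) (θ : ℝ) (z : V) : Measure (V → Bool) :=
  (2 : ℝ≥0∞)⁻¹ • nuz G θ z + (2 : ℝ≥0∞)⁻¹ • (nuz G θ z).map fun ς v => !ς v

lemma measurable_not' : Measurable fun (ς : V → Bool) v => !ς v :=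
  measurable_pi_lambda _ fun v => (measurable_of_countable fun b : Bool => !b).comp
    (measurable_pi_apply v)

instance (z : V) : IsProbabilityMeasure (muz G θ z) := ⟨by
  haveI := Measure.isProbabilityMeasure_map (μ := nuz G θ z) measurable_not'.aemeasurable
  simp [muz, ENNReal.inv_two_add_inv_two]⟩

variable [G.LocallyFinite]

lemma nuz_ball (hG : G.IsTree) (h0 : 0 ≤ θ) (h1 : θ < 1) (z : V) {R : ℕ} (hR : 0 < R)
    (η : V → Bool) : (nuz G θ z).real {ς | ∀ v ∈ ball G z R, ς v = η v} = if η z = true then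
      ∏ e ∈ ED G (ball G z R), (1 + θ * (e.map fun v => spin (η v)).mul) / 2 else 0 := by
  have hz : z ∈ ball G z R := (mem_ball hG.connected).2 (by simpa using hR)
  have hp : ∀ u ∈ ball G z R, u ≠ z → par G z u ∈ ball G z R := fun u hu hne => by
    have := (par_spec hG.connected hne).2
    rw [mem_ball hG.connected] at hu ⊢
    omega
  rw [nuz, map_measureReal_apply (measurable_sb z) (measurableSet_cyl _ _)]
  split_ifs with h
  · have : sb G θ z ⁻¹' {ς | ∀ v ∈ ball G z R, ς v = η v} = Set.pi ((ball G z R).erase z)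
        fun u => {p | eps θ p = (η u == η (par G z u))} := by
      ext α
      simp only [Set.mem_preimage, Set.mem_setOf_eq, Set.mem_pi, mem_coe, mem_erase]
      refine ⟨fun h2 u hu => ?_, fun h2 v => par_ind hG.connected z (P := fun v =>
        v ∈ ball G z R → sb G θ z α v = η v) (fun _ => by rw [sb_root, h]) (fun u hu ih hu' => ?_) v⟩
      · rw [← h2 u hu.2, ← h2 _ (hp u hu.2 hu.1), sb_par hG.connected hu.1]
        cases eps θ (α u) <;> cases sb G θ z α (par G z u) <;> rfl
      · rw [sb_par hG.connected hu, ih (hp u hu' hu), h2 u ⟨hu, hu'⟩]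
        cases η u <;> cases η (par G z u) <;> rfl
    rw [this, Measure.real, Lam, Measure.infinitePi_pi (t := fun u =>
      {p | eps θ p = (η u == η (par G z u))}) _ fun _ _ =>
      measurable_eps (measurableSet_singleton _), ENNReal.toReal_prod]
    refine prod_bij (fun u _ => s(par G z u, u)) (fun u hu => ?_) (fun u hu u' hu' h2 => ?_)
      (fun e he => ?_) fun u _ => ?_
    · obtain ⟨a1, a2⟩ := mem_erase.1 hu
      exact mem_ED.2 ⟨hp u a2 a1, a2, (par_spec hG.connected a1).1⟩
    · have a1 := (par_spec hG.connected (mem_erase.1 hu).1).2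
      have a2 := (par_spec hG.connected (mem_erase.1 hu').1).2
      rcases Sym2.eq_iff.1 h2 with ⟨-, h3⟩ | ⟨h3, h4⟩
      · exact h3
      · rw [h3] at a1
        rw [← h4] at a2
        omega
    · induction e using Sym2.ind with
      | h p q =>
        obtain ⟨a1, a2, a3⟩ := mem_ED.1 he
        rcases hG.dist_eq_dist_add_one_of_adj z a3 with h3 | h3
        · exact ⟨p, mem_erase.2 ⟨by rintro rfl; simp at h3, a1⟩, by
            rw [par_eq hG a3.symm h3.symm, Sym2.eq_swap]⟩
        · exact ⟨q, mem_erase.2 ⟨by rintro rfl; simp at h3, a2⟩, by rw [par_eq hG a3 h3.symm]⟩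
    · rw [← Measure.real, lam_eps h0 h1, spin_beq, Sym2.map_mk, Sym2.mul_mk, mul_comm (spin _)]
  · have : sb G θ z ⁻¹' {ς | ∀ v ∈ ball G z R, ς v = η v} = ∅ :=
      Set.eq_empty_of_forall_notMem fun α h2 => h ((h2 z hz).symm.trans (sb_root _ _))
    rw [this, measureReal_empty]

lemma isFree_muz (hG : G.IsTree) (h0 : 0 ≤ θ) (h1 : θ < 1) (z : V) :
    IsFreeIsing G θ (muz G θ z) := by
  refine ⟨inferInstance, fun D hD η => ?_⟩
  obtain ⟨R, hR, hR0⟩ := exists_subset_ball hG.connected z D
  have hc := connected_of_wconn (wconn_ball hG.connected z R)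
    ⟨z, (mem_ball hG.connected).2 (by simpa using hR0)⟩
  have hA : ∀ η : V → Bool, (muz G θ z).real {ς | ∀ v ∈ ball G z R, ς v = η v} =
      W G θ (ball G z R) (fun v => spin (η v)) / 2 ^ (ball G z R).card := fun η => by
    haveI := Measure.isProbabilityMeasure_map (μ := nuz G θ z) measurable_not'.aemeasurable
    have e : (fun (ς : V → Bool) v => !ς v) ⁻¹' {ς | ∀ v ∈ ball G z R, ς v = η v} =
        {ς | ∀ v ∈ ball G z R, ς v = (fun v => !η v) v} := by
      ext ς; simp [Bool.not_eq_eq_eq_not]
    have e2 : ∀ e : Sym2 V, (e.map fun v => spin (!η v)).mul = (e.map fun v => spin (η v)).mul :=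
      fun e => by induction e using Sym2.ind with | h p q => simp [spin_not]
    rw [muz, measureReal_add_apply (by simp [ENNReal.mul_eq_top]) (by simp [ENNReal.mul_eq_top]),
      measureReal_ennreal_smul_apply, measureReal_ennreal_smul_apply,
      map_measureReal_apply measurable_not' (measurableSet_cyl _ _), e, nuz_ball hG h0 h1 z hR0,
      nuz_ball hG h0 h1 z hR0, ← card_ED hG.isAcyclic hc, W, WE]
    simp only [e2, prod_div_distrib, prod_const]
    cases η z <;> simp <;> ring
  set B := ball G z R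
  have e1 : ∀ ς : V → Bool, (if ∀ v ∈ D, ς v = η v then (1 : ℝ) else 0) = ∑ ζ : B → Bool,
      chi D (fun v => spin (η v)) (cfg B 1 ζ) *
        if ∀ v ∈ B, ς v = (fun v => if h : v ∈ B then ζ ⟨v, h⟩ else true) v then 1 else 0 := by
    intro ς
    rw [sum_eq_single (fun v : B => ς v.1) (fun ζ _ hne => ?_) (by simp), if_pos (c := ∀ v ∈ B, _ = _)
      fun v hv => by simp [hv], mul_one, chi_eq (sg_spin η) (sg_cfg _ _ _)]
    · refine if_congr (forall₂_congr fun v hv => ?_) rfl rfl
      simp only [cfg, hR hv, dif_pos, Pi.one_apply, one_mul]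
      cases ς v <;> cases η v <;> norm_num [spin]
    · rw [if_neg fun h => hne (funext fun v => by simpa using (h v.1 v.2).symm), mul_zero]
  rw [real_eq_integral' (measurableSet_cyl D η), ← ED, ← E_chi_W hG.isAcyclic hD hR (sg_spin η)]
  simp only [e1]
  rw [integral_sum' _ fun ζ _ => ((BM.const 1).ite (measurableSet_cyl _ _) (BM.const 0)).cmul _,
    E, Finset.expect_eq_sum_div_card, sum_div]
  refine sum_congr rfl fun ζ _ => ?_
  rw [integral_const_mul, ← real_eq_integral' (measurableSet_cyl _ _), hA, mul_div_assoc]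
  congr 2
  · exact WE_congr fun e he x hx => by
      simp [cfg, mem_sym2_iff.1 (mem_filter.1 he).1 x hx]
  · simp

omit [G.LocallyFinite] in
noncomputable def mu (G : SimpleGraph V) (θ : ℝ) : Measure (V → Bool) :=
  if h : ∃ μ, IsFreeIsing G θ μ then h.choose else Measure.dirac fun _ => true

omit [G.LocallyFinite] in
instance : IsProbabilityMeasure (mu G θ) := by
  unfold mu
  split_ifs with h
  · exact h.choose_spec.1
  · infer_instance

lemma isFree_mu (hG : G.IsTree) (h0 : 0 ≤ θ) (h1 : θ < 1) : IsFreeIsing G θ (mu G θ) := by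
  obtain ⟨z⟩ := hG.connected.nonempty
  have h : ∃ μ, IsFreeIsing G θ μ := ⟨_, isFree_muz hG h0 h1 z⟩
  rw [mu, dif_pos h]
  exact h.choose_spec

lemma mu_eq (hG : G.IsTree) (h0 : 0 ≤ θ) (h1 : θ < 1) (z : V) : mu G θ = muz G θ z :=
  free_unique hG.connected (isFree_mu hG h0 h1) (isFree_muz hG h0 h1 z)

lemma mu_iso (hG : G.IsTree) (h0 : 0 ≤ θ) (h1 : θ < 1) (g : G ≃g G) :
    MeasurePreserving (fun (ς : V → Bool) v => ς (g v)) (mu G θ) (mu G θ) := by
  have hm : Measurable fun (ς : V → Bool) v => ς (g v) := by fun_prop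
  refine ⟨hm, free_unique hG.connected ⟨Measure.isProbabilityMeasure_map hm.aemeasurable,
    fun D hD η => ?_⟩ (isFree_mu hG h0 h1)⟩
  have hD' : (G.induce (D.map g.toEquiv.toEmbedding : Set V)).Connected := by
    refine connected_of_wconn (fun p hp q hq => ?_) ?_
    · obtain ⟨p, hp', rfl⟩ := mem_map.1 hp
      obtain ⟨q, hq', rfl⟩ := mem_map.1 hq
      obtain ⟨w, hw⟩ := wconn_of_connected hD p hp' q hq'
      refine ⟨w.map g.toHom, fun x hx => ?_⟩
      rw [SimpleGraph.Walk.support_map] at hx
      obtain ⟨a, ha, rfl⟩ := List.mem_map.1 hx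
      exact mem_map_of_mem _ (hw a ha)
    · obtain ⟨p, hp⟩ := hD.nonempty
      exact ⟨_, mem_map_of_mem _ hp⟩
  have e : (fun (ς : V → Bool) v => ς (g v)) ⁻¹' {ς | ∀ v ∈ D, ς v = η v} =
      {ς | ∀ v ∈ D.map g.toEquiv.toEmbedding, ς v = η (g.symm v)} := by
    ext ς
    simp only [Set.mem_preimage, Set.mem_setOf_eq, forall_mem_map]
    exact forall₂_congr fun v _ => by simp
  rw [map_measureReal_apply hm (measurableSet_cyl _ _), e, (isFree_mu hG h0 h1).2 _ hD', ← ED, ← ED,
    prod_div_distrib, prod_div_distrib, prod_const, prod_const, ← WE, ← WE, ← W, ← W,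
    W_iso g D fun v => spin (η v)]
  have a1 := card_ED hG.isAcyclic hD'
  have a2 := card_ED hG.isAcyclic hD
  rw [card_map] at a1
  rw [show (ED G (D.map g.toEquiv.toEmbedding)).card = (ED G D).card by omega]

end Vale.Agent.P161
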