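import Vale.Agent.P161.Tele

/-!
One step of the differential inequality for the prediction error.
-/

open Finset MeasureTheory Filter Topology Real
open scoped BigOperators Classical ENNReal unitInterval

namespace Vale.Agent.P161

variable {V : Type*} {G : SimpleGraph V} {θ : ℝ} [G.LocallyFinite]

namespace Cay

variable {b : ℕ} (S : Cay G (b + 1))

noncomputable def JK (θ : ℝ) (N : ℕ) (s t : ℝ) (A : Set V) (j : V × ℕ) (ω : Ob V) : ℝ :=
  jp s t j (fun ω => S.Cv θ (gN N ω) S.o (S.wd j.1)) (mm G θ N j.1) (mm G θ N j.1)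
    (pc s A j ω, UU G θ s A N j ω)

noncomputable def JS (θ : ℝ) (N : ℕ) (s t : ℝ) (j : V × ℕ) : Ob V × I → ℝ :=
  jp s t j (fun ω => S.Cv θ (gN N (cut (tm V s) ω)) S.o (S.wd j.1))
    (fun ω => mm G θ N j.1 (cut (tm V s) ω)) fun ω => mm G θ N j.1 (cut (tm V s) ω)

noncomputable def JP (θ s t : ℝ) (k0 : (V × ℕ → I × I) → ℝ)
    (kc : List (Fin (b + 1)) → (V × ℕ → I × I) → ℝ) (j : V × ℕ) : Ob V × I → ℝ :=
  jp s t j (fun ω => kc (S.wd j.1) (inn G θ s ω))
    (fun ω => k0 (pull (S.gw (S.wd j.1)) (inn G θ s ω)))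
    fun ω => k0 (pull (S.gw (S.wd j.1)) (inn G θ s ω))

variable (hG : G.IsTree) (h0 : 0 ≤ θ) (h1 : θ < 1)
include h0 h1

lemma bm_JK (N : ℕ) (s t : ℝ) (A : Set V) (j : V × ℕ) : BM (S.JK θ N s t A j) :=
  (bm_jp s t j (S.bm_Cv h0 h1 N _ _) (bm_mm N _).meas (bm_mm N _).meas (abs_mm_le N _)
    (abs_mm_le N _)).comp ((measurable_pc s A j).prodMk (measurable_UU s A N j))

lemma bm_JS (N : ℕ) (s t : ℝ) (j : V × ℕ) : BM (S.JS θ N s t j) :=
  bm_jp s t j ((S.bm_Cv h0 h1 N _ _).comp (measurable_cut _))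
    ((bm_mm N _).meas.comp (measurable_cut _)) ((bm_mm N _).meas.comp (measurable_cut _))
    (fun _ => abs_mm_le N _ _) fun _ => abs_mm_le N _ _

omit h0 h1 in
lemma bm_JP (s t : ℝ) {k0 : (V × ℕ → I × I) → ℝ} {kc : List (Fin (b + 1)) → (V × ℕ → I × I) → ℝ}
    (k1 : BM k0) (k2 : ∀ ξ, |k0 ξ| ≤ 1) (k3 : ∀ w, BM (kc w)) (j : V × ℕ) :
    BM (S.JP θ s t k0 kc j) :=
  have := (k1.comp ((measurable_pull (S.gw (S.wd j.1))).comp
    (measurable_inn (G := G) (θ := θ) s))).meas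
  bm_jp s t j ((k3 _).comp (measurable_inn s)) this this (fun _ => k2 _) fun _ => k2 _

include hG

lemma tailJ (hb : 2 ≤ b) (hθ : b * θ ^ 2 = 1) {N : ℕ} {s0 τ : ℝ} (hs0 : 0 < s0) (hτ : 0 < τ) :
    ∃ l, ∀ s t, s0 ≤ s → s ≤ t → t ≤ N → ∀ k,
      ∫ ω, (∑ j ∈ (ball G S.o k \ ball G S.o l) ×ˢ range N, S.JK θ N s t (ball G S.o k) j ω) ^ 2
        ∂Q G θ (top V) ≤ (t - s) * τ := by
  obtain ⟨r, hr⟩ : ∃ r, r = min s0 (1 / 2) := ⟨_, rfl⟩
  have r0 : 0 < r := hr ▸ lt_min hs0 one_half_pos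
  have r1 : r ≤ 1 / 2 := hr ▸ min_le_right _ _
  have r2 : r ≤ s0 := hr ▸ min_le_left _ _
  have t0 : 0 < 1 - θ := by linarith
  have t1 : 0 < θ ^ 2 := pow_pos (h0.lt_of_ne fun h => by simp [← h] at hθ) 2
  have t2 : 0 < 1 - θ ^ 2 := by nlinarith
  obtain ⟨l, hl⟩ : ∃ l, l = r ^ 2 / 7 * ((1 - θ ^ 2) * θ ^ 2) := ⟨_, rfl⟩
  have l0 : 0 < l := by rw [hl]; positivity
  have l1 : l ≤ r ^ 2 / 7 := hl ▸ mul_le_of_le_one_right (by positivity) (by nlinarith)
  have l2 : r ^ 2 / 7 ≤ 1 := by nlinarith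
  obtain ⟨ρ, hρ⟩ : ∃ ρ, ρ = 1 - (1 - θ) / 2 * (l * (r ^ 2 / 7) - l ^ 2 * 1 / 2) := ⟨_, rfl⟩
  have ρ1 : ρ < 1 := by
    rw [hρ]
    exact sub_lt_self _ (mul_pos (by positivity) (by nlinarith))
  have ρ0 : 0 ≤ ρ := by
    rw [hρ]
    exact sub_nonneg.2 (mul_le_one₀ (by linarith) (by nlinarith) (by nlinarith))
  obtain ⟨L, hL⟩ := (((tendsto_pow_atTop_nhds_zero_of_lt_one ρ0 ρ1).div_const (1 - ρ)).const_mul
    (4 * N : ℝ)).eventually (gt_mem_nhds (a := τ) (by simpa using hτ)) |>.exists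
  refine ⟨L, fun s t hs hst ht k => ?_⟩
  have N0 : 0 < N := by exact_mod_cast hs0.trans_le (hs.trans (hst.trans ht))
  refine (orth hG h0 h1 S.degree_eq s (ball G S.o k) _ (fun j hj => ⟨(mem_sdiff.1
    (mem_product.1 hj).1).1, mem_range.1 (mem_product.1 hj).2⟩) (fun j => bm_jp s t j
    (S.bm_Cv h0 h1 N _ _) (bm_mm N _).meas (bm_mm N _).meas (abs_mm_le N _) (abs_mm_le N _))
    fun j => integral_jp s t j _ (abs_mm_le N _)).trans_le ((sum_le_sum
    (g := fun j => 2 * (t - s) * (θ ^ 2 * ρ) ^ (S.wd j.1).length) fun j _ => ?_).trans ?_)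
  · refine palm' hG h0 h1 j hst (by positivity) (K := fun p => (θ ^ 2) ^ (S.wd j.1).length *
      S.Ew θ (r ^ 2 / 7) N S.o (S.wd j.1) (cut (sl s (ball G S.o k) (j.2 + p.1)) p.2))
      (((S.bm_Ew h0 h1 (by positivity) _ _).comp (measurable_cut_sl s _ (by fun_prop)
      measurable_snd)).cmul _) (fun p => mul_nonneg (by positivity) (exp_pos _).le)
      (fun T ω _ h => by simp only [Ew]; rw [gN_update (add_le_add le_rfl h)]) (fun T h h' => ?_)
      (fun ω h => jp_zero (ω := pc _ _ j ω) h _) (.of_forall fun ω h h' => ?_)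
    · have hA := sl_bound (s := s) (A := (ball G S.o k : Set V)) (h'.le.trans ht)
      have := S.decay' hG h0 h1 hb hθ hA N0 r0.le r1 (r := r ^ 2) (M := 1) (by nlinarith) l0.le
        (fun z T h2 => tm_sub h _ (mem_tm.2 (by simpa using h2.trans_le (r2.trans hs))))
        (fun y z _ => integral_le_const ((BM.tanh (measurable_X (measurable_gN N) _ _)).pow 4)
          fun ω => by
            nlinarith [tanh_sq_lt (X G θ (gN N ω) z y), sq_nonneg (tanh (X G θ (gN N ω) z y))])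
        _ _ S.o _ (S.wd_spec hG j.1).1
      rw [← hρ, hl, mul_div_cancel_right₀ _ (by positivity),
        ← (mem_RW.1 (S.wd_spec hG j.1).1).1] at this
      dsimp only
      rw [integral_const_mul, mul_pow, integral_comp_mp (mp_cut_Q (B := top V) fun _ =>
        Set.subset_univ _) (S.bm_Ew h0 h1 (by positivity) _ _).meas]
      exact mul_le_mul_of_nonneg_left this (by positivity)
    · rw [jp_eq (ω := pc _ _ j ω) h h', mul_pow]
      refine (mul_le_of_le_one_right (sq_nonneg _) (sq_le_one_iff_abs_le_one _ |>.2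
        ((abs_psi_le (abs_aT_le _) (abs_mm_le _ _ _) (abs_mm_le _ _ _) _).trans
        (by linarith [abs_aT_le (pc s (ball G S.o k) j ω j).1])))).trans
        ((S.Cv_sq_le h0 h1 _ _ _).trans (mul_le_mul_of_nonneg_left (exp_le_exp.2 (neg_le_neg
        (mul_le_of_le_one_left (S.ad_nonneg (S.yf_nonneg h0 h1 _) _ _) l2))) (by positivity)))
  · rw [← mul_sum, sum_product]
    simp only [sum_const, card_range, nsmul_eq_mul, ← mul_sum]
    have a1 := S.sum_wd hG (U := ball G S.o k \ ball G S.o L) (T := Ico L k) (fun u hu => by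
      simpa [mem_ball hG.connected, SimpleGraph.dist_comm, and_comm] using hu)
      (f := fun w => (θ ^ 2 * ρ) ^ w.length) fun _ => by positivity
    have a2 : ∑ n ∈ Ico L k, ∑ w ∈ RW (b + 1) n none, (θ ^ 2 * ρ) ^ w.length ≤
        2 * (ρ ^ L / (1 - ρ)) := by
      refine le_trans ?_ (mul_le_mul_of_nonneg_left (geom_sum_Ico_le_of_lt_one (n := k) ρ0 ρ1)
        zero_le_two)
      rw [mul_sum]
      refine sum_le_sum fun n _ => ?_
      rw [sum_congr rfl fun w hw => by rw [(mem_RW.1 hw).1], sum_const, nsmul_eq_mul]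
      refine (mul_le_mul_of_nonneg_right (card_RW_le (by omega) n) (by positivity)).trans_eq ?_
      rw [mul_assoc, ← mul_pow, ← mul_assoc, hθ, one_mul]
    nlinarith [mul_le_mul_of_nonneg_left ((mul_le_mul_of_nonneg_left (a1.trans a2)
      (show (0 : ℝ) ≤ 2 * N by positivity)).trans (by linarith : _ ≤ τ)) (sub_nonneg.2 hst)]

lemma diffJ (N l : ℕ) : ∃ C, 0 ≤ C ∧ ∀ s t : ℝ, s ≤ t → t ≤ N → ∀ A : Finset V,
    ∀ j ∈ ball G S.o l ×ˢ range N, ∫ ω, (S.JK θ N s t A j ω - S.JS θ N s t j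
      (pc 0 Set.univ j ω, UU G θ 0 Set.univ N j ω)) ^ 2 ∂Q G θ (top V) ≤
      2 * (t - s) * (C * ∑ v ∈ ball G S.o l, (qq G θ N v (tm V t) - qq G θ N v (tm V s))) := by
  obtain ⟨x0, x1, x2, x3⟩ := exists_x0 h0 h1 S.degree_le N
  obtain ⟨v, hv⟩ : ∃ v, v = 1 - x0 ^ 2 := ⟨_, rfl⟩
  have v0 : 0 < v := by nlinarith
  have v2 : ∀ (ω : Ob V) z y, v ≤ 1 - tanh (X G θ (gN N ω) z y) ^ 2 := fun ω z y => by
    nlinarith [sq_le_sq' (abs_le.1 (x3 ω z y)).1 (abs_le.1 (x3 ω z y)).2]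
  have t0 : 0 < 1 - θ := by linarith
  obtain ⟨L, hL⟩ : ∃ L, L = 4 / v + l * (32 / (v * (1 - θ))) := ⟨_, rfl⟩
  have L0 : 0 ≤ L := by rw [hL]; positivity
  refine ⟨(L + 1) ^ 2 * (ball G S.o l).card * 2 * 2, by positivity, fun s t hst ht A j hj => ?_⟩
  have hA : ∀ i, N ≤ i.2 → (tm V t).s i = ∅ := sl_bound ht
  have bm := fun v (A : Set V) s => (bm_mm (G := G) (θ := θ) N v).comp
    (measurable_cut_sl (r := fun p : I × Ob V => (j.2 + p.1 : ℝ)) s A (by fun_prop) measurable_snd)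
  have bs := fun v => ((bm_mm (G := G) (θ := θ) N v).comp (measurable_cut (tm V s))).comp
    (measurable_snd (α := I))
  have bK := fun v => (((bm v A s).sub (bs v)).pow 2).add (((bm v Set.univ 0).sub (bs v)).pow 2)
  refine palm' hG h0 h1 j hst (mul_nonneg (by positivity) (sum_nonneg fun v _ => sub_nonneg.2
    (qq_mono hG h0 h1 S.degree_eq hA (sl_mono hst) v))) ((BM.sum (ball G S.o l) fun v _ =>
    bK v).cmul ((L + 1) ^ 2 * (ball G S.o l).card * 2)) (fun p => by positivity)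
    (fun T ω h h' => ?_) (fun T h h' => ?_) (fun ω h => by
      rw [JK, JS, jp_zero (ω := pc _ _ j ω) h, jp_zero (ω := pc _ _ j ω) h, sub_zero])
    ((good_top hG h0 h1 S.degree_eq (sl_bound (s := 0) (A := Set.univ) (hst.trans ht))).mono
      fun ω hω h h' => ?_)
  · have : (j.2 + T : ℝ) ≤ rho ω j := add_le_add le_rfl h'
    simp only [mm, tm, gN_update this, gN_update (h.trans this)]
  · rw [integral_const_mul, integral_sum' _ fun v _ => (bK v).comp measurable_prodMk_left,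
      mul_assoc (_ * 2) 2, mul_sum _ _ 2]
    refine mul_le_mul_of_nonneg_left (sum_le_sum fun v _ => ?_) (by positivity)
    have e := fun s (A : Set V) => qq_mono hG h0 h1 S.degree_eq hA (sl_mono (s := s) (A := A) h'.le) v
    rw [integral_add' ((((bm v A s).sub (bs v)).pow 2).comp measurable_prodMk_left)
      ((((bm v _ 0).sub (bs v)).pow 2).comp measurable_prodMk_left),
      qq_sub hG h0 h1 S.degree_eq (sl_bound (h'.le.trans ht)) (tm_sub h),
      qq_sub hG h0 h1 S.degree_eq (A := tm V s) (sl_bound (h'.le.trans ht)) (sl_mono h),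
      show sl 0 Set.univ s = tm V s from rfl]
    linarith [e s A, e 0 Set.univ]
  · have g := hω.finite hG h0 h1 A (gN N (pc s A j ω)) fun v hv => sum_congr rfl fun n _ => by
      rw [pc, tau_cut, tau_cut]
      exact congrArg _ (if_congr ⟨fun h2 => mem_tm.2 (h2.2.resolve_right hv), fun h2 =>
        tm_sub h _ h2⟩ rfl rfl)
    have hw := S.wd_spec hG j.1
    have hj' := (mem_ball hG.connected).1 (mem_product.1 hj).1
    have hl : (S.wd j.1).length < l := by rwa [(mem_RW.1 hw.1).1, SimpleGraph.dist_comm]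
    have a1 := S.Cv_lip h0 h1 g hω v0 (v2 _) (v2 _) S.o (S.wd j.1) fun w hw => single_le_sum
      (f := fun v => |mm G θ N v (pc s A j ω) - mm G θ N v (cut (tm V s) ω)|)
      (fun _ _ => abs_nonneg _) ((mem_ball hG.connected).2
        ((S.dist_pt_le hG.connected w _).trans_lt (hw.length_le.trans_lt hl)))
    have a2 := psi_lip (abs_aT_le (ω j).1) (abs_mm_le (G := G) (θ := θ) N j.1 (pc 0 Set.univ j ω))
      (abs_mm_le (G := G) (θ := θ) N j.1 (pc s A j ω))
      (abs_mm_le (G := G) (θ := θ) N j.1 (cut (tm V s) ω))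
      (abs_mm_le (G := G) (θ := θ) N j.1 (cut (tm V s) ω)) (UU G θ 0 Set.univ N j ω)
    have a3 := abs_psi_le (abs_aT_le (ω j).1) (abs_mm_le (G := G) (θ := θ) N j.1 (pc 0 Set.univ j ω))
      (abs_mm_le (G := G) (θ := θ) N j.1 (pc s A j ω)) (UU G θ 0 Set.univ N j ω)
    have a4 := single_le_sum (f := fun v => |mm G θ N v (pc s A j ω) - mm G θ N v (cut (tm V s) ω)|
      + |mm G θ N v (pc 0 Set.univ j ω) - mm G θ N v (cut (tm V s) ω)|)
      (fun _ _ => by positivity) (mem_product.1 hj).1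
    have a5 := sum_le_sum (s := ball G S.o l) fun v _ => le_add_of_nonneg_right
      (a := |mm G θ N v (pc s A j ω) - mm G θ N v (cut (tm V s) ω)|)
      (abs_nonneg (mm G θ N v (pc 0 Set.univ j ω) - mm G θ N v (cut (tm V s) ω)))
    have a6 : 4 / v + (S.wd j.1).length * (32 / (v * (1 - θ))) ≤ L := by rw [hL]; gcongr
    have a7 : |S.JK θ N s t A j ω - S.JS θ N s t j (pc 0 Set.univ j ω, UU G θ 0 Set.univ N j ω)| ≤
        (L + 1) * ∑ v ∈ ball G S.o l, (|mm G θ N v (pc s A j ω) - mm G θ N v (cut (tm V s) ω)|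
        + |mm G θ N v (pc 0 Set.univ j ω) - mm G θ N v (cut (tm V s) ω)|) := by
      rw [JK, JS, jp_eq (ω := pc _ _ j ω) h h', jp_eq (ω := pc _ _ j ω) h h',
        show cut (tm V s) (pc 0 Set.univ j ω) = cut (tm V s) ω from cut_cut (sl_mono h) ω,
        show psi (aT (pc s A j ω j).1) (mm G θ N j.1 (pc s A j ω)) (mm G θ N j.1 (pc s A j ω))
          (UU G θ s A N j ω) = psi (aT (ω j).1) (mm G θ N j.1 (pc 0 Set.univ j ω))
          (mm G θ N j.1 (pc s A j ω)) (UU G θ 0 Set.univ N j ω) by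
          rw [psi, psi, ← tau_eq, tau_eq (G := G) (θ := θ) s A N]; rfl,
        show (pc 0 Set.univ j ω j).1 = (ω j).1 from rfl]
      have c0 := S.Cv_nonneg h0 h1 (gN N (cut (tm V s) ω)) S.o (S.wd j.1)
      have c1 := S.Cv_le_one h0 h1 (gN N (cut (tm V s) ω)) S.o (S.wd j.1)
      refine le_trans (le_of_eq (congrArg _ ((show ∀ a b c d : ℝ, a * b - c * d =
        (a - c) * b + c * (b - d) from fun _ _ _ _ => by ring) _ _ _ _))) ((abs_add_le _ _).trans ?_)
      rw [abs_mul, abs_mul, abs_of_nonneg c0, add_mul, one_mul]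
      have a0 := abs_aT_le (ω j).1
      exact add_le_add ((mul_le_of_le_one_right (abs_nonneg _) (by linarith)).trans (a1.trans
        (mul_le_mul a6 a5 (by positivity) L0))) ((mul_le_of_le_one_left (abs_nonneg _) c1).trans
        (a2.trans ((mul_le_of_le_one_left (by positivity) (by linarith)).trans (by linarith))))
    rw [← sq_abs]
    refine (pow_le_pow_left₀ (abs_nonneg _) a7 2).trans ?_
    rw [mul_pow, mul_assoc, mul_assoc, mul_sum _ _ 2]
    refine mul_le_mul_of_nonneg_left (sq_sum_le_card_mul_sum_sq.trans (mul_le_mul_of_nonneg_left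
      (sum_le_sum fun v _ => _root_.add_sq_le.trans_eq ?_) (by positivity))) (sq_nonneg _)
    rw [sq_abs, sq_abs]
    rfl

lemma predJ (N l : ℕ) {s t : ℝ} (hst : s ≤ t) (ht : t ≤ 2 * s) {k0 : (V × ℕ → I × I) → ℝ}
    {kc : List (Fin (b + 1)) → (V × ℕ → I × I) → ℝ} (hb : 2 ≤ b) (k1 : BM k0) (k2 : ∀ ξ, |k0 ξ| ≤ 1)
    (k3 : ∀ w, BM (kc w)) : ∑ j ∈ ball G S.o l ×ˢ range N, ∫ ω,
      (S.JS θ N s t j (pc 0 Set.univ j ω, UU G θ 0 Set.univ N j ω) -
        S.JP θ s t k0 kc j (pc 0 Set.univ j ω, UU G θ 0 Set.univ N j ω)) ^ 2 ∂Q G θ (top V) ≤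
      (t - s) * (32 * N * (min s (1 / 2) ^ 2 * ∑ n ∈ range l, ∑ w ∈ RW (b + 1) n none,
        ∫ ω, (|S.Cv θ (gN N ω) S.o w - kc w (inn G θ s ω)| +
        2 * S.Cv θ (gN N ω) S.o w * |mm G θ N (S.pt S.o w) ω -
          k0 (pull (S.gw w) (inn G θ s ω))|) ^ 2 ∂Q G θ (tm V s))) := by
  have bF := fun w => ((((S.bm_Cv h0 h1 N S.o w).sub ((k3 w).comp
    (measurable_inn (G := G) (θ := θ) s))).cont continuous_abs).add
    (((S.bm_Cv h0 h1 N S.o w).cmul 2).mul (((bm_mm (G := G) (θ := θ) N (S.pt S.o w)).sub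
    (k1.comp ((measurable_pull (S.gw w)).comp (measurable_inn (G := G) (θ := θ) s)))).cont
    continuous_abs))).pow 2
  obtain ⟨f, hf⟩ : ∃ f : List (Fin (b + 1)) → ℝ, ∀ w, ∫ ω, (|S.Cv θ (gN N ω) S.o w -
    kc w (inn G θ s ω)| + 2 * S.Cv θ (gN N ω) S.o w * |mm G θ N (S.pt S.o w) ω -
      k0 (pull (S.gw w) (inn G θ s ω))|) ^ 2 ∂Q G θ (tm V s) = f w := ⟨_, fun _ => rfl⟩
  have f0 : ∀ w, 0 ≤ f w := fun w => hf w ▸ integral_nonneg fun _ => sq_nonneg _
  simp only [hf]
  refine (sum_le_sum (g := fun j => 2 * (t - s) * (16 * min s (1 / 2) ^ 2 * f (S.wd j.1)))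
    fun j _ => ?_).trans ?_
  · refine palm' hG h0 h1 j hst (mul_nonneg (by positivity) (f0 _))
      ((((bF (S.wd j.1)).comp (measurable_cut (tm V s))).cmul (16 * min s (1 / 2) ^ 2)).comp
      measurable_snd) (fun p => by positivity) (fun T ω h h' => ?_) (fun T _ _ => ?_) (fun ω h => by
        rw [JP, JS, jp_zero (ω := pc _ _ j ω) h, jp_zero (ω := pc _ _ j ω) h, sub_zero])
      (.of_forall fun ω h h' => ?_)
    · have : s ≤ rho ω j := h.trans (add_le_add le_rfl h')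
      simp only [Function.comp, inn_cut fun _ => subset_rfl, inn_update this]
      simp only [mm, tm, gN_update this]
    · dsimp only
      rw [integral_const_mul, integral_comp_mp (mp_cut_Q (B := top V) fun _ =>
        Set.subset_univ _) (bF _).meas]
      exact (congrArg _ (hf _)).le
    · rw [JP, JS, jp_eq (ω := pc _ _ j ω) h h', jp_eq (ω := pc _ _ j ω) h h',
        show cut (tm V s) (pc 0 Set.univ j ω) = cut (tm V s) ω from cut_cut (sl_mono h) ω,
        show inn G θ s (pc 0 Set.univ j ω) = inn G θ s ω from inn_cut (sl_mono h) ω,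
        show (pc 0 Set.univ j ω j).1 = (ω j).1 from rfl]
      simp only [Function.comp, inn_cut fun _ => subset_rfl, (S.wd_spec hG j.1).2]
      have c0 := S.Cv_nonneg h0 h1 (gN N (cut (tm V s) ω)) S.o (S.wd j.1)
      have a0 : |aT (ω j).1| ≤ 2 * min s (1 / 2) := by
        rw [mul_min_of_nonneg _ _ zero_le_two]
        refine le_min ?_ ((abs_aT_le _).trans (by norm_num))
        rw [abs_of_nonneg (aT_nonneg _)]
        linarith [aT_le (ω j).1, show ((ω j).1 : ℝ) ≤ rho ω j from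
          le_add_of_nonneg_left j.2.cast_nonneg]
      have hm := abs_mm_le (G := G) (θ := θ) N j.1 (cut (tm V s) ω)
      have hk := k2 (pull (S.gw (S.wd j.1)) (inn G θ s ω))
      have a2 := psi_lip (abs_aT_le (ω j).1) hm hm hk hk (UU G θ 0 Set.univ N j ω)
      have a3 := abs_psi_le (abs_aT_le (ω j).1) hk hk (UU G θ 0 Set.univ N j ω)
      rw [← sq_abs, show (16 : ℝ) = 4 ^ 2 by norm_num, ← mul_pow, ← mul_pow]
      refine pow_le_pow_left₀ (abs_nonneg _) (le_trans (le_of_eq (congrArg _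
        ((show ∀ a b c d : ℝ, a * b - c * d = (a - c) * d + a * (b - d) from
        fun _ _ _ _ => by ring) _ _ _ _))) ((abs_add_le _ _).trans ?_)) 2
      rw [abs_mul, abs_mul, abs_of_nonneg c0, mul_add]
      refine add_le_add ((mul_comm _ _).trans_le (mul_le_mul_of_nonneg_right (by linarith)
        (abs_nonneg _))) ((mul_le_mul_of_nonneg_left (a2.trans (mul_le_mul_of_nonneg_right
        (mul_le_mul_of_nonneg_left a0 zero_le_two) (by positivity))) c0).trans_eq (by ring))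
  · rw [← mul_sum, sum_product]
    simp only [sum_const, card_range, nsmul_eq_mul, ← mul_sum]
    have a1 := S.sum_wd hG (U := ball G S.o l) (T := range l) (fun u hu => by
      simpa [mem_ball hG.connected, SimpleGraph.dist_comm] using hu) f0
    linarith [mul_le_mul_of_nonneg_left a1 (show 0 ≤ (t - s) * (32 * N * min s (1 / 2) ^ 2) from
      mul_nonneg (sub_nonneg.2 hst) (by positivity))]

set_option maxHeartbeats 1000000 in
lemma step (hb : 2 ≤ b) (hθ : b * θ ^ 2 = 1) (N : ℕ) : ∃ C : ℝ, 1 ≤ C ∧ ∃ ε : ℕ → ℝ,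
    (∀ M, 0 ≤ M → Tendsto (fun L : ℕ => ε L * exp (M * (1 + L) ^ 3)) atTop (𝓝 0)) ∧
    ∀ s0 τ : ℝ, 0 < s0 → 0 < τ → ∃ (Φ : ℝ → ℝ) (B : ℝ), (∀ s, 0 ≤ Φ s ∧ Φ s ≤ B) ∧
    ∀ s t, s0 ≤ s → s ≤ t → t ≤ N → t ≤ 2 * s → Φ s ≤ Φ t ∧
    ∀ (η p : ℝ) (L : ℕ), 0 ≤ η → η ≤ 1 → (∀ y z, G.Adj y z →
      (Q G θ (tm V s)).real {ω | η < |tanh (X G θ (gN N ω) z y)|} ≤ p) →
      dl G θ N S.o t ≤ dl G θ N S.o s + (t - s) * (C * ((1 + L) ^ 3 * (dl G θ N S.o s + p) +
        (η ^ 2 * dl G θ N S.o s + p) / min s (1 / 2)) + ε L + τ + (Φ t - Φ s)) := by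
  obtain ⟨C, C1, ε, ε1, hC⟩ := S.pred hG h0 h1 hb hθ N
  have N0 : (0 : ℝ) ≤ N := N.cast_nonneg
  refine ⟨128 * (N + 1) * C, by nlinarith, fun L => 128 * (N + 1) * ε L, fun M hM => by
    simpa only [mul_assoc, mul_zero] using ((ε1 M hM).const_mul (N + 1 : ℝ)).const_mul 128,
    fun s0 τ hs0 hτ => ?_⟩
  obtain ⟨l, hl⟩ := S.tailJ hG h0 h1 hb hθ (N := N) hs0 (show 0 < τ / 4 by positivity)
  obtain ⟨E, E0, hE⟩ := S.diffJ hG h0 h1 N l
  obtain ⟨D, hD⟩ : ∃ D, D = ball G S.o l ×ˢ range N := ⟨_, rfl⟩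
  have q0 : ∀ v A, 0 ≤ qq G θ N v A ∧ qq G θ N v A ≤ 1 := fun v A =>
    ⟨integral_nonneg fun _ => sq_nonneg _, integral_le_const (((bm_mm N v).comp
      (measurable_cut A)).pow 2) fun _ => (sq_le_one_iff_abs_le_one _).2 (abs_mm_le _ _ _)⟩
  refine ⟨fun s => 8 * D.card ^ 2 * E * ∑ v ∈ ball G S.o l, qq G θ N v (tm V s),
    8 * D.card ^ 2 * E * ∑ v ∈ ball G S.o l, 1, fun s => ⟨mul_nonneg (by positivity)
    (sum_nonneg fun v _ => (q0 _ _).1), mul_le_mul_of_nonneg_left (sum_le_sum fun v _ => (q0 _ _).2)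
    (by positivity)⟩, fun s t hs hst ht ht' => ?_⟩
  have hA : ∀ i, N ≤ i.2 → (tm V t).s i = ∅ := sl_bound ht
  refine ⟨mul_le_mul_of_nonneg_left (sum_le_sum fun v _ =>
    qq_mono hG h0 h1 S.degree_eq hA (sl_mono hst) v) (by positivity), fun η p L η0 η1 hp => ?_⟩
  obtain ⟨k0, kc, k1, k2, k3, k4, k5⟩ := hC s (hs0.trans_le hs) (hst.trans ht)
  replace k5 := k5 η p L l η0 η1 hp
  have mpc := fun j => (measurable_pc 0 Set.univ j).prodMk
    (measurable_UU (G := G) (θ := θ) 0 Set.univ N j)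
  have bP := S.bm_JP (θ := θ) s t k1 k2 k3
  have bS := S.bm_JS h0 h1 N s t
  have bm := fun A => (bm_mm (G := G) (θ := θ) N S.o).comp (measurable_cut A)
  have be0 := (bm_mm (G := G) (θ := θ) N S.o).sub (k1.comp (measurable_inn (G := G) (θ := θ) s))
  have be := BM.comap (cut (tm V s)) be0
  have e1 := (integral_comp_mp (mp_cut_Q (B := top V) fun _ => Set.subset_univ _)
    (be0.pow 2).meas).trans_le k4
  simp only [inn_cut fun _ => subset_rfl] at be e1
  have e2 := (isCE_mm hG h0 h1 S.degree_eq (A := tm V s) hA (sl_mono hst) S.o).eq _ be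
  replace be := be.mono (measurable_cut _).comap_le
  have e3 : ∀ j ∈ D, ∫ ω, S.JP θ s t k0 kc j (pc 0 Set.univ j ω, UU G θ 0 Set.univ N j ω) *
      (mm G θ N S.o (cut (tm V s) ω) - k0 (inn G θ s ω)) ∂Q G θ (top V) = 0 := fun j hj => by
    refine Eq.trans (congrArg _ (funext fun ω => ?_)) (innov hG h0 h1 S.degree_eq 0 Set.univ
      (mem_range.1 (mem_product.1 (hD ▸ hj)).2) ((bP j).mul (be.comp measurable_fst)) fun ω => by
        dsimp only
        rw [integral_mul_const, JP, integral_jp _ _ _ _ fun _ => k2 _, zero_mul])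
    by_cases h : s ≤ rho ω j
    · dsimp only
      rw [show cut (tm V s) (pc 0 Set.univ j ω) = cut (tm V s) ω from cut_cut (sl_mono h) ω,
        show inn G θ s (pc 0 Set.univ j ω) = inn G θ s ω from inn_cut (sl_mono h) ω]
    · rw [JP, jp_zero (ω := pc _ _ j ω) fun h' => h h'.1, zero_mul, zero_mul]
  have bR := ((bm (tm V t)).sub (bm (tm V s))).sub (BM.sum D fun j _ => (bP j).comp (mpc j))
  have e4 : dl G θ N S.o t ≤ dl G θ N S.o s + ∫ ω, (mm G θ N S.o (cut (tm V t) ω) -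
      mm G θ N S.o (cut (tm V s) ω) - ∑ j ∈ D, S.JP θ s t k0 kc j (pc 0 Set.univ j ω,
      UU G θ 0 Set.univ N j ω)) ^ 2 ∂Q G θ (top V) := by
    have mk := fun j : V × ℕ => (k1.comp ((measurable_pull (S.gw (S.wd j.1))).comp
      (measurable_fgt s))).meas
    have bZ := (k1.comp (measurable_fgt s)).add (BM.sum D fun j _ => (bm_jp s t j
      ((k3 (S.wd j.1)).comp (measurable_fgt s)) (mk j) (mk j) (fun _ => k2 _) fun _ => k2 _).comp
      (φ := fun ξ => (ξ, (ξ j).2)) (by fun_prop))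
    have a1 := integral_sub' (μ := Q G θ (top V)) (((bm (tm V t)).mul be).sub
      ((bm (tm V s)).mul be)) (BM.sum D fun j _ => ((bP j).comp (mpc j)).mul be)
    rw [integral_sub' ((bm _).mul be) ((bm _).mul be), e2, sub_self,
      integral_sum' _ fun j _ => ((bP j).comp (mpc j)).mul be, sum_eq_zero e3, sub_self] at a1
    have a2 := integral_add' (μ := Q G θ (top V)) ((be.pow 2).add (bR.pow 2))
      (((((bm (tm V t)).mul be).sub ((bm (tm V s)).mul be)).sub
      (BM.sum D fun j _ => ((bP j).comp (mpc j)).mul be)).cmul 2)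
    rw [integral_const_mul, a1, mul_zero, add_zero, integral_add' (be.pow 2) (bR.pow 2)] at a2
    refine (dl_le N S.o t bZ).trans (le_trans (le_of_eq ?_) (a2.trans_le (add_le_add e1 le_rfl)))
    rw [← integral_comp_mp (mp_cut_Q (B := top V) fun _ => Set.subset_univ _)
      (((bm_mm N S.o).sub (bZ.comp (measurable_inn t))).pow 2).meas]
    refine congrArg _ (funext fun ω => ?_)
    have f1 : fgt s (inn G θ t ω) = inn G θ s ω := fgt_fgt hst _
    rw [inn_cut fun _ => subset_rfl, f1, sum_congr rfl (g := fun j => S.JP θ s t k0 kc j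
      (pc 0 Set.univ j ω, UU G θ 0 Set.univ N j ω)) fun j hj => ?_, ← sum_mul]
    · ring
    by_cases h : rho ω j < t
    · have f2 : inn G θ t ω j = Inn G θ ω j := if_pos h
      have f3 : rho (inn G θ t ω) j = rho ω j := by rw [rho, f2]; rfl
      by_cases h' : s ≤ rho ω j
      · rw [JP, jp_eq (ω := pc _ _ j ω) h' h, jp_eq (f3 ▸ h') (f3 ▸ h), Function.comp, f1, f2,
          show inn G θ s (pc 0 Set.univ j ω) = inn G θ s ω from inn_cut (sl_mono h') ω,
          UU_eq (mem_range.1 (mem_product.1 (hD ▸ hj)).2)]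
        rfl
      · rw [JP, jp_zero (ω := pc _ _ j ω) fun h => h' h.1, jp_zero fun h => h' (f3 ▸ h.1)]
    · rw [JP, jp_zero (ω := pc _ _ j ω) fun h' => h h'.2.1,
        jp_zero (ω := inn G θ t ω) fun h' => h ((rho_fgt le_rfl (Inn G θ ω) j).1 h'.2.1)]
  have e5 := (orth hG h0 h1 S.degree_eq 0 Set.univ _ (fun j hj => ⟨Set.mem_univ _, mem_range.1
    (mem_product.1 hj).2⟩) (fun j => (bS j).sub (bP j)) fun j ω => by
      rw [integral_sub' ((bS j).comp measurable_prodMk_left) ((bP j).comp measurable_prodMk_left),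
        JS, JP, integral_jp _ _ _ _ fun _ => k2 _, integral_jp _ _ _ _ fun _ => abs_mm_le _ _ _,
        sub_zero]).trans_le (S.predJ hG h0 h1 N l hst ht' hb k1 k2 k3)
  rw [← hD] at e5 hE
  refine ge_of_tendsto (((conv hG h0 h1 S.degree_eq s ht S.o).const_mul 4).add_const _ |>.congr'
    (.of_forall fun _ => rfl) |> fun h => by simpa only [mul_zero, zero_add] using h)
    ((eventually_ge_atTop l).mono fun k hk => e4.trans ?_)
  have bK := S.bm_JK h0 h1 N s t (ball G S.o k)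
  have c1 := ((bm (tm V t)).sub (bm (sl s (ball G S.o k) t))).pow 2
  have c2 := (BM.sum ((ball G S.o k \ ball G S.o l) ×ˢ range N) fun j _ => bK j).pow 2
  have c3 := fun j => ((bK j).sub ((bS j).comp (mpc j))).pow 2
  have c4 := (BM.sum D fun j _ => ((bS j).sub (bP j)).comp (mpc j)).pow 2
  have c5 := (BM.sum D fun j _ => c3 j).cmul D.card
  have e6 := integral_le_of_ae (μ := Q G θ (top V)) (bR.pow 2)
    (((c1.add c2).add (c5.add c4)).cmul 4) (by
      filter_upwards [good_top hG h0 h1 S.degree_eq (sl_bound (s := 0) (A := Set.univ)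
        (hst.trans ht)), (eventually_all_finset (ball G S.o k ×ˢ range N).offDiag).2 fun p hp =>
        ties hG h0 h1 (mem_offDiag.1 hp).2.2] with ω h2 h3
      have a1 := S.tele hG h0 h1 (ball G S.o k) h2 (fun i hi j hj e => by_contra fun ne =>
        h3 (i, j) (mem_offDiag.2 ⟨hi, hj, ne⟩) e) hst
      have a2 : ∑ j ∈ (ball G S.o k \ ball G S.o l) ×ˢ range N, S.JK θ N s t (ball G S.o k) j ω +
          ∑ j ∈ D, S.JK θ N s t (ball G S.o k) j ω =
          ∑ j ∈ ball G S.o k ×ˢ range N, S.JK θ N s t (ball G S.o k) j ω := by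
        rw [hD, sum_product, sum_product, sum_product, sum_sdiff fun u hu =>
          (mem_ball hG.connected).2 (((mem_ball hG.connected).1 hu).trans_le hk)]
      have a3 := sq_sum_le_card_mul_sum_sq (s := D) (f := fun j => S.JK θ N s t (ball G S.o k) j ω -
        S.JS θ N s t j (pc 0 Set.univ j ω, UU G θ 0 Set.univ N j ω))
      refine le_trans (le_of_eq (congrArg (· ^ 2) ?_)) (((show ∀ a b c d : ℝ, (a + b + c + d) ^ 2 ≤
        4 * (a ^ 2 + b ^ 2 + (c ^ 2 + d ^ 2)) from fun a b c d => by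
          nlinarith [sq_nonneg (a - b), sq_nonneg (a - c), sq_nonneg (a - d), sq_nonneg (b - c),
          sq_nonneg (b - d), sq_nonneg (c - d)]) _ _ _ _).trans (mul_le_mul_of_nonneg_left
          (add_le_add le_rfl (add_le_add a3 le_rfl)) (by norm_num)))
      simp only [sum_sub_distrib]
      linarith [a1.trans a2.symm])
  rw [integral_const_mul, integral_add' (c1.add c2) (c5.add c4), integral_add' c1 c2,
    integral_add' c5 c4, integral_const_mul, integral_sum' _ fun j _ => c3 j] at e6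
  have e7 := mul_le_mul_of_nonneg_left (sum_le_card_nsmul _ _ _ (hE s t hst ht (ball G S.o k)))
    D.card.cast_nonneg
  rw [nsmul_eq_mul, sum_sub_distrib] at e7
  have e8 := mul_le_mul_of_nonneg_left (mul_le_mul (show (32 * N : ℝ) ≤ 32 * (N + 1) by linarith) k5
    (mul_nonneg (sq_nonneg _) (sum_nonneg fun _ _ => sum_nonneg fun _ _ => integral_nonneg
    fun _ => sq_nonneg _)) (by positivity)) (sub_nonneg.2 hst)
  linarith [hl s t hs hst ht k]

end Cay

end Vale.Agent.P161
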