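import Vale.Agent.P161.Rate

/-!
The posterior mean as a sum of jumps.
-/

open Finset MeasureTheory Filter Topology Real
open scoped BigOperators Classical ENNReal unitInterval

namespace Vale.Agent.P161

variable {V : Type*} {G : SimpleGraph V} {θ : ℝ}

lemma dist_lt_of_mem_reg (hG : G.Connected) (u : V) (k : ℕ) :
    ∀ z y, u ∈ reg G k z y → G.dist z u < k := by
  induction k with
  | zero => exact fun _ _ h => h.elim
  | succ k ih =>
    rintro z y (rfl | ⟨c, h1, -, h2⟩)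
    · simp
    · have := hG.dist_triangle (u := z) (v := c) (w := u)
      have := ih _ _ h2
      have := SimpleGraph.dist_eq_one_iff_adj.2 h1
      omega

lemma sl_mono {s r r' : ℝ} {A : Set V} (h : r ≤ r') (i : V × ℕ) :
    (sl s A r).s i ⊆ (tm V r').s i := fun _ hT => mem_tm.2 (hT.1.trans_le h)

lemma tm_sub {s r : ℝ} {A : Set V} (h : s ≤ r) (i : V × ℕ) : (tm V s).s i ⊆ (sl s A r).s i :=
  fun _ hT => ⟨(mem_tm.1 hT).trans_le h, Or.inl (mem_tm.1 hT)⟩

lemma gN_update {s r : ℝ} {A : Set V} {ω : Ob V} {j : V × ℕ} (h : r ≤ rho ω j) (N : ℕ) :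
    gN N (cut (sl s A r) (Function.update ω j (1, 0))) = gN N (cut (sl s A r) ω) :=
  gN_congr _ fun i => by
    rw [tau_cut, tau_cut]
    by_cases hi : i = j
    · subst hi
      rw [if_neg (c := (ω i).1 ∈ (sl s A r).s i) fun h' => h'.1.not_ge h, Function.update_self,
        if_neg fun h' => h'.1.not_ge (h.trans (add_le_add le_rfl (ω i).1.2.2))]
    · rw [Function.update_of_ne hi]

noncomputable def ind {Y : Type*} (s t : ℝ) (j : V × ℕ) (ω : V × ℕ → I × Y) : ℝ :=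
  if s ≤ rho ω j ∧ rho ω j < t then 1 else 0

noncomputable def jp {Y : Type*} (s t : ℝ) (j : V × ℕ) (c m m' : (V × ℕ → I × Y) → ℝ)
    (p : (V × ℕ → I × Y) × I) : ℝ :=
  ind s t j p.1 * (c p.1 * psi (aT (p.1 j).1) (m p.1) (m' p.1) p.2)

lemma bm_jp {Y : Type*} [MeasurableSpace Y] (s t : ℝ) (j : V × ℕ)
    {c m m' : (V × ℕ → I × Y) → ℝ} (hc : BM c) (hm : Measurable m) (hm' : Measurable m')
    (h : ∀ ω, |m ω| ≤ 1) (h' : ∀ ω, |m' ω| ≤ 1) : BM (jp s t j c m m') :=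
  (((BM.const 1).ite (p := fun ω => s ≤ rho ω j ∧ rho ω j < t) (by measurability)
    (BM.const 0)).comp measurable_fst).mul
    ((hc.comp measurable_fst).mul ⟨measurable_psi (by fun_prop) (by fun_prop) (by fun_prop)
      measurable_snd, 1, fun p => (abs_psi_le (abs_aT_le _) (h _) (h' _) _).trans
        (by linarith [abs_aT_le (p.1 j).1])⟩)

lemma integral_jp (s t : ℝ) (j : V × ℕ) (c : Ob V → ℝ) {m : Ob V → ℝ} (h : ∀ ω, |m ω| ≤ 1)
    (ω : Ob V) : ∫ u, jp s t j c m m (ω, u) = 0 := by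
  simp only [jp, integral_const_mul, integral_psi (abs_aT_le _) (h _), mul_zero]

lemma jp_zero {Y : Type*} {s t : ℝ} {j : V × ℕ} {c m m' : (V × ℕ → I × Y) → ℝ} {ω : V × ℕ → I × Y}
    (h : ¬(s ≤ rho ω j ∧ rho ω j < t ∧ ((ω j).1 : ℝ) < 1 / 2)) (u : I) :
    jp s t j c m m' (ω, u) = 0 := by
  by_cases h1 : s ≤ rho ω j ∧ rho ω j < t
  · simp only [jp, aT, if_neg fun h2 => h ⟨h1.1, h1.2, h2⟩, psi, zero_mul, zero_div, mul_zero]
  · rw [jp, ind, if_neg h1, zero_mul]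

lemma jp_eq {Y : Type*} {s t : ℝ} {j : V × ℕ} {c m m' : (V × ℕ → I × Y) → ℝ} {ω : V × ℕ → I × Y}
    (h : s ≤ rho ω j) (h' : rho ω j < t) (u : I) :
    jp s t j c m m' (ω, u) = c ω * psi (aT (ω j).1) (m ω) (m' ω) u := by
  rw [jp, ind, if_pos ⟨h, h'⟩, one_mul]

namespace Cay

variable {d : ℕ} (S : Cay G d)

noncomputable def wd (u : V) : List (Fin d) :=
  if h : ∃ w ∈ RW d (G.dist u S.o) none, S.pt S.o w = u then h.choose else []

lemma wd_spec (hG : G.IsTree) (u : V) :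
    S.wd u ∈ RW d (G.dist u S.o) none ∧ S.pt S.o (S.wd u) = u := by
  have h := S.exists_word hG u _ S.o none rfl (by simp)
  rw [wd, dif_pos h]
  exact h.choose_spec

lemma sum_wd (hG : G.IsTree) {U : Finset V} {T : Finset ℕ} (h : ∀ u ∈ U, G.dist u S.o ∈ T)
    {f : List (Fin d) → ℝ} (hf : ∀ w, 0 ≤ f w) :
    ∑ u ∈ U, f (S.wd u) ≤ ∑ n ∈ T, ∑ w ∈ RW d n none, f w := by
  rw [← sum_fiberwise_of_maps_to h]
  refine sum_le_sum fun n _ => ?_
  rw [← sum_image fun u _ v _ e => by rw [← (S.wd_spec hG u).2, e, (S.wd_spec hG v).2]]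
  refine sum_le_sum_of_subset_of_nonneg (fun w hw => ?_) fun _ _ _ => hf _
  obtain ⟨u, hu, rfl⟩ := mem_image.1 hw
  exact (mem_filter.1 hu).2 ▸ (S.wd_spec hG u).1

lemma dist_pt_le (hG : G.Connected) (w : List (Fin d)) : ∀ v, G.dist v (S.pt v w) ≤ w.length := by
  induction w with
  | nil => simp [pt]
  | cons i w ih =>
    intro v
    have := hG.dist_triangle (u := v) (v := S.st i v) (w := S.pt (S.st i v) w)
    have := ih (S.st i v)
    have := SimpleGraph.dist_eq_one_iff_adj.2 (S.adj_st i v)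
    simp only [pt, List.length_cons]
    omega

variable [G.LocallyFinite]

lemma bm_Cv (h0 : 0 ≤ θ) (h1 : θ < 1) (N : ℕ) (v : V) (w : List (Fin d)) :
    BM fun ω : Ob V => S.Cv θ (gN N ω) v w := by
  have m := fun v => ((bm_mm (G := G) (θ := θ) N v).meas.pow_const 2).const_sub 1 |>.sqrt
  exact ⟨(((m _).mul (m _)).mul_const _).mul (S.measurable_ad
    (S.measurable_ys (measurable_gN N)) w v).neg.exp, 1, fun ω =>
    (abs_of_nonneg (S.Cv_nonneg h0 h1 _ _ _)).trans_le (S.Cv_le_one h0 h1 _ _ _)⟩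

lemma tele (hG : G.IsTree) (h0 : 0 ≤ θ) (h1 : θ < 1) {N : ℕ} {s : ℝ} (A : Finset V) {ω : Ob V}
    (hω : Good G θ (gN N (cut (tm V s) ω))) (hi : Set.InjOn (rho ω) (A ×ˢ range N : Finset _))
    {r : ℝ} (hr : s ≤ r) : mm G θ N S.o (cut (sl s A r) ω) - mm G θ N S.o (cut (tm V s) ω) =
      ∑ j ∈ A ×ˢ range N, jp s r j (fun ω => S.Cv θ (gN N ω) S.o (S.wd j.1)) (mm G θ N j.1)
        (mm G θ N j.1) (pc s A j ω, UU G θ s A N j ω) := by
  have e : ∀ {r} {i : V × ℕ}, s ≤ r → i.2 < N → i ∉ {j ∈ A ×ˢ range N | s ≤ rho ω j ∧ rho ω j < r} →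
      tau (cut (sl s A r) ω i) = tau (cut (tm V s) ω i) := fun {r i} hr h2 h3 => by
    rw [tau_cut, tau_cut]
    refine if_congr ⟨fun h => mem_tm.2 (not_le.1 fun h4 => h3 (mem_filter.2 ⟨mem_product.2
      ⟨h.2.resolve_left h4.not_gt, mem_range.2 h2⟩, h4, h.1⟩)), fun h => tm_sub hr i h⟩ rfl rfl
  have key : ∀ E : Finset (V × ℕ), ∀ r, s ≤ r →
      {j ∈ A ×ˢ range N | s ≤ rho ω j ∧ rho ω j < r} = E →
      mm G θ N S.o (cut (sl s A r) ω) - mm G θ N S.o (cut (tm V s) ω) =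
      ∑ j ∈ E, S.Cv θ (gN N (pc s A j ω)) S.o (S.wd j.1) *
        (tau (ω j) / (1 + mm G θ N j.1 (pc s A j ω) * tau (ω j))) := fun E => by
    induction E using Finset.induction_on_max_value (rho ω) with
    | empty =>
      intro r hr h
      rw [mm, mm, show gN N (cut (sl s A r) ω) = gN N (cut (tm V s) ω) from funext fun v =>
        sum_congr rfl fun n hn => by rw [e hr (mem_range.1 hn) (by simp [h])], sub_self, sum_empty]
    | insert a E ha hm ih =>
      intro r hr h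
      obtain ⟨a1, a2, a3⟩ := mem_filter.1 (h.ge (mem_insert_self a E))
      have hE : {j ∈ A ×ˢ range N | s ≤ rho ω j ∧ rho ω j < rho ω a} = E := by
        ext j
        refine ⟨fun hj => ?_, fun hj => ?_⟩
        · obtain ⟨b1, b2, b3⟩ := mem_filter.1 hj
          exact (mem_insert.1 (h.le (mem_filter.2 ⟨b1, b2, b3.trans a3⟩))).resolve_left
            fun e => b3.ne (e ▸ rfl)
        · obtain ⟨b1, b2, -⟩ := mem_filter.1 (h.ge (mem_insert_of_mem hj))
          exact mem_filter.2 ⟨b1, b2, (hm j hj).lt_of_ne fun e => ha (hi b1 a1 e ▸ hj)⟩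
      have e2 : ∀ i : V × ℕ, i.2 < N → i ≠ a →
          tau (cut (sl s A r) ω i) = tau (pc s A a ω i) := fun i h2 h3 => by
        by_cases h4 : i ∈ E
        · obtain ⟨b1, -, b3⟩ := mem_filter.1 (hE.ge h4)
          rw [pc_apply b3 (Or.inr (mem_product.1 b1).1), tau_cut,
            if_pos ⟨b3.trans a3, Or.inr (mem_product.1 b1).1⟩]
        · rw [e hr h2 (by simp [h, h3, h4]), pc, e a2 h2 (by simp [hE, h4])]
      have g := hω.finite hG h0 h1 A (gN N (pc s A a ω)) fun v hv => sum_congr rfl fun n hn => by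
        rw [pc, e a2 (mem_range.1 hn) (by simp [hv])]
      have j := S.jump h0 h1 hG g (g' := gN N (cut (sl s A r) ω)) (abs_tau_lt (ω a))
        (fun v hv => sum_congr rfl fun n hn => by rw [e2 _ (mem_range.1 hn) fun e => hv (e ▸ rfl)])
        (by
          rw [gN, gN, ← add_sum_erase _ _ (mem_product.1 a1).2, ← add_sum_erase _ _
            (mem_product.1 a1).2, sum_congr rfl fun n hn => by
              rw [e2 _ (mem_range.1 (mem_of_mem_erase hn)) fun e => ne_of_mem_erase hn (e ▸ rfl)],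
            pc, tau_cut, tau_cut, if_pos ⟨a3, Or.inr (mem_product.1 a1).1⟩,
            if_neg fun h => lt_irrefl _ h.1, artanh_zero]
          ring) _ _ _ _ (S.wd_spec hG a.1).1 (S.wd_spec hG a.1).2
      rw [sum_insert ha, ← ih _ a2 hE, mm, mm, mm, mm, ← j, pc]
      ring
  rw [key _ r hr rfl, sum_filter]
  refine sum_congr rfl fun j _ => ?_
  split_ifs with h
  · rw [jp_eq (ω := pc s A j ω) h.1 h.2, tau_eq (G := G) (θ := θ) s A N j ω]
    rfl
  · rw [jp_zero (ω := pc s A j ω) fun h' => h ⟨h'.1, h'.2.1⟩]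

end Cay

variable [G.LocallyFinite] (hG : G.IsTree) (h0 : 0 ≤ θ) (h1 : θ < 1)
include hG h0 h1

lemma palm' (j : V × ℕ) {s t κ : ℝ} (hst : s ≤ t) (hκ : 0 ≤ κ) {K : I × Ob V → ℝ} (hK : BM K)
    (hK0 : ∀ p, 0 ≤ K p) (hi : ∀ (T : I) (ω : Ob V), s ≤ j.2 + (T : ℝ) → T ≤ (ω j).1 →
      K (T, Function.update ω j (1, 0)) = K (T, ω))
    (hb : ∀ T : I, s ≤ j.2 + (T : ℝ) → j.2 + (T : ℝ) < t → ∫ ω, K (T, ω) ∂Q G θ (top V) ≤ κ)
    {f : Ob V → ℝ} (hf : ∀ ω, ¬(s ≤ rho ω j ∧ rho ω j < t ∧ ((ω j).1 : ℝ) < 1 / 2) → f ω = 0)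
    (hf' : ∀ᵐ ω ∂Q G θ (top V), s ≤ rho ω j → rho ω j < t → f ω ^ 2 ≤ K ((ω j).1, ω)) :
    ∫ ω, f ω ^ 2 ∂Q G θ (top V) ≤ 2 * (t - s) * κ := by
  refine (integral_mono_of_nonneg (.of_forall fun _ => sq_nonneg _) (((hK.comp (φ := fun ω =>
    ((ω j).1, ω)) (by fun_prop)).ite
    (p := fun ω => s ≤ rho ω j ∧ rho ω j < t ∧ ((ω j).1 : ℝ) < 1 / 2) (by measurability)
    (BM.const 0)).integrable _) (hf'.mono fun ω h => ?_)).trans (palm hG h0 h1 j hst hκ hK hK0 hi hb)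
  dsimp only
  split_ifs with h2
  · exact h h2.1 h2.2.1
  · rw [hf ω h2]; norm_num

variable {b : ℕ} (hreg : ∀ v, G.degree v = b + 1) {N : ℕ}
include hreg

lemma isCE_mm {A B : Sel V} (hB : ∀ i, N ≤ i.2 → B.s i = ∅) (h : ∀ i, A.s i ⊆ B.s i) (v : V) :
    IsCE (.comap (cut A) inferInstance) (Q G θ (top V)) (fun ω => mm G θ N v (cut B ω))
      fun ω => mm G θ N v (cut A ω) where
  bm := BM.comap _ (bm_mm N v)
  eq k hk := by
    obtain ⟨k', k1, k2⟩ := hk.factor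
    have bk := hk.mono (measurable_cut A).comap_le
    rw [proj0 hG h0 h1 hreg hB (fun _ => Set.subset_univ _) v bk fun ω => by
      rw [k2, k2, cut_cut h], proj0 hG h0 h1 hreg (fun i hi => Set.subset_eq_empty (h i) (hB i hi))
      (fun _ => Set.subset_univ _) v bk fun ω => by rw [k2, k2, cut_cut fun _ => subset_rfl]]

omit hG h0 h1 hreg in
noncomputable def qq (G : SimpleGraph V) [G.LocallyFinite] (θ : ℝ) (N : ℕ) (v : V) (A : Sel V) :
    ℝ := ∫ ω, mm G θ N v (cut A ω) ^ 2 ∂Q G θ (top V)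

lemma qq_sub {A B : Sel V} (hB : ∀ i, N ≤ i.2 → B.s i = ∅) (h : ∀ i, A.s i ⊆ B.s i) (v : V) :
    ∫ ω, (mm G θ N v (cut B ω) - mm G θ N v (cut A ω)) ^ 2 ∂Q G θ (top V) =
      qq G θ N v B - qq G θ N v A := by
  have := (isCE_mm hG h0 h1 hreg hB h v).pyth (measurable_cut A).comap_le
    ((bm_mm N v).comp (measurable_cut B)) (@BM.const _ (.comap _ _) 0)
  simp only [sub_zero] at this
  rw [qq, qq, this, add_sub_cancel_right]

lemma qq_mono {A B : Sel V} (hB : ∀ i, N ≤ i.2 → B.s i = ∅) (h : ∀ i, A.s i ⊆ B.s i) (v : V) :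
    qq G θ N v A ≤ qq G θ N v B :=
  sub_nonneg.1 (qq_sub hG h0 h1 hreg hB h v ▸ integral_nonneg fun _ => sq_nonneg _)

lemma good_top {A : Sel V} (hA : ∀ i, N ≤ i.2 → A.s i = ∅) :
    ∀ᵐ ω ∂Q G θ (top V), Good G θ (gN N (cut A ω)) :=
  (mp_cut_Q (B := top V) fun _ => Set.subset_univ _).quasiMeasurePreserving.ae
    (good_ae hG h0 h1 hreg hA)

lemma conv (s : ℝ) {t : ℝ} (ht : t ≤ N) (o : V) : Tendsto (fun k => ∫ ω,
    (mm G θ N o (cut (tm V t) ω) - mm G θ N o (cut (sl s (ball G o k) t) ω)) ^ 2 ∂Q G θ (top V))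
    atTop (𝓝 0) := by
  have hA : ∀ i, N ≤ i.2 → (tm V t).s i = ∅ := sl_bound ht
  have b1 := (bm_mm (G := G) (θ := θ) N o).comp (measurable_cut (tm V t))
  have b2 := fun k => BM.tanh (measurable_hb (G := G) (θ := θ) (measurable_gN N) k o o)
  refine squeeze_zero (fun _ => integral_nonneg fun _ => sq_nonneg _) (g := fun k => ∫ ω,
    (mm G θ N o (cut (tm V t) ω) - tanh (hb G θ (gN N (cut (tm V t) ω)) k o o)) ^ 2 ∂Q G θ (top V))
    (fun k => ((isCE_mm hG h0 h1 hreg hA (sl_mono le_rfl) o).le (measurable_cut _).comap_le b1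
      (BM.comap _ (b2 k))).trans_eq (congrArg _ (funext fun ω => ?_))) ?_
  · rw [hb_congr (g' := gN N (cut (tm V t) ω)) k o o fun u hu => ?_]
    refine sum_congr rfl fun n _ => ?_
    rw [tau_cut, tau_cut]
    exact congrArg _ (if_congr ⟨fun h => mem_tm.2 h.1, fun h => ⟨mem_tm.1 h, Or.inr
      ((mem_ball hG.connected).2 (dist_lt_of_mem_reg hG.connected _ _ _ _ hu))⟩⟩ rfl rfl)
  · rw [← integral_zero _ ℝ (μ := Q G θ (top V))]
    refine tendsto_integral_of_dominated_convergence (fun _ => 4) (fun k => ((b1.sub ((b2 k).comp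
      (measurable_cut _))).pow 2).meas.aestronglyMeasurable) (integrable_const _)
      (fun k => .of_forall fun ω => ?_) ((good_top hG h0 h1 hreg hA).mono fun ω h => ?_)
    · rw [Real.norm_of_nonneg (sq_nonneg _)]
      nlinarith [abs_le.1 (abs_mm_le (G := G) (θ := θ) N o (cut (tm V t) ω)),
        abs_lt.1 (tanh_abs_lt (hb G θ (gN N (cut (tm V t) ω)) k o o))]
    · simpa [mm] using (((continuous_tanh'.tendsto _).comp (h.tendsto o o)).const_sub
        (mm G θ N o (cut (tm V t) ω))).pow 2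

end Vale.Agent.P161
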