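import Vale.Agent.P161.Avg

/-!
Sides of an edge, parents, balls and geometric sums in a tree.
-/

open Finset
open scoped BigOperators Classical

namespace Vale.Agent.P161

variable {V : Type*} {G : SimpleGraph V}

def side (G : SimpleGraph V) (y z : V) : Set V := {w | (G.deleteEdges {s(y, z)}).Reachable z w}

lemma mem_side_self (y z : V) : z ∈ side G y z := SimpleGraph.Reachable.refl _

lemma not_mem_side (hG : G.IsAcyclic) {y z : V} (h : G.Adj y z) : y ∉ side G y z := fun h' =>
  (SimpleGraph.isBridge_iff.1 (SimpleGraph.isAcyclic_iff_forall_adj_isBridge.1 hG h)) h'.symm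

lemma side_iff {y z p q : V} (h : G.Adj p q) (hne : s(p, q) ≠ s(y, z)) :
    p ∈ side G y z ↔ q ∈ side G y z := by
  have h1 : (G.deleteEdges {s(y, z)}).Adj p q := by simp only [SimpleGraph.deleteEdges_adj]; exact ⟨h, hne⟩
  exact ⟨fun h2 => h2.trans h1.reachable, fun h2 => h2.trans h1.reachable.symm⟩

lemma mem_support_of_cross {y z p q : V} (w : G.Walk p q) (hp : p ∉ side G y z)
    (hq : q ∈ side G y z) : y ∈ w.support ∧ z ∈ w.support := by
  induction w with
  | nil => exact absurd hq hp
  | @cons a c d h w ih =>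
    by_cases h1 : c ∈ side G y z
    · have h2 : s(a, c) = s(y, z) := by
        by_contra hne
        exact hp ((side_iff h hne).2 h1)
      rcases Sym2.eq_iff.1 h2 with ⟨rfl, rfl⟩ | ⟨rfl, rfl⟩ <;> simp
    · have := ih h1 hq
      simp [this.1, this.2]

lemma dist_le_of_mem_support {p q x : V} (w : G.Walk p q) (hx : x ∈ w.support) :
    G.dist p x ≤ w.length :=
  (SimpleGraph.dist_le (w.takeUntil x hx)).trans (w.length_takeUntil_le hx)

lemma not_mem_side_of_dist (hG : G.IsTree) {v y z : V} (h : G.Adj y z)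
    (hd : G.dist v y + 1 = G.dist v z) : v ∉ side G y z := by
  intro hv
  obtain ⟨w, hw⟩ := hG.connected.exists_walk_length_eq_dist v y
  have h1 := (mem_support_of_cross w.reverse (not_mem_side hG.isAcyclic h) hv).2
  have h2 := dist_le_of_mem_support w (x := z) (by simpa using h1)
  omega

lemma exists_par (hG : G.Connected) {v u : V} (h : u ≠ v) :
    ∃ y, G.Adj y u ∧ G.dist v y + 1 = G.dist v u := by
  obtain ⟨w, hw⟩ := hG.exists_walk_length_eq_dist u v
  cases w with
  | nil => exact absurd rfl h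
  | @cons _ y _ h1 w =>
    refine ⟨y, h1.symm, ?_⟩
    have h2 := SimpleGraph.dist_le w
    have h3 := hG.dist_triangle (u := u) (v := y) (w := v)
    rw [SimpleGraph.dist_eq_one_iff_adj.2 h1] at h3
    rw [SimpleGraph.Walk.length_cons] at hw
    rw [G.dist_comm (u := v), G.dist_comm (u := v)]
    omega

def WConn (G : SimpleGraph V) (D : Finset V) : Prop :=
  ∀ p ∈ D, ∀ q ∈ D, ∃ w : G.Walk p q, ∀ x ∈ w.support, x ∈ D

lemma WConn.cross {D : Finset V} (hD : WConn G D) {y z p q : V} (hp : p ∈ D) (hq : q ∈ D)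
    (hp' : p ∉ side G y z) (hq' : q ∈ side G y z) : y ∈ D ∧ z ∈ D := by
  obtain ⟨w, hw⟩ := hD p hp q hq
  have := mem_support_of_cross w hp' hq'
  exact ⟨hw _ this.1, hw _ this.2⟩

lemma WConn.par_mem (hG : G.IsTree) {D : Finset V} (hD : WConn G D) {v u y : V} (hv : v ∈ D)
    (hu : u ∈ D) (h : G.Adj y u) (hd : G.dist v y + 1 = G.dist v u) : y ∈ D :=
  (hD.cross hv hu (not_mem_side_of_dist hG h hd) (mem_side_self _ _)).1

lemma wconn_of_connected {D : Finset V} (h : (G.induce (D : Set V)).Connected) : WConn G D := by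
  intro p hp q hq
  obtain ⟨w⟩ := h.preconnected ⟨p, hp⟩ ⟨q, hq⟩
  refine ⟨w.map (SimpleGraph.Embedding.induce (G := G) (D : Set V)).toHom, fun x hx => ?_⟩
  have h1 := SimpleGraph.Walk.support_map (SimpleGraph.Embedding.induce (G := G) (D : Set V)).toHom w
  obtain ⟨a, -, rfl⟩ := List.mem_map.1 (h1 ▸ hx)
  exact a.2

lemma connected_of_wconn {D : Finset V} (h : WConn G D) (hne : D.Nonempty) :
    (G.induce (D : Set V)).Connected := by
  obtain ⟨o, ho⟩ := hne
  haveI : Nonempty (D : Set V) := ⟨⟨o, ho⟩⟩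
  refine ⟨fun p q => ?_⟩
  obtain ⟨w, hw⟩ := h p.1 p.2 q.1 q.2
  exact ⟨w.induce (D : Set V) hw⟩

variable [G.LocallyFinite]

lemma finite_ball (hG : G.Connected) (o : V) (R : ℕ) : {u | G.dist o u < R}.Finite := by
  induction R with
  | zero => simp
  | succ R ih =>
    refine ((ih.biUnion fun y _ => (G.neighborFinset y).finite_toSet).insert o).subset ?_
    intro u hu
    by_cases h : u = o
    · exact Or.inl h
    · obtain ⟨y, h1, h2⟩ := exists_par hG h
      refine Or.inr (Set.mem_biUnion (x := y) ?_ (by simpa using h1))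
      simp only [Set.mem_setOf_eq] at hu ⊢
      omega

noncomputable def ball (G : SimpleGraph V) (o : V) (R : ℕ) : Finset V :=
  if h : {u | G.dist o u < R}.Finite then h.toFinset else ∅

lemma mem_ball (hG : G.Connected) {o u : V} {R : ℕ} : u ∈ ball G o R ↔ G.dist o u < R := by
  simp [ball, finite_ball hG o R]

lemma wconn_ball (hG : G.Connected) (o : V) (R : ℕ) : WConn G (ball G o R) := by
  intro p hp q hq
  obtain ⟨w1, h1⟩ := hG.exists_walk_length_eq_dist o p
  obtain ⟨w2, h2⟩ := hG.exists_walk_length_eq_dist o q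
  rw [mem_ball hG] at hp hq
  refine ⟨w1.reverse.append w2, fun x hx => ?_⟩
  rw [mem_ball hG]
  rw [SimpleGraph.Walk.mem_support_append_iff] at hx
  rcases hx with hx | hx
  · have := dist_le_of_mem_support w1 (x := x) (by simpa using hx)
    omega
  · have := dist_le_of_mem_support w2 hx
    omega

lemma exists_subset_ball (hG : G.Connected) (o : V) (D : Finset V) :
    ∃ R, D ⊆ ball G o R ∧ 0 < R :=
  ⟨D.sup (G.dist o) + 1, fun u hu => (mem_ball hG).2
    (Nat.lt_succ_of_le (Finset.le_sup (f := G.dist o) hu)), Nat.succ_pos _⟩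

lemma geom_sum_le (hG : G.Connected) {b : ℕ} (hb : ∀ v, G.degree v ≤ b + 1) {γ : ℝ}
    (h0 : 0 ≤ γ) (h1 : b * γ < 1) (v : V) (D : Finset V) :
    ∑ u ∈ D, γ ^ G.dist v u ≤ (1 + γ) / (1 - b * γ) := by
  obtain ⟨R, hR, hR0⟩ := exists_subset_ball hG v D
  refine (sum_le_sum_of_subset_of_nonneg hR fun _ _ _ => pow_nonneg h0 _).trans ?_
  set B := ball G v R with hB
  have hv : v ∈ B := (mem_ball hG).2 (by simpa using hR0)
  choose! par hpar using fun u (h : u ≠ v) => exists_par hG h
  have hmap : ∀ u ∈ B.erase v, par u ∈ B := fun u hu => by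
    have h2 := (hpar u (ne_of_mem_erase hu)).2
    have h3 := (mem_ball hG).1 (mem_of_mem_erase hu)
    exact (mem_ball hG).2 (by omega)
  have h2 : ∑ u ∈ B.erase v, γ ^ G.dist v u ≤
      ∑ y ∈ B, ((b : ℝ) + if y = v then 1 else 0) * (γ * γ ^ G.dist v y) := by
    rw [← sum_fiberwise_of_maps_to hmap]
    refine sum_le_sum fun y hy => ?_
    rw [sum_congr rfl (g := fun _ => γ * γ ^ G.dist v y) (fun u hu => by
      obtain ⟨h3, h4⟩ := mem_filter.1 hu
      rw [← (hpar u (ne_of_mem_erase h3)).2, h4, pow_succ']), sum_const, nsmul_eq_mul]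
    refine mul_le_mul_of_nonneg_right ?_ (by positivity)
    have h5 : {u ∈ B.erase v | par u = y} ⊆ G.neighborFinset y := fun u hu => by
      obtain ⟨h3, h4⟩ := mem_filter.1 hu
      rw [SimpleGraph.mem_neighborFinset, ← h4]
      exact (hpar u (ne_of_mem_erase h3)).1
    have h6 := hb y
    rw [← SimpleGraph.card_neighborFinset_eq_degree] at h6
    split_ifs with h
    · exact_mod_cast (card_le_card h5).trans h6
    · have h7 : {u ∈ B.erase v | par u = y} ⊆ (G.neighborFinset y).erase (par y) := fun u hu => by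
        refine mem_erase.2 ⟨fun h8 => ?_, h5 hu⟩
        obtain ⟨h3, h4⟩ := mem_filter.1 hu
        have h9 := (hpar u (ne_of_mem_erase h3)).2
        have h10 := (hpar y h).2
        rw [h4, h8] at h9
        omega
      have h8 := card_le_card h7
      rw [card_erase_of_mem (by simpa using (hpar y h).1.symm)] at h8
      have : (({u ∈ B.erase v | par u = y}).card : ℝ) ≤ b := by exact_mod_cast (by omega)
      simpa using this
  have h3 : ∑ y ∈ B, ((b : ℝ) + if y = v then 1 else 0) * (γ * γ ^ G.dist v y) =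
      b * γ * ∑ y ∈ B, γ ^ G.dist v y + γ := by
    simp only [add_mul, sum_add_distrib, ite_mul, zero_mul, sum_ite_eq', hv, if_true, mul_sum]
    simp [mul_assoc]
  have h4 := add_sum_erase B (fun u => γ ^ G.dist v u) hv
  simp only [SimpleGraph.dist_self, pow_zero] at h4
  rw [le_div_iff₀ (by linarith)]
  nlinarith

end Vale.Agent.P161
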